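import Vale.Agent.P109.Base

open MeasureTheory Finset
open scoped ENNReal

namespace Vale.Agent.P109
namespace Bud

variable {M : Type} [MeasurableSpace M]

/-- bounded measurable functions -/
def BM (f : M → ℝ) : Prop := Measurable f ∧ ∃ C, ∀ x, ‖f x‖ ≤ C

theorem BM.add {f g : M → ℝ} (hf : BM f) (hg : BM g) : BM fun x => f x + g x := by
  obtain ⟨h1, C, hC⟩ := hf
  obtain ⟨h2, D, hD⟩ := hg
  exact ⟨h1.add h2, C + D, fun x => (norm_add_le _ _).trans (add_le_add (hC x) (hD x))⟩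

theorem BM.sub {f g : M → ℝ} (hf : BM f) (hg : BM g) : BM fun x => f x - g x := by
  obtain ⟨h1, C, hC⟩ := hf
  obtain ⟨h2, D, hD⟩ := hg
  exact ⟨h1.sub h2, C + D, fun x => (norm_sub_le _ _).trans (add_le_add (hC x) (hD x))⟩

theorem BM.const (c : ℝ) : BM fun _ : M => c := ⟨measurable_const, ‖c‖, fun _ => le_rfl⟩

theorem BM.comp {f : M → ℝ} (hf : BM f) {T : M → M} (hT : Measurable T) : BM fun x => f (T x) := by
  obtain ⟨h1, C, hC⟩ := hf
  exact ⟨h1.comp hT, C, fun x => hC _⟩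

theorem BM.int {f : M → ℝ} (hf : BM f) (μ : Measure M) [IsFiniteMeasure μ] : Integrable f μ := by
  obtain ⟨h1, C, hC⟩ := hf
  exact Integrable.of_bound h1.aestronglyMeasurable C (Filter.Eventually.of_forall hC)

theorem BM.two {f : M → ℝ} (hf : BM f) {T : M → M} (hT : Measurable T) {P P' : Measure M}
    [IsFiniteMeasure P'] (h : P' + P'.map T = (2 : ℝ≥0∞) • P) :
    ∫ x, f x ∂P' + ∫ x, f (T x) ∂P' = 2 * ∫ x, f x ∂P := by
  rw [← integral_map hT.aemeasurable hf.1.aestronglyMeasurable,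
    ← integral_add_measure (hf.int _) (hf.int _), h, integral_smul_measure]
  simp

/-- the dyadic defect -/
def dl (S : M → M) (φ : M → ℕ → ℝ) (κ : ℝ) (l j : ℕ) (x : M) : ℝ :=
  φ x (l * 2 ^ j) + φ (S^[l * 2 ^ j] x) (l * 2 ^ j) - φ x (l * 2 ^ (j + 1)) + κ

/-- accumulated dyadic defects -/
def FF (S : M → M) (φ : M → ℕ → ℝ) (κ : ℝ) (l : ℕ) : ℕ → ℕ → M → ℝ
  | a + 1, j + 1, x => dl S φ κ l j x + FF S φ κ l a j x + FF S φ κ l a j (S^[l * 2 ^ j] x)
  | _, _, _ => 0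

/-- the hypotheses on the potential -/
structure Hyp (S : M → M) (φ : M → ℕ → ℝ) (κ : ℝ) : Prop where
  k0 : 0 ≤ κ
  mS : Measurable S
  mφ : ∀ n, Measurable fun x => φ x n
  bd : ∀ x n, 1 ≤ n → 0 ≤ φ x n ∧ φ x n ≤ κ * n
  sub : ∀ x s m, 1 ≤ s → 1 ≤ m → φ x (s + m) ≤ φ x s + φ (S^[s] x) m + κ

variable {S : M → M} {φ : M → ℕ → ℝ} {κ : ℝ} {l : ℕ}

theorem hpos (hl : 1 ≤ l) (j : ℕ) : 1 ≤ l * 2 ^ j := Nat.mul_pos hl (by positivity)

theorem hdbl (l j : ℕ) : l * 2 ^ (j + 1) = l * 2 ^ j + l * 2 ^ j := by ring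

theorem dl_nn (H : Hyp S φ κ) (hl : 1 ≤ l) (j : ℕ) (x : M) : 0 ≤ dl S φ κ l j x := by
  have := H.sub x _ _ (hpos hl j) (hpos hl j)
  rw [dl, hdbl]
  linarith

theorem FF_nn (H : Hyp S φ κ) (hl : 1 ≤ l) : ∀ a j x, 0 ≤ FF S φ κ l a j x
  | 0, _, _ => le_rfl
  | _ + 1, 0, _ => le_rfl
  | a + 1, j + 1, x =>
    add_nonneg (add_nonneg (dl_nn H hl j x) (FF_nn H hl a j x)) (FF_nn H hl a j _)

theorem bm_phi (H : Hyp S φ κ) {n : ℕ} (hn : 1 ≤ n) : BM fun x => φ x n :=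
  ⟨H.mφ n, κ * n, fun x => by
    rw [Real.norm_of_nonneg (H.bd x n hn).1]; exact (H.bd x n hn).2⟩

theorem bm_dl (H : Hyp S φ κ) (hl : 1 ≤ l) (j : ℕ) : BM (dl S φ κ l j) :=
  (((bm_phi H (hpos hl j)).add ((bm_phi H (hpos hl j)).comp (H.mS.iterate _))).sub
    (bm_phi H (hpos hl (j + 1)))).add (BM.const κ)

theorem bm_FF (H : Hyp S φ κ) (hl : 1 ≤ l) : ∀ a j, BM (FF S φ κ l a j)
  | 0, _ => BM.const 0
  | _ + 1, 0 => BM.const 0
  | a + 1, j + 1 =>
    ((bm_dl H hl j).add (bm_FF H hl a j)).add ((bm_FF H hl a j).comp (H.mS.iterate _))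

theorem defect_le (H : Hyp S φ κ) (hl : 1 ≤ l) (a : ℕ) : ∀ (b : ℕ) (x : M) (s m : ℕ), 1 ≤ s →
    1 ≤ m → s + m = l * 2 ^ (b + a) →
    φ x s + φ (S^[s] x) m - φ x (s + m) ≤ FF S φ κ l a (b + a) x + κ * (l * 2 ^ b : ℕ) := by
  induction a with
  | zero =>
    intro b x s m hs hm h
    have h1 := (H.bd x s hs).2
    have h2 := (H.bd (S^[s] x) m hm).2
    have h3 := (H.bd x (s + m) (by omega)).1
    have h4 : FF S φ κ l 0 (b + 0) x = 0 := rfl
    rw [add_zero] at h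
    rw [h4, ← h]
    push_cast
    linarith
  | succ a ih =>
    intro b x s m hs hm h
    have h0 : FF S φ κ l (a + 1) (b + (a + 1)) x = dl S φ κ l (b + a) x +
        FF S φ κ l a (b + a) x + FF S φ κ l a (b + a) (S^[l * 2 ^ (b + a)] x) := rfl
    have n1 := FF_nn H hl a (b + a) x
    have n2 := FF_nn H hl a (b + a) (S^[l * 2 ^ (b + a)] x)
    have n3 : 0 ≤ κ * (l * 2 ^ b : ℕ) := mul_nonneg H.k0 (Nat.cast_nonneg _)
    have n4 := H.k0
    have hp := hpos hl (b + a)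
    have h' : s + m = l * 2 ^ (b + a + 1) := h
    rw [h0, dl, h']
    rw [hdbl] at h'
    rcases lt_trichotomy s (l * 2 ^ (b + a)) with c | c | c
    · obtain ⟨u, hu⟩ : ∃ u, l * 2 ^ (b + a) = s + u := ⟨_, (Nat.add_sub_cancel' c.le).symm⟩
      have e1 := ih b x s u hs (by omega) hu.symm
      have e2 := H.sub (S^[s] x) u (l * 2 ^ (b + a)) (by omega) hp
      rw [← Function.iterate_add_apply, add_comm u s, ← hu,
        show u + l * 2 ^ (b + a) = m by omega] at e2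
      rw [← hu] at e1
      linarith
    · have e : m = l * 2 ^ (b + a) := by omega
      rw [e, c]
      linarith
    · obtain ⟨u, hu⟩ : ∃ u, s = l * 2 ^ (b + a) + u := ⟨_, (Nat.add_sub_cancel' c.le).symm⟩
      have e1 := ih b (S^[l * 2 ^ (b + a)] x) u m (by omega) hm (by omega)
      have e2 := H.sub x (l * 2 ^ (b + a)) u hp (by omega)
      rw [← Function.iterate_add_apply, add_comm u, ← hu,
        show u + m = l * 2 ^ (b + a) by omega] at e1
      rw [← hu] at e2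
      linarith

/-- normalised mean defect -/
noncomputable def ep (S : M → M) (φ : M → ℕ → ℝ) (κ : ℝ) (l : ℕ) (P : ℕ → Measure M) (j : ℕ) : ℝ :=
  (∫ x, dl S φ κ l j x ∂P (j + 1)) / 2 ^ (j + 1)

variable {P : ℕ → Measure M} {N : ℕ}

theorem ep_nn (H : Hyp S φ κ) (hl : 1 ≤ l) (j : ℕ) : 0 ≤ ep S φ κ l P j :=
  div_nonneg (integral_nonneg (dl_nn H hl j)) (by positivity)

theorem ep_eq (H : Hyp S φ κ) (hl : 1 ≤ l) [∀ k, IsProbabilityMeasure (P k)] {j : ℕ}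
    (h : P (j + 1) + (P (j + 1)).map S^[l * 2 ^ j] = (2 : ℝ≥0∞) • P j) :
    ep S φ κ l P j = (∫ x, φ x (l * 2 ^ j) ∂P j) / 2 ^ j -
      (∫ x, φ x (l * 2 ^ (j + 1)) ∂P (j + 1)) / 2 ^ (j + 1) + κ / 2 ^ (j + 1) := by
  have b1 := bm_phi H (hpos hl j)
  have b2 := b1.comp (H.mS.iterate (l * 2 ^ j))
  have b3 := bm_phi H (hpos hl (j + 1))
  have e := b1.two (H.mS.iterate _) h
  unfold ep dl
  rw [integral_add (((b1.add b2).sub b3).int _) (integrable_const _),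
    integral_sub ((b1.add b2).int _) (b3.int _), integral_add (b1.int _) (b2.int _), e]
  simp only [integral_const, probReal_univ, smul_eq_mul, one_mul]
  rw [pow_succ (2 : ℝ)]
  field_simp

theorem ep_sum (H : Hyp S φ κ) (hl : 1 ≤ l) [∀ k, IsProbabilityMeasure (P k)]
    (h : ∀ k < N, P (k + 1) + (P (k + 1)).map S^[l * 2 ^ k] = (2 : ℝ≥0∞) • P k) :
    ∑ j ∈ range N, ep S φ κ l P j ≤ κ * (l + 1) := by
  have h1 : ∀ n, n ≤ N → ∑ j ∈ range n, ep S φ κ l P j =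
      (∫ x, φ x (l * 2 ^ 0) ∂P 0) - (∫ x, φ x (l * 2 ^ n) ∂P n) / 2 ^ n + κ - κ / 2 ^ n := by
    intro n hn
    induction n with
    | zero => simp
    | succ n ih =>
      rw [sum_range_succ, ih (by omega), ep_eq H hl (h n (by omega)), pow_succ (2 : ℝ)]
      field_simp
      ring
  rw [h1 N le_rfl]
  have h2 : ∫ x, φ x (l * 2 ^ 0) ∂P 0 ≤ κ * l := by
    have := integral_mono ((bm_phi H (hpos hl 0)).int (P 0)) (integrable_const (κ * l))
      fun x => by simpa using (H.bd x l hl).2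
    simpa using this
  have h3 : 0 ≤ (∫ x, φ x (l * 2 ^ N) ∂P N) / 2 ^ N :=
    div_nonneg (integral_nonneg fun x => (H.bd x _ (hpos hl N)).1) (by positivity)
  have h4 : 0 ≤ κ / 2 ^ N := div_nonneg H.k0 (by positivity)
  rw [mul_add, mul_one]
  exact (sub_le_self _ h4).trans (add_le_add_left ((sub_le_self _ h3).trans h2) κ)

theorem FF_int (H : Hyp S φ κ) (hl : 1 ≤ l) [∀ k, IsProbabilityMeasure (P k)]
    (h : ∀ k < N, P (k + 1) + (P (k + 1)).map S^[l * 2 ^ k] = (2 : ℝ≥0∞) • P k) (b a : ℕ)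
    (hN : b + a ≤ N) :
    ∫ x, FF S φ κ l a (b + a) x ∂P (b + a) =
      2 ^ (b + a) * ∑ i ∈ range a, ep S φ κ l P (b + i) := by
  induction a with
  | zero => simp [FF]
  | succ a ih =>
    have b1 := bm_dl H hl (b + a)
    have b2 := bm_FF H hl a (b + a)
    have b3 := b2.comp (H.mS.iterate (l * 2 ^ (b + a)))
    have e := b2.two (H.mS.iterate _) (h (b + a) (by omega))
    have h0 : ∀ x, FF S φ κ l (a + 1) (b + (a + 1)) x = dl S φ κ l (b + a) x +
        FF S φ κ l a (b + a) x + FF S φ κ l a (b + a) (S^[l * 2 ^ (b + a)] x) := fun _ => rfl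
    simp only [h0]
    rw [← add_assoc b a 1, integral_add ((b1.add b2).int _) (b3.int _),
      integral_add (b1.int _) (b2.int _), add_assoc, e, ih (by omega), sum_range_succ, ep,
      pow_succ (2 : ℝ)]
    field_simp
    ring

theorem markov (H : Hyp S φ κ) (hl : 1 ≤ l) [∀ k, IsProbabilityMeasure (P k)]
    (h : ∀ k < N, P (k + 1) + (P (k + 1)).map S^[l * 2 ^ k] = (2 : ℝ≥0∞) • P k)
    (hκ : κ * l ≤ 2 ^ l) (b k : ℕ) (hk : k = b + (2 * l + 1)) (hN : k < N) :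
    (P (k + 1)).real {x | ∃ s m, 1 ≤ s ∧ 1 ≤ m ∧ s + m = l * 2 ^ k + l * 2 ^ k ∧
        (2 : ℝ) ^ (k - l) < φ x s + φ (S^[s] x) m - φ x (s + m)} ≤
      2 ^ (l + 2) * ∑ i ∈ range (2 * l + 2), ep S φ κ l P (b + i) := by
  have e1 : k + 1 = b + (2 * l + 2) := by omega
  have e2 : k - l = b + l + 1 := by omega
  have h1 := mul_meas_ge_le_integral_of_nonneg (μ := P (b + (2 * l + 2)))
    (Filter.Eventually.of_forall (FF_nn H hl (2 * l + 2) (b + (2 * l + 2))))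
    ((bm_FF H hl _ _).int _) (2 ^ (b + l))
  rw [FF_int H hl h b _ (by omega), show b + (2 * l + 2) = (b + l) + (l + 2) by ring,
    pow_add (2 : ℝ) (b + l) (l + 2), mul_assoc] at h1
  have h2 := le_of_mul_le_mul_left h1 (by positivity)
  rw [show (b + l) + (l + 2) = k + 1 by omega] at h2
  refine le_trans (measureReal_mono ?_) h2
  rintro x ⟨s, m, hs, hm, hsm, hx⟩
  have h3 := defect_le H hl (2 * l + 2) b x s m hs hm (by rw [← e1, hdbl, hsm])
  rw [← e1] at h3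
  have h4 : κ * (l * 2 ^ b : ℕ) ≤ 2 ^ (b + l) := by
    push_cast
    rw [← mul_assoc, pow_add, mul_comm ((2 : ℝ) ^ b)]
    exact mul_le_mul_of_nonneg_right hκ (by positivity)
  rw [e2, pow_succ] at hx
  simp only [Set.mem_ofPred_eq]
  linarith

theorem sq_le_two_pow (l : ℕ) (h : 6 ≤ l) : (l + 1) ^ 2 ≤ 2 ^ l := by
  induction l, h using Nat.le_induction with
  | base => norm_num
  | succ l hl ih => rw [pow_succ 2 l]; nlinarith

theorem num {κ : ℝ} {K l : ℕ} (hK : κ ≤ K) (hl : 64 * K + 6 ≤ l) :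
    κ * l ≤ 2 ^ l ∧ (2 : ℝ) ^ (l + 2) * ((2 * l + 2 : ℕ) * (κ * (l + 1))) ≤ 2 ^ (3 * l) / 8 := by
  have h1 : ((l : ℝ) + 1) ^ 2 ≤ 2 ^ l := by exact_mod_cast sq_le_two_pow l (by omega)
  have h2 : 64 * (K : ℝ) + 6 ≤ l := by exact_mod_cast hl
  have h3 : (0 : ℝ) ≤ K := Nat.cast_nonneg K
  have h4 : 64 * κ ≤ 2 ^ l := by nlinarith
  refine ⟨by nlinarith, ?_⟩
  have h5 : 64 * κ * ((l : ℝ) + 1) ^ 2 ≤ 2 ^ l * 2 ^ l :=
    mul_le_mul h4 h1 (by positivity) (by positivity)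
  have h6 := mul_le_mul_of_nonneg_left h5 (show (0 : ℝ) ≤ 2 ^ l by positivity)
  rw [show 3 * l = l + (l + l) by ring, pow_add, pow_add, pow_add]
  push_cast
  linarith

end Bud

open Bud in
theorem budgetStmt : BudgetStmt := by
  intro κ hκ
  obtain ⟨K, hK⟩ := exists_nat_ge κ
  refine ⟨64 * K + 6, fun l hl M _ S P φ hS hP h hm hb hs => ?_⟩
  have H : Hyp S φ κ := ⟨hκ, hS, hm, hb, hs⟩
  have hl1 : 1 ≤ l := by omega
  obtain ⟨n1, n2⟩ := num hK hl
  refine le_trans (sum_le_sum (g := fun k => 2 ^ (l + 2) *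
    ∑ i ∈ range (2 * l + 2), ep S φ κ l P (k - (2 * l + 1) + i)) fun k hk => ?_) ?_
  · have := mem_Ico.1 hk
    exact markov H hl1 h n1 _ k (by omega) this.2
  rw [← mul_sum, sum_comm]
  refine le_trans (mul_le_mul_of_nonneg_left ?_ (by positivity)) n2
  refine le_trans (sum_le_card_nsmul _ _ (κ * (l + 1)) fun i hi => ?_) (by simp)
  have hi' := mem_range.1 hi
  refine le_trans ?_ (ep_sum H hl1 h)
  rw [← sum_image (s := Ico (4 * l) (4 * l + 2 ^ (3 * l))) (g := fun k => k - (2 * l + 1) + i)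
    (f := ep S φ κ l P)]
  · refine sum_le_sum_of_subset_of_nonneg (fun j hj => ?_) fun j _ _ => ep_nn H hl1 j
    obtain ⟨k, hk, rfl⟩ := mem_image.1 hj
    have := mem_Ico.1 hk
    exact mem_range.2 (by omega)
  · intro k hk k' hk' e
    have a1 := mem_Ico.1 (mem_coe.1 hk)
    have a2 := mem_Ico.1 (mem_coe.1 hk')
    dsimp only at e
    omega

end Vale.Agent.P109
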