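import Vale.Agent.P109.Base

open Set Metric Filter Topology
open scoped Manifold ContDiff

namespace Vale.Agent.P109
namespace Ct

theorem core {d : ℕ} {F : E d → E d} {O V A : Set (E d)} (hO : IsOpen O) (hV : IsClosed V)
    (hU : UniqueDiffOn ℝ (O ∩ V)) (hF : ContDiffOn ℝ ∞ F (O ∩ V)) (hA : IsCompact A)
    (hAO : A ⊆ O) : ∃ r0 K : ℝ, 0 < r0 ∧ 0 ≤ K ∧ ∀ w0 ∈ A, ∀ r ≤ r0, ball w0 r ⊆ V →
      ∀ w ∈ ball w0 r, w ∈ O ∩ V ∧ DifferentiableAt ℝ F w ∧ ‖fderiv ℝ F w‖ ≤ K ∧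
        ∀ w' ∈ ball w0 r, ‖fderiv ℝ F w - fderiv ℝ F w'‖ ≤ K * ‖w - w'‖ := by
  obtain ⟨r0, hr0, hth⟩ := hA.exists_cthickening_subset_open hO hAO
  have hD : IsCompact (cthickening r0 A ∩ V) := (hA.cthickening).inter_right hV
  have hDs : cthickening r0 A ∩ V ⊆ O ∩ V := inter_subset_inter_left _ hth
  have h1 : ContDiffOn ℝ 1 (fderivWithin ℝ F (O ∩ V)) (O ∩ V) :=
    hF.fderivWithin hU (by rw [one_add_one_eq_two]; exact WithTop.coe_le_coe.2 le_top)
  have h2 : ContinuousOn (fderivWithin ℝ (fderivWithin ℝ F (O ∩ V)) (O ∩ V)) (O ∩ V) :=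
    h1.continuousOn_fderivWithin hU le_rfl
  obtain ⟨K1, hK1⟩ := hD.exists_bound_of_continuousOn (h1.continuousOn.mono hDs)
  obtain ⟨K2, hK2⟩ := hD.exists_bound_of_continuousOn (E := E d →L[ℝ] Op d) (h2.mono hDs)
  refine ⟨r0, max (max K1 K2) 0, hr0, le_max_right _ _, fun w0 hw0 r hr hb => ?_⟩
  have hb1 : ball w0 r ⊆ cthickening r0 A ∩ V := fun w hw =>
    ⟨mem_cthickening_of_dist_le w w0 r0 A hw0 ((mem_ball.1 hw).le.trans hr), hb hw⟩
  have hn : ∀ w ∈ ball w0 r, O ∩ V ∈ 𝓝 w := fun w hw =>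
    mem_of_superset (isOpen_ball.mem_nhds hw) (hb1.trans hDs)
  have he : ∀ w ∈ ball w0 r, fderivWithin ℝ F (O ∩ V) w = fderiv ℝ F w := fun w hw =>
    fderivWithin_of_mem_nhds (hn w hw)
  intro w hw
  refine ⟨hDs (hb1 hw), (hF.differentiableOn (by simp) w (hDs (hb1 hw))).differentiableAt (hn w hw),
    ?_, fun w' hw' => ?_⟩
  · rw [← he w hw]; exact (hK1 w (hb1 hw)).trans ((le_max_left _ _).trans (le_max_left _ _))
  · rw [← he w hw, ← he w' hw']
    refine (convex_ball w0 r).norm_image_sub_le_of_norm_fderiv_le (𝕜 := ℝ)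
      (fun x hx => (h1.differentiableOn one_ne_zero x (hDs (hb1 hx))).differentiableAt (hn x hx))
      (fun x hx => ?_) hw' hw
    rw [← fderivWithin_of_mem_nhds (hn x hx)]
    exact (hK2 x (hb1 hx)).trans ((le_max_right _ _).trans (le_max_left _ _))

end Ct

theorem chTrStmt : ChTrStmt := by
  intro d H _ I M _ _ _ _ Φ hΦ a b Ka Kb hKa hKb ha hb
  obtain ⟨hc, hs⟩ := contMDiff_iff.1 hΦ
  have hsy := continuousOn_extChartAt_symm (I := I) a
  obtain ⟨O1, hO1, e1⟩ := (continuousOn_iff'.1 hsy) _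
    ((isOpen_extChartAt_source (I := I) b).preimage hc)
  have e2 := extChartAt_target I a
  have hO2 : IsOpen (I.symm ⁻¹' (chartAt H a).target) :=
    (chartAt H a).open_target.preimage I.continuous_symm
  have e3 : (extChartAt I a).target ∩ (extChartAt I a).symm ⁻¹' Φ ⁻¹' (extChartAt I b).source =
      (O1 ∩ I.symm ⁻¹' (chartAt H a).target) ∩ range I := by
    rw [inter_comm, e1, e2, inter_assoc]
  have hcl : IsClosed ((extChartAt I b).symm '' Kb) :=
    (hKb.image_of_continuousOn ((continuousOn_extChartAt_symm b).mono hb)).isClosed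
  have hA : IsCompact (Ka ∩ (Φ ∘ (extChartAt I a).symm) ⁻¹' ((extChartAt I b).symm '' Kb)) :=
    hKa.of_isClosed_subset
      ((hc.comp_continuousOn (hsy.mono ha)).preimage_isClosed_of_isClosed hKa.isClosed hcl)
      inter_subset_left
  have hF := hs a b
  rw [e3] at hF
  obtain ⟨r0, K, hr0, hK, h⟩ := Ct.core (hO1.inter hO2) I.isClosed_range
    (by rw [inter_comm]; exact I.uniqueDiffOn.inter (hO1.inter hO2)) hF hA
    (fun w hw => by
      have : w ∈ (O1 ∩ I.symm ⁻¹' (chartAt H a).target) ∩ range I := by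
        rw [← e3]
        obtain ⟨h1, y, hy, h2⟩ := hw
        refine ⟨ha h1, ?_⟩
        change (Φ ∘ (extChartAt I a).symm) w ∈ (extChartAt I b).source
        rw [← h2]; exact (extChartAt I b).map_target (hb hy)
      exact this.1)
  refine ⟨r0, K, hr0, hK, fun w0 hw0 h1 h2 r hr hball w hw => ?_⟩
  obtain ⟨c1, c2, c3, c4⟩ := h w0 ⟨hw0, _, h2, (extChartAt I b).left_inv h1⟩ r hr hball w hw
  rw [← e3] at c1
  exact ⟨c1.1, c1.2, c2, c3, c4⟩

end Vale.Agent.P109
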