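import Vale.Agent.P109.Base

open Set Metric MeasureTheory
open scoped ENNReal

namespace Vale.Agent.P109
namespace Cv2

theorem pow_sub_le (d : ℕ) {a b : ℝ} (ha : 0 ≤ a) (hab : a ≤ b) :
    b ^ d - a ^ d ≤ d * (b + 1) ^ d * (b - a) := by
  induction d with
  | zero => simp
  | succ d ih =>
    have hb : 0 ≤ b := ha.trans hab
    have h1 : a ^ d ≤ (b + 1) ^ (d + 1) :=
      (pow_le_pow_left₀ ha (by linarith) d).trans (pow_le_pow_right₀ (by linarith) (by omega))
    have h2 : b * (b ^ d - a ^ d) ≤ (b + 1) * (d * (b + 1) ^ d * (b - a)) :=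
      mul_le_mul (by linarith) ih (sub_nonneg.2 (pow_le_pow_left₀ ha hab d)) (by linarith)
    have h3 : a ^ d * (b - a) ≤ (b + 1) ^ (d + 1) * (b - a) := by gcongr
    push_cast
    calc b ^ (d + 1) - a ^ (d + 1) = b * (b ^ d - a ^ d) + a ^ d * (b - a) := by ring
      _ ≤ _ := add_le_add h2 h3
      _ = _ := by ring

end Cv2

open Cv2 in
theorem chVolStmt2 (d : ℕ) : ChVolStmt d := by
  have hfin : volume (ball (0 : E d) 1) ≠ ∞ := measure_ball_lt_top.ne
  constructor
  · intro z ρ hρ
    refine ⟨d * (2 * ρ + 1) ^ d * 3 * (volume (ball (0 : E d) 1)).toReal +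
      (2 * ρ) ^ d * (volume (ball (0 : E d) 1)).toReal * (2 / ρ), by positivity, fun s hs hsρ => ?_⟩
    have hc : volume (closedBall z (ρ + s)) =
        ENNReal.ofReal ((ρ + s) ^ d * (volume (ball (0 : E d) 1)).toReal) := by
      rw [Measure.addHaar_closedBall _ _ (by linarith), finrank_euclideanSpace_fin,
        ENNReal.ofReal_mul (by positivity), ENNReal.ofReal_toReal hfin]
    have hv : 0 ≤ (volume (ball (0 : E d) 1)).toReal := ENNReal.toReal_nonneg
    by_cases h : s ≤ ρ / 2
    · have hb : volume (ball z (ρ - s)) =
          ENNReal.ofReal ((ρ - s) ^ d * (volume (ball (0 : E d) 1)).toReal) := by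
        rw [Measure.addHaar_ball_of_pos _ _ (by linarith), finrank_euclideanSpace_fin,
          ENNReal.ofReal_mul (pow_nonneg (by linarith) _), ENNReal.ofReal_toReal hfin]
      calc _ ≤ volume (closedBall z (ρ + s) \ ball z (ρ - s)) :=
            measure_mono fun w hw => ⟨hw.2, not_lt.2 hw.1⟩
        _ = _ := measure_sdiff (ball_subset_closedBall.trans
            (closedBall_subset_closedBall (by linarith))) measurableSet_ball.nullMeasurableSet
            measure_ball_lt_top.ne
        _ ≤ _ := by
            rw [hc, hb, ← ENNReal.ofReal_sub _ (mul_nonneg (pow_nonneg (by linarith) _) hv)]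
            refine ENNReal.ofReal_le_ofReal ?_
            have h1 := pow_sub_le d (a := ρ - s) (b := ρ + s) (by linarith) (by linarith)
            have h2 : (d : ℝ) * (ρ + s + 1) ^ d * (ρ + s - (ρ - s)) ≤
                d * (2 * ρ + 1) ^ d * (3 * s) := by gcongr <;> linarith
            have h3 : 0 ≤ (2 * ρ) ^ d * (volume (ball (0 : E d) 1)).toReal * (2 / ρ) * s := by
              positivity
            nlinarith [mul_le_mul_of_nonneg_right (h1.trans h2) hv]
    · calc _ ≤ volume (closedBall z (ρ + s)) := measure_mono fun w hw => hw.2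
        _ ≤ _ := by
            rw [hc]
            refine ENNReal.ofReal_le_ofReal ?_
            have h1 : (ρ + s) ^ d ≤ (2 * ρ) ^ d := by gcongr; linarith
            have h2 : 1 ≤ 2 / ρ * s := by
              rw [div_mul_eq_mul_div, le_div_iff₀ hρ]; linarith
            have h3 : 0 ≤ d * (2 * ρ + 1) ^ d * 3 * (volume (ball (0 : E d) 1)).toReal * s := by
              positivity
            have h4 : (ρ + s) ^ d * (volume (ball (0 : E d) 1)).toReal ≤
                (2 * ρ) ^ d * (volume (ball (0 : E d) 1)).toReal * (2 / ρ * s) :=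
              (mul_le_mul_of_nonneg_right h1 hv).trans (le_mul_of_one_le_right (by positivity) h2)
            nlinarith
  · intro V z ρ hV hcl ⟨o, ho⟩
    obtain ⟨η, hη, hb⟩ := Metric.mem_nhds_iff.1 (mem_interior_iff_mem_nhds.1 ho)
    set W := V ∩ closedBall o (ρ + dist z o) with hW
    have hWc : IsCompact W := (isCompact_closedBall _ _).inter_left hcl
    have hWf : volume W ≠ ∞ := hWc.measure_lt_top.ne
    have hWv : Convex ℝ W := hV.inter (convex_closedBall _ _)
    have hsub : ∀ s, {w | w ∈ V ∧ dist w z ≤ ρ ∧ ¬ ball w s ⊆ V} ⊆ W := fun s w hw =>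
      ⟨hw.1, (dist_triangle w z o).trans (by linarith [hw.2.1])⟩
    refine ⟨(d * 2 ^ d + 2) / η * (volume W).toReal, by positivity, fun s hs => ?_⟩
    have hv : 0 ≤ (volume W).toReal := ENNReal.toReal_nonneg
    by_cases h : s ≤ η / 2
    · set l := s / η with hl
      have hl0 : 0 < l := by positivity
      have hl1 : l ≤ 1 / 2 := by rw [hl, div_le_iff₀ hη]; linarith
      rcases W.eq_empty_or_nonempty with he | ⟨w1, hw1⟩
      · exact (measure_mono (hsub s)).trans (by simp [he])
      have hoW : o ∈ W := ⟨hb (mem_ball_self hη), mem_closedBall_self (dist_nonneg.trans hw1.2)⟩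
      have hH : AffineMap.homothety o (1 - l) '' W ⊆ W := by
        rintro _ ⟨w, hw, rfl⟩
        have := hWv hw hoW (a := 1 - l) (b := l) (by linarith) hl0.le (by ring)
        convert this using 1
        simp only [AffineMap.homothety_apply, vsub_eq_sub, vadd_eq_add]; module
      have hHm : MeasurableSet (AffineMap.homothety o (1 - l) '' W) :=
        (hWc.image (AffineMap.homothety_continuous o (1 - l))).measurableSet
      calc _ ≤ volume (W \ AffineMap.homothety o (1 - l) '' W) := by
            refine measure_mono fun w hw => ⟨hsub s hw, ?_⟩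
            rintro ⟨w', hw', rfl⟩
            refine hw.2.2 fun u hu => ?_
            have h1 : o + l⁻¹ • (u - AffineMap.homothety o (1 - l) w') ∈ ball o η := by
              rw [mem_ball_iff_norm, add_sub_cancel_left, norm_smul, norm_inv,
                Real.norm_of_nonneg hl0.le, inv_mul_lt_iff₀ hl0, hl, div_mul_cancel₀ _ hη.ne']
              exact mem_ball_iff_norm.1 hu
            have := hV hw'.1 (hb h1) (a := 1 - l) (b := l) (by linarith) hl0.le (by ring)
            convert this using 1
            rw [smul_add, smul_inv_smul₀ hl0.ne']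
            simp only [AffineMap.homothety_apply, vsub_eq_sub, vadd_eq_add]; module
        _ = volume W - volume (AffineMap.homothety o (1 - l) '' W) :=
            measure_sdiff hH hHm.nullMeasurableSet (ne_top_of_le_ne_top hWf (measure_mono hH))
        _ ≤ _ := by
            rw [Measure.addHaar_image_homothety, finrank_euclideanSpace_fin,
              abs_of_nonneg (pow_nonneg (by linarith) _), ← ENNReal.ofReal_toReal hWf,
              ← ENNReal.ofReal_mul (pow_nonneg (by linarith) _),
              ← ENNReal.ofReal_sub _ (mul_nonneg (pow_nonneg (by linarith) _) hv),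
              ENNReal.toReal_ofReal hv]
            refine ENNReal.ofReal_le_ofReal ?_
            have h1 := pow_sub_le d (a := 1 - l) (b := 1) (by linarith) (by linarith)
            have h2 : (d * 2 ^ d + 2) / η * (volume W).toReal * s =
                (d * 2 ^ d + 2) * l * (volume W).toReal := by rw [hl]; field_simp
            rw [h2]
            norm_num at h1
            nlinarith [mul_le_mul_of_nonneg_right h1 hv, mul_nonneg hl0.le hv]
    · refine (measure_mono (hsub s)).trans ?_
      rw [← ENNReal.ofReal_toReal hWf, ENNReal.toReal_ofReal hv]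
      refine ENNReal.ofReal_le_ofReal ?_
      have h1 : 1 ≤ (d * 2 ^ d + 2) / η * s := by
        rw [div_mul_eq_mul_div, le_div_iff₀ hη]
        have : (0 : ℝ) ≤ d * 2 ^ d * s := by positivity
        nlinarith
      nlinarith [mul_le_mul_of_nonneg_right h1 hv]

end Vale.Agent.P109
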