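import Vale.Agent.P109.Base

/-! P109, module Chart: a finite measurable atlas with quantitative boundary control. -/

open MeasureTheory Set Metric
open scoped ENNReal Manifold ContDiff Topology

namespace Vale.Agent.P109
namespace Chart

variable {d : ℕ} {H : Type} [TopologicalSpace H] (I : ModelWithCorners ℝ (E d) H) {M : Type}
  [TopologicalSpace M] [ChartedSpace H M]

def TrP (Φ : M → M) (a b : M) (Ka Kb : Set (E d)) (r0 K : ℝ) : Prop :=
  ∀ w0 ∈ Ka, Φ ((extChartAt I a).symm w0) ∈ (extChartAt I b).source →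
    extChartAt I b (Φ ((extChartAt I a).symm w0)) ∈ Kb → ∀ r ≤ r0,
    ball w0 r ⊆ range I → ∀ w ∈ ball w0 r,
      w ∈ (extChartAt I a).target ∧ Φ ((extChartAt I a).symm w) ∈ (extChartAt I b).source ∧
      DifferentiableAt ℝ (fun u => extChartAt I b (Φ ((extChartAt I a).symm u))) w ∧
      ‖fderiv ℝ (fun u => extChartAt I b (Φ ((extChartAt I a).symm u))) w‖ ≤ K ∧
      ∀ w' ∈ ball w0 r,
        ‖fderiv ℝ (fun u => extChartAt I b (Φ ((extChartAt I a).symm u))) w -
          fderiv ℝ (fun u => extChartAt I b (Φ ((extChartAt I a).symm u))) w'‖ ≤ K * ‖w - w'‖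

def Bs (a : M) (ρ : ℝ) : Set M :=
  (extChartAt I a).source ∩ extChartAt I a ⁻¹' ball (extChartAt I a a) ρ

def Ks (a : M) (ρ : ℝ) : Set (E d) := closedBall (extChartAt I a a) ρ ∩ range I

def An (a : M) (ρ s : ℝ) : Set M :=
  (extChartAt I a).source ∩ extChartAt I a ⁻¹'
    {w | ρ - s ≤ dist w (extChartAt I a a) ∧ dist w (extChartAt I a a) ≤ ρ + s}

def Bd (a : M) (ρ s : ℝ) : Set M :=
  (extChartAt I a).source ∩ extChartAt I a ⁻¹'
    {w | w ∈ range I ∧ dist w (extChartAt I a a) ≤ ρ ∧ ¬ ball w s ⊆ range I}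

variable {I}

lemma TrP.mono {Φ : M → M} {a b : M} {Ka Kb : Set (E d)} {r0 K r1 K1 : ℝ}
    (h : TrP I Φ a b Ka Kb r0 K) (hr : r1 ≤ r0) (hK : K ≤ K1) : TrP I Φ a b Ka Kb r1 K1 := by
  intro w0 h0 h1 h2 r hr' h3 w hw
  obtain ⟨a1, a2, a3, a4, a5⟩ := h w0 h0 h1 h2 r (hr'.trans hr) h3 w hw
  exact ⟨a1, a2, a3, a4.trans hK, fun w' hw' =>
    (a5 w' hw').trans (mul_le_mul_of_nonneg_right hK (norm_nonneg _))⟩

lemma exists_pos_le {ι : Type} [Finite ι] (f : ι → ℝ) (hf : ∀ i, 0 < f i) :
    ∃ r, 0 < r ∧ ∀ i, r ≤ f i := by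
  obtain ⟨C, hC⟩ := Finite.exists_le fun i => (f i)⁻¹
  refine ⟨(max C 1)⁻¹, by positivity, fun i => ?_⟩
  rw [inv_le_comm₀ (by positivity) (hf i)]
  exact (hC i).trans (le_max_left _ _)

lemma ks_compact (a : M) (ρ : ℝ) : IsCompact (Ks I a ρ) :=
  (isCompact_closedBall _ _).inter_right I.isClosed_range

lemma mem_range_of_source {a x : M} (hx : x ∈ (extChartAt I a).source) :
    extChartAt I a x ∈ range I :=
  extChartAt_target_subset_range a ((extChartAt I a).map_source hx)

lemma bs_ks {a x : M} {ρ : ℝ} (hρ : 0 ≤ ρ) (hx : x ∈ Bs I a ρ) :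
    extChartAt I a x ∈ Ks I a (2 * ρ) :=
  ⟨(ball_subset_closedBall.trans (closedBall_subset_closedBall (by linarith))) hx.2,
    mem_range_of_source hx.1⟩

lemma TrP.lip {Φ : M → M} {a b : M} {Ka Kb : Set (E d)} {r0 K : ℝ}
    (h : TrP I Φ a b Ka Kb r0 K) (hK : 0 ≤ K) {w0 : E d} (h0 : w0 ∈ Ka)
    (h1 : Φ ((extChartAt I a).symm w0) ∈ (extChartAt I b).source)
    (h2 : extChartAt I b (Φ ((extChartAt I a).symm w0)) ∈ Kb) {r : ℝ} (hr : r ≤ r0)
    (h3 : ball w0 r ⊆ range I) {w : E d} (hw : w ∈ ball w0 r) :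
    Φ ((extChartAt I a).symm w) ∈ (extChartAt I b).source ∧
      dist (extChartAt I b (Φ ((extChartAt I a).symm w)))
        (extChartAt I b (Φ ((extChartAt I a).symm w0))) ≤ K * r := by
  have h4 := h w0 h0 h1 h2 r hr h3
  refine ⟨(h4 w hw).2.1, ?_⟩
  have h5 := (convex_ball w0 r).norm_image_sub_le_of_norm_fderiv_le
    (fun u hu => (h4 u hu).2.2.1) (fun u hu => (h4 u hu).2.2.2.1)
    (mem_ball_self (pos_of_mem_ball hw)) hw
  rw [dist_eq_norm]
  refine h5.trans (mul_le_mul_of_nonneg_left ?_ hK)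
  rw [← dist_eq_norm]
  exact (mem_ball.1 hw).le

lemma key {Φ : M → M} {a b x : M} {ρa ρb r0 K r : ℝ}
    (h : TrP I Φ a b (Ks I a (2 * ρa)) (Ks I b (2 * ρb)) r0 K) (hK : 0 ≤ K) (hx : x ∈ Bs I a ρa)
    (hr : r ≤ r0) (hra : r ≤ ρa) (hρb : 0 ≤ ρb)
    (h3 : ball (extChartAt I a x) (2 * r) ⊆ range I) (h4 : Φ x ∉ An I b ρb (K * r))
    {w : E d} (hw : w ∈ ball (extChartAt I a x) r) :
    Φ ((extChartAt I a).symm w) ∈ Bs I b ρb ↔ Φ x ∈ Bs I b ρb := by
  have hr0 : 0 < r := pos_of_mem_ball hw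
  have hKr : 0 ≤ K * r := by positivity
  have e : (extChartAt I a).symm (extChartAt I a x) = x := (extChartAt I a).left_inv hx.1
  have hxb : dist (extChartAt I a x) (extChartAt I a a) < ρa := hx.2
  have hwb : dist w (extChartAt I a x) < r := hw
  constructor
  · intro h5
    have h6 : ball w r ⊆ range I := fun u hu => h3 (by
      have : dist u w < r := hu
      have := dist_triangle u w (extChartAt I a x)
      rw [mem_ball]; linarith)
    have h7 : w ∈ Ks I a (2 * ρa) := ⟨by
      have := dist_triangle w (extChartAt I a x) (extChartAt I a a)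
      rw [mem_closedBall]; linarith, h6 (mem_ball_self hr0)⟩
    obtain ⟨b1, b2⟩ := h.lip hK h7 h5.1 (bs_ks hρb h5) hr h6 (mem_ball_comm.1 hw)
    rw [e] at b1 b2
    refine ⟨b1, ?_⟩
    have b3 : dist (extChartAt I b (Φ ((extChartAt I a).symm w))) (extChartAt I b b) < ρb := h5.2
    have b4 := dist_triangle (extChartAt I b (Φ x))
      (extChartAt I b (Φ ((extChartAt I a).symm w))) (extChartAt I b b)
    by_contra b5
    have b6 : ρb ≤ dist (extChartAt I b (Φ x)) (extChartAt I b b) := not_lt.1 b5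
    exact h4 ⟨b1, by linarith, by linarith⟩
  · intro h5
    have h6 : ball (extChartAt I a x) r ⊆ range I := (ball_subset_ball (by linarith)).trans h3
    obtain ⟨b1, b2⟩ := h.lip hK (bs_ks (by linarith) hx) (by rw [e]; exact h5.1)
      (by rw [e]; exact bs_ks hρb h5) hr h6 hw
    rw [e] at b2
    refine ⟨b1, ?_⟩
    have b3 : dist (extChartAt I b (Φ x)) (extChartAt I b b) < ρb := h5.2
    have b4 := dist_triangle (extChartAt I b (Φ ((extChartAt I a).symm w)))
      (extChartAt I b (Φ x)) (extChartAt I b b)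
    have b5 : dist (extChartAt I b (Φ x)) (extChartAt I b b) < ρb - K * r := by
      by_contra b6
      exact h4 ⟨h5.1, not_lt.1 b6, by linarith⟩
    change dist _ _ < ρb
    linarith

lemma unif (hT : ChTrStmt) [IsManifold I ∞ M] [T2Space M] {Φ : M → M} (hΦ : ContMDiff I I ∞ Φ)
    {k : ℕ} (a : Fin k → M) (Kc : Fin k → Set (E d)) (h1 : ∀ i, IsCompact (Kc i))
    (h2 : ∀ i, Kc i ⊆ (extChartAt I (a i)).target) :
    ∃ r0 K : ℝ, 0 < r0 ∧ ∀ i j, TrP I Φ (a i) (a j) (Kc i) (Kc j) r0 K := by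
  have h : ∀ p : Fin k × Fin k, ∃ r0 K : ℝ, 0 < r0 ∧ 0 ≤ K ∧
      TrP I Φ (a p.1) (a p.2) (Kc p.1) (Kc p.2) r0 K := fun p =>
    hT d H I M Φ hΦ (a p.1) (a p.2) (Kc p.1) (Kc p.2) (h1 _) (h1 _) (h2 _) (h2 _)
  choose r0 K hr _ hP using h
  obtain ⟨r1, hr1, hr2⟩ := exists_pos_le r0 hr
  obtain ⟨K1, hK1⟩ := Finite.exists_le K
  exact ⟨r1, K1, hr1, fun i j => (hP (i, j)).mono (hr2 _) (hK1 _)⟩

lemma meas_target (a : M) : MeasurableSet (extChartAt I a).target := by
  rw [extChartAt_target]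
  exact ((chartAt H a).open_target.preimage I.continuous_symm).measurableSet.inter
    I.isClosed_range.measurableSet

lemma meas_sel {X Y : Type} [MeasurableSpace X] [MeasurableSpace Y] {k : ℕ} (g : Fin k → X → Y)
    (hg : ∀ i, Measurable (g i)) {l : X → Fin k} (hl : Measurable l) :
    Measurable fun x => g (l x) x :=
  (measurable_from_prod_countable_left (f := fun p : X × Fin k => g p.2 p.1) hg).comp
    (measurable_id.prodMk hl)

variable [MeasurableSpace M] [BorelSpace M]

lemma dens {ν : Measure M} (hν : SmoothPos I ν) (a : M) (ρ : ℝ)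
    (hρ : Ks I a ρ ⊆ (extChartAt I a).target) : ∃ K : ℝ,
    (∀ B ⊆ closedBall (extChartAt I a a) ρ,
      ν ((extChartAt I a).source ∩ extChartAt I a ⁻¹' B) ≤ ENNReal.ofReal K * volume B) ∧
    ∀ B ⊆ Ks I a ρ, MeasurableSet B →
      volume B ≤ ENNReal.ofReal K * ν ((extChartAt I a).source ∩ extChartAt I a ⁻¹' B) := by
  obtain ⟨f, hf1, hf2, hf3⟩ := hν a
  have hs : MeasurableSet (extChartAt I a).source := (isOpen_extChartAt_source a).measurableSet
  have hform : ∀ B, MeasurableSet B → ν ((extChartAt I a).source ∩ extChartAt I a ⁻¹' B) =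
      ∫⁻ w in B ∩ (extChartAt I a).target, ENNReal.ofReal (f w) := by
    intro B hB
    have h1 := congrArg (fun m : Measure (E d) => m B) hf3
    rw [Measure.map_apply_of_aemeasurable ((continuousOn_extChartAt a).aemeasurable hs) hB,
      Measure.restrict_apply' hs, withDensity_apply _ hB, Measure.restrict_restrict hB] at h1
    rw [inter_comm, h1]
  have hc : ContinuousOn f (Ks I a ρ) := hf1.continuousOn.mono hρ
  obtain ⟨C1, hC1⟩ := (ks_compact a ρ).exists_bound_of_continuousOn hc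
  obtain ⟨C2, hC2⟩ := (ks_compact a ρ).exists_bound_of_continuousOn
    (hc.inv₀ fun w hw => (hf2 w (hρ hw)).ne')
  refine ⟨max C1 C2, fun B hB => ?_, fun B hB hBm => ?_⟩
  · have hm : MeasurableSet (toMeasurable volume B ∩ closedBall (extChartAt I a a) ρ) :=
      (measurableSet_toMeasurable _ _).inter measurableSet_closedBall
    calc ν ((extChartAt I a).source ∩ extChartAt I a ⁻¹' B)
        ≤ ν ((extChartAt I a).source ∩ extChartAt I a ⁻¹'
            (toMeasurable volume B ∩ closedBall (extChartAt I a a) ρ)) :=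
          measure_mono fun x hx => ⟨hx.1, subset_toMeasurable _ _ hx.2, hB hx.2⟩
      _ ≤ ∫⁻ _ in (toMeasurable volume B ∩ closedBall (extChartAt I a a) ρ) ∩
            (extChartAt I a).target, ENNReal.ofReal (max C1 C2) := by
          rw [hform _ hm]
          refine setLIntegral_mono' (hm.inter (meas_target a)) fun w hw =>
            ENNReal.ofReal_le_ofReal ?_
          exact (le_abs_self _).trans ((hC1 w ⟨hw.1.2,
            extChartAt_target_subset_range a hw.2⟩).trans (le_max_left _ _))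
      _ ≤ ENNReal.ofReal (max C1 C2) * volume B := by
          rw [setLIntegral_const, ← measure_toMeasurable B]
          gcongr
          exact fun w hw => hw.1.1
  · rw [hform _ hBm, inter_eq_left.2 (hB.trans hρ),
      ← lintegral_const_mul' _ _ ENNReal.ofReal_ne_top, ← setLIntegral_one]
    refine setLIntegral_mono' hBm fun w hw => ?_
    have h1 := hf2 w (hρ (hB hw))
    have h2 : (f w)⁻¹ ≤ max C1 C2 :=
      (le_abs_self _).trans ((hC2 w (hB hw)).trans (le_max_right _ _))
    rw [← ENNReal.ofReal_mul ((inv_pos.2 h1).le.trans h2), ← ENNReal.ofReal_one]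
    refine ENNReal.ofReal_le_ofReal ?_
    calc (1 : ℝ) = (f w)⁻¹ * f w := (inv_mul_cancel₀ h1.ne').symm
      _ ≤ max C1 C2 * f w := mul_le_mul_of_nonneg_right h2 h1.le

lemma exists_lab {k : ℕ} (B : Fin k → Set M) (hB : ∀ i, MeasurableSet (B i))
    (hc : ∀ x, ∃ i, x ∈ B i) [Nonempty M] : ∃ lab : M → Fin k, Measurable lab ∧
      (∀ x, x ∈ B (lab x)) ∧ ∀ x y, (∀ j, x ∈ B j ↔ y ∈ B j) → lab x = lab y := by
  classical
  have : Nonempty (Fin k) := let ⟨i, _⟩ := hc (Classical.arbitrary M); ⟨i⟩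
  let g : (Fin k → Prop) → Fin k := fun σ => Classical.epsilon σ
  refine ⟨fun x => g fun j => x ∈ B j, (measurable_of_countable g).comp
    (measurable_pi_lambda _ fun j => (hB j).mem), fun x => Classical.epsilon_spec (hc x),
    fun x y h => ?_⟩
  exact congrArg g (funext fun j => propext (h j))

omit [MeasurableSpace M] [BorelSpace M] in
lemma exists_cover [CompactSpace M] : ∃ (k : ℕ) (a : Fin k → M) (ρ : Fin k → ℝ),
    (∀ i, 0 < ρ i) ∧ (∀ i, Ks I (a i) (2 * ρ i) ⊆ (extChartAt I (a i)).target) ∧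
      ∀ x, ∃ i, x ∈ Bs I (a i) (ρ i) := by
  have h : ∀ x : M, ∃ ρ : ℝ, 0 < ρ ∧ Ks I x (2 * ρ) ⊆ (extChartAt I x).target := by
    intro x
    obtain ⟨ε, hε, h⟩ := Metric.mem_nhdsWithin_iff.1 (extChartAt_target_mem_nhdsWithin (I := I) x)
    exact ⟨ε / 4, by positivity, fun w hw =>
      h ⟨closedBall_subset_ball (by linarith) hw.1, hw.2⟩⟩
  choose ρ hρ hK using h
  obtain ⟨t, ht⟩ := CompactSpace.elim_nhds_subcover (fun x => Bs I x (ρ x)) fun x =>
    (isOpen_extChartAt_preimage' x isOpen_ball).mem_nhds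
      ⟨mem_extChartAt_source x, mem_ball_self (hρ x)⟩
  refine ⟨t.card, fun i => (t.equivFin.symm i).1, fun i => ρ (t.equivFin.symm i).1,
    fun i => hρ _, fun i => hK _, fun x => ?_⟩
  have hx : x ∈ ⋃ y ∈ t, Bs I y (ρ y) := by rw [ht]; trivial
  obtain ⟨y, hy, hxy⟩ := mem_iUnion₂.1 hx
  exact ⟨t.equivFin ⟨y, hy⟩, by simpa using hxy⟩

end Chart

open Chart in
theorem chartStmt (hT : ChTrStmt) (hV : ∀ d, ChVolStmt d) : ChartStmt := by
  intro d H _ I M _ _ _ _ _ _ _ ν hprob S hS hν hmp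
  classical
  have : Nonempty M := nonempty_of_isProbabilityMeasure ν
  obtain ⟨k, a, ρ, hρ, hKs, hcov⟩ := exists_cover (I := I) (M := M)
  obtain ⟨lab, mlab, hlab, hlab'⟩ := exists_lab (fun i => Bs I (a i) (ρ i))
    (fun i => (isOpen_extChartAt_preimage' _ isOpen_ball).measurableSet) hcov
  obtain ⟨r1, K1, hr1, hT1⟩ := unif hT (contMDiff_id (I := I) (M := M)) a
    (fun i => Ks I (a i) (2 * ρ i)) (fun i => ks_compact _ _) hKs
  obtain ⟨r2, K2, hr2, hT2⟩ := unif hT hS a
    (fun i => Ks I (a i) (2 * ρ i)) (fun i => ks_compact _ _) hKs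
  choose Kd hd1 hd2 using fun i => dens hν (a i) (2 * ρ i) (hKs i)
  choose Ca hCa0 hCa using fun i => (hV d).ann (extChartAt I (a i) (a i)) (ρ i) (hρ i)
  choose Cb hCb0 hCb using fun i => (hV d).bdy (range I) (extChartAt I (a i) (a i)) (ρ i)
    I.convex_range I.isClosed_range I.nonempty_interior
  obtain ⟨ρ0, hρ0, hρ1⟩ := exists_pos_le ρ hρ
  obtain ⟨C, hC⟩ := Finite.exists_le fun i =>
    max (max (Kd i) (‖extChartAt I (a i) (a i)‖ + ρ i)) (max (Ca i) (Cb i))
  set L : ℝ := max (max 1 C) (max K1 K2) with hL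
  have hL1 : 1 ≤ L := (le_max_left _ _).trans (le_max_left _ _)
  have hLC : C ≤ L := (le_max_right _ _).trans (le_max_left _ _)
  have hLd : ∀ i, Kd i ≤ L := fun i =>
    (((le_max_left _ _).trans (le_max_left _ _)).trans (hC i)).trans hLC
  have hLn : ∀ i, ‖extChartAt I (a i) (a i)‖ + ρ i ≤ L := fun i =>
    (((le_max_right _ _).trans (le_max_left _ _)).trans (hC i)).trans hLC
  have hLa : ∀ i, Ca i ≤ L := fun i =>
    (((le_max_left _ _).trans (le_max_right _ _)).trans (hC i)).trans hLC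
  have hLb : ∀ i, Cb i ≤ L := fun i =>
    (((le_max_right _ _).trans (le_max_right _ _)).trans (hC i)).trans hLC
  set r0 : ℝ := min (min r1 r2) (ρ0 / L) with hr0
  have hr0p : 0 < r0 := lt_min (lt_min hr1 hr2) (by positivity)
  have hP1 : ∀ i j, TrP I id (a i) (a j) (Ks I (a i) (2 * ρ i)) (Ks I (a j) (2 * ρ j)) r0 L :=
    fun i j => (hT1 i j).mono ((min_le_left _ _).trans (min_le_left _ _))
      ((le_max_left _ _).trans (le_max_right _ _))
  have hP2 : ∀ i j, TrP I S (a i) (a j) (Ks I (a i) (2 * ρ i)) (Ks I (a j) (2 * ρ j)) r0 L :=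
    fun i j => (hT2 i j).mono ((min_le_left _ _).trans (min_le_right _ _))
      ((le_max_right _ _).trans (le_max_right _ _))
  set K : ℝ := max (max L r0⁻¹) (k * (4 * L ^ 3)) with hK
  have hLK : L ≤ K := (le_max_left _ _).trans (le_max_left _ _)
  let ch : Ch d M :=
    { k := k
      lab := lab
      c := fun x => extChartAt I (a (lab x)) x
      ps := fun i => (extChartAt I (a i)).target.piecewise (extChartAt I (a i)).symm fun _ => a i
      K := K }
  have hps : ∀ i, ∀ w ∈ (extChartAt I (a i)).target, ch.ps i w = (extChartAt I (a i)).symm w :=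
    fun i w hw => piecewise_eq_of_mem _ (extChartAt I (a i)).symm (fun _ => a i) hw
  have hpsφ : ∀ i, ∀ x ∈ (extChartAt I (a i)).source, ch.ps i (extChartAt I (a i) x) = x :=
    fun i x hx => by
      rw [hps i _ ((extChartAt I (a i)).map_source hx), (extChartAt I (a i)).left_inv hx]
  have hint : ∀ r, 0 < r → r ≤ r0 → (ch.Int S r)ᶜ ⊆ ⋃ i, (Bd I (a i) (ρ i) (2 * r) ∪
      (An I (a i) (ρ i) (L * r) ∪ S ⁻¹' An I (a i) (ρ i) (L * r))) := by
    intro r hr hrr x hx
    by_contra hn
    simp only [mem_iUnion, mem_union, not_exists, not_or] at hn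
    refine hx ?_
    have hrρ : ∀ i, r ≤ ρ i := fun i =>
      (hrr.trans ((min_le_right _ _).trans (div_le_self hρ0.le hL1))).trans (hρ1 i)
    have hxB := hlab x
    have h3 : ball (extChartAt I (a (lab x)) x) (2 * r) ⊆ range I := by
      by_contra h
      exact (hn (lab x)).1 ⟨hxB.1, mem_range_of_source hxB.1, (mem_ball.1 hxB.2).le, h⟩
    have h3' : ball (extChartAt I (a (lab x)) x) r ⊆ range I :=
      (ball_subset_ball (by linarith)).trans h3
    have e : (extChartAt I (a (lab x))).symm (extChartAt I (a (lab x)) x) = x :=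
      (extChartAt I (a (lab x))).left_inv hxB.1
    have hS1 := hP2 (lab x) (lab (S x)) _ (bs_ks (hρ _).le hxB) (by rw [e]; exact (hlab _).1)
      (by rw [e]; exact bs_ks (hρ _).le (hlab _)) r hrr h3'
    have l1 : ∀ w ∈ ball (extChartAt I (a (lab x)) x) r,
        lab ((extChartAt I (a (lab x))).symm w) = lab x := fun w hw => hlab' _ _ fun j =>
      key (hP1 (lab x) j) (by linarith) hxB hrr (hrρ _) (hρ j).le h3 (hn j).2.1 hw
    have l2 : ∀ w ∈ ball (extChartAt I (a (lab x)) x) r,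
        lab (S ((extChartAt I (a (lab x))).symm w)) = lab (S x) := fun w hw => hlab' _ _ fun j =>
      key (hP2 (lab x) j) (by linarith) hxB hrr (hrρ _) (hρ j).le h3 (hn j).2.2 hw
    have l3 : ∀ w ∈ ball (extChartAt I (a (lab x)) x) r, ch.F S (lab x) =ᶠ[𝓝 w]
        fun u => extChartAt I (a (lab (S x))) (S ((extChartAt I (a (lab x))).symm u)) := by
      intro w hw
      filter_upwards [isOpen_ball.mem_nhds hw] with u hu
      change extChartAt I (a (lab (S (ch.ps (lab x) u)))) (S (ch.ps (lab x) u)) = _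
      rw [hps _ u (hS1 u hu).1, l2 u hu]
    intro w hw
    obtain ⟨a1, -, a3, a4, a5⟩ := hS1 w hw
    change lab (ch.ps (lab x) w) = lab x ∧
      extChartAt I (a (lab (ch.ps (lab x) w))) (ch.ps (lab x) w) = w ∧
      lab (S (ch.ps (lab x) w)) = lab (S x) ∧ DifferentiableAt ℝ (ch.F S (lab x)) w ∧
      ‖fderiv ℝ (ch.F S (lab x)) w‖ ≤ K ∧ ∀ w' ∈ ball (extChartAt I (a (lab x)) x) r,
        ‖fderiv ℝ (ch.F S (lab x)) w - fderiv ℝ (ch.F S (lab x)) w'‖ ≤ K * ‖w - w'‖
    rw [hps _ w a1, l1 w hw, l2 w hw, (l3 w hw).fderiv_eq]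
    refine ⟨rfl, (extChartAt I (a (lab x))).right_inv a1, rfl, a3.congr_of_eventuallyEq (l3 w hw),
      a4.trans hLK, fun w' hw' => ?_⟩
    rw [(l3 w' hw').fderiv_eq]
    exact (a5 w' hw').trans (mul_le_mul_of_nonneg_right hLK (norm_nonneg _))
  have hup : ∀ i, ∀ B ⊆ closedBall (extChartAt I (a i) (a i)) (2 * ρ i), ∀ s : ℝ,
      volume B ≤ ENNReal.ofReal s →
      ν ((extChartAt I (a i)).source ∩ extChartAt I (a i) ⁻¹' B) ≤ ENNReal.ofReal (L * s) := by
    intro i B hB s hs
    rw [ENNReal.ofReal_mul (by linarith)]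
    exact (hd1 i B hB).trans (mul_le_mul' (ENNReal.ofReal_le_ofReal (hLd i)) hs)
  refine ⟨ch, hprob, hmp, hL1.trans hLK, mlab, ?_, fun i => ?_, fun x => hpsφ _ x (hlab x).1,
    fun x => ?_, fun r hr => ?_, fun i B hB => ?_, fun i B hB h => ?_⟩
  · have h1 : ∀ i, Measurable
        ((extChartAt I (a i)).source.piecewise (extChartAt I (a i)) fun _ => (0 : E d)) :=
      fun i => (continuousOn_extChartAt _).measurable_piecewise continuousOn_const
        (isOpen_extChartAt_source _).measurableSet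
    have h3 : ch.c = fun x => (extChartAt I (a (lab x))).source.piecewise
        (extChartAt I (a (lab x))) (fun _ => (0 : E d)) x :=
      funext fun x => (piecewise_eq_of_mem _ (extChartAt I (a (lab x))) (fun _ => (0 : E d))
        (hlab x).1).symm
    rw [h3]
    exact meas_sel _ h1 mlab
  · exact (continuousOn_extChartAt_symm _).measurable_piecewise continuousOn_const
      (meas_target _)
  · exact (norm_le_of_mem_closedBall (ball_subset_closedBall (hlab x).2)).trans
      ((hLn _).trans hLK)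
  · by_cases hrr : r ≤ r0
    · have hLr : ∀ i, L * r ≤ ρ i := fun i => by
        have h1 : r ≤ ρ0 / L := hrr.trans (min_le_right _ _)
        rw [le_div_iff₀ (by linarith)] at h1
        linarith [hρ1 i]
      have hL0 : 0 < L := by linarith
      have b1 : ∀ i, ν (An I (a i) (ρ i) (L * r)) ≤ ENNReal.ofReal (L ^ 3 * r) := fun i => by
        refine (hup i _ (fun w hw => ?_) _ (hCa i _ (by positivity) (hLr i))).trans
          (ENNReal.ofReal_le_ofReal ?_)
        · rw [mem_closedBall]; linarith [hw.2, hLr i]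
        · calc L * (Ca i * (L * r)) ≤ L * (L * (L * r)) := by gcongr; exact hLa i
            _ = L ^ 3 * r := by ring
      have b2 : ∀ i, ν (Bd I (a i) (ρ i) (2 * r)) ≤ ENNReal.ofReal (2 * L ^ 3 * r) := fun i => by
        refine (hup i _ (fun w hw => ?_) _ (hCb i _ (by positivity))).trans
          (ENNReal.ofReal_le_ofReal ?_)
        · rw [mem_closedBall]; linarith [hw.2.1, hρ i]
        · calc L * (Cb i * (2 * r)) ≤ L * (L * (2 * r)) := by gcongr; exact hLb i
            _ = 2 * (L ^ 2 * 1) * r := by ring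
            _ ≤ 2 * (L ^ 2 * L) * r := by gcongr
            _ = 2 * L ^ 3 * r := by ring
      refine (measure_mono (hint r hr hrr)).trans ((measure_iUnion_fintype_le _ _).trans ?_)
      have b3 : ∀ i ∈ (Finset.univ : Finset (Fin k)), ν (Bd I (a i) (ρ i) (2 * r) ∪
          (An I (a i) (ρ i) (L * r) ∪ S ⁻¹' An I (a i) (ρ i) (L * r))) ≤
          ENNReal.ofReal (4 * L ^ 3 * r) := fun i _ => by
        refine (measure_union_le _ _).trans ((add_le_add (b2 i) ((measure_union_le _ _).trans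
          (add_le_add (b1 i) ((hmp.measure_preimage_le _).trans (b1 i))))).trans (le_of_eq ?_))
        rw [← ENNReal.ofReal_add (by positivity) (by positivity),
          ← ENNReal.ofReal_add (by positivity) (by positivity)]
        congr 1; ring
      refine (Finset.sum_le_card_nsmul _ _ _ b3).trans ?_
      rw [Finset.card_univ, Fintype.card_fin, nsmul_eq_mul, ← ENNReal.ofReal_natCast,
        ← ENNReal.ofReal_mul (Nat.cast_nonneg k), ← mul_assoc]
      exact ENNReal.ofReal_le_ofReal (mul_le_mul_of_nonneg_right (le_max_right _ _) hr.le)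
    · refine prob_le_one.trans ?_
      rw [← ENNReal.ofReal_one]
      refine ENNReal.ofReal_le_ofReal ?_
      have h1 : r0⁻¹ ≤ K := (le_max_right _ _).trans (le_max_left _ _)
      calc (1 : ℝ) = r0⁻¹ * r0 := (inv_mul_cancel₀ hr0p.ne').symm
        _ ≤ K * r := mul_le_mul h1 (not_le.1 hrr).le hr0p.le (by linarith)
  · calc ν {x | ch.lab x = i ∧ ch.c x ∈ B}
        ≤ ν ((extChartAt I (a i)).source ∩ extChartAt I (a i) ⁻¹'
            (B ∩ closedBall (extChartAt I (a i) (a i)) (2 * ρ i))) := by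
          refine measure_mono fun x hx => ?_
          obtain ⟨rfl, h2⟩ := hx
          exact ⟨(hlab x).1, h2, (bs_ks (hρ _).le (hlab x)).1⟩
      _ ≤ ENNReal.ofReal K * volume B := (hd1 i _ inter_subset_right).trans
          (mul_le_mul' (ENNReal.ofReal_le_ofReal ((hLd i).trans hLK))
            (measure_mono inter_subset_left))
  · have h1 : B ⊆ Ks I (a i) (2 * ρ i) := fun w hw => by
      obtain ⟨h2, h3⟩ := h w hw
      have h4 := bs_ks (hρ _).le (hlab (ch.ps i w))
      change extChartAt I (a (lab (ch.ps i w))) (ch.ps i w) = w at h3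
      change lab (ch.ps i w) = i at h2
      rwa [h3, h2] at h4
    refine (hd2 i B h1 hB).trans
      (mul_le_mul' (ENNReal.ofReal_le_ofReal ((hLd i).trans hLK)) (measure_mono fun x hx => ?_))
    have h2 := h _ hx.2
    rw [hpsφ i x hx.1] at h2
    exact ⟨h2.1, by rw [h2.2]; exact hx.2⟩

end Vale.Agent.P109
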