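import Vale.Agent.P109.Base

open MeasureTheory Finset
open scoped ENNReal

namespace Vale.Agent.P109
namespace Cd

/-! ### general facts about codes -/

def mis (c : Code) (n : ℕ) (x y : Fin (2 ^ c.m n)) : ℕ :=
  ((range (c.h n)).filter fun p => c.spell n x p ≠ c.spell n y p).card

def tot (c : Code) (n : ℕ) : ℕ := ∑ x, ∑ y, mis c n x y

theorem sum_blocks (h : ℕ) (hh : 0 < h) (F : ℕ → ℕ → ℕ) (R : ℕ) :
    ∑ p ∈ range (h * R), F (p / h) (p % h) = ∑ j ∈ range R, ∑ i ∈ range h, F j i := by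
  induction R with
  | zero => simp
  | succ R ih =>
    rw [Nat.mul_succ, sum_range_add, ih, sum_range_succ]
    congr 1
    refine sum_congr rfl fun i hi => ?_
    have hi' := mem_range.1 hi
    rw [Nat.mul_add_div hh, Nat.div_eq_of_lt hi', Nat.mul_add_mod, Nat.mod_eq_of_lt hi', add_zero]

theorem mis_succ (c : Code) (n : ℕ) (hh : 0 < c.h n) (x y : Fin (2 ^ c.m (n + 1))) :
    mis c (n + 1) x y = ∑ j ∈ range (c.R n), mis c n (c.sub n x j) (c.sub n y j) := by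
  simp only [mis, card_filter]
  exact sum_blocks (c.h n) hh
    (fun j i => if c.spell n (c.sub n x j) i ≠ c.spell n (c.sub n y j) i then 1 else 0) (c.R n)

theorem mis_zero (c : Code) (x y : Fin (2 ^ c.m 0)) : mis c 0 x y = if x ≠ y then 1 else 0 := by
  unfold mis
  rw [card_filter]
  exact sum_range_one _

theorem mis_self (c : Code) (n : ℕ) (x : Fin (2 ^ c.m n)) : mis c n x x = 0 := by
  simp [mis]

theorem sum_reg {a a' : ℕ} (g : Fin a' → Fin a)
    (hg : ∀ y, (univ.filter fun x => g x = y).card * a = a') (F : Fin a → ℕ) :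
    (∑ x, F (g x)) * a = a' * ∑ u, F u := by
  rw [← sum_fiberwise_of_maps_to (s := univ) (t := univ) (g := g) (fun _ _ => mem_univ _),
    sum_mul, mul_sum]
  refine sum_congr rfl fun u _ => ?_
  have : ∑ x ∈ univ.filter (fun x => g x = u), F (g x) =
      ∑ _x ∈ univ.filter (fun x => g x = u), F u :=
    sum_congr rfl fun x hx => by rw [(mem_filter.1 hx).2]
  rw [this, sum_const, smul_eq_mul, mul_right_comm, hg]

theorem sum_reg2 {a a' : ℕ} (g : Fin a' → Fin a)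
    (hg : ∀ y, (univ.filter fun x => g x = y).card * a = a') (F : Fin a → Fin a → ℕ) :
    (∑ x, ∑ y, F (g x) (g y)) * a ^ 2 = a' ^ 2 * ∑ u, ∑ v, F u v := by
  have h1 : (∑ x, ∑ y, F (g x) (g y)) * a = a' * ∑ x, ∑ v, F (g x) v := by
    rw [sum_mul, mul_sum]
    exact sum_congr rfl fun x _ => sum_reg g hg (F (g x))
  have h2 := sum_reg g hg fun u => ∑ v, F u v
  calc (∑ x, ∑ y, F (g x) (g y)) * a ^ 2 = ((∑ x, ∑ y, F (g x) (g y)) * a) * a := by ring
    _ = a' * ((∑ x, ∑ v, F (g x) v) * a) := by rw [h1]; ring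
    _ = a' ^ 2 * ∑ u, ∑ v, F u v := by rw [h2]; ring

/-- a binary step -/
def Bin {a a' : ℕ} (sb : Fin a' → ℕ → Fin a) : Prop :=
  Function.Injective (fun x => (sb x 0, sb x 1)) ∧
    (∀ y, (univ.filter fun x => sb x 0 = y).card * a = a') ∧
    (∀ y, (univ.filter fun x => sb x 1 = y).card * a = a')

/-- a separating step -/
def Sep {a a' : ℕ} (R : ℕ) (sb : Fin a' → ℕ → Fin a) : Prop :=
  (∀ x y, ((range R).filter fun j => sb x j = y).card * a = R) ∧
    ∀ x y, x ≠ y → ∀ f : Fin a → Fin a → ℕ,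
      (∑ j ∈ range R, f (sb x j) (sb y j)) * a ^ 2 = R * ∑ u, ∑ v, f u v

theorem Bin.reg {a a' : ℕ} {sb : Fin a' → ℕ → Fin a} (h : Bin sb) (y : Fin a) :
    ((univ ×ˢ range 2).filter fun xj : Fin a' × ℕ => sb xj.1 xj.2 = y).card * a = a' * 2 := by
  have h0 := h.2.1 y
  have h1 := h.2.2 y
  rw [card_filter] at h0 h1
  rw [card_filter, sum_product_right, sum_range_succ, sum_range_one, add_mul]
  simp only at h0 h1 ⊢
  rw [h0, h1]; ring

theorem Sep.reg {a a' R : ℕ} {sb : Fin a' → ℕ → Fin a} (h : Sep R sb) (y : Fin a) :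
    ((univ ×ˢ range R).filter fun xj : Fin a' × ℕ => sb xj.1 xj.2 = y).card * a = a' * R := by
  rw [card_filter, sum_product, sum_mul]
  have : ∀ x : Fin a', (∑ j ∈ range R, if sb x j = y then 1 else 0) * a = R := fun x => by
    rw [← card_filter]; exact h.1 x y
  simp only [this, sum_const, card_univ, Fintype.card_fin, smul_eq_mul]

theorem tot_bin (c : Code) (n : ℕ) (hh : 0 < c.h n) (hR : c.R n = 2) (hb : Bin (c.sub n)) :
    tot c (n + 1) * (2 ^ c.m n) ^ 2 = (2 ^ c.m (n + 1)) ^ 2 * tot c n * 2 := by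
  have h0 := sum_reg2 (fun x => c.sub n x 0) hb.2.1 (mis c n)
  have h1 := sum_reg2 (fun x => c.sub n x 1) hb.2.2 (mis c n)
  simp only [tot, mis_succ c n hh, hR, sum_range_succ, range_zero, sum_empty, zero_add,
    sum_add_distrib, add_mul]
  rw [h0, h1]; ring

theorem mis_sep (c : Code) (n : ℕ) (hh : 0 < c.h n) (hb : Sep (c.R n) (c.sub n))
    {x y : Fin (2 ^ c.m (n + 1))} (hxy : x ≠ y) :
    mis c (n + 1) x y * (2 ^ c.m n) ^ 2 = c.R n * tot c n := by
  rw [mis_succ c n hh]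
  exact hb.2 x y hxy (mis c n)

theorem tot_sep (c : Code) (n : ℕ) (hh : 0 < c.h n) (hb : Sep (c.R n) (c.sub n)) :
    tot c (n + 1) * (2 ^ c.m n) ^ 2 + 2 ^ c.m (n + 1) * (c.R n * tot c n) =
      (2 ^ c.m (n + 1)) ^ 2 * (c.R n * tot c n) := by
  have h1 : ∀ x : Fin (2 ^ c.m (n + 1)),
      (∑ y, mis c (n + 1) x y) * (2 ^ c.m n) ^ 2 + c.R n * tot c n =
        2 ^ c.m (n + 1) * (c.R n * tot c n) := by
    intro x
    rw [sum_mul, ← add_sum_erase _ _ (mem_univ x), mis_self, zero_mul, zero_add]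
    have h2 : ∑ y ∈ univ.erase x, mis c (n + 1) x y * (2 ^ c.m n) ^ 2 =
        ∑ _y ∈ univ.erase x, c.R n * tot c n :=
      sum_congr rfl fun y hy => mis_sep c n hh hb (ne_of_mem_erase hy).symm
    rw [h2, sum_const, card_erase_of_mem (mem_univ x), card_univ, Fintype.card_fin, smul_eq_mul]
    have h3 : 1 ≤ 2 ^ c.m (n + 1) := Nat.one_le_two_pow
    obtain ⟨b, hb'⟩ := Nat.exists_eq_add_of_le' h3
    rw [hb', Nat.add_sub_cancel]; ring
  have h4 := sum_congr (s₁ := univ) rfl fun x _ => h1 x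
  rw [sum_add_distrib, sum_const, sum_const, card_univ, Fintype.card_fin, smul_eq_mul,
    smul_eq_mul, ← sum_mul] at h4
  rw [sq (2 ^ c.m (n + 1)), mul_assoc]
  exact h4

/-! ### the schedule -/

structure St where
  m : ℕ
  l : ℕ
  s : ℕ
  k : ℕ

def St.K (z : St) : ℕ := 4 * z.l + 2 ^ (3 * z.l)

def St.R (z : St) : ℕ := if z.k < z.K then 2 else (2 ^ z.m) ^ (2 ^ z.m)

def St.nx (z : St) : St :=
  if z.k < 4 * z.l then ⟨2 * z.m, z.l, z.s, z.k + 1⟩
  else if z.k < z.K then ⟨2 * z.m - z.s * 2 ^ (z.k - 3 * z.l), z.l, z.s, z.k + 1⟩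
  else ⟨z.m, z.l * 2 ^ z.k * z.R, z.m, 0⟩

def st : ℕ → St
  | 0 => ⟨2, 1, 2, 0⟩
  | n + 1 => (st n).nx

structure Inv (z : St) : Prop where
  k : z.k ≤ z.K
  l : 1 ≤ z.l
  s : 2 ≤ z.s
  e : 2 * z.m + (z.k - 4 * z.l) * (z.s * 2 ^ (z.k - 3 * z.l)) = z.s * 2 ^ (z.k + 1)

theorem nx1 {z : St} (h : z.k < 4 * z.l) : z.nx = ⟨2 * z.m, z.l, z.s, z.k + 1⟩ := if_pos h

theorem nx2 {z : St} (h : 4 * z.l ≤ z.k) (h' : z.k < z.K) :
    z.nx = ⟨2 * z.m - z.s * 2 ^ (z.k - 3 * z.l), z.l, z.s, z.k + 1⟩ := by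
  rw [St.nx, if_neg (by omega), if_pos h']

theorem nx3 {z : St} (h : z.K ≤ z.k) : z.nx = ⟨z.m, z.l * 2 ^ z.k * z.R, z.m, 0⟩ := by
  have : 4 * z.l ≤ z.K := Nat.le_add_right _ _
  rw [St.nx, if_neg (by omega), if_neg (by omega)]

theorem lt_K {z : St} (h : z.k < 4 * z.l) : z.k < z.K := lt_of_lt_of_le h (Nat.le_add_right _ _)

theorem Inv.half {z : St} (h : Inv z) : z.s * 2 ^ z.k ≤ 2 * z.m := by
  have h1 := h.e
  have h2 : (z.k - 4 * z.l) * (z.s * 2 ^ (z.k - 3 * z.l)) ≤ z.s * 2 ^ z.k := by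
    by_cases hk : z.k ≤ 4 * z.l
    · rw [Nat.sub_eq_zero_of_le hk, zero_mul]; exact Nat.zero_le _
    · have h3 : z.k - 4 * z.l ≤ 2 ^ (3 * z.l) := by
        have := h.k
        unfold St.K at this
        omega
      have h4 : 2 ^ z.k = 2 ^ (3 * z.l) * 2 ^ (z.k - 3 * z.l) := by
        rw [← pow_add]; congr 1; omega
      calc (z.k - 4 * z.l) * (z.s * 2 ^ (z.k - 3 * z.l))
          ≤ 2 ^ (3 * z.l) * (z.s * 2 ^ (z.k - 3 * z.l)) := Nat.mul_le_mul_right _ h3
        _ = z.s * 2 ^ z.k := by rw [h4]; ring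
  have h5 : z.s * 2 ^ (z.k + 1) = 2 * (z.s * 2 ^ z.k) := by ring
  omega

theorem Inv.big {z : St} (h : Inv z) (hk : z.K ≤ z.k) : z.s + 1 ≤ z.m := by
  have h1 := h.half
  have h2 : 2 ≤ z.k := by
    have := h.l
    have h0 : 4 * z.l ≤ z.K := Nat.le_add_right _ _
    omega
  have h3 : 2 ^ 2 ≤ 2 ^ z.k := Nat.pow_le_pow_right (by norm_num) h2
  have h4 := Nat.mul_le_mul_left z.s h3
  have := h.s
  omega

theorem Inv.mix {z : St} (h : Inv z) (hk : 4 * z.l ≤ z.k) :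
    (2 ^ (3 * z.l - 2) + 1) * (z.s * 2 ^ (z.k - 3 * z.l)) ≤ z.m ∧
      2 * (z.s * 2 ^ (z.k - 3)) ≤ 2 ^ (3 * z.l - 2) * (z.s * 2 ^ (z.k - 3 * z.l)) := by
  have hl := h.l
  have h1 := h.half
  have h2 : 2 ^ z.k = 4 * (2 ^ (3 * z.l - 2) * 2 ^ (z.k - 3 * z.l)) := by
    rw [← pow_add, show (4 : ℕ) = 2 ^ 2 from rfl, ← pow_add]; congr 1; omega
  have h3 : 2 ^ z.k = 8 * 2 ^ (z.k - 3) := by
    rw [show (8 : ℕ) = 2 ^ 3 from rfl, ← pow_add]; congr 1; omega
  have h4 : 1 ≤ 2 ^ (3 * z.l - 2) := Nat.one_le_two_pow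
  have h5 : z.s * 2 ^ z.k = 4 * (2 ^ (3 * z.l - 2) * (z.s * 2 ^ (z.k - 3 * z.l))) := by
    rw [h2]; ring
  have h6 : z.s * 2 ^ z.k = 8 * (z.s * 2 ^ (z.k - 3)) := by rw [h3]; ring
  have h7 := Nat.mul_le_mul_right (z.s * 2 ^ (z.k - 3 * z.l)) h4
  rw [add_mul]
  constructor <;> omega

theorem R_two {z : St} (hm : 1 ≤ z.m) : 2 ≤ z.R := by
  unfold St.R
  split_ifs
  · exact le_rfl
  · have h1 : 2 ^ 1 ≤ 2 ^ z.m := Nat.pow_le_pow_right (by norm_num) hm
    exact le_trans h1 (Nat.le_self_pow (by positivity) _)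

theorem Inv.m1 {z : St} (h : Inv z) : 1 ≤ z.m := by
  have h1 := h.half
  have h2 : 1 ≤ 2 ^ z.k := Nat.one_le_two_pow
  have h3 := Nat.mul_le_mul h.s h2
  omega

theorem Inv.nx {z : St} (h : Inv z) : Inv z.nx := by
  by_cases h1 : z.k < 4 * z.l
  · rw [nx1 h1]
    refine ⟨lt_K h1, h.l, h.s, ?_⟩
    have h2 := h.e
    rw [Nat.sub_eq_zero_of_le h1.le, zero_mul, add_zero] at h2
    simp only
    rw [Nat.sub_eq_zero_of_le h1, zero_mul, add_zero, pow_succ, ← mul_assoc z.s, ← h2]; ring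
  by_cases h2 : z.k < z.K
  · have h1' : 4 * z.l ≤ z.k := not_lt.1 h1
    rw [nx2 h1' h2]
    refine ⟨h2, h.l, h.s, ?_⟩
    have h3 := h.e
    have h4 := (h.mix h1').1
    have h5 : 2 ^ (z.k + 1 - 3 * z.l) = 2 ^ (z.k - 3 * z.l) * 2 := by
      rw [← pow_succ]; congr 1; omega
    have h6 : z.k + 1 - 4 * z.l = (z.k - 4 * z.l) + 1 := by omega
    simp only
    rw [h5, h6, pow_succ 2 (z.k + 1), ← mul_assoc z.s, ← mul_assoc z.s, ← h3]
    rw [add_mul, one_mul] at h4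
    generalize z.s * 2 ^ (z.k - 3 * z.l) = t at *
    generalize z.k - 4 * z.l = u at *
    have h7 : t ≤ 2 * z.m := by omega
    obtain ⟨w, hw⟩ := Nat.exists_eq_add_of_le h7
    rw [hw, Nat.add_sub_cancel_left]; ring
  · have h2' : z.K ≤ z.k := not_lt.1 h2
    rw [nx3 h2']
    refine ⟨Nat.zero_le _, ?_, ?_, ?_⟩
    · have h3 := R_two h.m1
      have h4 : 0 < z.l * 2 ^ z.k * z.R :=
        Nat.mul_pos (Nat.mul_pos h.l (by positivity)) (by omega)
      exact h4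
    · have := h.big h2'
      have := h.s
      simp only
      omega
    · simp [mul_comm]

theorem inv_st : ∀ n, Inv (st n)
  | 0 => ⟨by simp [st], by simp [st], by simp [st], by simp [st]⟩
  | n + 1 => (inv_st n).nx

def Good (z : St) (sb : Fin (2 ^ z.nx.m) → ℕ → Fin (2 ^ z.m)) : Prop :=
  (z.k < z.K → Bin sb) ∧
  (4 * z.l ≤ z.k → z.k < z.K → Mix (univ.image fun x => (sb x 0, sb x 1))
    (1 / 2 ^ (z.s * 2 ^ (z.k - 3 * z.l))) (1 / 2 ^ (z.s * 2 ^ (z.k - 3)))) ∧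
  (z.K ≤ z.k → Sep z.R sb)

theorem exA (hM : MixStmt) (m m' : ℕ) (h : m' = 2 * m) :
    ∃ sb : Fin (2 ^ m') → ℕ → Fin (2 ^ m), Bin sb := by
  subst h
  obtain ⟨e, h1, h2, h3⟩ := hM.prod m
  exact ⟨fun x j => if j = 0 then (e x).1 else (e x).2, h1, h2, h3⟩

theorem exB (hM : MixStmt) (m t N s m' : ℕ) (ht : 1 ≤ t) (h1 : (N + 1) * t ≤ m)
    (h2 : 2 * s ≤ N * t) (h3 : m' + t = 2 * m) :
    ∃ sb : Fin (2 ^ m') → ℕ → Fin (2 ^ m), Bin sb ∧
      Mix (univ.image fun x => (sb x 0, sb x 1)) (1 / 2 ^ t) (1 / 2 ^ s) := by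
  obtain ⟨e, e1, e2, e3, e4⟩ := hM.mix m t N s m' ht h1 h2 h3
  exact ⟨fun x j => if j = 0 then (e x).1 else (e x).2, ⟨e1, e2, e3⟩, e4⟩

theorem exC (hM : MixStmt) (m m' R : ℕ) (h : m' = m) (hR : R = (2 ^ m) ^ (2 ^ m)) :
    ∃ sb : Fin (2 ^ m') → ℕ → Fin (2 ^ m), Sep R sb := by
  subst h hR
  exact hM.fn (2 ^ m') Nat.one_le_two_pow

theorem ex_good (hM : MixStmt) {z : St} (h : Inv z) : ∃ sb, Good z sb := by
  by_cases h1 : z.k < 4 * z.l
  · obtain ⟨sb, hb⟩ := exA hM z.m z.nx.m (by rw [nx1 h1])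
    have := lt_K h1
    exact ⟨sb, fun _ => hb, fun _ _ => by omega, fun _ => by omega⟩
  by_cases h2 : z.k < z.K
  · have h1' : 4 * z.l ≤ z.k := not_lt.1 h1
    have h3 := h.mix h1'
    have h4 : 1 ≤ z.s * 2 ^ (z.k - 3 * z.l) :=
      Nat.mul_pos (lt_of_lt_of_le two_pos h.s) (by positivity)
    obtain ⟨sb, hb, hx⟩ := exB hM z.m _ _ _ z.nx.m h4 h3.1 h3.2 (by
      rw [nx2 h1' h2]
      have h5 := h3.1
      rw [add_mul, one_mul] at h5
      simp only
      omega)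
    exact ⟨sb, fun _ => hb, fun _ _ => hx, fun _ => by omega⟩
  · have h2' : z.K ≤ z.k := not_lt.1 h2
    obtain ⟨sb, hb⟩ := exC hM z.m z.nx.m z.R (by rw [nx3 h2']) (if_neg h2)
    exact ⟨sb, fun _ => by omega, fun _ _ => by omega, fun _ => hb⟩

/-! ### the code -/

def code (sb : ∀ n, Fin (2 ^ (st n).nx.m) → ℕ → Fin (2 ^ (st n).m)) : Code where
  m := fun n => (st n).m
  R := fun n => (st n).R
  sub := sb

variable {sb : ∀ n, Fin (2 ^ (st n).nx.m) → ℕ → Fin (2 ^ (st n).m)}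

theorem R_lt {z : St} (h : z.k < z.K) : z.R = 2 := if_pos h

theorem h_eq : ∀ n, (code sb).h n = (st n).l * 2 ^ (st n).k
  | 0 => rfl
  | n + 1 => by
    have ih := h_eq n
    have e1 : (code sb).h (n + 1) = (code sb).h n * (st n).R := rfl
    have e2 : st (n + 1) = (st n).nx := rfl
    rw [e1, ih, e2]
    by_cases h1 : (st n).k < 4 * (st n).l
    · rw [nx1 h1, R_lt (lt_K h1), pow_succ, mul_assoc]
    by_cases h2 : (st n).k < (st n).K
    · rw [nx2 (not_lt.1 h1) h2, R_lt h2, pow_succ, mul_assoc]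
    · rw [nx3 (not_lt.1 h2)]; simp

theorem h_pos (n : ℕ) : 0 < (code sb).h n := by
  rw [h_eq]; exact Nat.mul_pos (inv_st n).l (by positivity)

theorem nx_lt {z : St} (h : z.k < z.K) : z.nx.l = z.l ∧ z.nx.s = z.s ∧ z.nx.k = z.k + 1 := by
  by_cases h1 : z.k < 4 * z.l
  · rw [nx1 h1]; exact ⟨rfl, rfl, rfl⟩
  · rw [nx2 (not_lt.1 h1) h]; exact ⟨rfl, rfl, rfl⟩

theorem ratio (hg : ∀ n, Good (st n) (sb n)) : ∀ n,
    (1 / 2 + 1 / 2 ^ (st n).s : ℝ) * (((2 : ℝ) ^ (st n).m) ^ 2 * (code sb).h n) ≤ tot (code sb) n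
  | 0 => by
    have : tot (code sb) 0 = 12 := by
      simp only [tot, mis_zero]
      change (∑ x : Fin 4, ∑ y : Fin 4, if x ≠ y then 1 else 0) = 12
      decide
    rw [this]
    simp only [st, Code.h]
    norm_num
  | n + 1 => by
    have ih := ratio hg n
    have hh := h_pos (sb := sb) n
    have e1 : (code sb).h (n + 1) = (code sb).h n * (st n).R := rfl
    have hp : (0 : ℝ) < ((2 : ℝ) ^ (st n).m) ^ 2 := by positivity
    by_cases h2 : (st n).k < (st n).K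
    · have h3 := tot_bin (code sb) n hh (R_lt h2) ((hg n).1 h2)
      have h4 : (tot (code sb) (n + 1) : ℝ) * ((2 : ℝ) ^ (st n).m) ^ 2 =
          ((2 : ℝ) ^ (st (n + 1)).m) ^ 2 * tot (code sb) n * 2 := by exact_mod_cast h3
      have e2 : (st (n + 1)).s = (st n).s := (nx_lt h2).2.1
      rw [e1, R_lt h2, e2]
      refine le_of_mul_le_mul_right ?_ hp
      rw [h4]
      have h5 := mul_le_mul_of_nonneg_left ih
        (show (0 : ℝ) ≤ ((2 : ℝ) ^ (st (n + 1)).m) ^ 2 * 2 by positivity)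
      push_cast
      nlinarith
    · have h2' := not_lt.1 h2
      have h3 := tot_sep (code sb) n hh ((hg n).2.2 h2')
      have h4 : (tot (code sb) (n + 1) : ℝ) * ((2 : ℝ) ^ (st n).m) ^ 2 +
          (2 : ℝ) ^ (st (n + 1)).m * ((st n).R * tot (code sb) n) =
          ((2 : ℝ) ^ (st (n + 1)).m) ^ 2 * ((st n).R * tot (code sb) n) := by exact_mod_cast h3
      have e2 : (st (n + 1)).s = (st n).m := by
        have : st (n + 1) = (st n).nx := rfl
        rw [this, nx3 h2']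
      have e3 : (st (n + 1)).m = (st n).m := by
        have : st (n + 1) = (st n).nx := rfl
        rw [this, nx3 h2']
      rw [e3] at h4
      rw [e1, e2, e3]
      have hb := (inv_st n).big h2'
      have h5 : (2 : ℝ) ^ (st n).s * 2 ≤ 2 ^ (st n).m := by
        rw [← pow_succ]; exact pow_le_pow_right₀ (by norm_num) hb
      have h6 : (2 : ℝ) ≤ 2 ^ (st n).s := by
        have := pow_le_pow_right₀ (show (1 : ℝ) ≤ 2 by norm_num)
          (le_trans (by norm_num : 1 ≤ 2) (inv_st n).s)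
        simpa using this
      push_cast
      generalize (2 : ℝ) ^ (st n).m = a at *
      generalize (2 : ℝ) ^ (st n).s = b at *
      have hR : (0 : ℝ) ≤ (st n).R := Nat.cast_nonneg _
      have hh' : (0 : ℝ) ≤ (code sb).h n := Nat.cast_nonneg _
      generalize ((st n).R : ℝ) = R at *
      generalize ((code sb).h n : ℝ) = H at *
      generalize (tot (code sb) (n + 1) : ℝ) = T' at *
      generalize (tot (code sb) n : ℝ) = T at *
      have ha : 0 < a := by linarith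
      have hb0 : 0 < b := by linarith
      have h7 : T' * a = (a - 1) * (R * T) := by
        apply mul_right_cancel₀ ha.ne'
        nlinarith
      have h8 : (1 / 2 + 1 / a) * a ≤ (a - 1) * (1 / 2 + 1 / b) := by
        have h9 : (1 / 2 + 1 / a) * a = a / 2 + 1 := by field_simp
        have h10 : 2 ≤ a / b := by rw [le_div_iff₀ hb0]; linarith
        have h11 : 1 / b ≤ 1 / 2 := one_div_le_one_div_of_le two_pos h6
        have h12 : (a - 1) * (1 / 2 + 1 / b) = a / 2 + a / b - 1 / 2 - 1 / b := by ring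
        linarith
      refine le_of_mul_le_mul_right ?_ ha
      rw [h7]
      have h13 := mul_le_mul_of_nonneg_left ih (show 0 ≤ (a - 1) * R by
        apply mul_nonneg _ hR; linarith)
      have h14 := mul_le_mul_of_nonneg_right h8 (show 0 ≤ a ^ 2 * (H * R) by positivity)
      nlinarith

theorem dist (hg : ∀ n, Good (st n) (sb n)) : ∀ n, (st n).k = 0 → (code sb).Dist n
  | 0, _ => by
    intro x y hxy
    change 1 ≤ 2 * mis (code sb) 0 x y
    rw [mis_zero, if_pos hxy]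
    norm_num
  | n + 1, hk => by
    intro x y hxy
    have h2' : (st n).K ≤ (st n).k := by
      by_contra hc
      have h1 := (nx_lt (not_le.1 hc)).2.2
      have : st (n + 1) = (st n).nx := rfl
      rw [this] at hk
      omega
    have hh := h_pos (sb := sb) n
    have h3 := mis_sep (code sb) n hh ((hg n).2.2 h2') hxy
    have h4 : (mis (code sb) (n + 1) x y : ℝ) * ((2 : ℝ) ^ (st n).m) ^ 2 =
        (st n).R * tot (code sb) n := by exact_mod_cast h3
    have ih := ratio hg n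
    have hp : (0 : ℝ) < ((2 : ℝ) ^ (st n).m) ^ 2 := by positivity
    have h5 : (((code sb).h n * (st n).R : ℕ) : ℝ) ≤ 2 * mis (code sb) (n + 1) x y := by
      refine le_of_mul_le_mul_right ?_ hp
      rw [mul_assoc, h4]
      have hR : (0 : ℝ) ≤ (st n).R := Nat.cast_nonneg _
      have h6 := mul_le_mul_of_nonneg_left ih hR
      have h7 : (0 : ℝ) ≤ (st n).R * (1 / 2 ^ (st n).s *
          (((2 : ℝ) ^ (st n).m) ^ 2 * (code sb).h n)) := by positivity
      push_cast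
      nlinarith
    exact_mod_cast h5

theorem run {n : ℕ} (hk : (st n).k = 0) : ∀ j ≤ (st n).K,
    (st (n + j)).l = (st n).l ∧ (st (n + j)).s = (st n).s ∧ (st (n + j)).k = j
  | 0, _ => ⟨rfl, rfl, hk⟩
  | j + 1, hj => by
    obtain ⟨h1, h2, h3⟩ := run hk j (by omega)
    have h4 : (st (n + j)).k < (st (n + j)).K := by
      unfold St.K at hj ⊢
      rw [h1, h3]; omega
    obtain ⟨e1, e2, e3⟩ := nx_lt h4
    have : st (n + (j + 1)) = (st (n + j)).nx := rfl
    rw [this, e1, e2, e3, h1, h2, h3]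
    exact ⟨rfl, rfl, rfl⟩

theorem run_end {n : ℕ} (hk : (st n).k = 0) :
    (st (n + (st n).K)).K ≤ (st (n + (st n).K)).k := by
  obtain ⟨h1, _, h3⟩ := run hk _ le_rfl
  rw [h3]
  unfold St.K at h1 ⊢
  rw [h1]

theorem starts : ∀ L : ℕ, ∃ n, (st n).k = 0 ∧ L ≤ (st n).l ∧ L ≤ (st n).s ∧ L ≤ n
  | 0 => ⟨0, rfl, Nat.zero_le _, Nat.zero_le _, le_rfl⟩
  | L + 1 => by
    obtain ⟨n, hk, h1, h2, h3⟩ := starts L
    obtain ⟨e1, e2, _⟩ := run hk _ le_rfl
    have h4 := run_end hk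
    have hI := inv_st (n + (st n).K)
    refine ⟨n + (st n).K + 1, ?_⟩
    have : st (n + (st n).K + 1) = (st (n + (st n).K)).nx := rfl
    rw [this, nx3 h4]
    have h5 := hI.big h4
    have h6 := R_two hI.m1
    have h7 : 1 ≤ 2 ^ (st (n + (st n).K)).k := Nat.one_le_two_pow
    have h8 := Nat.mul_le_mul (Nat.mul_le_mul_left (st (n + (st n).K)).l h7) h6
    have h9 := hI.l
    refine ⟨rfl, ?_, ?_, by omega⟩ <;> simp only <;> omega

end Cd

open Cd in
theorem codeStmt (hM : MixStmt) : CodeStmt := by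
  choose sb hg using fun n => ex_good hM (inv_st n)
  refine ⟨code sb, fun n => R_two (inv_st n).m1, fun n => ?_, fun n y => ?_, fun n0 => ?_,
    fun L => ?_⟩
  · change (st n).nx.m ≤ (st n).R * (st n).m
    have h0 := Nat.mul_le_mul_right (st n).m (R_two (inv_st n).m1)
    by_cases h1 : (st n).k < 4 * (st n).l
    · rw [nx1 h1]; exact h0
    by_cases h2 : (st n).k < (st n).K
    · rw [nx2 (not_lt.1 h1) h2]; simp only; omega
    · rw [nx3 (not_lt.1 h2)]; simp only; omega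
  · by_cases h2 : (st n).k < (st n).K
    · have e : (code sb).R n = 2 := R_lt h2
      rw [e]
      exact ((hg n).1 h2).reg y
    · exact ((hg n).2.2 (not_lt.1 h2)).reg y
  · obtain ⟨n, hk, _, _, h3⟩ := starts n0
    exact ⟨n + (st n).K, by omega, ((hg _).2.2 (run_end hk)).1⟩
  · obtain ⟨n, hk, h1, h2, _⟩ := starts L
    have eh : (code sb).h n = (st n).l := by rw [h_eq, hk]; simp
    have em : (code sb).m n = (st n).s := by
      have h4 := (inv_st n).e
      rw [hk] at h4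
      change (st n).m = (st n).s
      simp at h4
      omega
    refine ⟨n, by rw [eh]; exact h1, by rw [em]; exact h2, dist hg n hk, fun k hk' => ?_⟩
    rw [eh] at hk' ⊢
    rw [em]
    obtain ⟨e1, e2, e3⟩ := run hk k hk'.le
    have h4 : (st (n + k)).k < (st (n + k)).K := by
      unfold St.K
      rw [e1, e3]; exact hk'
    refine ⟨R_lt h4, ((hg _).1 h4).1, fun h5 => ?_⟩
    have h6 := (hg (n + k)).2.1 (by rw [e1, e3]; exact h5) h4
    rw [e1, e2, e3] at h6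
    exact h6

end Vale.Agent.P109
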