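import Vale.Agent.P109.Base

open MeasureTheory Finset
open scoped ENNReal

namespace Vale.Agent.P109

namespace EntM

theorem gibbs {X A : Type} [MeasurableSpace X] [Fintype A] [MeasurableSpace A]
    [DiscreteMeasurableSpace A] (ν : Measure X) [IsProbabilityMeasure ν] (f : X → A)
    (hf : Measurable f) (q : A → ℝ) (hq : ∀ a, 0 < q a) (h1 : ∑ a, q a ≤ 1) (G : X → ℝ)
    (hG : Integrable G ν) (hle : ∀ᵐ x ∂ν, -Real.log (q (f x)) ≤ G x) :
    ∑ a, Real.negMulLog (ν.real (f ⁻¹' {a})) ≤ ∫ x, G x ∂ν := by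
  haveI : IsProbabilityMeasure (ν.map f) := Measure.isProbabilityMeasure_map hf.aemeasurable
  have e1 : ∀ a, ν.real (f ⁻¹' {a}) = (ν.map f).real {a} := fun a =>
    (map_measureReal_apply hf (measurableSet_singleton a)).symm
  have hi : Integrable (fun a => -Real.log (q a)) (ν.map f) := Integrable.of_finite
  have e2 : ∫ x, -Real.log (q (f x)) ∂ν = ∑ a, (ν.map f).real {a} * -Real.log (q a) := by
    rw [← integral_map (f := fun a => -Real.log (q a)) hf.aemeasurable hi.aestronglyMeasurable,
      integral_fintype hi]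
    rfl
  have e3 : ∑ a, (ν.map f).real {a} = 1 := by simp
  have e4 : ∀ p r : ℝ, 0 ≤ p → 0 < r → Real.negMulLog p ≤ p * -Real.log r + (r - p) := by
    intro p r hp hr
    rcases hp.eq_or_lt with rfl | hp
    · simpa using hr.le
    · have := mul_le_mul_of_nonneg_left (Real.log_le_sub_one_of_pos (div_pos hr hp)) hp.le
      rw [Real.log_div hr.ne' hp.ne', mul_sub p (r / p), mul_div_cancel₀ _ hp.ne'] at this
      rw [Real.negMulLog]; linarith
  calc ∑ a, Real.negMulLog (ν.real (f ⁻¹' {a}))
      ≤ ∑ a, ((ν.map f).real {a} * -Real.log (q a) + (q a - (ν.map f).real {a})) :=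
        sum_le_sum fun a _ => by rw [e1]; exact e4 _ _ measureReal_nonneg (hq a)
    _ ≤ ∫ x, -Real.log (q (f x)) ∂ν := by
        rw [sum_add_distrib, sum_sub_distrib, e3, e2]; linarith
    _ ≤ _ := integral_mono_ae ((integrable_map_measure hi.aestronglyMeasurable
        hf.aemeasurable).1 hi) hG hle

theorem name_le {X I : Type} [MeasurableSpace X] [Fintype I] [Nonempty I] (ν : Measure X)
    [IsProbabilityMeasure ν] (S : X → X) (hS : MeasurePreserving S ν ν) {k : ℕ} (hk : 0 < k)
    (P P' : X → Fin k) (hP : Measurable P) (hP' : Measurable P') (N : ℕ)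
    (b : I → Fin N → Fin k) (hb : ∀ᵐ x ∂ν, ∃ i, ∀ t : Fin N, P' (S^[t] x) = b i t) :
    nameEnt ν S P N ≤ Real.log (Fintype.card I) +
      N * (Real.log 2 + Real.log k * ν.real {x | P x ≠ P' x}) := by
  have hE : MeasurableSet {x | P x ≠ P' x} := (measurableSet_eq_fun hP hP').compl
  have hk' : (0 : ℝ) < k := by exact_mod_cast hk
  have hk1 : (1 : ℝ) ≤ k := by exact_mod_cast hk
  have hI : (0 : ℝ) < Fintype.card I := by exact_mod_cast Fintype.card_pos
  have hf : Measurable fun x (t : Fin N) => P (S^[t] x) :=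
    measurable_pi_lambda _ fun t => hP.comp (hS.measurable.iterate t)
  have hw : ∀ u v : Fin k, (0 : ℝ) < (if u = v then 1 / 2 else 0) + 1 / (2 * k) := fun u v => by
    split_ifs <;> positivity
  have hi : ∀ t : Fin N, Integrable ((S^[t] ⁻¹' {x | P x ≠ P' x}).indicator (1 : X → ℝ)) ν :=
    fun t => (integrable_const (1 : ℝ)).indicator ((hS.measurable.iterate t) hE)
  have hj : ∀ t : Fin N, Integrable (fun x => Real.log 2 + Real.log k *
      (S^[t] ⁻¹' {x | P x ≠ P' x}).indicator (1 : X → ℝ) x) ν :=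
    fun t => (integrable_const _).add ((hi t).const_mul _)
  have := gibbs ν _ hf
    (fun a => (∑ i, ∏ t, ((if a t = b i t then (1 / 2 : ℝ) else 0) + 1 / (2 * k))) /
      Fintype.card I)
    (fun a => div_pos (sum_pos (fun i _ => prod_pos fun t _ => hw _ _) univ_nonempty) hI)
    (by
      rw [← sum_div, sum_comm, div_le_one hI]
      refine (sum_le_sum fun i _ => (?_ : _ ≤ (1 : ℝ))).trans (by simp)
      rw [← Fintype.piFinset_univ, ← prod_univ_sum (fun _ => univ)
        fun t u => (if u = b i t then (1 / 2 : ℝ) else 0) + 1 / (2 * k)]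
      refine le_of_eq (prod_eq_one fun t _ => ?_)
      rw [sum_add_distrib, sum_ite_eq' univ, if_pos (mem_univ _), sum_const, card_univ,
        Fintype.card_fin, nsmul_eq_mul]
      field_simp; norm_num)
    (fun x => Real.log (Fintype.card I) + ∑ t : Fin N, (Real.log 2 + Real.log k *
      (S^[t] ⁻¹' {x | P x ≠ P' x}).indicator (1 : X → ℝ) x))
    ((integrable_const _).add (integrable_finsetSum _ fun t _ => hj t))
    (by
      filter_upwards [hb] with x ⟨i, hx⟩
      have h1 : (0 : ℝ) < ∏ t : Fin N,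
          ((if P (S^[t] x) = b i t then (1 / 2 : ℝ) else 0) + 1 / (2 * k)) :=
        prod_pos fun t _ => hw _ _
      have h2 := single_le_sum (s := univ) (f := fun i => ∏ t : Fin N,
        ((if P (S^[t] x) = b i t then (1 / 2 : ℝ) else 0) + 1 / (2 * k)))
        (fun i _ => (prod_pos fun t _ => hw _ _).le) (mem_univ i)
      have h3 := Real.log_le_log h1 h2
      rw [Real.log_div (h1.trans_le h2).ne' hI.ne']
      rw [Real.log_prod fun t _ => (hw _ _).ne'] at h3
      have h4 : ∀ t : Fin N, -(Real.log 2 + Real.log k *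
          (S^[t] ⁻¹' {x | P x ≠ P' x}).indicator (1 : X → ℝ) x) ≤
          Real.log ((if P (S^[t] x) = b i t then (1 / 2 : ℝ) else 0) + 1 / (2 * k)) := by
        intro t
        rw [← hx t]
        by_cases h : P (S^[t] x) = P' (S^[t] x)
        · rw [if_pos h, Set.indicator_of_notMem (by simpa using h), mul_zero, add_zero,
            ← Real.log_inv]
          exact Real.log_le_log (by norm_num)
            (by rw [one_div]; exact le_add_of_nonneg_right (by positivity))
        · rw [if_neg h, Set.indicator_of_mem (by simpa using h), Pi.one_apply, mul_one, zero_add,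
            one_div, Real.log_inv, Real.log_mul two_ne_zero hk'.ne']
      have h5 := sum_le_sum fun t (_ : t ∈ univ) => h4 t
      rw [sum_neg_distrib] at h5
      linarith)
  rw [integral_add (integrable_const _) (integrable_finsetSum _ fun t _ => hj t),
    integral_finsetSum _ fun t _ => hj t,
    sum_congr rfl fun t _ => integral_add (integrable_const _) ((hi t).const_mul _)] at this
  simp only [integral_const, probReal_univ, smul_eq_mul, one_mul, integral_const_mul,
    integral_indicator_one ((hS.measurable.iterate _) hE),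
    (hS.iterate _).measureReal_preimage hE.nullMeasurableSet, sum_const, card_univ,
    Fintype.card_fin, nsmul_eq_mul] at this
  refine le_trans (le_of_eq (sum_congr rfl fun a _ => ?_)) this
  congr 2
  ext x
  simp [funext_iff]

theorem m_le {c : Code} (hc : c.Ok) (n : ℕ) : c.m n ≤ c.h n * c.m 0 := by
  induction n with
  | zero => simp [Code.h]
  | succ n ih =>
    refine (hc.le n).trans ((Nat.mul_le_mul_left _ ih).trans (le_of_eq ?_))
    rw [show c.h (n + 1) = c.h n * c.R n from rfl]; ring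

variable {c : Code} {M : Type} [MeasurableSpace M] {ν : Measure M} {S : M → M}

theorem orbit (t : Tw c ν S) (hS : MeasurePreserving S ν ν) (hf : TwFacts t) (n : ℕ) :
    ∀ᵐ x ∂ν, ∀ s, t.p n (S^[s] x) = (t.p n x + s) % c.h n ∧
      t.w n (S^[s] x) = t.w n (S^[(t.p n x + s) / c.h n * c.h n - t.p n x] x) := by
  have h1 := ae_all_iff.2 fun s : ℕ =>
    (hS.iterate s).quasiMeasurePreserving.ae ((t.step n).and (hf.wrap n))
  filter_upwards [h1] with x hx s
  have hl := t.lt n x
  have hh : 0 < c.h n := by omega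
  induction s with
  | zero => simp [Nat.mod_eq_of_lt hl, Nat.div_eq_of_lt hl]
  | succ s ih =>
    obtain ⟨a1, a2⟩ := hx s
    rw [Function.iterate_succ_apply']
    refine ⟨by rw [a2, ih.1, ← add_assoc, Nat.mod_add_mod], ?_⟩
    have e := Nat.div_add_mod (t.p n x + s) (c.h n)
    have e' := Nat.mod_lt (t.p n x + s) hh
    by_cases h : t.p n (S^[s] x) + 1 < c.h n
    · rw [(a1 h).1, ih.2]
      rw [ih.1] at h
      have : (t.p n x + (s + 1)) / c.h n = (t.p n x + s) / c.h n := by
        rw [Nat.div_eq_iff hh, mul_comm]; omega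
      rw [this]
    · rw [ih.1] at h
      have e1 : t.p n x + (s + 1) = c.h n * ((t.p n x + s) / c.h n + 1) := by
        rw [mul_add]; omega
      have : (t.p n x + (s + 1)) / c.h n * c.h n - t.p n x = s + 1 := by
        rw [e1, Nat.mul_div_cancel_left _ hh, mul_comm, ← e1]; omega
      rw [this, Function.iterate_succ_apply']

theorem approx (t : Tw c ν S) (hg : t.Gen) {k : ℕ} (hk : 0 < k) (P : M → Fin k)
    (hP : Measurable P) {ε : ℝ} (hε : 0 < ε) : ∃ (n : ℕ) (g : Fin (2 ^ c.m n) × ℕ → Fin k),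
      ν {x | P x ≠ g (t.w n x, t.p n x)} ≤ ENNReal.ofReal (k * ε) := by
  classical
  choose n0 hn0 using fun i : Fin k => hg (P ⁻¹' {i}) (hP (measurableSet_singleton i)) ε hε
  choose B hB using fun i => hn0 i (univ.sup n0) (le_sup (f := n0) (mem_univ i))
  generalize univ.sup n0 = n at B hB
  refine ⟨n, fun y => if h : ∃ i, y ∈ B i then h.choose else ⟨0, hk⟩, ?_⟩
  refine (measure_mono (t := ⋃ i, symmDiff (P ⁻¹' {i})
    {x | (t.w n x, t.p n x) ∈ B i}) fun x hx => ?_).trans ?_
  · simp only [Set.mem_iUnion, Set.mem_symmDiff, Set.mem_ofPred_eq, Set.mem_preimage,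
      Set.mem_singleton_iff] at hx ⊢
    by_cases h1 : (t.w n x, t.p n x) ∈ B (P x)
    · have h : ∃ i, (t.w n x, t.p n x) ∈ B i := ⟨_, h1⟩
      rw [dif_pos h] at hx
      exact ⟨h.choose, Or.inr ⟨h.choose_spec, hx⟩⟩
    · exact ⟨P x, Or.inl ⟨rfl, h1⟩⟩
  · refine (measure_iUnion_fintype_le _ _).trans ((sum_le_sum fun i _ => hB i).trans ?_)
    rw [sum_const, card_univ, Fintype.card_fin, nsmul_eq_mul, ENNReal.ofReal_mul (by positivity),
      ENNReal.ofReal_natCast]

theorem rate (t : Tw c ν S) (hc : c.Ok) [IsProbabilityMeasure ν] (hS : MeasurePreserving S ν ν)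
    (hf : TwFacts t) (hg : t.Gen) {k : ℕ} (P : M → Fin k) (hP : Measurable P) :
    ∃ C : ℝ, ∀ N : ℕ, nameEnt ν S P N ≤ C + N * (c.m 0 * Real.log 2 + Real.log 2 + 1) := by
  obtain ⟨x0⟩ := nonempty_of_isProbabilityMeasure ν
  have hk : 0 < k := (P x0).pos
  have hk' : (0 : ℝ) < k := by exact_mod_cast hk
  obtain ⟨n, g, hg⟩ := approx t hg hk P hP (ε := 1 / (k * k)) (by positivity)
  have hh : 0 < c.h n := by have := t.lt n x0; omega
  haveI : NeZero (c.h n) := ⟨hh.ne'⟩
  refine ⟨Real.log (c.h n) + 2 * c.m n * Real.log 2, fun N => ?_⟩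
  have h1 := name_le (I := Fin (c.h n) × (Fin (N / c.h n + 2) → Fin (2 ^ c.m n))) ν S hS hk P
    (fun x => g (t.w n x, t.p n x)) hP
    (Measurable.of_discrete.comp ((t.mw n).prodMk (t.mp n))) N
    (fun i s => g (i.2 (Fin.ofNat _ ((i.1 + s) / c.h n)), (i.1 + s) % c.h n))
    (by
      filter_upwards [orbit t hS hf n] with x hx
      refine ⟨(⟨t.p n x, t.lt n x⟩, fun j => t.w n (S^[j * c.h n - t.p n x] x)), fun s => ?_⟩
      have : (t.p n x + s) / c.h n < N / c.h n + 2 := by
        have h2 : t.p n x + s ≤ N + c.h n := by have := t.lt n x; have := s.2; omega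
        have h3 := Nat.div_le_div_right (c := c.h n) h2
        rw [Nat.add_div_right _ hh] at h3; omega
      simp only [Fin.val_ofNat, Nat.mod_eq_of_lt this]
      rw [← (hx s).1, ← (hx s).2])
  have h2 : ν.real {x | P x ≠ g (t.w n x, t.p n x)} ≤ k * (1 / (k * k)) :=
    ENNReal.toReal_le_of_le_ofReal (by positivity) hg
  have h3 : Real.log k * ν.real {x | P x ≠ g (t.w n x, t.p n x)} ≤ 1 := by
    refine (mul_le_mul (Real.log_le_self hk'.le) h2 measureReal_nonneg hk'.le).trans (le_of_eq ?_)
    field_simp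
  have h4 : (N / c.h n + 2) * c.m n ≤ N * c.m 0 + 2 * c.m n := by
    rw [add_mul]
    refine Nat.add_le_add_right ((Nat.mul_le_mul_left _ (m_le hc n)).trans ?_) _
    rw [← mul_assoc]
    exact Nat.mul_le_mul_right _ (Nat.div_mul_le_self _ _)
  have h5 : ((N / c.h n + 2 : ℕ) : ℝ) * c.m n ≤ N * c.m 0 + 2 * c.m n := by exact_mod_cast h4
  simp only [Fintype.card_prod, Fintype.card_fun, Fintype.card_fin] at h1
  rw [Nat.cast_mul, Nat.cast_pow, Nat.cast_pow, Real.log_mul (by positivity) (by positivity),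
    Real.log_pow, Real.log_pow, Nat.cast_ofNat] at h1
  have h6 := mul_le_mul_of_nonneg_right h5 (Real.log_nonneg one_le_two)
  have h7 := mul_le_mul_of_nonneg_left h3 (Nat.cast_nonneg (α := ℝ) N)
  nlinarith

end EntM

theorem entStmt : EntStmt := by
  intro c M _ ν S t hc hp hS hf hg
  refine lt_of_le_of_lt (iSup_le fun k => iSup_le fun P => iSup_le fun hP => ?_)
    (ENNReal.ofReal_lt_top (r := c.m 0 * Real.log 2 + Real.log 2 + 2))
  obtain ⟨C, hC⟩ := EntM.rate t hc hS hf hg P hP
  refine Filter.limsup_le_of_le (h := ?_)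
  filter_upwards [Filter.eventually_ge_atTop ⌈C⌉₊, Filter.eventually_gt_atTop 0] with N h1 h2
  have h3 : C ≤ N := (Nat.le_ceil C).trans (by exact_mod_cast h1)
  refine ENNReal.ofReal_le_ofReal ?_
  rw [div_le_iff₀ (by exact_mod_cast h2)]
  nlinarith [hC N]

end Vale.Agent.P109
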