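import Vale.Agent.P109.Base

open MeasureTheory Finset
open scoped ENNReal

namespace Vale.Agent.P109

namespace ErgM

theorem h_ge {c : Code} (hc : c.Ok) (n : ℕ) : 2 ^ n ≤ c.h n := by
  induction n with
  | zero => exact le_rfl
  | succ n ih => rw [pow_succ]; exact Nat.mul_le_mul ih (hc.two n)

theorem sum_range_mul (f : ℕ → ℕ → ℝ) (h R : ℕ) (hh : 0 < h) :
    ∑ a ∈ range (h * R), f (a / h) (a % h) = ∑ j ∈ range R, ∑ b ∈ range h, f j b := by
  induction R with
  | zero => simp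
  | succ R ih =>
    rw [mul_add, mul_one, sum_range_add, ih, sum_range_succ]
    congr 1
    refine sum_congr rfl fun b hb => ?_
    have hb' := mem_range.1 hb
    rw [Nat.mul_add_div hh, Nat.mul_add_mod, Nat.div_eq_of_lt hb', Nat.mod_eq_of_lt hb', add_zero]

variable {c : Code} {M : Type} [MeasurableSpace M] {ν : Measure M} {S : M → M}

theorem run_P (t : Tw c ν S) (hf : TwFacts t) (n : ℕ) : ∀ᵐ x ∂t.P n,
    ∀ a < c.h n, t.w n (S^[a] x) = t.w n x ∧ t.p n (S^[a] x) = a := by
  refine Measure.ae_smul_measure ?_ _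
  have hm : MeasurableSet {x | t.p n x = 0} := t.mp n (measurableSet_singleton 0)
  filter_upwards [ae_restrict_of_ae (hf.run n), ae_restrict_mem hm] with x h1 h2 using h1 h2

theorem int_cnt (t : Tw c ν S) (hf : TwFacts t) [IsProbabilityMeasure ν] (hS : Measurable S)
    (n : ℕ) {B : Set M} (hB : MeasurableSet B) :
    ∫ x, ∑ a ∈ range (c.h n), (S^[a] ⁻¹' B).indicator (1 : M → ℝ) x ∂t.P n =
      c.h n * ν.real B := by
  haveI := hf.prob n
  have hi : ∀ a, Integrable ((S^[a] ⁻¹' B).indicator (1 : M → ℝ)) (t.P n) := fun a =>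
    (integrable_const (1 : ℝ)).indicator ((hS.iterate a) hB)
  rw [integral_finsetSum _ fun a _ => hi a]
  simp only [integral_indicator_one ((hS.iterate _) hB)]
  have := congrArg ENNReal.toReal (hf.avg n B hB)
  rw [ENNReal.toReal_sum fun _ _ => measure_ne_top _ _, ENNReal.toReal_mul,
    ENNReal.toReal_natCast] at this
  exact this

open Classical in
theorem cnt_const (hc : c.Ok) (n : ℕ)
    (hq : ∀ x y, ((range (c.R n)).filter fun j => c.sub n x j = y).card * 2 ^ c.m n = c.R n)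
    (B : Set (Fin (2 ^ c.m n) × ℕ)) : ∃ N0 : ℝ, ∀ ω : Fin (2 ^ c.m (n + 1)),
      ∑ a ∈ range (c.h (n + 1)),
        (if (c.sub n ω (a / c.h n), a % c.h n) ∈ B then (1 : ℝ) else 0) = N0 := by
  refine ⟨∑ b ∈ range (c.h n), ∑ y, (if (y, b) ∈ B then (1 : ℝ) else 0) * (c.R n / 2 ^ c.m n),
    fun ω => ?_⟩
  have hh : 0 < c.h n := lt_of_lt_of_le (by positivity) (h_ge hc n)
  rw [show c.h (n + 1) = c.h n * c.R n from rfl,
    sum_range_mul (fun j b => if (c.sub n ω j, b) ∈ B then (1 : ℝ) else 0) _ _ hh, sum_comm]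
  refine sum_congr rfl fun b _ => ?_
  rw [← sum_fiberwise (range (c.R n)) (fun j => c.sub n ω j)]
  refine sum_congr rfl fun y _ => ?_
  rw [sum_congr rfl fun j hj => by rw [(mem_filter.1 hj).2], sum_const, nsmul_eq_mul, mul_comm]
  congr 1
  rw [eq_div_iff (by positivity)]
  exact_mod_cast hq ω y

theorem key (t : Tw c ν S) (hc : c.Ok) [IsProbabilityMeasure ν] (hS : Measurable S)
    (hf : TwFacts t) (hg : t.Gen) {A : Set M} (hA : MeasurableSet A) (hi : S ⁻¹' A = A)
    {ε : ℝ} (hε : 0 < ε) : ν.real A * (1 - ν.real A) ≤ ε := by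
  classical
  obtain ⟨n0, hn0⟩ := hg A hA ε hε
  obtain ⟨n, hn, hq⟩ := hc.freq n0
  obtain ⟨B, hB⟩ := hn0 n hn
  obtain ⟨N0, hN⟩ := cnt_const hc n hq B
  haveI := hf.prob (n + 1)
  have hH : (0 : ℝ) < c.h (n + 1) := by
    exact_mod_cast lt_of_lt_of_le (by positivity) (h_ge hc (n + 1))
  have hit : ∀ a, S^[a] ⁻¹' A = A := fun a => Function.IsFixedPt.preimage_iterate hi a
  have hA' : MeasurableSet {x | (t.w n x, t.p n x) ∈ B} :=
    ((t.mw n).prodMk (t.mp n)) MeasurableSet.of_discrete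
  have h1 := int_cnt t hf hS (n + 1) hA
  simp only [hit, sum_const, card_range, nsmul_eq_mul] at h1
  rw [integral_const_mul, integral_indicator_one hA] at h1
  have h1 := mul_left_cancel₀ hH.ne' h1
  have h2 := int_cnt t hf hS (n + 1) (hA.symmDiff hA')
  have hN0 : 0 ≤ N0 := by
    rw [← hN default]; exact sum_nonneg fun _ _ => by split_ifs <;> norm_num
  have hN1 : N0 ≤ c.h (n + 1) := by
    rw [← hN default]
    refine (sum_le_sum fun _ _ => (by split_ifs <;> norm_num : _ ≤ (1 : ℝ))).trans ?_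
    simp
  have h3 : ∀ᵐ x ∂t.P (n + 1), ∑ a ∈ range (c.h (n + 1)),
      (S^[a] ⁻¹' symmDiff A {x | (t.w n x, t.p n x) ∈ B}).indicator (1 : M → ℝ) x =
      N0 + (c.h (n + 1) - 2 * N0) * A.indicator 1 x := by
    filter_upwards [run_P t hf (n + 1)] with x hx
    have e : ∀ a ∈ range (c.h (n + 1)),
        (S^[a] ⁻¹' symmDiff A {x | (t.w n x, t.p n x) ∈ B}).indicator (1 : M → ℝ) x =
        (if (c.sub n (t.w (n + 1) x) (a / c.h n), a % c.h n) ∈ B then (1 : ℝ) else 0) +
        (1 - 2 * (if (c.sub n (t.w (n + 1) x) (a / c.h n), a % c.h n) ∈ B then (1 : ℝ) else 0)) *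
          A.indicator 1 x := by
      intro a ha
      obtain ⟨b1, b2⟩ := hx a (mem_range.1 ha)
      have b3 : S^[a] x ∈ A ↔ x ∈ A := by rw [← Set.mem_preimage, hit]
      simp only [Set.indicator_apply, Set.mem_preimage, Set.mem_symmDiff, Set.mem_ofPred_eq, b3,
        t.wsub n (S^[a] x), t.pmod n (S^[a] x), b1, b2, Pi.one_apply]
      by_cases c1 : x ∈ A <;>
        by_cases c2 : (c.sub n (t.w (n + 1) x) (a / c.h n), a % c.h n) ∈ B <;>
        simp [c1, c2] <;> norm_num
    rw [sum_congr rfl e, sum_add_distrib, ← sum_mul, sum_sub_distrib, ← mul_sum, hN]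
    simp
  have hiA : Integrable (A.indicator (1 : M → ℝ)) (t.P (n + 1)) :=
    (integrable_const (1 : ℝ)).indicator hA
  rw [integral_congr_ae h3, integral_add (integrable_const _) (hiA.const_mul _), integral_const_mul,
    integral_indicator_one hA, h1] at h2
  simp only [integral_const, probReal_univ, smul_eq_mul, one_mul] at h2
  have h4 : ν.real (symmDiff A {x | (t.w n x, t.p n x) ∈ B}) ≤ ε :=
    ENNReal.toReal_le_of_le_ofReal hε.le hB
  have h5 : 0 ≤ ν.real A := measureReal_nonneg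
  have h6 : ν.real A ≤ 1 := measureReal_le_one
  refine le_of_mul_le_mul_left ?_ hH
  nlinarith [mul_le_mul_of_nonneg_left h4 hH.le, mul_nonneg (mul_nonneg h5 h5) (sub_nonneg.2 hN1),
    mul_nonneg (mul_nonneg (sub_nonneg.2 h6) (sub_nonneg.2 h6)) hN0]

end ErgM

theorem ergStmt : ErgStmt := by
  intro c M _ ν S t hc hp hS hf hg
  refine ⟨⟨hS, ⟨fun A hA hi => ?_⟩⟩, ⟨fun x => ?_⟩⟩
  · have h1 : ν.real A * (1 - ν.real A) ≤ 0 :=
      le_of_forall_pos_le_add fun ε hε => by
        simpa using ErgM.key t hc hS.measurable hf hg hA hi hε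
    have h5 : 0 ≤ ν.real A := measureReal_nonneg
    have h6 : ν.real A ≤ 1 := measureReal_le_one
    rw [Filter.eventuallyConst_set]
    rcases mul_eq_zero.1 (le_antisymm h1 (mul_nonneg h5 (sub_nonneg.2 h6))) with h | h
    · right
      exact measure_eq_zero_iff_ae_notMem.1 ((measureReal_eq_zero_iff (measure_ne_top _ _)).1 h)
    · left
      rw [← probReal_compl_eq_one_sub hA] at h
      exact (measureReal_eq_zero_iff (measure_ne_top _ _)).1 h
  · have h1 : ∀ n : ℕ, ν {x} ≤ 2⁻¹ ^ n := fun n => by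
      refine (measure_mono (t := {y | t.w n y = t.w n x ∧ t.p n y = t.p n x}) ?_).trans ?_
      · rintro y rfl; exact ⟨rfl, rfl⟩
      · rw [t.law n _ _ (t.lt n x), ← ENNReal.inv_pow, ENNReal.inv_le_inv]
        exact_mod_cast (ErgM.h_ge hc n).trans (Nat.le_mul_of_pos_left _ (by positivity))
    exact le_antisymm (ge_of_tendsto' (ENNReal.tendsto_pow_atTop_nhds_zero_of_lt_one
      ENNReal.one_half_lt_one) h1) zero_le

end Vale.Agent.P109
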