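import Vale.Agent.P109.Base

open MeasureTheory Finset
open scoped ENNReal

namespace Vale.Agent.P109

namespace Fanom

variable (c : Code) (n : ℕ) {g : ℕ} (u : Fin g → Fin (2 ^ c.m 0))

/-- number of mismatches -/
def mis (a : Fin (2 ^ c.m n)) (y : Fin (c.h n) → Fin g) : ℕ :=
  (univ.filter fun p : Fin (c.h n) => c.spell n a p ≠ u (y p)).card

open Classical in
/-- the decoder -/
noncomputable def dec (y : Fin (c.h n) → Fin g) : Fin (2 ^ c.m n) :=
  if h : ∃ a, 4 * mis c n u a y < c.h n then h.choose else ⟨0, by positivity⟩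

theorem dec_eq (hD : c.Dist n) (a : Fin (2 ^ c.m n)) (y : Fin (c.h n) → Fin g)
    (h : 4 * mis c n u a y < c.h n) : a = dec c n u y := by
  have he : ∃ a, 4 * mis c n u a y < c.h n := ⟨a, h⟩
  unfold dec
  rw [dif_pos he]
  have h2 := he.choose_spec
  by_contra hne
  have h3 := hD _ _ hne
  have h4 : ((range (c.h n)).filter fun p => c.spell n a p ≠ c.spell n he.choose p).card =
      (univ.filter fun p : Fin (c.h n) => c.spell n a p ≠ c.spell n he.choose p).card := by
    rw [card_filter, card_filter, ← Fin.sum_univ_eq_sum_range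
      (fun p => if c.spell n a p ≠ c.spell n he.choose p then 1 else 0)]
  have h5 : (univ.filter fun p : Fin (c.h n) => c.spell n a p ≠ c.spell n he.choose p).card ≤
      mis c n u a y + mis c n u he.choose y := by
    refine le_trans (card_le_card fun p hp => ?_) (card_union_le _ _)
    simp only [mem_union, mem_filter, mem_univ, true_and] at hp ⊢
    by_contra hc
    push Not at hc
    exact hp (hc.1.trans hc.2.symm)
  omega

end Fanom

theorem fanoStmt : FanoStmt := by
  intro c M _ ν S t n g D u hν hS hD hF hd herr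
  have hP := hF.prob n
  have hne : Nonempty M := nonempty_of_isProbabilityMeasure ν
  have h0 : 0 < c.h n := lt_of_le_of_lt (Nat.zero_le _) (t.lt n (Classical.arbitrary M))
  have h0' : (0 : ℝ) < c.h n := by exact_mod_cast h0
  set err : Set M := {x | u (D x) ≠ t.w 0 x} with herr'
  have hm : MeasurableSet err :=
    (measurableSet_eq_fun ((measurable_of_countable u).comp hD) (t.mw 0)).compl
  have hW : (0 : ℝ) < 2 ^ c.m n := by positivity
  have hW1 : (1 : ℝ) ≤ 2 ^ c.m n := one_le_pow₀ (by norm_num)
  have hl : 0 < Real.log 2 := Real.log_pos (by norm_num)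
  refine ⟨fun a y => (if a = Fanom.dec c n u y then 1 / 2 else 0) + 1 / (2 * 2 ^ c.m n),
    fun a y => by positivity, fun y => ?_, Filter.Eventually.of_forall fun x => by positivity, ?_⟩
  · rw [sum_add_distrib, sum_ite_eq', if_pos (mem_univ _), sum_const, card_univ, Fintype.card_fin,
      nsmul_eq_mul]
    push_cast
    field_simp
    norm_num
  have hi : ∀ p : ℕ, Integrable ((S^[p] ⁻¹' err).indicator fun _ => (1 : ℝ)) (t.P n) := fun p =>
    (integrable_const _).indicator (hS.iterate p hm)
  have key : ∀ᵐ x ∂t.P n, -Real.log ((if t.w n x = Fanom.dec c n u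
      (fun a : Fin (c.h n) => D (S^[a] x)) then 1 / 2 else 0) + 1 / (2 * 2 ^ c.m n)) ≤
      Real.log 2 + c.m n * Real.log 2 * (4 / c.h n) *
        ∑ p ∈ range (c.h n), (S^[p] ⁻¹' err).indicator (fun _ => (1 : ℝ)) x := by
    refine Measure.ae_smul_measure ?_ _
    have hb : MeasurableSet {x | t.p n x = 0} := t.mp n (measurableSet_singleton 0)
    filter_upwards [ae_restrict_mem hb, ae_restrict_of_ae (hF.run n)] with x hx hr
    have hs : ∑ p ∈ range (c.h n), (S^[p] ⁻¹' err).indicator (fun _ => (1 : ℝ)) x =
        Fanom.mis c n u (t.w n x) (fun a : Fin (c.h n) => D (S^[a] x)) := by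
      unfold Fanom.mis
      rw [card_filter, ← Fin.sum_univ_eq_sum_range
        (fun p => (S^[p] ⁻¹' err).indicator (fun _ => (1 : ℝ)) x)]
      push_cast
      refine sum_congr rfl fun p _ => ?_
      have h1 := hr hx p p.2
      have h2 := hF.spell n (S^[p] x)
      rw [h1.1, h1.2] at h2
      rw [← h2]
      split_ifs with h3
      · exact Set.indicator_of_mem (show x ∈ S^[p] ⁻¹' err from fun h => h3 h.symm) _
      · exact Set.indicator_of_notMem (show x ∉ S^[p] ⁻¹' err from fun h => h3 (Ne.symm h)) _
    rw [hs]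
    split_ifs with h
    · have : Real.log (1 / 2) ≤ Real.log (1 / 2 + 1 / (2 * 2 ^ c.m n)) :=
        Real.log_le_log (by norm_num) (le_add_of_nonneg_right (by positivity))
      rw [one_div, Real.log_inv] at this
      have h3 : 0 ≤ c.m n * Real.log 2 * (4 / c.h n) *
          (Fanom.mis c n u (t.w n x) (fun a : Fin (c.h n) => D (S^[a] x)) : ℝ) := by positivity
      rw [one_div (2 : ℝ)]
      linarith
    · have h3 : c.h n ≤ 4 * Fanom.mis c n u (t.w n x) (fun a : Fin (c.h n) => D (S^[a] x)) := by
        by_contra hc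
        exact h (Fanom.dec_eq c n u hd _ _ (not_le.1 hc))
      have h4 : (1 : ℝ) ≤ 4 / c.h n *
          (Fanom.mis c n u (t.w n x) (fun a : Fin (c.h n) => D (S^[a] x)) : ℝ) := by
        rw [div_mul_eq_mul_div, le_div_iff₀ h0', one_mul]
        exact_mod_cast h3
      rw [zero_add, one_div, Real.log_inv, neg_neg, Real.log_mul (by norm_num) hW.ne', Real.log_pow,
        mul_assoc (c.m n * Real.log 2)]
      have h5 : 0 ≤ c.m n * Real.log 2 := by positivity
      nlinarith
  refine (integral_mono_of_nonneg (Filter.Eventually.of_forall fun x => ?_)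
    ((integrable_const _).add ((integrable_finset_sum _ fun p _ => hi p).const_mul _)) key).trans ?_
  · refine neg_nonneg.2 (Real.log_nonpos (by positivity) ?_)
    have : 1 / (2 * (2 : ℝ) ^ c.m n) ≤ 1 / 2 :=
      one_div_le_one_div_of_le (by norm_num) (by linarith)
    split_ifs <;> linarith
  · simp only [Pi.add_apply]
    rw [integral_add (integrable_const _) ((integrable_finset_sum _ fun p _ => hi p).const_mul _),
      integral_const_mul, integral_finset_sum _ fun p _ => hi p]
    simp only [integral_const, probReal_univ, smul_eq_mul, one_mul]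
    have h1 : ∑ p ∈ range (c.h n), ∫ x, (S^[p] ⁻¹' err).indicator (fun _ => (1 : ℝ)) x ∂t.P n =
        c.h n * ν.real err := by
      have := congrArg ENNReal.toReal (hF.avg n err hm)
      rw [ENNReal.toReal_sum (fun p _ => measure_ne_top _ _), ENNReal.toReal_mul,
        ENNReal.toReal_natCast] at this
      rw [← show c.h n * (ν err).toReal = c.h n * ν.real err from rfl, ← this]
      refine sum_congr rfl fun p _ => ?_
      rw [integral_indicator (hS.iterate p hm)]
      simp [Measure.real]
    have h2 : ν.real err ≤ 1 / 64 := ENNReal.toReal_le_of_le_ofReal (by norm_num) herr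
    rw [h1]
    have h3 : c.m n * Real.log 2 * (4 / c.h n) * (c.h n * ν.real err) =
        c.m n * Real.log 2 * (4 * ν.real err) := by field_simp
    have h5 : 0 ≤ c.m n * Real.log 2 := by positivity
    rw [h3]
    nlinarith

end Vale.Agent.P109
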