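import Vale.Agent.P109.Base

open MeasureTheory Finset
open scoped ENNReal

namespace Vale.Agent.P109
namespace Gs

variable {d : ℕ}

theorem g_zero {N : E d → ℝ} (h : Gauge N) : N 0 = 0 := by
  have := h.hom 0 0
  simpa using this

theorem g_nonneg {N : E d → ℝ} (h : Gauge N) (v : E d) : 0 ≤ N v := by
  obtain ⟨c, hc, hl⟩ := h.low
  exact le_trans (by positivity) (hl v)

theorem int_gauss {c : ℝ} (hc : 0 < c) :
    Integrable (fun v : E d => Real.exp (-(c * ‖v‖ ^ 2))) := by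
  have h := (GaussianFourier.integrable_cexp_neg_mul_sq_norm_add (V := E d) (b := (c : ℂ))
    (by simpa using hc) 0 0).norm
  refine h.congr (Filter.Eventually.of_forall fun v => ?_)
  simp only [zero_mul, add_zero]
  rw [Complex.norm_exp]
  congr 1
  have : (-(c : ℂ) * (‖v‖ : ℂ) ^ 2) = ((-(c * ‖v‖ ^ 2) : ℝ) : ℂ) := by push_cast; ring
  rw [this, Complex.ofReal_re]

theorem meas_e {N : E d → ℝ} (h : Gauge N) : Measurable fun v => Real.exp (-N v) :=
  Real.measurable_exp.comp h.meas.neg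

theorem int_e {N : E d → ℝ} (h : Gauge N) : Integrable (fun v => Real.exp (-N v)) := by
  obtain ⟨c, hc, hl⟩ := h.low
  refine (int_gauss hc).mono' (meas_e h).aestronglyMeasurable
    (Filter.Eventually.of_forall fun v => ?_)
  rw [Real.norm_eq_abs, abs_of_pos (Real.exp_pos _)]
  exact Real.exp_le_exp.2 (neg_le_neg (hl v))

theorem pos {N : E d → ℝ} (h : Gauge N) : 0 < gI N :=
  integral_exp_pos (int_e h)

theorem int_sc {N : E d → ℝ} (h : Gauge N) {a : ℝ} (ha : 0 < a) :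
    Integrable (fun v => Real.exp (-N (a • v))) :=
  (int_e h).comp_smul ha.ne'

theorem sc (N : E d → ℝ) {a : ℝ} (ha : 0 < a) :
    ∫ v, Real.exp (-N (a • v)) = (a ^ d)⁻¹ * gI N := by
  have := Measure.integral_comp_smul (volume : Measure (E d)) (fun v => Real.exp (-N v)) a
  rw [this, finrank_euclideanSpace_fin, abs_of_pos (by positivity), smul_eq_mul, gI]

theorem mono (N N' : E d → ℝ) (a : ℝ) (h : Gauge N) (h' : Gauge N') (ha : 0 < a)
    (hle : ∀ v, N' v ≤ a ^ 2 * N v) : gI N ≤ a ^ d * gI N' := by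
  have h1 : ∫ v, Real.exp (-N (a • v)) ≤ gI N' := by
    refine integral_mono (int_sc h ha) (int_e h') fun v => ?_
    simp only [h.hom]
    exact Real.exp_le_exp.2 (neg_le_neg (hle v))
  rw [sc N ha] at h1
  have hp : 0 < a ^ d := by positivity
  calc gI N = a ^ d * ((a ^ d)⁻¹ * gI N) := by field_simp
    _ ≤ a ^ d * gI N' := mul_le_mul_of_nonneg_left h1 hp.le

theorem lin (N : E d → ℝ) (B : Op d) (h : Gauge N) (hB : Gauge (fun v => N (B v))) :
    gI (fun v => N (B v)) * |B.det| = gI N := by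
  have hinj : Function.Injective (B : E d →ₗ[ℝ] E d) := by
    rw [← LinearMap.ker_eq_bot, LinearMap.ker_eq_bot']
    intro v hv
    obtain ⟨c, hc, hl⟩ := hB.low
    have h1 := hl v
    have h2 : B v = 0 := hv
    simp only [h2, g_zero h] at h1
    have h3 : ‖v‖ ^ 2 ≤ 0 := by
      by_contra hn
      push Not at hn
      have := mul_pos hc hn
      linarith
    have h4 : ‖v‖ = 0 := by nlinarith [norm_nonneg v, sq_nonneg ‖v‖]
    exact norm_eq_zero.1 h4
  have hdet : LinearMap.det (B : E d →ₗ[ℝ] E d) ≠ 0 := by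
    have hu : IsUnit (B : E d →ₗ[ℝ] E d) :=
      (LinearMap.isUnit_iff_ker_eq_bot _).2 (LinearMap.ker_eq_bot.2 hinj)
    exact (LinearMap.isUnit_det _ hu).ne_zero
  have hm := Measure.map_linearMap_addHaar_eq_smul_addHaar (volume : Measure (E d)) hdet
  have h1 : gI (fun v => N (B v)) =
      ∫ v, Real.exp (-N v) ∂(Measure.map (B : E d →ₗ[ℝ] E d) volume) := by
    rw [integral_map (by fun_prop) (meas_e h).aestronglyMeasurable]
    rfl
  rw [h1, hm, integral_smul_measure, ENNReal.toReal_ofReal (abs_nonneg _), smul_eq_mul]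
  have h2 : B.det = LinearMap.det (B : E d →ₗ[ℝ] E d) := rfl
  rw [h2, abs_inv, gI]
  have h3 : |LinearMap.det (B : E d →ₗ[ℝ] E d)| ≠ 0 := abs_ne_zero.2 hdet
  field_simp

theorem vol_shift (N : E d → ℝ) (v0 : E d) (r : ℝ) :
    volume {v | N (v - v0) ≤ r ^ 2} = volume {v | N v ≤ r ^ 2} := by
  have := measure_preimage_add_right (volume : Measure (E d)) (-v0) {v | N v ≤ r ^ 2}
  simp only [sub_eq_add_neg]
  exact this

theorem ms {N : E d → ℝ} (h : Gauge N) (r : ℝ) : MeasurableSet {v | N v ≤ r} :=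
  measurableSet_le h.meas measurable_const

theorem up (N : E d → ℝ) (v0 : E d) (r : ℝ) (h : Gauge N) (hr : 0 < r) :
    volume {v | N (v - v0) ≤ r ^ 2} ≤ ENNReal.ofReal (3 * r ^ d * gI N) := by
  rw [vol_shift]
  have hri : 0 < r⁻¹ := inv_pos.2 hr
  have hI := (int_sc h hri).const_mul 3
  have h1 : ∫ v, 3 * Real.exp (-N (r⁻¹ • v)) = 3 * r ^ d * gI N := by
    rw [integral_const_mul, sc N hri, inv_pow, inv_inv, mul_assoc]
  rw [← h1, ofReal_integral_eq_lintegral_ofReal hI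
    (Filter.Eventually.of_forall fun v => by positivity), ← lintegral_indicator_one (ms h _)]
  refine lintegral_mono fun v => ?_
  by_cases hv : v ∈ {v | N v ≤ r ^ 2}
  · rw [Set.indicator_of_mem hv, Pi.one_apply, ENNReal.one_le_ofReal]
    have h2 : N (r⁻¹ • v) ≤ 1 := by
      rw [h.hom, inv_pow, inv_mul_le_iff₀ (by positivity), mul_one]
      exact hv
    have h3 : Real.exp (-1) ≤ Real.exp (-N (r⁻¹ • v)) := Real.exp_le_exp.2 (neg_le_neg h2)
    have h4 : Real.exp 1 ≤ 3 := by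
      have := Real.exp_one_lt_d9
      linarith
    have h5 : Real.exp 1 * Real.exp (-1) = 1 := by rw [← Real.exp_add]; simp
    nlinarith [Real.exp_pos (-1)]
  · rw [Set.indicator_of_notMem hv]
    exact zero_le

theorem vol_fin {N : E d → ℝ} (h : Gauge N) {r : ℝ} (hr : 0 < r) :
    volume {v | N v ≤ r ^ 2} ≠ ⊤ := by
  have := up N 0 r h hr
  simp only [sub_zero] at this
  exact ne_top_of_le_ne_top ENNReal.ofReal_ne_top this

theorem dl (d : ℕ) : Real.exp (-(3 / 4 * ((d : ℝ) + 2) ^ 2)) * 2 ^ d ≤ 1 / 2 := by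
  have h1 : Real.exp (-(3 / 4 * ((d : ℝ) + 2) ^ 2)) ≤ Real.exp (-((d + 1 : ℕ) : ℝ)) := by
    refine Real.exp_le_exp.2 (neg_le_neg ?_)
    push_cast
    have : (0 : ℝ) ≤ d := Nat.cast_nonneg d
    nlinarith
  have h2 : (2 : ℝ) ^ (d + 1) ≤ Real.exp ((d + 1 : ℕ) : ℝ) := by
    rw [← Real.exp_one_pow]
    refine pow_le_pow_left₀ (by norm_num) ?_ _
    have := Real.add_one_le_exp (1 : ℝ)
    linarith
  have h3 : Real.exp (-((d + 1 : ℕ) : ℝ)) * Real.exp ((d + 1 : ℕ) : ℝ) = 1 := by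
    rw [← Real.exp_add]; simp
  have h4 : Real.exp (-((d + 1 : ℕ) : ℝ)) * 2 ^ (d + 1) ≤ 1 := by
    rw [← h3]
    exact mul_le_mul_of_nonneg_left h2 (Real.exp_pos _).le
  have h5 : (0 : ℝ) < 2 ^ d := by positivity
  rw [pow_succ] at h4
  nlinarith

theorem low : ∃ c : ℝ, 0 < c ∧ ∀ (N : E d → ℝ) (v0 : E d) (r : ℝ), Gauge N → 0 < r →
    ENNReal.ofReal (c * r ^ d * gI N) ≤ volume {v | N (v - v0) ≤ r ^ 2} := by
  refine ⟨1 / (2 * ((d : ℝ) + 2) ^ d), by positivity, fun N v0 r h hr => ?_⟩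
  rw [vol_shift]
  set ρ : ℝ := (d : ℝ) + 2 with hρ
  have hρ0 : 0 < ρ := by positivity
  set a : ℝ := ρ / r with ha
  have ha0 : 0 < a := by positivity
  have ha2 : 0 < a / 2 := by positivity
  set δ : ℝ := Real.exp (-(3 / 4 * ρ ^ 2)) with hδ
  have hδ0 : 0 < δ := Real.exp_pos _
  have hY := ms h (r ^ 2)
  have hI1 : Integrable ({v | N v ≤ r ^ 2}.indicator (fun _ : E d => (1 : ℝ))) :=
    (integrable_indicator_iff hY).2 (integrableOn_const (vol_fin h hr))
  have h1 : ∫ v, Real.exp (-N (a • v)) ≤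
      ∫ v, ({v | N v ≤ r ^ 2}.indicator (fun _ : E d => (1 : ℝ)) v +
        δ * Real.exp (-N ((a / 2) • v))) := by
    refine integral_mono (int_sc h ha0) (hI1.add ((int_sc h ha2).const_mul δ)) fun v => ?_
    have hp : 0 < δ * Real.exp (-N ((a / 2) • v)) := by positivity
    by_cases hv : v ∈ {v | N v ≤ r ^ 2}
    · simp only [Set.indicator_of_mem hv]
      have : Real.exp (-N (a • v)) ≤ 1 := Real.exp_le_one_iff.2 (neg_nonpos.2 (g_nonneg h _))
      linarith
    · simp only [Set.indicator_of_notMem hv, zero_add]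
      rw [hδ, ← Real.exp_add, h.hom, h.hom]
      refine Real.exp_le_exp.2 ?_
      have h2 : r ^ 2 < N v := not_le.1 hv
      have h3 : a ^ 2 * r ^ 2 = ρ ^ 2 := by rw [ha]; field_simp
      have h4 : a ^ 2 * r ^ 2 ≤ a ^ 2 * N v := mul_le_mul_of_nonneg_left h2.le (sq_nonneg a)
      nlinarith
  rw [integral_add hI1 ((int_sc h ha2).const_mul δ), integral_const_mul, sc N ha0, sc N ha2,
    integral_indicator hY, setIntegral_const, smul_eq_mul, mul_one] at h1
  have hg := pos h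
  have h6 : δ * (((a / 2) ^ d)⁻¹ * gI N) = (δ * 2 ^ d) * ((a ^ d)⁻¹ * gI N) := by
    rw [div_pow]; field_simp
  have h7 : δ * 2 ^ d ≤ 1 / 2 := dl d
  have h8 : 0 < (a ^ d)⁻¹ * gI N := by positivity
  have h9 : 1 / (2 * ρ ^ d) * r ^ d * gI N = 1 / 2 * ((a ^ d)⁻¹ * gI N) := by
    rw [ha, div_pow]; field_simp
  rw [h9, ← ENNReal.ofReal_toReal (vol_fin h hr)]
  refine ENNReal.ofReal_le_ofReal ?_
  rw [h6] at h1
  have h10 := mul_le_mul_of_nonneg_right h7 h8.le
  have h11 : (volume {v | N v ≤ r ^ 2}).toReal = volume.real {v | N v ≤ r ^ 2} := rfl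
  linarith

theorem slab (K : ℝ) (hK : 1 ≤ K) : ∃ C : ℝ, 1 ≤ C ∧ ∀ q : E d → ℝ, Gauge q →
    (∀ g g', q (g - g') ≤ 2 * q g + 2 * q g') → (∀ g, ‖g‖ ^ 2 ≤ K ^ 2 * q g) →
    ∀ g, q g * gI q ^ 2 ≤ C ^ 2 * ‖g‖ ^ 2 := by
  obtain ⟨c, hc, hl⟩ := low (d := d)
  set V : ℝ := volume.real (Metric.closedBall (0 : E d) (K + 3)) with hV
  have hV0 : 0 ≤ V := measureReal_nonneg
  refine ⟨max 1 (V / c), le_max_left _ _, fun q hq hs hk => ?_⟩
  have hg := pos hq
  have unit : ∀ g0 : E d, ‖g0‖ = 1 → q g0 * gI q ^ 2 ≤ (V / c) ^ 2 := by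
    intro g0 h0
    have hΛ : 0 < q g0 := by
      obtain ⟨c', hc', hl'⟩ := hq.low
      have := hl' g0
      rw [h0] at this
      linarith
    set s : ℝ := Real.sqrt (q g0) with hs'
    have hs0 : 0 < s := Real.sqrt_pos.2 hΛ
    have hss : s ^ 2 = q g0 := Real.sq_sqrt hΛ.le
    set k : ℕ := ⌈s⌉₊ with hk'
    set Y : ℕ → Set (E d) := fun j => {v | q (v - ((j : ℝ) * (3 / s)) • g0) ≤ 1 ^ 2} with hY
    have hm : ∀ j, MeasurableSet (Y j) := fun j =>
      measurableSet_le (hq.meas.comp (measurable_id.sub_const _)) measurable_const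
    have hdis : ((range k : Finset ℕ) : Set ℕ).PairwiseDisjoint Y := by
      intro i _ j _ hij
      rw [Function.onFun, Set.disjoint_left]
      intro v hi hj
      have h1 : q (v - ((i : ℝ) * (3 / s)) • g0) ≤ 1 ^ 2 := hi
      have h2 : q (v - ((j : ℝ) * (3 / s)) • g0) ≤ 1 ^ 2 := hj
      have h3 := hs (v - ((i : ℝ) * (3 / s)) • g0) (v - ((j : ℝ) * (3 / s)) • g0)
      have h4 : v - ((i : ℝ) * (3 / s)) • g0 - (v - ((j : ℝ) * (3 / s)) • g0) =
          (((j : ℝ) - i) * (3 / s)) • g0 := by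
        rw [sub_mul, sub_smul]; abel
      rw [h4, hq.hom, ← hss] at h3
      have h5 : (((j : ℝ) - i) * (3 / s)) ^ 2 * s ^ 2 = 9 * ((j : ℝ) - i) ^ 2 := by
        field_simp; ring
      have h6 : (1 : ℝ) ≤ ((j : ℝ) - i) ^ 2 := by
        have h7 : ((j : ℤ) - i) ≠ 0 := sub_ne_zero.2 (by exact_mod_cast hij.symm)
        have h8 : (1 : ℤ) ≤ ((j : ℤ) - i) ^ 2 := by
          have := sq_pos_of_ne_zero h7
          omega
        exact_mod_cast h8
      rw [h5] at h3
      linarith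
    have hsub : (⋃ j ∈ range k, Y j) ⊆ Metric.closedBall (0 : E d) (K + 3) := by
      intro v hv
      simp only [Set.mem_iUnion] at hv
      obtain ⟨j, hj, hv⟩ := hv
      have h1 : q (v - ((j : ℝ) * (3 / s)) • g0) ≤ 1 ^ 2 := hv
      have h2 := hk (v - ((j : ℝ) * (3 / s)) • g0)
      have h3 : ‖v - ((j : ℝ) * (3 / s)) • g0‖ ≤ K := by
        refine abs_le_of_sq_le_sq' ?_ (by linarith) |>.2
        nlinarith [sq_nonneg K]
      have h4 : (j : ℝ) < s := Nat.lt_ceil.1 (mem_range.1 hj)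
      have h5 : ‖((j : ℝ) * (3 / s)) • g0‖ ≤ 3 := by
        rw [norm_smul, h0, mul_one, Real.norm_eq_abs, abs_of_nonneg (by positivity),
          ← mul_div_assoc, div_le_iff₀ hs0]
        linarith
      rw [mem_closedBall_zero_iff]
      have h6 := norm_add_le (v - ((j : ℝ) * (3 / s)) • g0) (((j : ℝ) * (3 / s)) • g0)
      rw [sub_add_cancel] at h6
      linarith
    have h1 := measure_mono (μ := (volume : Measure (E d))) hsub
    rw [measure_biUnion_finset hdis fun j _ => hm j] at h1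
    have h2 : ∑ _j ∈ range k, ENNReal.ofReal (c * 1 ^ d * gI q) ≤ ∑ j ∈ range k, volume (Y j) :=
      sum_le_sum fun j _ => hl q _ 1 hq one_pos
    have hfin : volume (Metric.closedBall (0 : E d) (K + 3)) ≠ ⊤ :=
      measure_closedBall_lt_top.ne
    have h3 := h2.trans h1
    rw [← ENNReal.ofReal_sum_of_nonneg (fun _ _ => by positivity),
      ← ENNReal.ofReal_toReal hfin, ENNReal.ofReal_le_ofReal_iff ENNReal.toReal_nonneg,
      sum_const, card_range, nsmul_eq_mul, one_pow, mul_one] at h3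
    have h4 : s ≤ k := Nat.le_ceil s
    have h5 : s * gI q ≤ V / c := by
      rw [le_div_iff₀ hc]
      have h6 : s * (c * gI q) ≤ k * (c * gI q) := mul_le_mul_of_nonneg_right h4 (by positivity)
      have h7 : (volume (Metric.closedBall (0 : E d) (K + 3))).toReal = V := rfl
      nlinarith
    rw [← hss, ← mul_pow]
    exact pow_le_pow_left₀ (by positivity) h5 2
  intro g
  by_cases h0 : g = 0
  · simp [h0, g_zero hq]
  · have hn : 0 < ‖g‖ := norm_pos_iff.2 h0
    have h1 := unit (‖g‖⁻¹ • g) (by rw [norm_smul, norm_inv, norm_norm]; field_simp)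
    have h2 : (V / c) ^ 2 ≤ (max 1 (V / c)) ^ 2 :=
      pow_le_pow_left₀ (by positivity) (le_max_right _ _) 2
    have h3 : q g = ‖g‖ ^ 2 * q (‖g‖⁻¹ • g) := by
      rw [hq.hom]; field_simp
    rw [h3, mul_assoc, mul_comm _ (‖g‖ ^ 2)]
    exact mul_le_mul_of_nonneg_left (h1.trans h2) (sq_nonneg _)

theorem ofR {N : E d → ℝ} (h : Gauge N) :
    ∫⁻ v, ENNReal.ofReal (Real.exp (-N v)) = ENNReal.ofReal (gI N) :=
  (ofReal_integral_eq_lintegral_ofReal (int_e h)
    (Filter.Eventually.of_forall fun _ => (Real.exp_pos _).le)).symm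

theorem split (N1 N2 N12 q : E d → ℝ) (P : Op d) (m : E d → E d) (h1 : Gauge N1) (h2 : Gauge N2)
    (h12 : Gauge N12) (hq : Gauge q) (he : ∀ v g, N1 v + N2 (P v + g) = N12 (v - m g) + q g) :
    gI N1 * gI N2 = gI N12 * gI q := by
  have hF : Measurable (Function.uncurry fun v g : E d =>
      ENNReal.ofReal (Real.exp (-(N1 v + N2 (P v + g))))) := by
    refine ENNReal.measurable_ofReal.comp (Real.measurable_exp.comp (Measurable.neg ?_))
    exact (h1.meas.comp measurable_fst).add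
      (h2.meas.comp ((P.continuous.measurable.comp measurable_fst).add measurable_snd))
  have hsw := lintegral_lintegral_swap (μ := (volume : Measure (E d)))
    (ν := (volume : Measure (E d))) hF.aemeasurable
  have hL : ∫⁻ v : E d, ∫⁻ g : E d, ENNReal.ofReal (Real.exp (-(N1 v + N2 (P v + g)))) =
      ENNReal.ofReal (gI N1) * ENNReal.ofReal (gI N2) := by
    have : ∀ v : E d, ∫⁻ g : E d, ENNReal.ofReal (Real.exp (-(N1 v + N2 (P v + g)))) =
        ENNReal.ofReal (Real.exp (-N1 v)) * ENNReal.ofReal (gI N2) := by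
      intro v
      rw [← ofR h2, ← lintegral_add_left_eq_self
        (fun g => ENNReal.ofReal (Real.exp (-N2 g))) (P v),
        ← lintegral_const_mul' _ _ ENNReal.ofReal_ne_top]
      refine lintegral_congr fun g => ?_
      rw [neg_add, Real.exp_add, ENNReal.ofReal_mul (Real.exp_pos _).le]
    simp only [this]
    rw [lintegral_mul_const' _ _ ENNReal.ofReal_ne_top, ofR h1]
  have hR : ∫⁻ g : E d, ∫⁻ v : E d, ENNReal.ofReal (Real.exp (-(N1 v + N2 (P v + g)))) =
      ENNReal.ofReal (gI N12) * ENNReal.ofReal (gI q) := by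
    have : ∀ g : E d, ∫⁻ v : E d, ENNReal.ofReal (Real.exp (-(N1 v + N2 (P v + g)))) =
        ENNReal.ofReal (gI N12) * ENNReal.ofReal (Real.exp (-q g)) := by
      intro g
      rw [← ofR h12, ← lintegral_sub_right_eq_self
        (fun v => ENNReal.ofReal (Real.exp (-N12 v))) (m g),
        ← lintegral_mul_const' _ _ ENNReal.ofReal_ne_top]
      refine lintegral_congr fun v => ?_
      rw [he, neg_add, Real.exp_add, ENNReal.ofReal_mul (Real.exp_pos _).le]
    simp only [this]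
    rw [lintegral_const_mul' _ _ ENNReal.ofReal_ne_top, ofR hq]
  rw [hL, hR, ← ENNReal.ofReal_mul (pos h1).le, ← ENNReal.ofReal_mul (pos h12).le,
    ENNReal.ofReal_eq_ofReal_iff (mul_pos (pos h1) (pos h2)).le
      (mul_pos (pos h12) (pos hq)).le] at hsw
  exact hsw

end Gs

theorem gaussStmt (d : ℕ) : GaussStmt d where
  pos := fun _ h => Gs.pos h
  mono := Gs.mono
  lin := Gs.lin
  up := Gs.up
  low := Gs.low
  slab := Gs.slab
  split := Gs.split

end Vale.Agent.P109
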