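import Vale.Agent.P109.Base

open MeasureTheory Finset

namespace Vale.Agent.P109
namespace Gf

open Bs

theorem supc {X Y : Type} [Fintype X] (cl : X → Y) (Λ : X → ℝ) :
    ∃ Θ : Y → ℝ, (∀ x, Λ x ≤ Θ (cl x)) ∧ ∀ y, Θ y = 0 ∨ ∃ x, cl x = y ∧ Θ y = Λ x := by
  classical
  have h : ∀ y, ∃ θ : ℝ, (∀ x, cl x = y → Λ x ≤ θ) ∧ (θ = 0 ∨ ∃ x, cl x = y ∧ θ = Λ x) := by
    intro y
    by_cases h0 : (univ.filter fun x => cl x = y).Nonempty
    · obtain ⟨x, hx, hm⟩ := exists_max_image _ Λ h0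
      exact ⟨Λ x, fun x' hx' => hm x' (mem_filter.2 ⟨mem_univ _, hx'⟩),
        Or.inr ⟨x, (mem_filter.1 hx).2, rfl⟩⟩
    · exact ⟨0, fun x hx => absurd ⟨x, mem_filter.2 ⟨mem_univ _, hx⟩⟩ h0, Or.inl rfl⟩
  choose Θ h1 h2 using h
  exact ⟨Θ, fun x => h1 _ x rfl, h2⟩

theorem powb {K x : ℝ} {e C : ℕ} (hx : 1 ≤ x) (hC : 1 ≤ C) (he : e ≤ C) (hK : K ≤ C) :
    K * x ^ e ≤ (C * x) ^ C := by
  have h1 : (1 : ℝ) ≤ C := by exact_mod_cast hC
  rw [mul_pow]
  exact mul_le_mul (hK.trans (le_self_pow₀ h1 (by omega))) (pow_le_pow_right₀ hx he)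
    (by positivity) (by positivity)

theorem dbl {M A : Type} [MeasurableSpace M] [Fintype A] (ν : Measure M) [IsProbabilityMeasure ν]
    (T T' : A → Set M) (w : A → ℝ) (c : ℝ) (hT : ∀ a, MeasurableSet (T a))
    (hT' : ∀ a, MeasurableSet (T' a)) (hw : ∀ a, 0 ≤ w a)
    (h : ∀ z, ∑ a, w a * (T a).indicator 1 z ≤ c) (h' : ∀ z, ∑ a, w a * (T' a).indicator 1 z ≤ c) :
    ∑ a, ∑ b, w a * w b * ν.real (T a ∩ T' b) ≤ c ^ 2 := by
  have hi : ∀ a b, Integrable (fun z => w a * w b * (T a ∩ T' b).indicator (1 : M → ℝ) z) ν :=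
    fun a b => ((integrable_const (1 : ℝ)).indicator ((hT a).inter (hT' b))).const_mul _
  have h1 : ∑ a, ∑ b, w a * w b * ν.real (T a ∩ T' b) =
      ∫ z, ∑ a, ∑ b, w a * w b * (T a ∩ T' b).indicator (1 : M → ℝ) z ∂ν := by
    rw [integral_finsetSum _ fun a _ => integrable_finsetSum _ fun b _ => hi a b]
    refine sum_congr rfl fun a _ => ?_
    rw [integral_finsetSum _ fun b _ => hi a b]
    refine sum_congr rfl fun b _ => ?_
    rw [integral_const_mul, integral_indicator_one ((hT a).inter (hT' b))]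
  rw [h1]
  have h2 : ∀ (U : A → Set M) z, 0 ≤ ∑ a, w a * (U a).indicator (1 : M → ℝ) z := fun U z =>
    sum_nonneg fun a _ => mul_nonneg (hw a) (Set.indicator_nonneg (fun _ _ => zero_le_one) z)
  refine (integral_mono (integrable_finsetSum _ fun a _ => integrable_finsetSum _ fun b _ =>
    hi a b) (integrable_const (c ^ 2)) fun z => ?_).trans (by simp)
  have h3 := mul_le_mul (h z) (h' z) (h2 T' z) ((h2 T z).trans (h z))
  rw [sum_mul_sum, ← sq] at h3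
  refine le_trans (le_of_eq ?_) h3
  refine sum_congr rfl fun a _ => sum_congr rfl fun b _ => ?_
  rw [Set.inter_indicator_one, Pi.mul_apply]; ring

theorem nrm {d : ℕ} {A : ℕ → Op d} {L : Op d} {n : ℕ} {K : ℝ} (hn : 1 ≤ n) (hK : 1 ≤ K)
    (hA : ∀ t, ‖A t‖ ≤ K) (hL : ∀ a, qf A n (L a) = ‖a‖ ^ 2) :
    ‖L‖ ≤ K ∧ ‖(coc A n).comp L‖ ≤ K := by
  have h1 : ∀ t < n, ∀ a, ‖coc A t (L a)‖ ≤ ‖a‖ := fun t ht a => by
    have := sq_le_qf A ht (L a)
    rw [hL] at this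
    exact (abs_le_of_sq_le_sq' this (norm_nonneg _)).2
  refine ⟨L.opNorm_le_bound (by linarith) fun a => ?_,
    ContinuousLinearMap.opNorm_le_bound _ (by linarith) fun a => ?_⟩
  · exact (h1 0 hn a).trans (le_mul_of_one_le_left (norm_nonneg _) hK)
  · obtain ⟨s, rfl⟩ : ∃ s, n = s + 1 := ⟨n - 1, by omega⟩
    rw [ContinuousLinearMap.comp_apply, coc_succ]
    exact ((A s).le_opNorm _).trans
      (mul_le_mul (hA s) (h1 s (by omega) a) (norm_nonneg _) (by linarith))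

theorem fine {d : ℕ} {M : Type} [MeasurableSpace M] {ν : Measure M} {S : M → M} {ch : Ch d M}
    {gr : Gr M} (hg : gr.Ok ch ν S) {n i : ℕ} {r : ℝ} (hr : 0 < r)
    (h : 8 * gr.K * n ≤ r * 2 ^ i) {z x : M} (hz : gr.hd S i n z = gr.hd S i n x) :
    z ∈ ch.TM S (ox S x) n (r / 4) := by
  have h1 : ∀ t < n, gr.D i (S^[t] z) = gr.D i (S^[t] x) := fun t ht => congrFun hz ⟨t, ht⟩
  have h2 : (0 : ℝ) < 2 ^ i := by positivity
  have hK := hg.oneK
  refine ⟨fun t ht => ⟨(hg.fine i _ _ (h1 t ht)).1, (hg.fine i _ _ (h1 t ht)).2.1⟩, ?_⟩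
  refine (nr_le_card (a := gr.K / 2 ^ i) (by positivity) fun t ht => ?_).trans_lt ?_
  · rw [le_div_iff₀ h2]; exact (hg.fine i _ _ (h1 t ht)).2.2
  · rw [← mul_div_assoc, div_lt_iff₀ h2]; nlinarith [mul_pos hr h2]

/-- transfer of the pair estimate to two points in the same classes -/
theorem trans {d : ℕ} (hG : GaussStmt d) (hA : LinAStmt d) (hD : LinDStmt d)
    {A B A' B' : ℕ → Op d} {LA LB LA' LB' : Op d} {n : ℕ} {Γ r : ℝ} {j j' : E d} (hn : 1 ≤ n)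
    (hΓ : 1 ≤ Γ) (hr : 0 < r) (h12 : 12 * r ≤ 1)
    (a1 : ∀ a, qf A n (LA a) = ‖a‖ ^ 2) (a2 : Function.Surjective LA)
    (b1 : ∀ a, qf B n (LB a) = ‖a‖ ^ 2) (b2 : Function.Surjective LB)
    (a1' : ∀ a, qf A' n (LA' a) = ‖a‖ ^ 2) (a2' : Function.Surjective LA')
    (b1' : ∀ a, qf B' n (LB' a) = ‖a‖ ^ 2) (b2' : Function.Surjective LB')
    (e1 : ‖(coc A' n).comp LA' - (coc A n).comp LA‖ ≤ r / Γ) (e2 : ‖LB' - LB‖ ≤ r / Γ)
    (e3 : ‖j - j'‖ ≤ 2 * (r / Γ))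
    (q1 : ∀ g, qj (cat n A' B') n n g ≤ (3 * Γ) ^ 2 * ‖g‖ ^ 2)
    (q2 : qj (cat n A' B') n n j' ≤ (4 * r) ^ 2) :
    (∀ g, qj (cat n A B) n n g ≤ (6 * Γ) ^ 2 * ‖g‖ ^ 2) ∧ qj (cat n A B) n n j ≤ (20 * r) ^ 2 ∧
      gI (qj (cat n A B) n n) ≤ 2 ^ d * gI (qj (cat n A' B') n n) := by
  have hΓ0 : 0 < Γ := by linarith
  have hc := hD.cls A' B' A B LA' LB' LA LB n (3 * Γ) (r / Γ) hn (by linarith) (by positivity)
    (by rw [show 4 * (r / Γ) * (3 * Γ) = 12 * r by field_simp; ring]; exact h12)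
    a1' a2' b1' b2' a1 a2 b1 b2 e1 e2 q1
  refine ⟨fun g => by nlinarith [(hc g).1, q1 g], ?_,
    hG.mono _ _ 2 (hA.gj _ n n hn hn) (hA.gj _ n n hn hn) two_pos fun v => by
      linarith [(hc v).2]⟩
  have h1 := hA.tri (cat n A' B') n n hn hn j' (j - j')
  rw [add_sub_cancel] at h1
  have h2 : Real.sqrt (qj (cat n A' B') n n j') ≤ 4 * r := Real.sqrt_le_iff.2 ⟨by positivity, q2⟩
  have h3 : Real.sqrt (qj (cat n A' B') n n (j - j')) ≤ 6 * r := by
    refine Real.sqrt_le_iff.2 ⟨by positivity, (q1 _).trans ?_⟩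
    rw [← mul_pow]
    refine pow_le_pow_left₀ (by positivity) ?_ 2
    refine (mul_le_mul_of_nonneg_left e3 (by positivity)).trans (le_of_eq ?_)
    field_simp; ring
  have h4 : qj (cat n A' B') n n j ≤ (10 * r) ^ 2 :=
    (Real.sqrt_le_iff.1 (by linarith : Real.sqrt (qj (cat n A' B') n n j) ≤ 10 * r)).2
  nlinarith [(hc j).1]

theorem domb {M O : Type} [MeasurableSpace M] (ν : Measure M) [IsProbabilityMeasure ν]
    (F : Finset O) (B : O → Set M) (T : Set M) (D : O → ℝ) (y c : ℝ) (hc : 0 ≤ c)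
    (hB : ∀ o, MeasurableSet (B o)) (hd : Pairwise fun o o' => Disjoint (B o) (B o'))
    (hT : ∀ o ∈ F, B o ⊆ T) (hD : ∀ o ∈ F, 0 < D o ∧ ν.real T * y ≤ c * D o) :
    (∑ o ∈ F, ν.real (B o) / D o) * y ≤ c := by
  have h1 : ∑ o ∈ F, ν.real (B o) ≤ ν.real T := by
    rw [← measureReal_biUnion_finset (fun o _ o' _ h => hd h) fun o _ => hB o]
    exact measureReal_mono (Set.iUnion₂_subset hT)
  rcases (measureReal_nonneg : 0 ≤ ν.real T).eq_or_lt with h | h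
  · have h2 : ∀ o ∈ F, ν.real (B o) / D o = 0 := fun o ho => by
      have : ν.real (B o) ≤ ν.real T := measureReal_mono (hT o ho)
      rw [le_antisymm (this.trans h.ge) measureReal_nonneg, zero_div]
    rw [sum_eq_zero h2, zero_mul]; exact hc
  · refine le_of_mul_le_mul_right ?_ h
    refine le_trans ?_ (mul_le_mul_of_nonneg_left h1 hc)
    rw [mul_assoc, sum_mul, mul_sum]
    refine sum_le_sum fun o ho => ?_
    have h3 := mul_le_mul_of_nonneg_left (hD o ho).2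
      (div_nonneg (measureReal_nonneg : 0 ≤ ν.real (B o)) (hD o ho).1.le)
    have h4 := (hD o ho).1.ne'
    refine le_trans (le_of_eq (by ring)) (h3.trans (le_of_eq ?_))
    field_simp

end Gf

open Gf Bs in
theorem geoFStmt (hG : ∀ d, GaussStmt d) (hA : ∀ d, LinAStmt d) (hD : ∀ d, LinDStmt d)
    (hN : ∀ d, NetStmt d) : GeoFStmt := by
  intro d M _ ν S ch gr C0 C1 C2 hch hgr hT hC1 hL hC2 hS
  classical
  have := hch.prob
  have hK := hch.oneK
  have hgK := hgr.oneK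
  obtain ⟨Cn, hCn, hnet⟩ := hN d ch.K hK
  have hI0 := (hG d).pos _ gauge_norm
  set I0 := gI fun v : E d => ‖v‖ ^ 2 with hI0d
  obtain ⟨C, hC⟩ := exists_nat_ge (C1 + C2 + 8 * gr.K + 12 + (d + d * d : ℕ) +
    2 * ch.k * Cn ^ (d + d * d) + C1 * 3 ^ d / I0 + C1 * C2 * 2 ^ d * C2 ^ 2)
  have p1 : (0 : ℝ) ≤ (d + d * d : ℕ) := Nat.cast_nonneg _
  have p2 : (0 : ℝ) ≤ 2 * ch.k * Cn ^ (d + d * d) := by positivity
  have p3 : (0 : ℝ) ≤ C1 * 3 ^ d / I0 := by positivity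
  have p4 : (0 : ℝ) ≤ C1 * C2 * 2 ^ d * C2 ^ 2 := by positivity
  have hC12 : (12 : ℝ) ≤ C := by linarith
  have hCe : d + d * d ≤ C := by exact_mod_cast (by linarith : ((d + d * d : ℕ) : ℝ) ≤ C)
  have hCone : 1 ≤ C := by exact_mod_cast (by linarith : (1 : ℝ) ≤ C)
  refine ⟨C, hCone, fun n Γ r i i' hn hΓ hr hii hsm hfi => ?_⟩
  have hn' : (1 : ℝ) ≤ n := by exact_mod_cast hn
  have hΓ0 : 0 < Γ := by linarith
  have hsc : ∀ c : ℝ, c ≤ C → c * n * r * Γ ^ 2 ≤ 1 := fun c hc => by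
    refine le_trans ?_ hsm
    have : 0 ≤ n * r * Γ ^ 2 := by positivity
    nlinarith
  have h12 : 12 * r ≤ 1 := by
    have h1 := hsc 12 hC12
    have h2 : 1 ≤ n * Γ ^ 2 := one_le_mul_of_one_le_of_one_le hn' (one_le_pow₀ hΓ)
    nlinarith
  have hx1 : 1 ≤ Γ / r := by rw [le_div_iff₀ hr]; linarith
  have hmS := hch.mS.measurable
  have hM : Nonempty M := (nonempty_of_isProbabilityMeasure ν)
  set α := gr.hd S i' n with hα
  have mα : Measurable α := measurable_pi_lambda _ fun t => (hgr.meas i').comp (hmS.iterate t)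
  have mB : ∀ a, MeasurableSet {x | α x = a} := fun a => mα (measurableSet_singleton a)
  set rep := Function.invFun α with hrep
  have hra : ∀ x, α (rep (α x)) = α x := fun x => Function.invFun_eq ⟨x, rfl⟩
  have hfine : ∀ z x, α z = α x → z ∈ ch.TM S (ox S x) n (r / 4) := fun z x h =>
    fine hgr hr (le_trans (by nlinarith) hfi) h
  have hcs : ∀ x, gr.hd S i n (rep (α x)) = gr.hd S i n x := fun x =>
    funext fun t => hgr.nest i i' _ _ hii (congrFun (hra x) t)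
  have hex : ∀ o : (Fin n → Fin (gr.nD i')) × (Fin n → Fin (gr.nD i')), ∃ x,
      (∃ x, Good ch gr S n Γ r i x ∧ α x = o.1 ∧ α (S^[n] x) = o.2) →
        Good ch gr S n Γ r i x ∧ α x = o.1 ∧ α (S^[n] x) = o.2 := fun o => by
    by_cases h : ∃ x, Good ch gr S n Γ r i x ∧ α x = o.1 ∧ α (S^[n] x) = o.2
    · obtain ⟨x, hx⟩ := h; exact ⟨x, fun _ => hx⟩
    · exact ⟨hM.some, fun h' => absurd h' h⟩
  choose g hg using hex
  set Gd := univ.filter fun o : (Fin n → Fin (gr.nD i')) × (Fin n → Fin (gr.nD i')) =>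
    ∃ x, Good ch gr S n Γ r i x ∧ α x = o.1 ∧ α (S^[n] x) = o.2 with hGd
  replace hg : ∀ o ∈ Gd, Good ch gr S n Γ r i (g o) ∧ α (g o) = o.1 ∧ α (S^[n] (g o)) = o.2 :=
    fun o ho => hg o (mem_filter.1 ho).2
  set N : M → Finset (Fin n → Fin (gr.nD i')) := fun x =>
    univ.filter fun a => rep a ∈ ch.TM S (ox S x) n r with hNd
  have hNm : ∀ x, ν.real (ch.TM S (ox S x) n (r / 2)) ≤ ∑ a ∈ N x, ν.real {x | α x = a} := by
    intro x
    refine le_trans (measureReal_mono (fun z hz => ?_) (measure_ne_top _ _))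
      (measureReal_biUnion_finset_le _ _)
    refine Set.mem_iUnion₂.2 ⟨α z, mem_filter.2 ⟨mem_univ _, ?_⟩, rfl⟩
    exact TM_mono ch S _ n (by linarith) (TM_trans ch S (hfine _ _ (hra z)) hz)
  have hNc : ∀ x, (∀ t < n, S^[t] x ∈ gr.Mg ch S i r) → ∀ a ∈ N x,
      gr.hd S i n (rep a) = gr.hd S i n (rep (α x)) := fun x hx a ha => by
    rw [hcs]
    have h1 := (mem_filter.1 ha).2
    exact funext fun t => hx t t.2 _ (h1.1 t t.2).1 (h1.1 t t.2).2
      ((norm_le_nr (fun t => ch.c (S^[t] (rep a)) - ch.c (ox S x t)) t.2).trans_lt h1.2)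
  have hLo := fun o (ho : o ∈ Gd) x' y' => hL n Γ r (g o) x' y' hn hΓ hr
    (hsc C1 (by linarith)) (hg o ho).1.1 fun t ht => ((hg o ho).1.2 t ht).1
  have hpos := fun o (ho : o ∈ Gd) =>
    (hLo o ho _ _ (TM_self ch S _ n hr) (TM_self ch S _ n hr)).2.2.2.2.2.2
  have hpU : ∀ o ∈ Gd, 0 < ∑ a ∈ N (g o), ν.real {x | α x = a} := fun o ho =>
    (hpos o ho).1.trans_le (hNm _)
  have hpV : ∀ o ∈ Gd, 0 < ∑ a ∈ N (S^[n] (g o)), ν.real {x | α x = a} := fun o ho =>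
    (hpos o ho).2.trans_le (hNm _)
  set X : (Fin n → Fin (gr.nD i')) → ℕ → Op d := fun a => ch.AX S (ox S (rep a)) with hX
  obtain ⟨Λ, hΛ⟩ : ∃ Λ : (Fin n → Fin (gr.nD i')) × (Fin n → Fin (gr.nD i')) → ℝ, ∀ ab, Λ ab =
    ∑ o ∈ Gd.filter (fun o => ab.1 ∈ N (g o) ∧ ab.2 ∈ N (S^[n] (g o))),
      ν.real {x | α x = o.1 ∧ α (S^[n] x) = o.2} /
        ((∑ a ∈ N (g o), ν.real {x | α x = a}) * ∑ a ∈ N (S^[n] (g o)), ν.real {x | α x = a}) :=
    ⟨_, fun _ => rfl⟩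
  have hΛ0 : ∀ ab, 0 ≤ Λ ab := fun ab => by
    rw [hΛ]
    exact sum_nonneg fun o ho => div_nonneg measureReal_nonneg
      (mul_pos (hpU o (mem_filter.1 ho).1) (hpV o (mem_filter.1 ho).1)).le
  have hΛ1 : ∀ ab, Λ ab * (gI (qj (cat n (X ab.1) (X ab.2)) n n) * r ^ d) ≤ C1 := fun ab => by
    rw [hΛ]
    refine domb ν (Gd.filter fun o => ab.1 ∈ N (g o) ∧ ab.2 ∈ N (S^[n] (g o)))
      (fun o => {x | α x = o.1 ∧ α (S^[n] x) = o.2})
      (ch.TM S (ox S (rep ab.1)) n (2 * r) ∩ S^[n] ⁻¹' ch.TM S (ox S (rep ab.2)) n (2 * r))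
      (fun o => (∑ a ∈ N (g o), ν.real {x | α x = a}) *
        ∑ a ∈ N (S^[n] (g o)), ν.real {x | α x = a}) _ _
      (by linarith) (fun o => (mB o.1).inter (hmS.iterate n (mB o.2))) (fun o o' h => ?_)
      (fun o ho z hz => ?_) fun o ho => ?_
    · exact Set.disjoint_left.2 fun z h1 h2 =>
        h (Prod.ext (h1.1.symm.trans h2.1) (h1.2.symm.trans h2.2))
    · obtain ⟨ho, ha, hb⟩ := mem_filter.1 ho
      exact ⟨TM_mono ch S _ n (by linarith) (TM_trans ch S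
          (hfine _ _ (hz.1.trans (hg o ho).2.1.symm)) (TM_symm ch S (mem_filter.1 ha).2)),
        TM_mono ch S _ n (by linarith) (TM_trans ch S
          (hfine _ _ (hz.2.trans (hg o ho).2.2.symm)) (TM_symm ch S (mem_filter.1 hb).2))⟩
    · obtain ⟨ho, ha, hb⟩ := mem_filter.1 ho
      refine ⟨mul_pos (hpU o ho) (hpV o ho), ?_⟩
      have h1 := (hLo o ho _ _ (mem_filter.1 ha).2 (mem_filter.1 hb).2).2.2.2.2.2.1
      rw [← mul_assoc]
      refine h1.trans ?_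
      rw [mul_assoc]
      exact mul_le_mul_of_nonneg_left (mul_le_mul (hNm _) (hNm _) measureReal_nonneg
        (hpU o ho).le) (by linarith)
  have hΛ2 : ∀ ab, Λ ab ≠ 0 → ∃ o ∈ Gd, rep ab.1 ∈ ch.TM S (ox S (g o)) n r ∧
      rep ab.2 ∈ ch.TM S (ox S (S^[n] (g o))) n r := fun ab h => by
    rw [hΛ] at h
    obtain ⟨o, ho, -⟩ := exists_ne_zero_of_sum_ne_zero h
    obtain ⟨ho, ha, hb⟩ := mem_filter.1 ho
    exact ⟨o, ho, (mem_filter.1 ha).2, (mem_filter.1 hb).2⟩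
  choose L hL1 hL2 using fun a => (hD d).par (X a) n hn
  have hLn := fun a => nrm hn hK (fun t => norm_A_le ch S (by linarith) _) (hL1 a)
  obtain ⟨J0, cl, hJ0, hcl⟩ := hnet (r / Γ) (by positivity) (by rw [div_le_one hΓ0]; linarith)
  set en := Fintype.equivFin (Bool × Fin ch.k × Fin J0) with hen
  set c1 : (Fin n → Fin (gr.nD i')) → Fin (Fintype.card (Bool × Fin ch.k × Fin J0)) := fun a =>
    en (decide (ch.HG S n Γ r (rep a)), ch.lab (S^[n] (rep a)),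
      cl (ch.c (S^[n] (rep a))) ((coc (X a) n).comp (L a))) with hc1
  set c2 : (Fin n → Fin (gr.nD i')) → Fin (Fintype.card (Bool × Fin ch.k × Fin J0)) := fun a =>
    en (decide (ch.HG S n Γ r (rep a)), ch.lab (rep a), cl (ch.c (rep a)) (L a)) with hc2
  obtain ⟨Θ, hΘ1, hΘ2⟩ := supc (fun ab => (c1 ab.1, c2 ab.2)) Λ
  have hΘ0 : ∀ y, 0 ≤ Θ y := fun y => by
    rcases hΘ2 y with h | ⟨x, -, h⟩
    · exact h.ge
    · rw [h]; exact hΛ0 x
  have hrd : 0 < r ^ d := pow_pos hr d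
  have hI : ∀ a, 0 < gI (qf (X a) n) := fun a => (hG d).pos _ (gauge_qf _ hn)
  refine ⟨_, Gd, fun o => N (g o), fun o => N (S^[n] (g o)), c1, c2, fun i j => Θ (i, j),
    fun a => gr.hd S i n (rep a), ?_, hcs,
    fun x hx => mem_filter.2 ⟨mem_univ _, x, hx, rfl, rfl⟩, hpU, hpV, fun o ho a ha => ?_,
    fun o ho a ha => ?_, fun a b => (hΛ (a, b)).ge.trans (hΘ1 (a, b)), ?_, fun i j => hΘ0 _,
    fun i j => ?_⟩
  · rw [mul_div_assoc]
    refine le_trans ?_ (powb (K := 2 * ch.k * Cn ^ (d + d * d)) hx1 hCone hCe (by linarith))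
    simp only [Fintype.card_prod, Fintype.card_bool, Fintype.card_fin]
    push_cast
    rw [mul_assoc, mul_assoc, ← mul_pow, ← mul_div_assoc, ← div_div_eq_mul_div]
    gcongr
  · rw [← (hg o ho).2.1]
    exact hNc _ (fun t ht => ((hg o ho).1.2 t (by omega)).2) a ha
  · rw [← (hg o ho).2.2]
    refine hNc _ (fun t ht => ?_) a ha
    rw [← Function.iterate_add_apply]
    exact ((hg o ho).1.2 _ (by omega)).2
  · set w : (Fin n → Fin (gr.nD i')) → ℝ := fun a => if ch.HG S n Γ r (rep a) then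
      ν.real {x | α x = a} / (r ^ d * gI (qf (X a) n)) else 0 with hw
    have hw0 : ∀ a, 0 ≤ w a := fun a => by
      simp only [hw]
      split_ifs
      · exact div_nonneg measureReal_nonneg (mul_pos hrd (hI a)).le
      · exact le_rfl
    have hov : ∀ z, ∑ a, w a * (ch.TM S (ox S (rep a)) n (80 * r)).indicator 1 z ≤ C2 := by
      intro z
      refine le_trans (le_of_eq ?_) (hS.ovl n Γ r _ (univ.filter fun a =>
        ch.HG S n Γ r (rep a) ∧ z ∈ ch.TM S (ox S (rep a)) n (80 * r)) rep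
        (fun a => {x | α x = a}) z hn hΓ hr (hsc C2 (by linarith))
        (fun a ha => (mem_filter.1 ha).2.1) (fun a _ => mB a)
        (fun a _ b _ h => Set.disjoint_left.2 fun z h1 h2 => h (h1.symm.trans h2))
        (fun a _ x hx => ?_) fun a ha => (mem_filter.1 ha).2.2)
      · rw [sum_filter]
        refine sum_congr rfl fun a _ => ?_
        by_cases h1 : ch.HG S n Γ r (rep a) <;>
          by_cases h2 : z ∈ ch.TM S (ox S (rep a)) n (80 * r) <;> simp [hw, hX, h1, h2]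
      · have h1 : α x = a := hx
        refine TM_mono ch S _ n (by linarith) (hfine _ _ ?_)
        rw [← h1, hra]
    have hdb := dbl ν (fun a => ch.TM S (ox S (rep a)) n (80 * r))
      (fun a => S^[n] ⁻¹' ch.TM S (ox S (rep a)) n (80 * r)) w C2 (fun a => hT.meas _ _ _)
      (fun a => hmS.iterate n (hT.meas _ _ _)) hw0 hov fun z => hov (S^[n] z)
    have h1 := mul_le_mul_of_nonneg_left hdb (by positivity : 0 ≤ C1 * C2 * 2 ^ d)
    refine le_trans ?_ (h1.trans (by linarith))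
    rw [mul_sum]
    refine sum_le_sum fun a _ => ?_
    rw [mul_sum]
    refine sum_le_sum fun b _ => ?_
    have h2 : 0 ≤ C1 * C2 * 2 ^ d * (w a * w b * ν.real (ch.TM S (ox S (rep a)) n (80 * r) ∩
        S^[n] ⁻¹' ch.TM S (ox S (rep b)) n (80 * r))) :=
      mul_nonneg (by positivity) (mul_nonneg (mul_nonneg (hw0 a) (hw0 b)) measureReal_nonneg)
    by_cases h0 : Θ (c1 a, c2 b) = 0
    · rw [h0, mul_zero]; exact h2
    obtain ⟨⟨a', b'⟩, h3, h4⟩ := (hΘ2 _).resolve_left h0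
    obtain ⟨o, ho, ha, hb⟩ := hΛ2 (a', b') (h4 ▸ h0)
    obtain ⟨g1, g2, g3, g4, g5, -⟩ := hLo o ho _ _ ha hb
    obtain ⟨u1, u2, u3⟩ : decide (ch.HG S n Γ r (rep a')) = decide (ch.HG S n Γ r (rep a)) ∧
        ch.lab (S^[n] (rep a')) = ch.lab (S^[n] (rep a)) ∧
        cl (ch.c (S^[n] (rep a'))) ((coc (X a') n).comp (L a')) =
          cl (ch.c (S^[n] (rep a))) ((coc (X a) n).comp (L a)) := by
      simpa only [Prod.mk.injEq] using en.injective (congrArg Prod.fst h3)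
    obtain ⟨v1, v2, v3⟩ : decide (ch.HG S n Γ r (rep b')) = decide (ch.HG S n Γ r (rep b)) ∧
        ch.lab (rep b') = ch.lab (rep b) ∧
        cl (ch.c (rep b')) (L b') = cl (ch.c (rep b)) (L b) := by
      simpa only [Prod.mk.injEq] using en.injective (congrArg Prod.snd h3)
    have ga : ch.HG S n Γ r (rep a) := (decide_eq_decide.1 u1).1 g1
    have gb : ch.HG S n Γ r (rep b) := (decide_eq_decide.1 v1).1 g2
    obtain ⟨x1, x2⟩ := hcl _ _ _ _ (hch.cbd _) (hch.cbd _) (hLn a').2 (hLn a).2 u3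
    obtain ⟨y1, y2⟩ := hcl _ _ _ _ (hch.cbd _) (hch.cbd _) (hLn b').1 (hLn b).1 v3
    obtain ⟨t1, t2, t3⟩ := Gf.trans (hG d) (hA d) (hD d)
      (j := ch.c (S^[n] (rep a)) - ch.c (rep b)) hn hΓ hr h12 (hL1 a) (hL2 a) (hL1 b) (hL2 b)
      (hL1 a') (hL2 a') (hL1 b') (hL2 b') x2 y2 (by
        rw [sub_sub_sub_comm]
        refine (norm_sub_le _ _).trans ?_
        rw [norm_sub_rev] at x1 y1
        linarith) g4 g5
    have h5 := hS.pair n Γ r (rep a) (rep b) hn hΓ hr (hsc C2 (by linarith)) ga gb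
      (u2.symm.trans (g3.trans v2)) t1 t2
    have h6 := hΛ1 (a', b')
    rw [← h4] at h6
    have h7 := hΘ0 (c1 a, c2 b)
    have h8 := hI a
    have h9 := hI b
    simp only [hw, if_pos ga, if_pos gb]
    set θ := Θ (c1 a, c2 b)
    set Z := ν.real (ch.TM S (ox S (rep a)) n (80 * r) ∩
      S^[n] ⁻¹' ch.TM S (ox S (rep b)) n (80 * r))
    have hZ : 0 ≤ Z := measureReal_nonneg
    have h10 : θ * (r ^ d * gI (qf (X a) n) * (r ^ d * gI (qf (X b) n))) ≤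
        C1 * C2 * 2 ^ d * Z := by
      have e1 := mul_le_mul_of_nonneg_left h5 (mul_nonneg h7 hrd.le)
      have e2 := mul_le_mul_of_nonneg_left t3 (by positivity : 0 ≤ θ * r ^ d * C2 * Z)
      have e3 := mul_le_mul_of_nonneg_left h6 (by positivity : 0 ≤ C2 * 2 ^ d * Z)
      simp only [hX] at e2 e3 ⊢
      linarith
    rw [← le_div_iff₀ (by positivity)] at h10
    have h11 := mul_le_mul_of_nonneg_left h10 (mul_nonneg
      (measureReal_nonneg : 0 ≤ ν.real {x | α x = a}) (measureReal_nonneg : 0 ≤ ν.real {x | α x = b}))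
    refine h11.trans (le_of_eq ?_)
    field_simp
  · rw [mul_div_assoc]
    refine le_trans ?_ (powb (K := C1 * 3 ^ d / I0) (e := d) hx1 hCone (by omega) (by linarith))
    by_cases h0 : Θ (i, j) = 0
    · rw [h0]; positivity
    obtain ⟨ab, -, h4⟩ := (hΘ2 _).resolve_left h0
    obtain ⟨o, ho, ha, hb⟩ := hΛ2 ab (h4 ▸ h0)
    have g4 := (hLo o ho _ _ ha hb).2.2.2.1
    have h5 := (hG d).mono _ _ (3 * Γ) gauge_norm ((hA d).gj _ n n hn hn) (by positivity) g4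
    have h6 := hΛ1 ab
    have h7 := hΛ0 ab
    rw [h4, div_pow, div_mul_div_comm, le_div_iff₀ (by positivity)]
    have e1 := mul_le_mul_of_nonneg_left h5 (mul_nonneg h7 hrd.le)
    have e2 := mul_le_mul_of_nonneg_left h6 (by positivity : 0 ≤ (3 * Γ) ^ d)
    rw [mul_pow] at e1 e2
    simp only [hX] at e2
    linarith

end Vale.Agent.P109
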