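import Vale.Agent.P109.Base

open MeasureTheory Finset
open scoped ENNReal

namespace Vale.Agent.P109
open Bs

namespace Gl

/-- lower bound for the half tube -/
theorem half {d : ℕ} (hG : GaussStmt d) (hC : LinCStmt d) {M : Type} [MeasurableSpace M]
    {ν : Measure M} {S : M → M} {ch : Ch d M} {C0 : ℝ} (hch : ch.Ok ν S) (hT : GeoT ch ν S C0)
    {n : ℕ} {Γ r : ℝ} {x x' : M} (hn : 1 ≤ n) (hΓ : 1 ≤ Γ) (hr : 0 < r)
    (h1 : C0 * n * r * Γ ≤ 1) (h2 : 12 * (d + 1) * n * (ch.K * r) * Γ ≤ 1)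
    (hGr : Green (ch.AX S (ox S x)) n Γ) (hI : ∀ t < n, S^[t] x ∈ ch.Int S (201 * r))
    (hx' : x' ∈ ch.TM S (ox S x) n r) :
    r ^ d * gI (qf (ch.AX S (ox S x')) n) ≤
      2 * 2 ^ d * C0 * ν.real (ch.TM S (ox S x) n (r / 2)) ∧
    0 < ν.real (ch.TM S (ox S x) n (r / 2)) := by
  have hK := hch.oneK
  have hC0 := hT.oneC
  have hlow := hT.low (ox S x) n (r / 2) Γ hn hΓ (by positivity)
    (le_trans (by gcongr; linarith) h1)
    (PO_ox ch S fun t ht => int_mono ch S (by linarith) (hI t ht)) hGr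
    ⟨fun _ => 0, fun t _ => by simp [jumps_ox], by rw [nr_zero]; positivity⟩
  have hh := (hC.hyb (ch.AX S (ox S x)) (ch.AX S (ox S x')) n Γ (ch.K * r) hn hΓ (by positivity)
    h2 hGr fun t ht => (hT.near (ox S x) n r (201 * r) (by linarith) hI x' hx' t ht).1).1
  have hp := hG.pos _ (gauge_qf (ch.AX S (ox S x)) hn)
  constructor
  · calc _ ≤ r ^ d * (2 * gI (qf (ch.AX S (ox S x)) n)) := by gcongr
      _ = 2 * 2 ^ d * ((r / 2) ^ d * gI (qf (ch.AX S (ox S x)) n)) := by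
          rw [div_pow]; field_simp
      _ ≤ 2 * 2 ^ d * (C0 * ν.real (ch.TM S (ox S x) n (r / 2))) := by gcongr
      _ = _ := by ring
  · exact pos_of_mul_pos_left (b := C0) (by
      rw [mul_comm]; exact lt_of_lt_of_le (by positivity) hlow) (by linarith)

end Gl

theorem geoLStmt (hG : ∀ d, GaussStmt d) (hA : ∀ d, LinAStmt d) (hB : ∀ d, LinBStmt d)
    (hC : ∀ d, LinCStmt d) : GeoLStmt := by
  intro d M _ ν S ch C0 hch hT
  have := hch.prob
  have hK := hch.oneK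
  have hC0 := hT.oneC
  have hKC := hT.KC
  have hd : (0 : ℝ) ≤ d := by positivity
  have hX : 0 ≤ C0 * 4 ^ d * (2 * 2 ^ d * C0) ^ 2 := by positivity
  refine ⟨24 * (d + 1) * C0 + C0 * 4 ^ d * (2 * 2 ^ d * C0) ^ 2, by nlinarith, ?_⟩
  intro n Γ r x x' y' hn hΓ hr hs hGr hI hx' hy'
  have hn' : (1 : ℝ) ≤ n := by exact_mod_cast hn
  have hs0 : 24 * (d + 1) * C0 * n * r * Γ ≤ 1 := by
    refine le_trans ?_ hs
    gcongr
    · linarith
    · nlinarith
  have hP : 0 < C0 * n * r * Γ := by positivity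
  have hs1 : 24 * (C0 * n * r * Γ) ≤ 1 := by nlinarith
  have hs2 : 12 * (d + 1) * n * (ch.K * r) * Γ ≤ 1 := by
    refine le_trans ?_ hs0
    calc 12 * (d + 1) * n * (ch.K * r) * Γ = 12 * (d + 1) * ch.K * n * r * Γ := by ring
      _ ≤ _ := by gcongr; norm_num
  have hs3 : ch.K * r * Γ ≤ 1 / 2 := by
    have : ch.K * r * Γ ≤ C0 * n * r * Γ := by gcongr; nlinarith
    linarith
  have hI1 : ∀ t < n, S^[t] x ∈ ch.Int S (201 * r) := fun t ht => hI t (by omega)
  have hI2 : ∀ t < n, S^[t] (S^[n] x) ∈ ch.Int S (201 * r) := fun t ht => by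
    rw [← Function.iterate_add_apply]; exact hI _ (by omega)
  have hG1 : Green (ch.AX S (ox S x)) n Γ := (hB d).left _ n n Γ hGr
  have hG2 : Green (ch.AX S (ox S (S^[n] x))) n Γ := by
    rw [AX_shift]; exact (hB d).right _ n n Γ hGr
  have hn1 := hT.near (ox S x) n r (201 * r) (by linarith) hI1 x' hx'
  have hn2 := hT.near (ox S (S^[n] x)) n r (201 * r) (by linarith) hI2 y' hy'
  have e200 : 201 * r - r = 200 * r := by ring
  rw [e200] at hn1 hn2
  have hl : ch.lab (S^[n] x') = ch.lab y' := by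
    obtain ⟨m, rfl⟩ : ∃ m, n = m + 1 := ⟨n - 1, by omega⟩
    have a1 := (hx'.1 m (by omega)).2
    have a2 := (hy'.1 0 (by omega)).1
    simp only [ox, Function.iterate_zero, id] at a1 a2
    rw [a2, Function.iterate_succ_apply', Function.iterate_succ_apply', a1]
  have hGc : Green (cat n (ch.AX S (ox S x')) (ch.AX S (ox S y'))) (n + n) (3 * Γ) := by
    refine (hB d).pert _ _ (n + n) Γ (ch.K * r) hΓ (by positivity) hs3 hGr fun t ht => ?_
    by_cases h1 : t < n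
    · rw [cat_lt _ _ h1]; exact (hn1 t h1).1
    · obtain ⟨s, rfl⟩ : ∃ s, t = n + s := ⟨t - n, by omega⟩
      rw [cat_add]
      have := (hn2 s (by omega)).1
      simp only [ox, Ch.AX] at this ⊢
      rwa [add_comm n s, Function.iterate_add_apply]
  have hPO : ∀ ρ ≤ 200 * r, ch.PO S (cat n (ox S x') (ox S y')) (n + n) ρ := fun ρ hρ =>
    PO_cat ch S (fun t ht => int_mono ch S hρ (hn1 t ht).2)
      (fun t ht => int_mono ch S hρ (hn2 t ht).2) hl
  have hGc' := hGc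
  rw [← AX_cat] at hGc'
  obtain ⟨b1, b2⟩ := Gl.half (hG d) (hC d) hch hT hn hΓ hr (by linarith) hs2 hG1 hI1 hx'
  obtain ⟨b3, b4⟩ := Gl.half (hG d) (hC d) hch hT hn hΓ hr (by linarith) hs2 hG2 hI2 hy'
  refine ⟨⟨(hB d).pert _ _ n Γ (ch.K * r) hΓ (by positivity) hs3 hG1 fun t ht => (hn1 t ht).1,
    fun t ht => (hn1 t ht).2⟩,
    ⟨(hB d).pert _ _ n Γ (ch.K * r) hΓ (by positivity) hs3 hG2 fun t ht => (hn2 t ht).1,
    fun t ht => (hn2 t ht).2⟩, hl, (hB d).one _ n n _ hn hn (by positivity) hGc, ?_, ?_, b2, b4⟩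
  · obtain ⟨y, hy1, hy2⟩ := hT.jump (cat n (ox S x') (ox S y')) (n + n) (r + r) (3 * Γ) (by omega)
      (by linarith) (by positivity) (by push_cast; nlinarith) (hPO _ (by linarith)) hGc'
      ⟨x, TM_cat ch S (TM_symm ch S hx') (TM_symm ch S hy')⟩
    rw [AX_cat] at hy1
    refine ((hA d).le _ n n hn hn _ y
      (Sol.congr hy1 (fun _ _ => rfl) fun t _ => jumps_cat ch S x' y' hn t)).trans ?_
    exact pow_le_pow_left₀ (nr_nonneg _ _) (by linarith) 2
  · have hup := hT.up (cat n (ox S x') (ox S y')) (n + n) (2 * r + 2 * r) (3 * Γ) (by omega)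
      (by linarith) (by positivity) (by push_cast; nlinarith) (hPO _ (by linarith)) hGc'
    rw [AX_cat] at hup
    have hsp := gI_split (hG d) (hA d) (cat n (ch.AX S (ox S x')) (ch.AX S (ox S y'))) hn hn
    rw [qf_cat, sh_cat] at hsp
    have hq0 := (hG d).pos _ ((hA d).gj (cat n (ch.AX S (ox S x')) (ch.AX S (ox S y'))) n n hn hn)
    have hp1 := (hG d).pos _ (gauge_qf (ch.AX S (ox S x')) hn)
    have hp2 := (hG d).pos _ (gauge_qf (ch.AX S (ox S y')) hn)
    have hsub : ν.real (ch.TM S (ox S x') n (2 * r) ∩ S^[n] ⁻¹' ch.TM S (ox S y') n (2 * r)) ≤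
        ν.real (ch.TM S (cat n (ox S x') (ox S y')) (n + n) (2 * r + 2 * r)) :=
      measureReal_mono (fun z hz => TM_cat ch S hz.1 hz.2) (measure_ne_top _ _)
    set I12 := gI (qf (cat n (ch.AX S (ox S x')) (ch.AX S (ox S y'))) (n + n))
    set Iq := gI (qj (cat n (ch.AX S (ox S x')) (ch.AX S (ox S y'))) n n)
    set I1 := gI (qf (ch.AX S (ox S x')) n)
    set I2 := gI (qf (ch.AX S (ox S y')) n)
    set m1 := ν.real (ch.TM S (ox S x) n (r / 2))
    set m2 := ν.real (ch.TM S (ox S (S^[n] x)) n (r / 2))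
    calc _ ≤ C0 * (2 * r + 2 * r) ^ d * I12 * Iq * r ^ d := by
          gcongr; exact hsub.trans hup
      _ = C0 * 4 ^ d * (r ^ d * I1) * (r ^ d * I2) := by
          rw [show 2 * r + 2 * r = 4 * r by ring, mul_pow, mul_assoc _ I12, ← hsp]; ring
      _ ≤ C0 * 4 ^ d * (2 * 2 ^ d * C0 * m1) * (2 * 2 ^ d * C0 * m2) := by gcongr
      _ = C0 * 4 ^ d * (2 * 2 ^ d * C0) ^ 2 * m1 * m2 := by ring
      _ ≤ _ := by gcongr; nlinarith

end Vale.Agent.P109
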