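import Vale.Agent.P109.Base

open MeasureTheory Finset
open scoped ENNReal

namespace Vale.Agent.P109
open Bs

theorem geoSStmt (hG : ∀ d, GaussStmt d) (hA : ∀ d, LinAStmt d) (hB : ∀ d, LinBStmt d) :
    GeoSStmt := by
  intro d M _ ν S ch C0 hch hT
  have := hch.prob
  have hK := hch.oneK
  have hC0 := hT.oneC
  have h161 : (1 : ℝ) ≤ 161 ^ d := one_le_pow₀ (by norm_num)
  have hc1 : C0 * (2880 * (ch.K + 4)) ≤ C0 * (2880 * (ch.K + 4) * 161 ^ d) :=
    mul_le_mul_of_nonneg_left (le_mul_of_one_le_right (by positivity) h161) (by linarith)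
  have hc2 : C0 * 161 ^ d ≤ C0 * (2880 * (ch.K + 4) * 161 ^ d) := by
    gcongr; exact le_mul_of_one_le_left (by positivity) (by linarith)
  have hc3 : C0 ≤ C0 * 161 ^ d := le_mul_of_one_le_right (by positivity) h161
  refine ⟨C0 * (2880 * (ch.K + 4) * 161 ^ d), by linarith, ?_, ?_⟩
  · intro n Γ r x y hn hΓ hr hs hx hy hl hq hj
    have hn' : (1 : ℝ) ≤ n := by exact_mod_cast hn
    have hGr := (hB d).conc (ch.AX S (ox S x)) (ch.AX S (ox S y)) n (3 * Γ) (6 * Γ) ch.K hn (by linarith) (by linarith) hK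
      (fun t => norm_A_le ch S (by linarith) _) hx.1 hy.1 hq
    rw [← AX_cat] at hGr
    obtain ⟨z, hz1, hz2⟩ := (hA d).ex (cat n (ch.AX S (ox S x)) (ch.AX S (ox S y))) n n hn hn
      (ch.c (S^[n] x) - ch.c y)
    have hΓ2 : 1 ≤ (ch.K + 4) * (3 * Γ) * (6 * Γ) :=
      one_le_mul_of_one_le_of_one_le (one_le_mul_of_one_le_of_one_le (by linarith) (by linarith))
        (by linarith)
    have hlow := hT.low (cat n (ox S x) (ox S y)) (n + n) (80 * r) _ (by omega) hΓ2
      (by positivity)
      (by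
        refine le_trans ?_ hs
        calc _ = C0 * (2880 * (ch.K + 4)) * n * r * Γ ^ 2 := by push_cast; ring
          _ ≤ _ := by gcongr)
      (PO_cat ch S (fun t ht => int_mono ch S (by linarith) (hx.2 t ht))
        (fun t ht => int_mono ch S (by linarith) (hy.2 t ht)) hl) hGr
      ⟨z, by
        rw [AX_cat]
        exact Sol.congr hz1 (fun _ _ => rfl) fun t _ => (jumps_cat ch S x y hn t).symm, by
        refine abs_le_of_sq_le_sq' ?_ (by positivity) |>.2
        rw [hz2]; exact hj.trans (le_of_eq (by ring))⟩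
    rw [AX_cat] at hlow
    have hsp := gI_split (hG d) (hA d) (cat n (ch.AX S (ox S x)) (ch.AX S (ox S y))) hn hn
    rw [qf_cat, sh_cat] at hsp
    have hq0 := (hG d).pos _ ((hA d).gj (cat n (ch.AX S (ox S x)) (ch.AX S (ox S y))) n n hn hn)
    have h12 := (hG d).pos _ (gauge_qf (cat n (ch.AX S (ox S x)) (ch.AX S (ox S y)))
      (n := n + n) (by omega))
    have hsub : ν.real (ch.TM S (cat n (ox S x) (ox S y)) (n + n) (80 * r)) ≤
        ν.real (ch.TM S (ox S x) n (80 * r) ∩ S^[n] ⁻¹' ch.TM S (ox S y) n (80 * r)) :=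
      measureReal_mono (fun z hz => TM_of_cat ch S hz) (measure_ne_top _ _)
    rw [mul_assoc, hsp]
    set I12 := gI (qf (cat n (ch.AX S (ox S x)) (ch.AX S (ox S y))) (n + n))
    set Iq := gI (qj (cat n (ch.AX S (ox S x)) (ch.AX S (ox S y))) n n)
    calc r ^ d * (I12 * Iq) ≤ (80 * r) ^ d * I12 * Iq := by
          rw [mul_assoc]; gcongr; linarith
      _ ≤ C0 * ν.real (ch.TM S (cat n (ox S x) (ox S y)) (n + n) (80 * r)) * Iq := by gcongr
      _ ≤ C0 * (2880 * (ch.K + 4) * 161 ^ d) *
          ν.real (ch.TM S (ox S x) n (80 * r) ∩ S^[n] ⁻¹' ch.TM S (ox S y) n (80 * r)) * Iq := by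
          gcongr; linarith
      _ = _ := by ring
  · intro n Γ r ι F x B z hn hΓ hr hs hx hBm hdis hBs hz
    rcases F.eq_empty_or_nonempty with rfl | hF
    · simp only [sum_empty]; positivity
    obtain ⟨a0, ha0, hmin⟩ := F.exists_min_image (fun a => gI (qf (ch.AX S (ox S (x a))) n)) hF
    have hI := (hG d).pos _ (gauge_qf (ch.AX S (ox S (x a0))) hn)
    have hn' : (1 : ℝ) ≤ n := by exact_mod_cast hn
    have hup := hT.up (ox S (x a0)) n (161 * r) (3 * Γ) hn (by linarith) (by positivity)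
      (by
        refine le_trans ?_ hs
        calc C0 * n * (161 * r) * (3 * Γ) = C0 * 483 * n * r * Γ := by ring
          _ ≤ C0 * (2880 * (ch.K + 4)) * n * r * Γ ^ 2 := by
              gcongr
              · linarith
              · nlinarith
          _ ≤ _ := by gcongr)
      (PO_ox ch S fun t ht => int_mono ch S (by linarith) ((hx a0 ha0).2 t ht)) (hx a0 ha0).1
    have hsum : ∑ a ∈ F, ν.real (B a) ≤ ν.real (ch.TM S (ox S (x a0)) n (161 * r)) := by
      rw [← measureReal_biUnion_finset hdis hBm]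
      refine measureReal_mono ?_ (measure_ne_top _ _)
      intro w hw
      simp only [Set.mem_iUnion] at hw
      obtain ⟨a, ha, hw⟩ := hw
      have := TM_trans ch S (TM_trans ch S (hBs a ha hw) (TM_symm ch S (hz a ha))) (hz a0 ha0)
      exact TM_mono ch S _ _ (le_of_eq (by ring)) this
    calc _ ≤ ∑ a ∈ F, ν.real (B a) / (r ^ d * gI (qf (ch.AX S (ox S (x a0))) n)) := by
          refine sum_le_sum fun a ha => ?_
          gcongr
          exact hmin a ha
      _ ≤ C0 * (161 * r) ^ d * gI (qf (ch.AX S (ox S (x a0))) n) /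
          (r ^ d * gI (qf (ch.AX S (ox S (x a0))) n)) := by
          rw [← sum_div]; gcongr; exact hsum.trans hup
      _ = C0 * 161 ^ d := by rw [mul_pow]; field_simp
      _ ≤ _ := hc2

end Vale.Agent.P109
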