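import Vale.Agent.P109.Base

open MeasureTheory Finset
open scoped ENNReal

namespace Vale.Agent.P109
open Bs

namespace Gt
variable {d : ℕ} {M : Type} [MeasurableSpace M] {ν : Measure M} {S : M → M} {ch : Ch d M}

omit [MeasurableSpace M] in
theorem blk {ξ : ℕ → M} {n : ℕ} {r : ℝ} (hr : 0 < r) (h : ∀ t < n, ξ t ∈ ch.Int S r) :
    Blk (fun t => ch.F S (ch.lab (ξ t))) (fun t => ch.c (ξ t)) (ch.AX S ξ) n ch.K r :=
  ⟨fun t ht w hw => (h t ht w hw).2.2.2.1, fun t ht w hw w' hw' => (h t ht w hw).2.2.2.2.2 w' hw',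
    fun t ht => (A_eq ch S hr (h t ht)).symm⟩

theorem F_c (hch : ch.Ok ν S) (x : M) : ch.F S (ch.lab x) (ch.c x) = ch.c (S x) := by
  rw [Ch.F, hch.ps_c]

theorem orb_eq (hch : ch.Ok ν S) {ξ : ℕ → M} {n : ℕ} {r : ℝ} {z : M} (hz : z ∈ ch.TM S ξ n r) :
    ∀ t < n, orb (fun t => ch.F S (ch.lab (ξ t))) t (ch.c z) = ch.c (S^[t] z)
  | 0, _ => rfl
  | t + 1, ht => by
      rw [orb, orb_eq hch hz t (by omega), ← (hz.1 t (by omega)).1, F_c hch,
        Function.iterate_succ_apply']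

theorem mem_tube (hch : ch.Ok ν S) {ξ : ℕ → M} {n : ℕ} {r : ℝ} {z : M} (hz : z ∈ ch.TM S ξ n r) :
    ch.c z ∈ tube (fun t => ch.F S (ch.lab (ξ t))) (fun t => ch.c (ξ t)) n r := by
  refine lt_of_eq_of_lt (nr_congr fun t ht => ?_) hz.2
  rw [orb_eq hch hz t ht]

theorem ball_of_tube {f : ℕ → E d → E d} {c : ℕ → E d} {n t : ℕ} {r : ℝ} {v : E d}
    (hv : v ∈ tube f c n r) (ht : t < n) : orb f t v ∈ Metric.ball (c t) r := by
  rw [mem_ball_iff_norm]
  exact (norm_le_nr (fun t => orb f t v - c t) ht).trans_lt hv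

omit [MeasurableSpace M] in
theorem ball_of_tube' {ξ : ℕ → M} {n t : ℕ} {r : ℝ} {v : E d}
    (hv : v ∈ tube (fun t => ch.F S (ch.lab (ξ t))) (fun t => ch.c (ξ t)) n r) (ht : t < n) :
    orb (fun t => ch.F S (ch.lab (ξ t))) t v ∈ Metric.ball (ch.c (ξ t)) r := by
  have := ball_of_tube hv ht
  exact this

theorem iter_eq (hch : ch.Ok ν S) {ξ : ℕ → M} {n : ℕ} {r : ℝ} (hPO : ch.PO S ξ n r) {x : M}
    (hl : ch.lab x = ch.lab (ξ 0))
    (hx : ch.c x ∈ tube (fun t => ch.F S (ch.lab (ξ t))) (fun t => ch.c (ξ t)) n r) :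
    ∀ t < n, S^[t] x = ch.ps (ch.lab (ξ t)) (orb (fun t => ch.F S (ch.lab (ξ t))) t (ch.c x))
  | 0, _ => by rw [← hl]; exact (hch.ps_c x).symm
  | t + 1, ht => by
      have ih := iter_eq hch hPO hl hx t (by omega)
      have h1 := (hPO.1 t (by omega) _ (ball_of_tube' hx (by omega : t < n))).2.2.1
      rw [Function.iterate_succ_apply', ih, orb, ← hPO.2 t ht, ← h1, Ch.F, hch.ps_c]

theorem mem_TM (hch : ch.Ok ν S) {ξ : ℕ → M} {n : ℕ} {r : ℝ} (hPO : ch.PO S ξ n r) {x : M}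
    (hl : ch.lab x = ch.lab (ξ 0))
    (hx : ch.c x ∈ tube (fun t => ch.F S (ch.lab (ξ t))) (fun t => ch.c (ξ t)) n r) :
    x ∈ ch.TM S ξ n r := by
  refine ⟨fun t ht => ?_, lt_of_eq_of_lt (nr_congr fun t ht => ?_) hx⟩
  · have h1 := hPO.1 t ht _ (ball_of_tube' hx ht)
    rw [iter_eq hch hPO hl hx t ht]; exact ⟨h1.1, h1.2.2.1⟩
  · have h1 := hPO.1 t ht _ (ball_of_tube' hx ht)
    rw [iter_eq hch hPO hl hx t ht, h1.2.1]

theorem meas_TM (hch : ch.Ok ν S) (ξ : ℕ → M) (n : ℕ) (r : ℝ) : MeasurableSet (ch.TM S ξ n r) := by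
  have hS := hch.mS.measurable
  have h1 : MeasurableSet {z | ∀ t < n, ch.lab (S^[t] z) = ch.lab (ξ t) ∧
      ch.lab (S (S^[t] z)) = ch.lab (S (ξ t))} := by
    simp only [Set.ofPred_forall]
    refine MeasurableSet.iInter fun t => MeasurableSet.iInter fun _ => MeasurableSet.inter ?_ ?_
    · exact (hch.mlab.comp (hS.iterate t)) (measurableSet_singleton _)
    · exact (hch.mlab.comp (hS.comp (hS.iterate t))) (measurableSet_singleton _)
  have h2 : Measurable fun z => nr n fun t => ch.c (S^[t] z) - ch.c (ξ t) := by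
    unfold nr
    refine Measurable.sqrt (Finset.measurable_sum _ fun t _ => ?_)
    exact (((hch.mc.comp (hS.iterate t)).sub measurable_const).norm).pow_const 2
  exact h1.inter (measurableSet_lt h2 (measurable_const (a := r)))

end Gt

open Gt in
theorem geoTStmt (hU : ∀ d, TubeUStmt d) (hL : ∀ d, TubeLStmt d) (hG : ∀ d, GaussStmt d) :
    GeoTStmt := by
  intro d M _ ν S ch hch
  have := hch.prob
  have hK := hch.oneK
  obtain ⟨c0, hc0, hL⟩ := hL d
  have hd : (0 : ℝ) ≤ d := by positivity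
  have e1 : (0 : ℝ) ≤ 3 * 2 ^ (d + 1) := by positivity
  have e2 : 0 ≤ 1 / c0 := by positivity
  set X : ℝ := 12 * (d + 1) + 3 * 2 ^ (d + 1) + 1 / c0 with hX
  have hX1 : 1 ≤ X := by linarith
  have hsm : ∀ {n : ℕ} {r Γ : ℝ}, 1 ≤ Γ → 0 < r → ch.K * X * n * r * Γ ≤ 1 →
      12 * (d + 1) * n * (ch.K * r) * Γ ≤ 1 := fun {n r Γ} hΓ hr h => by
    refine le_trans ?_ h
    calc 12 * (d + 1) * n * (ch.K * r) * Γ = ch.K * (12 * (d + 1)) * n * r * Γ := by ring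
      _ ≤ _ := by gcongr; linarith
  refine ⟨ch.K * X, by nlinarith, by nlinarith, meas_TM hch, ?_, ?_, ?_, ?_⟩
  · intro ξ n r ρ hρ hξ z hz t ht
    have h1 : ‖ch.c (S^[t] z) - ch.c (ξ t)‖ < r :=
      (norm_le_nr (fun t => ch.c (S^[t] z) - ch.c (ξ t)) ht).trans_lt hz.2
    have hr : 0 < r := (norm_nonneg _).trans_lt h1
    have hb : ch.c (S^[t] z) ∈ Metric.ball (ch.c (ξ t)) ρ := by
      rw [mem_ball_iff_norm]; linarith
    have hl := hz.1 t ht
    have h2 := hξ t ht _ hb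
    constructor
    · rw [A_eq ch S (by linarith) (hξ t ht), Ch.A, hl.1, if_pos h2.2.2.2.2.1]
      exact (h2.2.2.2.2.2 _ (Metric.mem_ball_self (by linarith))).trans (by gcongr)
    · have hsub : Metric.ball (ch.c (S^[t] z)) (ρ - r) ⊆ Metric.ball (ch.c (ξ t)) ρ :=
        Metric.ball_subset_ball' (by rw [dist_eq_norm]; linarith)
      intro w hw
      obtain ⟨a, b, c, e, f, g⟩ := hξ t ht w (hsub hw)
      rw [hl.1, hl.2]
      exact ⟨a, b, c, e, f, fun w' hw' => g w' (hsub hw')⟩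
  · intro ξ n r Γ hn hΓ hr hs hPO hGr
    have hb := blk hr hPO.1
    have h1 := (hU d).up _ _ _ n ch.K r Γ hn hΓ (by linarith) hr (hsm hΓ hr hs) hb hGr
    have h2 := hch.up (ch.lab (ξ 0)) _ ((hU d).opn _ _ _ n ch.K r hb).measurableSet
    have hp := (hG d).pos _ (gauge_qf (ch.AX S ξ) hn)
    refine ENNReal.toReal_le_of_le_ofReal (by positivity) ?_
    refine le_trans (measure_mono fun z hz => ?_) (h2.trans ?_)
    · exact ⟨(hz.1 0 hn).1, mem_tube hch hz⟩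
    calc _ ≤ ENNReal.ofReal ch.K *
          ENNReal.ofReal (3 * 2 ^ (d + 1) * r ^ d * gI (qf (ch.AX S ξ) n)) := by gcongr
      _ ≤ _ := by
          rw [← ENNReal.ofReal_mul (by linarith)]
          refine ENNReal.ofReal_le_ofReal ?_
          calc _ = ch.K * (3 * 2 ^ (d + 1)) * r ^ d * gI (qf (ch.AX S ξ) n) := by ring
            _ ≤ _ := by gcongr; linarith
  · intro ξ n r Γ hn hΓ hr hs hPO hGr ⟨z, hz⟩
    have hn' : (1 : ℝ) ≤ n := by exact_mod_cast hn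
    obtain ⟨y, hy1, hy2⟩ := (hU d).jump _ _ _ n ch.K r Γ hΓ (by linarith) hr
      (le_trans (by gcongr; nlinarith [mul_le_mul hX1 hn' zero_le_one (by linarith)]) hs)
      (blk hr hPO.1) hGr _ (mem_tube hch hz)
    exact ⟨y, Sol.congr hy1 (fun _ _ => rfl) fun t _ => by rw [F_c hch], hy2⟩
  · intro ξ n r Γ hn hΓ hr hs hPO hGr ⟨y, hy1, hy2⟩
    have hb := blk hr hPO.1
    have h1 := hL _ _ _ n ch.K r Γ hn hΓ (by linarith) hr (hsm hΓ hr hs) hb hGr
      ⟨y, Sol.congr hy1 (fun _ _ => rfl) fun t _ => by rw [F_c hch], hy2⟩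
    have h2 := hch.low (ch.lab (ξ 0)) _ ((hU d).opn _ _ _ n ch.K r hb).measurableSet
      fun w hw => let h := hPO.1 0 hn w (ball_of_tube' (t := 0) hw hn); ⟨h.1, h.2.1⟩
    have h3 : ENNReal.ofReal (c0 * r ^ d * gI (qf (ch.AX S ξ) n)) ≤
        ENNReal.ofReal ch.K * ν (ch.TM S ξ n r) :=
      h1.trans (h2.trans (by gcongr; exact fun x hx => mem_TM hch hPO hx.1 hx.2))
    have h4 := (ENNReal.ofReal_le_iff_le_toReal
      (ENNReal.mul_ne_top ENNReal.ofReal_ne_top (measure_ne_top _ _))).1 h3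
    rw [ENNReal.toReal_mul, ENNReal.toReal_ofReal (by linarith)] at h4
    calc r ^ d * gI (qf (ch.AX S ξ) n) = 1 / c0 * (c0 * r ^ d * gI (qf (ch.AX S ξ) n)) := by
          field_simp
      _ ≤ 1 / c0 * (ch.K * ν.real (ch.TM S ξ n r)) := mul_le_mul_of_nonneg_left h4 e2
      _ = ch.K * (1 / c0) * ν.real (ch.TM S ξ n r) := by ring
      _ ≤ _ := by gcongr; linarith

end Vale.Agent.P109
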