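import Vale.Agent.P109.Base

open MeasureTheory Finset
open scoped ENNReal

namespace Vale.Agent.P109
namespace Grd

variable {d : ℕ} {M : Type} (ch : Ch d M) (S : M → M)

/-- the grid coordinate -/
noncomputable def fl (i : ℕ) (x : M) (j : Fin d) : ℕ := ⌊(2 : ℝ) ^ i * (ch.c x j + ch.K)⌋₊

/-- the number of grid values -/
noncomputable def bb (i : ℕ) : ℕ := ⌊(2 : ℝ) ^ i * (2 * ch.K)⌋₊ + 1

theorem co_bd (hb : ∀ x, ‖ch.c x‖ ≤ ch.K) (x : M) (j : Fin d) : |ch.c x j| ≤ ch.K :=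
  (PiLp.norm_apply_le (ch.c x) j).trans (hb x)

theorem arg_nn (hb : ∀ x, ‖ch.c x‖ ≤ ch.K) (i : ℕ) (x : M) (j : Fin d) :
    0 ≤ (2 : ℝ) ^ i * (ch.c x j + ch.K) :=
  mul_nonneg (by positivity) (by have := (abs_le.1 (co_bd ch hb x j)).1; linarith)

theorem fl_lt (hb : ∀ x, ‖ch.c x‖ ≤ ch.K) (i : ℕ) (x : M) (j : Fin d) : fl ch i x j < bb ch i :=
  Nat.lt_succ_of_le (Nat.floor_mono (mul_le_mul_of_nonneg_left
    (by have := (abs_le.1 (co_bd ch hb x j)).2; linarith) (by positivity)))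

/-- the type of labels -/
abbrev Lb (i : ℕ) : Type := Fin ch.k × Fin ch.k × (Fin d → Fin (bb ch i))

/-- the label of a point -/
noncomputable def D0 (hb : ∀ x, ‖ch.c x‖ ≤ ch.K) (i : ℕ) (x : M) : Lb ch i :=
  (ch.lab x, ch.lab (S x), fun j => ⟨fl ch i x j, fl_lt ch hb i x j⟩)

theorem D0_eq (hb : ∀ x, ‖ch.c x‖ ≤ ch.K) (i : ℕ) (x y : M) :
    D0 ch S hb i x = D0 ch S hb i y ↔
      ch.lab x = ch.lab y ∧ ch.lab (S x) = ch.lab (S y) ∧ ∀ j, fl ch i x j = fl ch i y j := by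
  simp [D0, funext_iff]

theorem fl_div (i k : ℕ) (x : M) (j : Fin d) : fl ch i x j = fl ch (i + k) x j / 2 ^ k := by
  rw [fl, fl, ← Nat.floor_div_natCast]
  congr 1
  push_cast
  rw [pow_add]
  field_simp

theorem floor_close {p q : ℝ} (hp : 0 ≤ p) (hq : 0 ≤ q) (h : ⌊p⌋₊ = ⌊q⌋₊) : |p - q| ≤ 1 := by
  have a1 := Nat.floor_le hp
  have a2 := Nat.floor_le hq
  have a3 := Nat.lt_floor_add_one p
  have a4 := Nat.lt_floor_add_one q
  rw [h] at a1 a3
  rw [abs_le]
  constructor <;> linarith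

theorem floor_far {p q : ℝ} (hp : 0 ≤ p) (hq : 0 ≤ q) (h : ⌊q⌋₊ ≠ ⌊p⌋₊) :
    |p - (max ⌊p⌋₊ ⌊q⌋₊ : ℕ)| ≤ |q - p| := by
  have a1 := Nat.floor_le hp
  have a2 := Nat.floor_le hq
  have a3 := Nat.lt_floor_add_one p
  have a4 := Nat.lt_floor_add_one q
  have a5 := le_abs_self (q - p)
  have a6 := neg_abs_le (q - p)
  rcases lt_or_gt_of_ne h with c | c
  · have c' : (⌊q⌋₊ : ℝ) + 1 ≤ ⌊p⌋₊ := by exact_mod_cast c
    rw [max_eq_left c.le, abs_le]
    constructor <;> linarith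
  · have c' : (⌊p⌋₊ : ℝ) + 1 ≤ ⌊q⌋₊ := by exact_mod_cast c
    rw [max_eq_right c.le, abs_le]
    constructor <;> linarith

/-- a thin box -/
def box (K r z : ℝ) (j : Fin d) : Set (E d) :=
  WithLp.ofLp ⁻¹' Set.Icc (fun j' => if j' = j then z - r else -K)
    (fun j' => if j' = j then z + r else K)

theorem box_meas (K r z : ℝ) (j : Fin d) : MeasurableSet (box K r z j) :=
  (PiLp.volume_preserving_ofLp (Fin d)).measurable measurableSet_Icc

theorem box_vol {K r : ℝ} (hK : 1 ≤ K) (hr : 0 < r) (z : ℝ) (j : Fin d) :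
    volume (box K r z j) ≤ ENNReal.ofReal (2 * r * (2 * K) ^ d) := by
  rw [box, (PiLp.volume_preserving_ofLp (Fin d)).measure_preimage
    measurableSet_Icc.nullMeasurableSet, Real.volume_Icc_pi, ← ENNReal.ofReal_prod_of_nonneg
      fun j' _ => by split_ifs <;> linarith]
  refine ENNReal.ofReal_le_ofReal ?_
  calc _ ≤ ∏ j', (if j' = j then 2 * r else 1) * (2 * K) := by
        refine prod_le_prod (fun j' _ => by split_ifs <;> linarith) fun j' _ => ?_
        split_ifs <;> nlinarith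
    _ = _ := by rw [prod_mul_distrib, prod_ite_eq', prod_const]; simp

theorem bb_le (hK : 1 ≤ ch.K) (i : ℕ) : (bb ch i : ℝ) ≤ 3 * ch.K * 2 ^ i := by
  have h1 : (1 : ℝ) ≤ 2 ^ i := one_le_pow₀ (by norm_num)
  have h2 := Nat.floor_le (show 0 ≤ (2 : ℝ) ^ i * (2 * ch.K) by positivity)
  rw [bb]
  push_cast
  nlinarith

variable [MeasurableSpace M] {ν : Measure M}

theorem D0_meas (h : ch.Ok ν S) (i : ℕ) : Measurable (D0 ch S h.cbd i) := by
  refine h.mlab.prodMk ((h.mlab.comp h.mS.measurable).prodMk (measurable_pi_lambda _ fun j => ?_))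
  refine measurable_to_countable' fun y => ?_
  have h1 : Measurable fun x => fl ch i x j := by
    have := h.mc
    unfold fl
    fun_prop
  convert h1 (measurableSet_singleton y.val) using 1
  ext x
  simp [Fin.ext_iff]

theorem bad_le (h : ch.Ok ν S) (i : ℕ) {r : ℝ} (hr : 0 < r) :
    ν {x | ∃ y j, ‖ch.c y - ch.c x‖ < r ∧ fl ch i y j ≠ fl ch i x j} ≤
      ENNReal.ofReal (ch.k * (ch.K * (d * (3 * ch.K * (2 * (2 * ch.K) ^ d)))) * r * 2 ^ i) := by
  have hK := h.oneK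
  set B : Set (E d) := ⋃ j : Fin d, ⋃ n : Fin (bb ch i), box ch.K r (n / 2 ^ i - ch.K) j with hB
  have mB : MeasurableSet B :=
    MeasurableSet.iUnion fun j => MeasurableSet.iUnion fun n => box_meas _ _ _ j
  have vB : volume B ≤ ENNReal.ofReal (d * (bb ch i * (2 * r * (2 * ch.K) ^ d))) := by
    refine (measure_iUnion_fintype_le _ _).trans ?_
    refine (sum_le_card_nsmul _ _ (ENNReal.ofReal (bb ch i * (2 * r * (2 * ch.K) ^ d)))
      fun j _ => ?_).trans (le_of_eq ?_)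
    · refine (measure_iUnion_fintype_le _ _).trans ?_
      refine (sum_le_card_nsmul _ _ _ fun n _ => box_vol hK hr _ j).trans (le_of_eq ?_)
      rw [ENNReal.ofReal_mul (Nat.cast_nonneg _), ENNReal.ofReal_natCast]
      simp
    · rw [ENNReal.ofReal_mul (Nat.cast_nonneg d), ENNReal.ofReal_natCast]
      simp
  have hs : {x | ∃ y j, ‖ch.c y - ch.c x‖ < r ∧ fl ch i y j ≠ fl ch i x j} ⊆
      ⋃ a : Fin ch.k, {x | ch.lab x = a ∧ ch.c x ∈ B} := by
    rintro x ⟨y, j, h1, h2⟩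
    refine Set.mem_iUnion.2 ⟨ch.lab x, rfl, Set.mem_iUnion.2 ⟨j, Set.mem_iUnion.2
      ⟨⟨max (fl ch i x j) (fl ch i y j), max_lt (fl_lt ch h.cbd i x j) (fl_lt ch h.cbd i y j)⟩,
        ?_⟩⟩⟩
    have h3 := floor_far (arg_nn ch h.cbd i x j) (arg_nn ch h.cbd i y j) h2
    have h4 : |ch.c y j - ch.c x j| ≤ r := (PiLp.norm_apply_le (ch.c y - ch.c x) j).trans h1.le
    have hp : (0 : ℝ) < 2 ^ i := by positivity
    have h5 : |ch.c x j - ((max (fl ch i x j) (fl ch i y j) : ℕ) / 2 ^ i - ch.K)| ≤ r := by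
      rw [← mul_sub, add_sub_add_right_eq_sub, abs_mul, abs_of_pos hp] at h3
      refine le_of_mul_le_mul_left ?_ hp
      refine le_trans (le_of_eq ?_) (h3.trans (mul_le_mul_of_nonneg_left h4 hp.le))
      rw [← abs_of_pos hp, ← abs_mul, abs_of_pos hp]
      congr 1
      unfold fl
      field_simp
      ring
    rw [abs_le] at h5
    refine ⟨fun j' => ?_, fun j' => ?_⟩
    · dsimp only
      split_ifs with e
      · subst e; linarith [h5.1]
      · exact (abs_le.1 (co_bd ch h.cbd x j')).1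
    · dsimp only
      split_ifs with e
      · subst e; linarith [h5.2]
      · exact (abs_le.1 (co_bd ch h.cbd x j')).2
  refine (measure_mono hs).trans ((measure_iUnion_fintype_le _ _).trans ?_)
  refine (sum_le_card_nsmul _ _ _ fun a _ => (h.up a B mB).trans
    (mul_le_mul_right vB _)).trans ?_
  rw [card_univ, Fintype.card_fin, nsmul_eq_mul, ← ENNReal.ofReal_natCast,
    ← ENNReal.ofReal_mul (by linarith), ← ENNReal.ofReal_mul (Nat.cast_nonneg _)]
  refine ENNReal.ofReal_le_ofReal ?_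
  have := bb_le ch hK i
  calc _ ≤ (ch.k : ℝ) * (ch.K * (d * (3 * ch.K * 2 ^ i * (2 * r * (2 * ch.K) ^ d)))) := by gcongr
    _ = _ := by ring

theorem sep {A B : Set (E d)} (hA : IsCompact A) (hB : IsCompact B) (h : Disjoint A B) (K : ℝ) :
    ∀ᶠ i : ℕ in Filter.atTop, ∀ w ∈ A, ∀ w' ∈ B, K < ‖w - w'‖ * 2 ^ i := by
  obtain ⟨r, hr, h1⟩ := Metric.exists_pos_forall_lt_edist hA hB.isClosed h
  have h2 := (tendsto_pow_atTop_atTop_of_one_lt (show (1 : ℝ) < 2 by norm_num)).eventually_gt_atTop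
    (K / r)
  filter_upwards [h2] with i hi w hw w' hw'
  have h3 := h1 w hw w' hw'
  rw [edist_nndist, ENNReal.coe_lt_coe, ← NNReal.coe_lt_coe, coe_nndist, dist_eq_norm] at h3
  have hr' : (0 : ℝ) < r := hr
  rw [div_lt_iff₀ hr'] at hi
  have : (2 : ℝ) ^ i * r ≤ ‖w - w'‖ * 2 ^ i := by
    rw [mul_comm]; exact mul_le_mul_of_nonneg_right h3.le (by positivity)
  linarith

end Grd

open Grd in
theorem gridStmt : GridStmt := by
  intro d M _ ν S ch h
  have hK := h.oneK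
  have hc : 0 ≤ ch.k * (ch.K * (d * (3 * ch.K * (2 * (2 * ch.K) ^ d)))) := by positivity
  have hd : (0 : ℝ) ≤ d := Nat.cast_nonneg d
  refine ⟨⟨fun i => Fintype.card (Lb ch i), fun i x => Fintype.equivFin _ (D0 ch S h.cbd i x),
    1 + d + ch.k * (ch.K * (d * (3 * ch.K * (2 * (2 * ch.K) ^ d))))⟩, ?_, ?_, ?_, ?_, ?_⟩
  · dsimp only; linarith
  · exact fun i => (measurable_of_countable (Fintype.equivFin (Lb ch i))).comp (D0_meas ch S h i)
  · intro i i' x y hi e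
    obtain ⟨k, rfl⟩ := Nat.exists_eq_add_of_le hi
    dsimp only at e ⊢
    rw [Equiv.apply_eq_iff_eq, D0_eq] at e ⊢
    exact ⟨e.1, e.2.1, fun j => by rw [fl_div ch i k, fl_div ch i k, e.2.2 j]⟩
  · intro i x y e
    dsimp only at e ⊢
    rw [Equiv.apply_eq_iff_eq, D0_eq] at e
    refine ⟨e.1, e.2.1, le_trans ?_ (le_add_of_nonneg_right hc)⟩
    refine (abs_le_of_sq_le_sq' ?_ (by linarith)).2
    rw [mul_pow, EuclideanSpace.real_norm_sq_eq, sum_mul]
    refine (sum_le_card_nsmul _ _ 1 fun j _ => ?_).trans ?_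
    · have h1 := floor_close (arg_nn ch h.cbd i x j) (arg_nn ch h.cbd i y j) (e.2.2 j)
      rw [← mul_sub, add_sub_add_right_eq_sub, ← sq_le_one_iff_abs_le_one] at h1
      rw [← mul_pow, mul_comm]
      exact h1
    · simp only [card_univ, Fintype.card_fin, nsmul_eq_mul, mul_one]
      nlinarith
  · intro i r hr
    refine le_trans (measure_mono fun x hx => ?_) ((bad_le ch S h i hr).trans
      (ENNReal.ofReal_le_ofReal ?_))
    · simp only [Gr.Mg, Set.mem_compl_iff, Set.mem_ofPred_eq, not_forall,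
        Equiv.apply_eq_iff_eq, D0_eq] at hx
      obtain ⟨y, h1, h2, h3, h4⟩ := hx
      by_contra hn
      refine h4 ⟨h1, h2, fun j => ?_⟩
      by_contra hj
      exact hn ⟨y, j, h3, hj⟩
    · dsimp only
      gcongr
      linarith

open Grd in
theorem approxStmt : ApproxStmt := by
  intro d M _ ν S ch gr h hg k s hs ε hε
  have := h.prob
  have hne : Nonempty M := nonempty_of_isProbabilityMeasure ν
  obtain ⟨x0⟩ := hne
  have hN : (0 : ℝ) < Fintype.card (Fin ch.k × Fin k) := by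
    have : Nonempty (Fin ch.k × Fin k) := ⟨(ch.lab x0, s x0)⟩
    exact_mod_cast Fintype.card_pos
  have mW : ∀ p : Fin ch.k × Fin k, MeasurableSet {w | s (ch.ps p.1 w) = p.2} := fun p =>
    (hs.comp (h.mps p.1)) (measurableSet_singleton p.2)
  have mL : ∀ a : Fin ch.k, MeasurableSet {x | ch.lab x = a} := fun a =>
    h.mlab (measurableSet_singleton a)
  have hK : ∀ p : Fin ch.k × Fin k, ∃ K ⊆ {w | s (ch.ps p.1 w) = p.2}, IsCompact K ∧
      ((ν.restrict {x | ch.lab x = p.1}).map ch.c) ({w | s (ch.ps p.1 w) = p.2} \ K) <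
        ENNReal.ofReal (ε / Fintype.card (Fin ch.k × Fin k)) := fun p =>
    (mW p).exists_isCompact_sdiff_lt (measure_ne_top _ _)
      (ENNReal.ofReal_pos.2 (div_pos hε hN)).ne'
  choose K hK1 hK2 hK3 using hK
  have hev : ∀ᶠ i : ℕ in Filter.atTop, ∀ a y y', y ≠ y' → ∀ w ∈ K (a, y), ∀ w' ∈ K (a, y'),
      gr.K < ‖w - w'‖ * 2 ^ i := by
    simp only [Filter.eventually_all]
    intro a y y' hy
    refine sep (hK2 _) (hK2 _) (Set.disjoint_left.2 fun w h1 h2 => hy ?_) gr.K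
    exact (hK1 _ h1).symm.trans (hK1 _ h2)
  obtain ⟨i0, hi0⟩ := Filter.eventually_atTop.1 hev
  refine ⟨i0, fun i hi => ?_⟩
  have hu : ∀ z : Fin (gr.nD i), ∃ y : Fin k, ∀ x, gr.D i x = z → ch.c x ∈ K (ch.lab x, s x) →
      y = s x := by
    intro z
    by_cases hz : ∃ x, gr.D i x = z ∧ ch.c x ∈ K (ch.lab x, s x)
    · obtain ⟨x', e1, e2⟩ := hz
      refine ⟨s x', fun x e3 e4 => ?_⟩
      by_contra hne
      obtain ⟨f1, -, f2⟩ := hg.fine i x' x (e1.trans e3.symm)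
      rw [f1] at e2
      exact absurd (hi0 i hi _ _ _ hne _ e2 _ e4) (not_lt.2 f2)
    · exact ⟨s x0, fun x e3 e4 => absurd ⟨x, e3, e4⟩ hz⟩
  choose u hu using hu
  refine ⟨u, ?_⟩
  have hsub : {x | u (gr.D i x) ≠ s x} ⊆ ⋃ p : Fin ch.k × Fin k,
      ch.c ⁻¹' ({w | s (ch.ps p.1 w) = p.2} \ K p) ∩ {x | ch.lab x = p.1} := by
    intro x hx
    refine Set.mem_iUnion.2 ⟨(ch.lab x, s x), ⟨?_, fun hk => hx (hu _ x rfl hk)⟩, rfl⟩
    simp only [Set.mem_ofPred_eq, h.ps_c]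
  refine (measure_mono hsub).trans ((measure_iUnion_fintype_le _ _).trans ?_)
  refine (sum_le_card_nsmul _ _ (ENNReal.ofReal (ε / Fintype.card (Fin ch.k × Fin k)))
    fun p _ => ?_).trans (le_of_eq ?_)
  · have m1 := (mW p).diff (hK2 p).measurableSet
    have := (hK3 p).le
    rwa [Measure.map_apply h.mc m1, Measure.restrict_apply (h.mc m1)] at this
  · rw [card_univ, nsmul_eq_mul, ← ENNReal.ofReal_natCast,
      ← ENNReal.ofReal_mul (Nat.cast_nonneg _), mul_div_cancel₀ _ hN.ne']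

end Vale.Agent.P109
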