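import Vale.Agent.P109.Base

open MeasureTheory ProbabilityTheory Set Filter Topology

namespace Vale.Agent.P109

namespace Isom

variable (ν : Measure ℝ) [IsProbabilityMeasure ν]

theorem cont [NullSingletonClass ν] : Continuous (cdf ν) := by
  refine continuous_iff_continuousAt.2 fun x => ?_
  rw [(cdf ν).mono.continuousAt_iff_leftLim_eq_rightLim, (cdf ν).rightLim_eq]
  have h := (cdf ν).measure_singleton x
  rw [measure_cdf, measure_singleton, eq_comm, ENNReal.ofReal_eq_zero] at h
  exact le_antisymm ((cdf ν).mono.leftLim_le le_rfl) (by linarith)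

open Classical in
/-- the quantile function -/
noncomputable def q (y : unitInterval) : ℝ :=
  if 0 < (y : ℝ) ∧ (y : ℝ) < 1 then sInf {t | (y : ℝ) ≤ cdf ν t} else 0

theorem ne {y : ℝ} (h : y < 1) : {t | y ≤ cdf ν t}.Nonempty :=
  ((tendsto_cdf_atTop ν).eventually (le_mem_nhds h)).exists

theorem bdd {y : ℝ} (h : 0 < y) : BddBelow {t | y ≤ cdf ν t} := by
  obtain ⟨a, ha⟩ := eventually_atBot.1 ((tendsto_cdf_atBot ν).eventually (gt_mem_nhds h))
  refine ⟨a, fun t ht => ?_⟩
  by_contra hc
  exact absurd (ha t (not_le.1 hc).le) (not_lt.2 ht)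

variable [NullSingletonClass ν]

theorem mem {y : ℝ} (h0 : 0 < y) (h1 : y < 1) : y ≤ cdf ν (sInf {t | y ≤ cdf ν t}) :=
  (isClosed_le continuous_const (cont ν)).csInf_mem (ne ν h1) (bdd ν h0)

theorem gal {y : unitInterval} (h : 0 < (y : ℝ) ∧ (y : ℝ) < 1) (t : ℝ) :
    q ν y ≤ t ↔ (y : ℝ) ≤ cdf ν t := by
  unfold q
  rw [if_pos h]
  exact ⟨fun ht => (mem ν h.1 h.2).trans (monotone_cdf ν ht), fun ht => csInf_le (bdd ν h.1) ht⟩

theorem cdf_q {y : unitInterval} (h : 0 < (y : ℝ) ∧ (y : ℝ) < 1) : cdf ν (q ν y) = y := by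
  refine le_antisymm ?_ ((gal ν h _).1 le_rfl)
  have h1 : Tendsto (cdf ν) (𝓝[<] (q ν y)) (𝓝 (cdf ν (q ν y))) :=
    ((cont ν).tendsto _).mono_left nhdsWithin_le_nhds
  refine le_of_tendsto h1 ?_
  filter_upwards [self_mem_nhdsWithin] with t ht
  by_contra hc
  exact absurd ((gal ν h t).2 (not_le.1 hc).le) (not_le.2 ht)

theorem ae_in : ∀ᵐ y : unitInterval ∂(volume : Measure unitInterval),
    0 < (y : ℝ) ∧ (y : ℝ) < 1 := by
  have h0 : ∀ᵐ y ∂(volume : Measure unitInterval), y ≠ 0 := by
    rw [ae_iff]; simp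
  have h1 : ∀ᵐ y ∂(volume : Measure unitInterval), y ≠ 1 := by
    rw [ae_iff]; simp
  filter_upwards [h0, h1] with y a b
  exact ⟨lt_of_le_of_ne y.2.1 (fun h => a (Subtype.ext h.symm)),
    lt_of_le_of_ne y.2.2 (fun h => b (Subtype.ext h))⟩

theorem meas_q : Measurable (q ν) := by
  refine measurable_of_Iic fun t => ?_
  have hS : MeasurableSet {y : unitInterval | 0 < (y : ℝ) ∧ (y : ℝ) < 1} :=
    (measurableSet_lt measurable_const measurable_subtype_coe).inter
      (measurableSet_lt measurable_subtype_coe measurable_const)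
  have : q ν ⁻¹' Iic t = ({y : unitInterval | 0 < (y : ℝ) ∧ (y : ℝ) < 1} ∩
      {y | (y : ℝ) ≤ cdf ν t}) ∪ ({y : unitInterval | 0 < (y : ℝ) ∧ (y : ℝ) < 1}ᶜ ∩ {_y | 0 ≤ t}) := by
    ext y
    by_cases h : 0 < (y : ℝ) ∧ (y : ℝ) < 1
    · simp only [mem_preimage, mem_Iic, gal ν h, mem_union, mem_inter_iff, mem_setOf_eq, h,
        mem_compl_iff]
      simp
    · simp only [mem_preimage, mem_Iic, q, if_neg h, mem_union, mem_inter_iff, mem_setOf_eq, h,
        mem_compl_iff]
      simp
  rw [this]
  exact (hS.inter (measurableSet_le measurable_subtype_coe measurable_const)).union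
    (hS.compl.inter (MeasurableSet.const _))

/-- the distribution function with values in the unit interval -/
noncomputable def F (t : ℝ) : unitInterval := ⟨cdf ν t, cdf_nonneg ν t, cdf_le_one ν t⟩

theorem meas_F : Measurable (F ν) := (cont ν).measurable.subtype_mk

theorem map_q : (volume : Measure unitInterval).map (q ν) = ν := by
  refine Measure.ext_of_Iic _ _ fun t => ?_
  rw [Measure.map_apply (meas_q ν) measurableSet_Iic, ← ofReal_cdf]
  have : (q ν ⁻¹' Iic t : Set unitInterval) =ᵐ[volume] (Iic (F ν t) : Set unitInterval) := by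
    filter_upwards [ae_in] with y hy
    exact propext (gal ν hy t)
  rw [measure_congr this, unitInterval.volume_Iic]
  rfl

theorem F_q : ∀ᵐ y ∂(volume : Measure unitInterval), F ν (q ν y) = y := by
  filter_upwards [ae_in] with y hy
  exact Subtype.ext (cdf_q ν hy)

theorem map_F : ν.map (F ν) = volume := by
  conv_lhs => arg 2; rw [← map_q ν]
  rw [Measure.map_map (meas_F ν) (meas_q ν)]
  have : F ν ∘ q ν =ᵐ[volume] id := F_q ν
  rw [Measure.map_congr this, Measure.map_id]

theorem q_F : ∀ᵐ t ∂ν, q ν (F ν t) = t := by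
  have h : ∀ᵐ t ∂((volume : Measure unitInterval).map (q ν)), q ν (F ν t) = t := by
    refine (ae_map_iff (meas_q ν).aemeasurable
      (measurableSet_eq_fun ((meas_q ν).comp (meas_F ν)) measurable_id)).2 ?_
    filter_upwards [F_q ν] with y hy
    exact congrArg (q ν) hy
  rwa [map_q] at h

end Isom

theorem isoStmt : IsoStmt := by
  intro X _ _ μ _ _
  have he := measurableEmbedding_embeddingReal X
  set e := embeddingReal X
  have : Nonempty X := nonempty_of_isProbabilityMeasure μ
  have : IsProbabilityMeasure (μ.map e) := Measure.isProbabilityMeasure_map he.measurable.aemeasurable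
  have : NullSingletonClass (μ.map e) := ⟨fun x => by
    rw [he.map_apply]
    exact Set.Subsingleton.measure_zero
      (fun a ha b hb => he.injective (ha.trans hb.symm)) μ⟩
  let r : ℝ → X := Function.extend e id (fun _ => Classical.arbitrary X)
  have hr : Measurable r := he.measurable_extend measurable_id measurable_const
  have hre : ∀ x, r (e x) = x := fun x => he.injective.extend_apply _ _ _
  have hE : MeasurePreserving e μ (μ.map e) := ⟨he.measurable, rfl⟩
  have hR : MeasurePreserving r (μ.map e) μ := ⟨hr, by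
    rw [Measure.map_map hr he.measurable]
    have : r ∘ e = id := funext hre
    rw [this, Measure.map_id]⟩
  have hQ : MeasurePreserving (Isom.q (μ.map e)) volume (μ.map e) := ⟨Isom.meas_q _, Isom.map_q _⟩
  have hF : MeasurePreserving (Isom.F (μ.map e)) (μ.map e) volume := ⟨Isom.meas_F _, Isom.map_F _⟩
  refine ⟨fun x => Isom.F (μ.map e) (e x), fun y => r (Isom.q (μ.map e) y), hF.comp hE,
    hR.comp hQ, ?_, ?_⟩
  · filter_upwards [hE.quasiMeasurePreserving.ae (Isom.q_F (μ.map e))] with x hx
    rw [hx, hre]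
  · have h1 : ∀ᵐ t ∂(μ.map e), e (r t) = t := by
      refine he.ae_map_iff.2 (Eventually.of_forall fun x => ?_)
      rw [hre]
    filter_upwards [hQ.quasiMeasurePreserving.ae h1, Isom.F_q (μ.map e)] with y h2 h3
    rw [h2, h3]

end Vale.Agent.P109
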