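import Vale.Agent.P109.Base

open MeasureTheory Finset
open scoped ENNReal

namespace Vale.Agent.P109
namespace Lf

variable {M : Type} [MeasurableSpace M]

section
variable {Z : Type} [Fintype Z] [MeasurableSpace Z] [MeasurableSingletonClass Z]

theorem intg (P : Measure M) [IsFiniteMeasure P] {z : M → Z} (hz : Measurable z) (f : Z → ℝ) :
    Integrable (fun x => f (z x)) P :=
  Integrable.comp_measurable (g := f) Integrable.of_finite hz

theorem int_fin (P : Measure M) [IsFiniteMeasure P] {z : M → Z} (hz : Measurable z) (f : Z → ℝ) :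
    ∫ x, f (z x) ∂P = ∑ a, P.real {x | z x = a} * f a := by
  rw [← integral_map hz.aemeasurable (measurable_of_finite f).aestronglyMeasurable,
    integral_fintype Integrable.of_finite]
  refine sum_congr rfl fun a _ => ?_
  rw [smul_eq_mul, map_measureReal_apply hz (measurableSet_singleton a)]
  rfl

omit [Fintype Z] [MeasurableSpace Z] [MeasurableSingletonClass Z] in
theorem of_ae {P : Measure M} {z : M → Z} {Q : Z → Prop} (h : ∀ᵐ x ∂P, Q (z x)) {t : Z}
    (ht : P.real {x | z x = t} ≠ 0) : Q t := by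
  by_contra hQ
  apply ht
  have h0 : P {x | z x = t} = 0 := by
    refine measure_mono_null (fun x hx => ?_) (ae_iff.1 h)
    have hx' : z x = t := hx
    change ¬ Q (z x)
    rw [hx']
    exact hQ
  simp [measureReal_def, h0]

omit [MeasurableSpace Z] [MeasurableSingletonClass Z] in
theorem ae_pos (P : Measure M) [IsFiniteMeasure P] (z : M → Z) :
    ∀ᵐ x ∂P, 0 < P.real {x' | z x' = z x} := by
  have h : ∀ t : Z, ∀ᵐ x ∂P, z x = t → 0 < P.real {x' | z x' = t} := by
    intro t
    by_cases ht : P.real {x' | z x' = t} = 0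
    · rw [measureReal_eq_zero_iff] at ht
      refine (measure_eq_zero_iff_ae_notMem.1 ht).mono fun x hx h => absurd h hx
    · exact Filter.Eventually.of_forall fun x _ => lt_of_le_of_ne measureReal_nonneg (Ne.symm ht)
  exact (ae_all_iff.2 h).mono fun x hx => hx (z x) rfl

theorem two {Sn : M → M} {P P' : Measure M} [IsProbabilityMeasure P] [IsProbabilityMeasure P']
    (hS : Measurable Sn) (h : P' + P'.map Sn = (2 : ℝ≥0∞) • P) {z : M → Z} (hz : Measurable z)
    (f : Z → ℝ) :
    ∫ x, f (z x) ∂P' + ∫ x, f (z (Sn x)) ∂P' = 2 * ∫ x, f (z x) ∂P := by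
  have h1 : ∫ x, f (z x) ∂(P' + P'.map Sn) = ∫ x, f (z x) ∂((2 : ℝ≥0∞) • P) := by rw [h]
  rw [integral_add_measure (intg P' hz f) (intg _ hz f), integral_smul_measure,
    integral_map (f := fun x => f (z x)) hS.aemeasurable
      ((measurable_of_finite f).comp hz).aestronglyMeasurable] at h1
  simpa using h1

end

theorem ae_two {Sn : M → M} {P P' : Measure M} (hS : Measurable Sn)
    (h : P' + P'.map Sn = (2 : ℝ≥0∞) • P) {Q : M → Prop} (hQ : ∀ᵐ x ∂P, Q x) :
    ∀ᵐ x ∂P', Q x ∧ Q (Sn x) := by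
  have h1 : ∀ᵐ x ∂((2 : ℝ≥0∞) • P), Q x := Measure.ae_smul_measure hQ _
  rw [← h, ae_add_measure_iff] at h1
  exact h1.1.and (ae_of_ae_map hS.aemeasurable h1.2)

theorem sum_inj {a a' : ℕ} {e : Fin a' → Fin a × Fin a} (he : Function.Injective e)
    (f : Fin a → Fin a → ℝ) (hf : ∀ u v, 0 ≤ f u v) :
    ∑ x, f (e x).1 (e x).2 ≤ ∑ u, ∑ v, f u v := by
  rw [← Fintype.sum_prod_type', ← sum_image (s := univ) (g := e) (f := fun t => f t.1 t.2)
    (fun _ _ _ _ h => he h)]
  exact sum_le_sum_of_subset_of_nonneg (subset_univ _) fun t _ _ => hf _ _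

theorem triv (M : Type) [MeasurableSpace M] (Sn : M → M) (P P' : Measure M)
    [IsProbabilityMeasure P] [IsProbabilityMeasure P'] (a a' : ℕ) (w : M → Fin a)
    (w' : M → Fin a') (e : Fin a' → Fin a × Fin a) (n g n' g' : ℕ) (γ : M → Fin n → Fin g)
    (y' : M → Fin n' → Fin g') (b : ℝ) (hS : Measurable Sn) (hw : Measurable w)
    (_hw' : Measurable w') (hγ : Measurable γ) (_hy' : Measurable y')
    (h : P' + P'.map Sn = (2 : ℝ≥0∞) • P) (he : Function.Injective e)
    (hae : ∀ᵐ x ∂P', (w x, w (Sn x)) = e (w' x))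
    (hy : ∀ x x', y' x = y' x' → γ x = γ x' ∧ γ (Sn x) = γ (Sn x')) (hc : CE P w γ b) :
    CE P' w' y' (2 * b) := by
  obtain ⟨κ, k0, k1, k2, k3⟩ := hc
  have : Nonempty M := nonempty_of_isProbabilityMeasure P
  have hrep : ∀ x, γ (Function.invFun y' (y' x)) = γ x ∧
      γ (Sn (Function.invFun y' (y' x))) = γ (Sn x) := fun x =>
    hy _ _ (Function.apply_invFun_apply (f := y') (a := x))
  have hE : ∀ᵐ x ∂P', κ (e (w' x)).1 (γ (Function.invFun y' (y' x))) *
      κ (e (w' x)).2 (γ (Sn (Function.invFun y' (y' x)))) =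
      κ (w x) (γ x) * κ (w (Sn x)) (γ (Sn x)) := hae.mono fun x hx => by
    rw [← hx, (hrep x).1, (hrep x).2]
  have hP := ae_two hS h k2
  refine ⟨fun c y => κ (e c).1 (γ (Function.invFun y' y)) * κ (e c).2 (γ (Sn (Function.invFun y' y))),
    fun c y => mul_nonneg (k0 _ _) (k0 _ _), fun y => ?_, ?_, ?_⟩
  · refine (sum_inj he (fun u v => κ u (γ (Function.invFun y' y)) *
      κ v (γ (Sn (Function.invFun y' y)))) fun u v => mul_nonneg (k0 _ _) (k0 _ _)).trans ?_
    rw [← sum_mul_sum]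
    exact mul_le_one₀ (k1 _) (sum_nonneg fun _ _ => k0 _ _) (k1 _)
  · filter_upwards [hE, hP] with x h1 h2
    rw [h1]
    exact mul_pos h2.1 h2.2
  · have hz : Measurable fun x => (w x, γ x) := hw.prodMk hγ
    have h2 := two hS h hz (fun t => -Real.log (κ t.1 t.2))
    have h3 := intg P' hz (fun t => -Real.log (κ t.1 t.2))
    have h4 := intg P' (hz.comp hS) (fun t => -Real.log (κ t.1 t.2))
    simp only [Function.comp_apply] at h2 h3 h4
    rw [← integral_add h3 h4] at h2
    refine le_trans (le_of_eq ?_) (h2.le.trans (by linarith))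
    refine integral_congr_ae ?_
    filter_upwards [hE, hP] with x h1 h5
    rw [h1, Real.log_mul h5.1.ne' h5.2.ne', neg_add]

theorem gain (hSt : StepStmt) (M : Type) [MeasurableSpace M] (ν : Measure M)
    [IsProbabilityMeasure ν] (Sn : M → M)
    (P P' : Measure M) [IsProbabilityMeasure P] [IsProbabilityMeasure P'] (a a' : ℕ)
    (w : M → Fin a) (w' : M → Fin a') (e : Fin a' → Fin a × Fin a) (n g g1 n' g' : ℕ)
    (γ : M → Fin n → Fin g) (α : M → Fin n → Fin g1) (y' : M → Fin n' → Fin g') (b : ℝ)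
    (J : ℕ) (Gd : Finset ((Fin n → Fin g1) × (Fin n → Fin g1)))
    (U V : (Fin n → Fin g1) × (Fin n → Fin g1) → Finset (Fin n → Fin g1))
    (c1 c2 : (Fin n → Fin g1) → Fin J) (Θ : Fin J → Fin J → ℝ)
    (cs : (Fin n → Fin g1) → (Fin n → Fin g)) (C B q η lam β : ℝ) (h : ℕ)
    (hS : Measurable Sn) (hw : Measurable w) (_hw' : Measurable w') (hα : Measurable α)
    (_hy' : Measurable y') (h2 : P' + P'.map Sn = (2 : ℝ≥0∞) • P) (he : Function.Injective e)
    (hae : ∀ᵐ x ∂P', (w x, w (Sn x)) = e (w' x)) (hcs : ∀ x, cs (α x) = γ x)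
    (hy : ∀ x x', y' x = y' x' → α x = α x' ∧ α (Sn x) = α (Sn x'))
    (hu : ∀ u, P.real {x | w x = u} * a ≤ 1) (hdom : P' ≤ (h : ℝ≥0∞) • ν)
    (hF : FinOk (fun c => ν.real {x | α x = c}) (fun o => ν.real {x | α x = o.1 ∧ α (Sn x) = o.2})
      Gd U V c1 c2 Θ cs C B)
    (hM : Mix (univ.image e) q η) (hq : 0 ≤ q) (hη : 0 ≤ η) (hl0 : 0 < lam) (hl1 : lam ≤ 1)
    (hl : h * (q * C + 16 * η * B * J ^ 2) ≤ lam) (hβ : P'.real {x | (α x, α (Sn x)) ∉ Gd} ≤ β)
    (hc : CE P w γ b) : CE P' w' y' (2 * b + (3 / 4 - β) * Real.log lam + 1) := by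
  obtain ⟨κ, k0, k1, k2, k3⟩ := hc
  have : Nonempty M := nonempty_of_isProbabilityMeasure P
  set z : M → Fin a × Fin a × ((Fin n → Fin g1) × (Fin n → Fin g1)) :=
    fun x => (w x, w (Sn x), α x, α (Sn x)) with hzd
  have hz : Measurable z := hw.prodMk ((hw.comp hS).prodMk (hα.prodMk (hα.comp hS)))
  set p : Fin a → Fin a → (Fin n → Fin g1) × (Fin n → Fin g1) → ℝ :=
    fun u v o => P'.real {x | z x = (u, v, o)} with hp
  have p0 : ∀ u v o, 0 ≤ p u v o := fun _ _ _ => measureReal_nonneg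
  have hI : ∀ f : Fin a → Fin a → (Fin n → Fin g1) × (Fin n → Fin g1) → ℝ,
      ∫ x, f (w x) (w (Sn x)) (α x, α (Sn x)) ∂P' = ∑ u, ∑ v, ∑ o, p u v o * f u v o := by
    intro f
    have := int_fin P' hz (fun t => f t.1 t.2.1 t.2.2)
    rw [Fintype.sum_prod_type] at this
    simp only [Fintype.sum_prod_type (α₁ := Fin a)] at this
    exact this
  have hind : ∀ u : Fin a, ∫ x, (if w x = u then (1 : ℝ) else 0) ∂P' +
      ∫ x, (if w (Sn x) = u then (1 : ℝ) else 0) ∂P' = 2 * P.real {x | w x = u} := by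
    intro u
    have h3 := two hS h2 hw (fun t => if t = u then (1 : ℝ) else 0)
    rw [int_fin P hw (fun t => if t = u then (1 : ℝ) else 0)] at h3
    simpa using h3
  have hn1 : ∀ u : Fin a, 0 ≤ ∫ x, (if w x = u then (1 : ℝ) else 0) ∂P' := fun u =>
    integral_nonneg fun x => by dsimp only; split_ifs <;> norm_num
  have hn2 : ∀ u : Fin a, 0 ≤ ∫ x, (if w (Sn x) = u then (1 : ℝ) else 0) ∂P' := fun u =>
    integral_nonneg fun x => by dsimp only; split_ifs <;> norm_num
  have hm1 : ∀ u, ∑ v, ∑ o, p u v o = ∫ x, (if w x = u then (1 : ℝ) else 0) ∂P' := by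
    intro u
    rw [hI fun u' _ _ => if u' = u then (1 : ℝ) else 0]
    symm
    rw [sum_eq_single u]
    · simp
    · intro u' _ hu'; simp [hu']
    · simp
  have hm2 : ∀ v, ∑ u, ∑ o, p u v o = ∫ x, (if w (Sn x) = v then (1 : ℝ) else 0) ∂P' := by
    intro v
    rw [hI fun _ v' _ => if v' = v then (1 : ℝ) else 0]
    refine sum_congr rfl fun u _ => ?_
    rw [sum_eq_single v]
    · simp
    · intro v' _ hv'; simp [hv']
    · simp
  have hzo : Measurable fun x => (α x, α (Sn x)) := hα.prodMk (hα.comp hS)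
  have hm3 : ∀ o, ∑ u, ∑ v, p u v o = P'.real {x | (α x, α (Sn x)) = o} := by
    intro o
    have h3 := hI fun _ _ o' => if o' = o then (1 : ℝ) else 0
    rw [int_fin P' hzo (fun t => if t = o then (1 : ℝ) else 0)] at h3
    simpa using h3.symm
  have hP := ae_two hS h2 k2
  have ha0 : (0 : ℝ) ≤ a := Nat.cast_nonneg a
  have key := hSt (Fin a) (Fin n → Fin g1) (Fin n → Fin g) J _ _ Gd U V c1 c2 Θ cs C B h q η lam
    (univ.image e) p κ hF (fun _ => measureReal_nonneg)
    (by simpa using (int_fin ν hα (fun _ => (1 : ℝ))).symm.le) (fun _ => measureReal_nonneg) hM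
    (Nat.cast_nonneg h) hq hη hl0 hl1 hl p0 (by simpa using (hI fun _ _ _ => 1).symm)
    (fun u v o ht => of_ae (z := z) (Q := fun t => (t.1, t.2.1) ∈ univ.image e)
      (hae.mono fun x hx => mem_image.2 ⟨w' x, mem_univ _, hx.symm⟩) ht)
    (fun u => by
      rw [hm1, Fintype.card_fin]
      have h3 := hind u
      have h4 := mul_le_mul_of_nonneg_right
        (show ∫ x, (if w x = u then (1 : ℝ) else 0) ∂P' ≤ 2 * P.real {x | w x = u} by
          linarith [hn2 u]) ha0
      linarith [hu u])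
    (fun v => by
      rw [hm2, Fintype.card_fin]
      have h3 := hind v
      have h4 := mul_le_mul_of_nonneg_right
        (show ∫ x, (if w (Sn x) = v then (1 : ℝ) else 0) ∂P' ≤ 2 * P.real {x | w x = v} by
          linarith [hn1 v]) ha0
      linarith [hu v])
    (fun o => by
      rw [hm3]
      have h3 : {x | (α x, α (Sn x)) = o} = {x | α x = o.1 ∧ α (Sn x) = o.2} := by
        ext x; simp [Prod.ext_iff]
      rw [h3]
      have h4 := Measure.le_iff'.1 hdom {x | α x = o.1 ∧ α (Sn x) = o.2}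
      rw [Measure.smul_apply, smul_eq_mul] at h4
      have h5 := ENNReal.toReal_mono
        (ENNReal.mul_ne_top (ENNReal.natCast_ne_top h) (measure_ne_top ν _)) h4
      rwa [ENNReal.toReal_mul, ENNReal.toReal_natCast] at h5)
    k0 k1
    (fun u v o ht => of_ae (z := z)
      (Q := fun t => 0 < κ t.1 (cs t.2.2.1) ∧ 0 < κ t.2.1 (cs t.2.2.2))
      (hP.mono fun x hx => by simpa only [hzd, hcs] using hx) ht)
  have hrep : ∀ x, (α (Function.invFun y' (y' x)), α (Sn (Function.invFun y' (y' x)))) =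
      (α x, α (Sn x)) := fun x => by
    have := hy _ _ (Function.apply_invFun_apply (f := y') (a := x))
    rw [this.1, this.2]
  set o : (Fin n' → Fin g') → (Fin n → Fin g1) × (Fin n → Fin g1) :=
    fun y => (α (Function.invFun y' y), α (Sn (Function.invFun y' y))) with ho
  have hE : ∀ᵐ x ∂P', p (e (w' x)).1 (e (w' x)).2 (o (y' x)) / ∑ u', ∑ v', p u' v' (o (y' x)) =
      p (w x) (w (Sn x)) (α x, α (Sn x)) / ∑ u', ∑ v', p u' v' (α x, α (Sn x)) :=
    hae.mono fun x hx => by
      have : o (y' x) = (α x, α (Sn x)) := hrep x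
      rw [← hx, this]
  have s0 : ∀ t, 0 ≤ ∑ u', ∑ v', p u' v' t := fun t =>
    sum_nonneg fun _ _ => sum_nonneg fun _ _ => p0 _ _ _
  refine ⟨fun c y => p (e c).1 (e c).2 (o y) / ∑ u', ∑ v', p u' v' (o y),
    fun c y => div_nonneg (p0 _ _ _) (s0 _), fun y => ?_, ?_, ?_⟩
  · rw [← sum_div]
    exact (div_le_div_of_nonneg_right (sum_inj he (fun u v => p u v (o y)) fun u v => p0 _ _ _)
      (s0 _)).trans (div_self_le_one _)
  · filter_upwards [hE, ae_pos P' z] with x h3 h4
    rw [h3]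
    have h5 : 0 < p (w x) (w (Sn x)) (α x, α (Sn x)) := h4
    refine div_pos h5 (lt_of_lt_of_le h5 ?_)
    refine le_trans ?_ (single_le_sum (f := fun u' => ∑ v', p u' v' (α x, α (Sn x)))
      (fun _ _ => sum_nonneg fun _ _ => p0 _ _ _) (mem_univ (w x)))
    exact single_le_sum (f := fun v' => p (w x) v' (α x, α (Sn x))) (fun _ _ => p0 _ _ _)
      (mem_univ (w (Sn x)))
  · have h3 : ∫ x, -Real.log (p (e (w' x)).1 (e (w' x)).2 (o (y' x)) /
        ∑ u', ∑ v', p u' v' (o (y' x))) ∂P' =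
        ∑ u, ∑ v, ∑ t, p u v t * -Real.log (p u v t / ∑ u', ∑ v', p u' v' t) := by
      rw [← hI fun u v t => -Real.log (p u v t / ∑ u', ∑ v', p u' v' t)]
      exact integral_congr_ae (hE.mono fun x hx => by simp only [hx])
    refine h3.le.trans (key.trans ?_)
    have h4 : ∑ u, ∑ v, ∑ t, p u v t * (-Real.log (κ u (cs t.1)) + -Real.log (κ v (cs t.2))) ≤
        2 * b := by
      rw [← hI fun u v t => -Real.log (κ u (cs t.1)) + -Real.log (κ v (cs t.2))]
      have hz' : Measurable fun x => (w x, α x) := hw.prodMk hα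
      have h5 := two hS h2 hz' (fun t => -Real.log (κ t.1 (cs t.2)))
      have h6 := intg P' hz' (fun t => -Real.log (κ t.1 (cs t.2)))
      have h7 := intg P' (hz'.comp hS) (fun t => -Real.log (κ t.1 (cs t.2)))
      simp only [Function.comp_apply] at h5 h6 h7
      rw [integral_add h6 h7, h5]
      simp only [hcs]
      linarith
    have h8 : 1 - β ≤ ∑ t ∈ Gd, ∑ u, ∑ v, p u v t := by
      simp only [hm3]
      have h9 := int_fin P' hzo (fun t => if t ∈ Gd then (0 : ℝ) else 1)
      have h10 := int_fin P' hzo (fun _ => (1 : ℝ))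
      have h11 : ∫ x, (if (α x, α (Sn x)) ∈ Gd then (0 : ℝ) else 1) ∂P' =
          P'.real {x | (α x, α (Sn x)) ∉ Gd} := by
        have hms : MeasurableSet {x | (α x, α (Sn x)) ∉ Gd} :=
          hzo (MeasurableSet.of_discrete (s := {t | t ∉ Gd}))
        rw [← integral_indicator_one hms]
        refine integral_congr_ae (Filter.Eventually.of_forall fun x => ?_)
        by_cases hx : (α x, α (Sn x)) ∈ Gd <;> simp [Set.indicator, hx]
      have h12 : ∑ t, P'.real {x | (α x, α (Sn x)) = t} * 1 =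
          ∑ t ∈ Gd, P'.real {x | (α x, α (Sn x)) = t} +
            ∑ t, P'.real {x | (α x, α (Sn x)) = t} * (if t ∈ Gd then (0 : ℝ) else 1) := by
        rw [← Fintype.sum_extend_by_zero Gd, ← sum_add_distrib]
        refine sum_congr rfl fun t _ => ?_
        split_ifs <;> simp
      rw [h11] at h9
      simp only [integral_const, probReal_univ, smul_eq_mul] at h10
      linarith
    have h13 : Real.log lam ≤ 0 := Real.log_nonpos hl0.le hl1
    nlinarith

end Lf

theorem liftStmt (hS : StepStmt) : LiftStmt where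
  triv := Lf.triv
  gain := Lf.gain hS

end Vale.Agent.P109
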