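import Vale.Agent.P109.Base

/-! Module LinB: Green bounds. -/

open Finset

namespace Vale.Agent.P109

namespace LinBm

open Bs

variable {d : ℕ}

theorem nr_of_sq {n : ℕ} {y : ℕ → E d} {a : ℝ} (ha : 0 ≤ a) (h : nr n y ^ 2 ≤ a ^ 2) : nr n y ≤ a :=
  (abs_le_of_sq_le_sq' h ha).2

theorem all (hA : LinAStmt d) (A : ℕ → Op d) (n : ℕ) (Λ : ℝ) (hΛ : 0 ≤ Λ)
    (h : ∀ s m, 1 ≤ s → 1 ≤ m → s + m = n → ∀ g, qj A s m g ≤ Λ ^ 2 * ‖g‖ ^ 2) :
    Green A n (n * Λ) := by
  intro g
  have key : ∀ k, k ≤ n → ∃ y, Sol A n (fun t => if t < k then g t else 0) y ∧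
      nr n y ≤ k * (Λ * nr n g) := fun k hk => by
    induction k with
    | zero => exact ⟨fun _ => 0, fun t _ => by simp, by simp [nr_zero]⟩
    | succ k ih =>
      obtain ⟨y, hy, hn⟩ := ih (by omega)
      have h0 := mul_nonneg hΛ (nr_nonneg n g)
      rcases eq_or_lt_of_le hk with e | e
      · refine ⟨y, Sol.congr hy (fun _ _ => rfl) fun t ht => ?_, hn.trans ?_⟩
        · rw [if_pos (by omega), if_pos (by omega)]
        · push_cast; linarith
      · obtain ⟨m, rfl⟩ := Nat.exists_eq_add_of_le hk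
        obtain ⟨z, hz, e'⟩ := hA.ex A (k + 1) m (by omega) (by omega) (g k)
        have h1 : nr (k + 1 + m) z ≤ Λ * ‖g k‖ := nr_of_sq (by positivity) (by
          rw [e', mul_pow]; exact h _ _ (by omega) (by omega) rfl _)
        have h2 := mul_le_mul_of_nonneg_left (norm_le_nr (n := k + 1 + m) (t := k) g (by omega)) hΛ
        refine ⟨_, Sol.congr (Sol.add hy hz) (fun _ _ => rfl) fun t _ => ?_,
          (nr_add _ _ _).trans ?_⟩
        · unfold jp
          rcases lt_trichotomy t k with c | c | c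
          · rw [if_pos c, if_neg (by omega), if_pos (by omega), add_zero]
          · subst c; simp
          · rw [if_neg (by omega), if_neg (by omega), if_neg (by omega), add_zero]
        · push_cast; linarith
  obtain ⟨y, hy, hn⟩ := key n le_rfl
  exact ⟨y, Sol.congr hy (fun _ _ => rfl) fun t ht => if_pos (by omega), by rwa [mul_assoc]⟩

theorem left (A : ℕ → Op d) (s m : ℕ) (Γ : ℝ) (h : Green A (s + m) Γ) : Green A s Γ := by
  intro g
  obtain ⟨y, hy, hn⟩ := h (cat s g fun _ => 0)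
  have e : nr (s + m) (cat s g fun _ => 0) = nr s g := by
    have := nr_split_sq s m (cat s g fun _ => (0 : E d))
    rw [sh_cat, nr_zero, nr_congr fun t ht => cat_lt g _ ht] at this
    exact (pow_left_inj₀ (nr_nonneg _ _) (nr_nonneg _ _) two_ne_zero).1 (by simpa using this)
  exact ⟨y, fun t ht => by rw [hy t (by omega), cat_lt _ _ (by omega)],
    (nr_left_le s m y).trans (e ▸ hn)⟩

theorem right (A : ℕ → Op d) (s m : ℕ) (Γ : ℝ) (h : Green A (s + m) Γ) : Green (sh s A) m Γ := by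
  intro g
  obtain ⟨y, hy, hn⟩ := h (cat s (fun _ => 0) g)
  have e : nr (s + m) (cat s (fun _ => 0) g) = nr m g := by
    have := nr_split_sq s m (cat s (fun _ => (0 : E d)) g)
    rw [sh_cat, nr_congr fun t ht => cat_lt _ g ht, nr_zero] at this
    exact (pow_left_inj₀ (nr_nonneg _ _) (nr_nonneg _ _) two_ne_zero).1 (by simpa using this)
  exact ⟨sh s y, fun t ht => by
    have := hy (s + t) (by omega)
    rwa [cat_add] at this, (nr_right_le s m y).trans (e ▸ hn)⟩

noncomputable def fw (A : ℕ → Op d) (g : ℕ → E d) : ℕ → E d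
  | 0 => 0
  | t + 1 => A t (fw A g t) + g t

theorem some_green (A : ℕ → Op d) (n : ℕ) : ∃ Γ, 0 ≤ Γ ∧ Green A n Γ := by
  have key : ∀ k, k ≤ n → ∃ a, 0 ≤ a ∧ ∀ g, ∀ t < k, ‖fw A g t‖ ≤ a * nr n g := fun k hk => by
    induction k with
    | zero => exact ⟨0, le_rfl, fun _ _ h => absurd h (by omega)⟩
    | succ k ih =>
      obtain ⟨a, ha, h⟩ := ih (by omega)
      refine ⟨a + (‖A (k - 1)‖ * a + 1), by positivity, fun g t ht => ?_⟩
      have h0 := nr_nonneg n g
      rcases eq_or_lt_of_le (Nat.lt_succ_iff.1 ht) with e | e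
      · subst e
        cases t with
        | zero => rw [fw, norm_zero]; positivity
        | succ t =>
          have a1 := ((A t).le_opNorm (fw A g t)).trans
            (mul_le_mul_of_nonneg_left (h g t (by omega)) (norm_nonneg _))
          have a2 := norm_le_nr (n := n) (t := t) g (by omega)
          have a3 := norm_add_le (A t (fw A g t)) (g t)
          rw [fw, Nat.add_sub_cancel]
          linarith [mul_nonneg ha h0]
      · refine (h g t e).trans (mul_le_mul_of_nonneg_right ?_ h0)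
        exact le_add_of_nonneg_right (by positivity)
  obtain ⟨a, ha, h⟩ := key n le_rfl
  exact ⟨n * a, by positivity, fun g => ⟨fw A g, fun t _ => rfl, by
    rw [mul_assoc]; exact nr_le_card (mul_nonneg ha (nr_nonneg _ _)) (h g)⟩⟩

theorem pert (A A' : ℕ → Op d) (n : ℕ) (Γ ε : ℝ) (hΓ : 1 ≤ Γ) (hε : 0 ≤ ε) (h : ε * Γ ≤ 1 / 2)
    (hG : Green A n Γ) (hA : ∀ t < n, ‖A' t - A t‖ ≤ ε) : Green A' n (3 * Γ) := by
  have step : ∀ Γ', 0 ≤ Γ' → Green A' n Γ' → Green A' n (Γ + Γ' / 2) := fun Γ' h0 hG' g => by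
    obtain ⟨y, hy, hn⟩ := hG g
    obtain ⟨z, hz, hn'⟩ := hG' fun t => (A' t - A t) (y t)
    have a1 : nr n (fun t => (A' t - A t) (y t)) ≤ ε * nr n y := nr_le_mul hε fun t ht =>
      ((A' t - A t).le_opNorm _).trans (mul_le_mul_of_nonneg_right (hA t ht) (norm_nonneg _))
    have a2 : ε * nr n y ≤ 1 / 2 * nr n g := (mul_le_mul_of_nonneg_left hn hε).trans (by
      rw [← mul_assoc]; exact mul_le_mul_of_nonneg_right h (nr_nonneg _ _))
    refine ⟨fun t => y t + z t, fun t ht => ?_, (nr_add _ _ _).trans ?_⟩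
    · simp only [hy t ht, hz t ht, map_add, ContinuousLinearMap.sub_apply]; abel
    · linarith [mul_le_mul_of_nonneg_left (a1.trans a2) h0]
  obtain ⟨Γ0, h0, hG0⟩ := some_green A' n
  have it : ∀ j : ℕ, Green A' n (2 * Γ + Γ0 * (1 / 2) ^ j) := fun j => by
    induction j with
    | zero => exact Green.mono hG0 (by simp; linarith)
    | succ j ih => exact Green.mono (step _ (by positivity) ih) (le_of_eq (by ring))
  obtain ⟨j, hj⟩ := exists_pow_lt_of_lt_one (x := 1 / (Γ0 + 1)) (by positivity)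
    (by norm_num : (1 / 2 : ℝ) < 1)
  refine Green.mono (it j) ?_
  have : Γ0 * (1 / 2) ^ j ≤ 1 := (mul_le_mul_of_nonneg_left hj.le h0).trans (by
    rw [mul_one_div, div_le_one (by positivity)]; linarith)
  linarith

theorem conc (hA : LinAStmt d) (A B : ℕ → Op d) (n : ℕ) (Γ Λ K : ℝ) (hn : 1 ≤ n) (hΓ : 1 ≤ Γ)
    (hΛ : 1 ≤ Λ) (hK : 1 ≤ K) (hAK : ∀ t, ‖A t‖ ≤ K) (h1 : Green A n Γ) (h2 : Green B n Γ)
    (hq : ∀ g, qj (cat n A B) n n g ≤ Λ ^ 2 * ‖g‖ ^ 2) :
    Green (cat n A B) (n + n) ((K + 4) * Γ * Λ) := by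
  intro g
  obtain ⟨y1, hy1, n1⟩ := h1 g
  obtain ⟨y2, hy2, n2⟩ := h2 (sh n g)
  set e := g (n - 1) - (y2 0 - A (n - 1) (y1 (n - 1))) with he
  obtain ⟨z, hz, ez⟩ := hA.ex (cat n A B) n n hn hn e
  have hY : Sol (cat n A B) (n + n) (fun t => g t - jp n e t) (cat n y1 y2) := fun t ht => by
    unfold jp
    rcases lt_trichotomy (t + 1) n with c | c | c
    · rw [cat_lt _ _ c, cat_lt _ _ (by omega : t < n), cat_lt _ _ (by omega : t < n), hy1 t c]
      simp only [if_neg c.ne, sub_zero]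
    · subst c
      rw [cat_lt _ _ t.lt_succ_self, cat_lt _ _ t.lt_succ_self,
        show cat (t + 1) y1 y2 (t + 1) = y2 0 from cat_add (t + 1) 0 y1 y2]
      simp only [he, if_true, Nat.add_sub_cancel]
      abel
    · obtain ⟨k, rfl⟩ := Nat.exists_eq_add_of_le (Nat.lt_succ_iff.1 c)
      rw [add_assoc, cat_add, cat_add, cat_add, hy2 k (by omega)]
      simp only [if_neg (by omega : ¬ n + k + 1 = n), sub_zero, sh]
  have G0 := nr_nonneg (n + n) g
  have b1 : nr n y1 ≤ Γ * nr (n + n) g := n1.trans (by gcongr; exact nr_left_le n n g)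
  have b2 : nr n y2 ≤ Γ * nr (n + n) g := n2.trans (by gcongr; exact nr_right_le n n g)
  have b3 : nr (n + n) (cat n y1 y2) ≤ 2 * (Γ * nr (n + n) g) := by
    have := nr_split_le n n (cat n y1 y2)
    rw [sh_cat, nr_congr fun t ht => cat_lt y1 y2 ht] at this
    linarith
  have b0 : nr (n + n) g ≤ Γ * nr (n + n) g := le_mul_of_one_le_left G0 hΓ
  have b4 : ‖e‖ ≤ (K + 2) * (Γ * nr (n + n) g) := by
    have a1 := norm_le_nr (n := n + n) (t := n - 1) g (by omega)
    have a2 := (norm_le_nr (n := n) (t := 0) y2 (by omega)).trans b2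
    have a3 := (norm_le_nr (n := n) (t := n - 1) y1 (by omega)).trans b1
    have a4 := ((A (n - 1)).le_opNorm (y1 (n - 1))).trans
      (mul_le_mul (hAK _) a3 (norm_nonneg _) (by linarith))
    linarith [norm_sub_le (g (n - 1)) (y2 0 - A (n - 1) (y1 (n - 1))),
      norm_sub_le (y2 0) (A (n - 1) (y1 (n - 1)))]
  have b5 : nr (n + n) z ≤ Λ * ‖e‖ := nr_of_sq (by positivity) (by rw [ez, mul_pow]; exact hq e)
  refine ⟨_, Sol.congr (Sol.add hY hz) (fun _ _ => rfl) fun t _ => sub_add_cancel _ _,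
    (nr_add _ _ _).trans ?_⟩
  have b6 := mul_le_mul_of_nonneg_left b4 (by linarith : 0 ≤ Λ)
  have b7 := le_mul_of_one_le_left (G0.trans b0) hΛ
  linarith

end LinBm

open LinBm in
theorem linBStmt {d : ℕ} (hA : LinAStmt d) : LinBStmt d where
  all := all hA
  left := left
  right := right
  pert := pert
  conc := conc hA
  one A s m Γ hs hm _ h g := by
    obtain ⟨y, hy, hn⟩ := h (jp s g)
    rw [Bs.nr_jp hs (by omega)] at hn
    rw [← mul_pow]
    exact (hA.le A s m hs hm g y hy).trans (pow_le_pow_left₀ (Bs.nr_nonneg _ _) hn 2)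

end Vale.Agent.P109
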