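import Vale.Agent.P109.Base

open MeasureTheory Finset

namespace Vale.Agent.P109
namespace LinC

open Bs

variable {d : ℕ}

theorem qj_cmp (hA : LinAStmt d) (hB : LinBStmt d) {B B' : ℕ → Op d} {j m : ℕ} {Γ ε : ℝ}
    (hm : 1 ≤ m) (hΓ : 0 ≤ Γ) (hε : 0 ≤ ε) (hG : Green B (j + 1 + m) Γ)
    (h : ∀ t, t ≠ j → B t = B' t) (hj : ‖B' j - B j‖ ≤ ε) (g : E d) :
    qj B (j + 1) m g ≤ (1 + Γ * ε) ^ 2 * qj B' (j + 1) m g := by
  obtain ⟨y, hy, hn⟩ := hA.ex B' (j + 1) m (by omega) hm g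
  have hs : Sol B (j + 1 + m) (jp (j + 1) (g + (B' j - B j) (y j))) y := by
    intro t ht
    rw [hy t ht]
    by_cases e : t = j
    · subst e
      simp only [jp, if_true, sub_apply]
      abel
    · rw [h t e, jp, jp, if_neg (by omega), if_neg (by omega)]
  have h0 := nr_nonneg (j + 1 + m) y
  have h1 := Real.sqrt_le_sqrt (hA.le B (j + 1) m (by omega) hm _ y hs)
  rw [Real.sqrt_sq h0] at h1
  have h2 := hA.tri B (j + 1) m (by omega) hm (g + (B' j - B j) (y j)) (-(B' j - B j) (y j))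
  rw [add_neg_cancel_right] at h2
  have h3 := Real.sqrt_le_sqrt (hB.one B (j + 1) m Γ (by omega) hm hΓ hG (-(B' j - B j) (y j)))
  rw [← mul_pow, Real.sqrt_sq (by positivity), norm_neg] at h3
  have h4 : ‖(B' j - B j) (y j)‖ ≤ ε * nr (j + 1 + m) y :=
    ((B' j - B j).le_opNorm _).trans (mul_le_mul hj (norm_le_nr y (by omega)) (norm_nonneg _) hε)
  have h5 : Real.sqrt (qj B (j + 1) m g) ≤ (1 + Γ * ε) * nr (j + 1 + m) y := by
    have := mul_le_mul_of_nonneg_left h4 hΓ
    linarith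
  rw [← hn, ← mul_pow]
  exact (Real.sqrt_le_left (by positivity)).1 h5

theorem step (hG : GaussStmt d) (hA : LinAStmt d) (hB : LinBStmt d) {B B' : ℕ → Op d} {j n : ℕ}
    {Γ ε : ℝ} (hn : 1 ≤ n) (hΓ : 0 ≤ Γ) (hε : 0 ≤ ε) (hGr : Green B n Γ)
    (h : ∀ t, t ≠ j → B t = B' t) (hj : ‖B' j - B j‖ ≤ ε) :
    gI (qf B n) ≤ (1 + Γ * ε) ^ d * gI (qf B' n) := by
  have ha : 1 ≤ 1 + Γ * ε := by have := mul_nonneg hΓ hε; linarith
  have hp := hG.pos _ (gauge_qf B' hn)
  rcases le_or_gt n (j + 1) with c | c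
  · rw [qf_congr (A := B) (B := B') fun t ht => h t (by omega)]
    exact le_mul_of_one_le_left hp.le (one_le_pow₀ ha)
  · obtain ⟨m, rfl⟩ : ∃ m, n = j + 1 + m := ⟨n - (j + 1), by omega⟩
    have hm : 1 ≤ m := by omega
    have e1 := gI_split hG hA B (s := j + 1) (by omega) hm
    have e2 := gI_split hG hA B' (s := j + 1) (by omega) hm
    have e3 : sh (j + 1) B = sh (j + 1) B' := funext fun t => h _ (by omega)
    rw [qf_congr (A := B) (B := B') (n := j + 1) fun t ht => h t (by omega), e3, e2] at e1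
    have g1 := hA.gj B (j + 1) m (by omega) hm
    have g2 := hA.gj B' (j + 1) m (by omega) hm
    have h1 := hG.mono _ _ (1 + Γ * ε) g2 g1 (by linarith) (qj_cmp hA hB hm hΓ hε hGr h hj)
    refine le_of_mul_le_mul_right ?_ (hG.pos _ g1)
    rw [← e1, mul_comm _ (gI (qf B' _)), mul_assoc]
    exact mul_le_mul_of_nonneg_left h1 hp.le

theorem num {x : ℝ} {k : ℕ} (hx : 0 ≤ x) (h : x * k ≤ 1 / 4) : (1 + x) ^ k ≤ 2 := by
  have h1 : 1 + x ≤ Real.exp x := by have := Real.add_one_le_exp x; linarith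
  have h2 := pow_le_pow_left₀ (by linarith) h1 k
  rw [← Real.exp_nat_mul] at h2
  refine h2.trans ?_
  rw [← Real.le_log_iff_exp_le (by norm_num)]
  have := Real.log_two_gt_d9
  linarith

end LinC

open Bs LinC in
theorem linCStmt {d : ℕ} (hG : GaussStmt d) (hA : LinAStmt d) (hB : LinBStmt d) :
    LinCStmt d := by
  refine ⟨fun A A' n Γ ε hn hΓ hε h hGr hc => ?_⟩
  have hn' : (1 : ℝ) ≤ n := by exact_mod_cast hn
  have hd : (0 : ℝ) ≤ d := Nat.cast_nonneg d
  have h0 : 0 ≤ ε * Γ := mul_nonneg hε (by linarith)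
  have h1 : 0 ≤ n * (ε * Γ) := by positivity
  have h2 : 0 ≤ d * (n * (ε * Γ)) := by positivity
  have h3 : ε * Γ ≤ 1 / 2 := by nlinarith
  set H : ℕ → ℕ → Op d := fun j t => if t < j then A' t else A t with hH
  have hGH : ∀ j, Green (H j) n (3 * Γ) := fun j =>
    hB.pert A (H j) n Γ ε hΓ hε h3 hGr fun t ht => by
      simp only [hH]
      split_ifs
      · exact hc t ht
      · simpa using hε
  have hne : ∀ j t, t ≠ j → H j t = H (j + 1) t := fun j t ht => by
    simp only [hH]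
    by_cases c : t < j
    · rw [if_pos c, if_pos (by omega)]
    · rw [if_neg c, if_neg (by omega)]
  have key : ∀ j, j ≤ n → gI (qf (H j) n) ≤ (1 + 3 * Γ * ε) ^ (d * j) * gI (qf A n) ∧
      gI (qf A n) ≤ (1 + 3 * Γ * ε) ^ (d * j) * gI (qf (H j) n) := by
    intro j hj
    induction j with
    | zero => simp [hH]
    | succ j ih =>
      obtain ⟨i1, i2⟩ := ih (by omega)
      have hd1 : ‖H (j + 1) j - H j j‖ ≤ ε := by simpa [hH] using hc j (by omega)
      have s1 := step hG hA hB hn (by linarith) hε (hGH j) (hne j) hd1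
      have s2 := step hG hA hB (j := j) hn (by linarith) hε (hGH (j + 1))
        (fun t ht => (hne j t ht).symm) (by rwa [norm_sub_rev])
      have hp : 0 ≤ 1 + 3 * Γ * ε := by nlinarith
      rw [mul_add d, mul_one, pow_add]
      constructor
      · rw [mul_comm (_ ^ (d * j)), mul_assoc]
        exact s2.trans (mul_le_mul_of_nonneg_left i1 (by positivity))
      · rw [mul_assoc]
        exact i2.trans (mul_le_mul_of_nonneg_left s1 (by positivity))
  obtain ⟨k1, k2⟩ := key n le_rfl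
  rw [qf_congr (A := H n) (B := A') fun t ht => if_pos (by omega)] at k1 k2
  have h4 : (1 + 3 * Γ * ε) ^ (d * n) ≤ 2 := num (by nlinarith) (by push_cast; nlinarith)
  exact ⟨k1.trans (mul_le_mul_of_nonneg_right h4 (hG.pos _ (gauge_qf A hn)).le),
    k2.trans (mul_le_mul_of_nonneg_right h4 (hG.pos _ (gauge_qf A' hn)).le)⟩

end Vale.Agent.P109
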