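import Vale.Agent.P109.Base

open MeasureTheory Finset

namespace Vale.Agent.P109
open Bs

namespace Ld
variable {d : ℕ}

/-- the map `v ↦ (coc A t v)_{t<n}` -/
noncomputable def J (A : ℕ → Op d) (n : ℕ) : E d →ₗ[ℝ] PiLp 2 (fun _ : Fin n => E d) where
  toFun v := emb n fun t => coc A t v
  map_add' v w := by ext1 i; simp [emb]
  map_smul' a v := by ext1 i; simp [emb]

theorem norm_J (A : ℕ → Op d) (n : ℕ) (v : E d) : ‖J A n v‖ ^ 2 = qf A n v := by
  rw [qf_eq_nr, nr_eq_norm]; rfl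

theorem par (A : ℕ → Op d) (n : ℕ) (hn : 1 ≤ n) :
    ∃ L : Op d, (∀ a, qf A n (L a) = ‖a‖ ^ 2) ∧ Function.Surjective L := by
  have hinj : Function.Injective (J A n) := by
    rw [injective_iff_map_eq_zero]
    intro v hv
    have h1 := normsq_le_qf A hn v
    rw [← norm_J, hv, norm_zero] at h1
    exact norm_eq_zero.1 (pow_eq_zero_iff two_ne_zero |>.1 (le_antisymm (by simpa using h1)
      (sq_nonneg _)))
  have hr : Module.finrank ℝ (LinearMap.range (J A n)) = d := by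
    rw [LinearMap.finrank_range_of_inj hinj, finrank_euclideanSpace_fin]
  let b := (stdOrthonormalBasis ℝ (LinearMap.range (J A n))).reindex (finCongr hr)
  let e := LinearEquiv.ofInjective (J A n) hinj
  refine ⟨LinearMap.toContinuousLinearMap
    (e.symm.toLinearMap ∘ₗ b.repr.symm.toLinearEquiv.toLinearMap),
    fun a => ?_, e.symm.surjective.comp b.repr.symm.surjective⟩
  rw [← norm_J]
  have : J A n (e.symm (b.repr.symm a)) = (b.repr.symm a : _) := by
    have h := LinearEquiv.ofInjective_apply (J A n) (h := hinj) (e.symm (b.repr.symm a))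
    rw [← h]; simp [e]
  change ‖J A n (e.symm (b.repr.symm a))‖ ^ 2 = _
  rw [this, ← b.repr.symm.norm_map a]; rfl

/-- transfer of an optimal decomposition -/
theorem trans (hA : LinAStmt d) {A B A' B' : ℕ → Op d} {LA LB LA' LB' : Op d} {n : ℕ} {ε : ℝ}
    (hn : 1 ≤ n) (hε : 0 ≤ ε) (a1 : ∀ a, qf A n (LA a) = ‖a‖ ^ 2) (a2 : Function.Surjective LA)
    (b1 : ∀ a, qf B n (LB a) = ‖a‖ ^ 2) (b2 : Function.Surjective LB)
    (a1' : ∀ a, qf A' n (LA' a) = ‖a‖ ^ 2) (b1' : ∀ a, qf B' n (LB' a) = ‖a‖ ^ 2)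
    (h1 : ‖(coc A n).comp LA - (coc A' n).comp LA'‖ ≤ ε) (h2 : ‖LB - LB'‖ ≤ ε) (g : E d) :
    ∃ e : E d, ‖e‖ ≤ 2 * ε * Real.sqrt (qj (cat n A B) n n g) ∧
      Real.sqrt (qj (cat n A' B') n n g) ≤
        Real.sqrt (qj (cat n A B) n n g) + Real.sqrt (qj (cat n A' B') n n e) := by
  obtain ⟨mm, hmm⟩ := hA.pyth (cat n A B) n n hn hn
  have h3 := hmm (mm g) g
  rw [sub_self, qf_cat, sh_cat, coc_cat] at h3
  have h0 : qf (cat n A B) (n + n) 0 = 0 := by simp [qf]
  obtain ⟨a, ha⟩ := a2 (mm g)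
  obtain ⟨b, hb⟩ := b2 (coc A n (mm g) + g)
  rw [h0, zero_add, ← hb, ← ha, a1, b1] at h3
  have ha' : ‖a‖ ≤ Real.sqrt (qj (cat n A B) n n g) :=
    Real.le_sqrt_of_sq_le (by nlinarith [sq_nonneg ‖b‖])
  have hb' : ‖b‖ ≤ Real.sqrt (qj (cat n A B) n n g) :=
    Real.le_sqrt_of_sq_le (by nlinarith [sq_nonneg ‖a‖])
  refine ⟨(LB - LB') b - ((coc A n).comp LA - (coc A' n).comp LA') a, ?_, ?_⟩
  · refine (norm_sub_le _ _).trans ?_
    have c1 := ((LB - LB').le_opNorm b).trans (mul_le_mul h2 hb' (norm_nonneg _) hε)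
    have c2 := (((coc A n).comp LA - (coc A' n).comp LA').le_opNorm a).trans
      (mul_le_mul h1 ha' (norm_nonneg _) hε)
    linarith
  · have hg : g = (LB' b - coc A' n (LA' a)) +
        ((LB - LB') b - ((coc A n).comp LA - (coc A' n).comp LA') a) := by
      simp only [sub_apply, ContinuousLinearMap.comp_apply, ha, hb]; abel
    have h4 := hA.tri (cat n A' B') n n hn hn (LB' b - coc A' n (LA' a))
      ((LB - LB') b - ((coc A n).comp LA - (coc A' n).comp LA') a)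
    rw [← hg] at h4
    refine h4.trans (add_le_add (Real.sqrt_le_sqrt ?_) le_rfl)
    have h5 := qj_le (cat n A' B') n n (LB' b - coc A' n (LA' a)) (LA' a)
    rw [qf_cat, sh_cat, coc_cat, add_sub_cancel, a1', b1'] at h5
    linarith

theorem qf_le (A : ℕ → Op d) (n : ℕ) : ∃ c : ℝ, 0 ≤ c ∧ ∀ v, Real.sqrt (qf A n v) ≤ c * ‖v‖ := by
  refine ⟨n * ∑ t ∈ range n, ‖coc A t‖, by positivity, fun v => ?_⟩
  rw [qf_eq_nr, Real.sqrt_sq (nr_nonneg _ _), mul_assoc]
  refine nr_le_card (by positivity) fun t ht => ((coc A t).le_opNorm v).trans ?_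
  gcongr
  exact single_le_sum (f := fun t => ‖coc A t‖) (fun _ _ => norm_nonneg _) (mem_range.2 ht)

end Ld

open Ld in
theorem linDStmt {d : ℕ} (hA : LinAStmt d) : LinDStmt d := by
  refine ⟨par, fun A B A' B' LA LB LA' LB' n Λ ε hn hΛ hε hs a1 a2 b1 b2 a1' a2' b1' b2' h1 h2 hq
    => ?_⟩
  have hQ : ∀ g, Real.sqrt (qj (cat n A B) n n g) ≤ Λ * ‖g‖ := fun g =>
    Real.sqrt_le_iff.2 ⟨by positivity, by rw [mul_pow]; exact hq g⟩
  obtain ⟨c, hc0, hc⟩ := qf_le B' n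
  have hit : ∀ j : ℕ, ∀ g, Real.sqrt (qj (cat n A' B') n n g) ≤ (2 * Λ + c / 2 ^ j) * ‖g‖ := by
    intro j
    induction j with
    | zero =>
      intro g
      have h3 := qj_le (cat n A' B') n n g 0
      have h0 : qf (cat n A' B') n 0 = 0 := by simp [qf]
      rw [h0, map_zero, zero_add, zero_add, sh_cat] at h3
      refine (Real.sqrt_le_sqrt h3).trans ((hc g).trans ?_)
      gcongr; simp only [pow_zero, div_one]; linarith
    | succ j ih =>
      intro g
      obtain ⟨e, he1, he2⟩ := trans hA hn hε a1 a2 b1 b2 a1' b1' h1 h2 g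
      have he3 : ‖e‖ ≤ ‖g‖ / 2 := by
        have : 2 * ε * Real.sqrt (qj (cat n A B) n n g) ≤ 2 * ε * (Λ * ‖g‖) := by
          gcongr; exact hQ g
        nlinarith [norm_nonneg g]
      calc _ ≤ Λ * ‖g‖ + (2 * Λ + c / 2 ^ j) * (‖g‖ / 2) :=
            he2.trans (add_le_add (hQ g) ((ih e).trans (by gcongr)))
        _ = _ := by rw [pow_succ]; field_simp; ring
  have hQ' : ∀ g, Real.sqrt (qj (cat n A' B') n n g) ≤ 2 * Λ * ‖g‖ := fun g => by
    have ht : Filter.Tendsto (fun j : ℕ => (2 * Λ + c / 2 ^ j) * ‖g‖) Filter.atTop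
        (nhds ((2 * Λ + 0) * ‖g‖)) :=
      ((tendsto_const_nhds.div_atTop (tendsto_pow_atTop_atTop_of_one_lt one_lt_two)).const_add
        _).mul_const _
    rw [add_zero] at ht
    exact ge_of_tendsto' ht fun j => hit j g
  have sq4 : ∀ {x y : ℝ}, 0 ≤ x → 0 ≤ y → Real.sqrt x ≤ 2 * Real.sqrt y → x ≤ 4 * y :=
    fun {x y} hx hy h => by
      have := pow_le_pow_left₀ (Real.sqrt_nonneg _) h 2
      rw [mul_pow, Real.sq_sqrt hx, Real.sq_sqrt hy] at this; linarith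
  intro g
  constructor
  · obtain ⟨e, he1, he2⟩ := trans hA hn hε a1 a2 b1 b2 a1' b1' h1 h2 g
    refine sq4 (qj_nonneg _ _ _ _) (qj_nonneg _ _ _ _) (he2.trans ?_)
    have h3 : Real.sqrt (qj (cat n A' B') n n e) ≤
        2 * Λ * (2 * ε * Real.sqrt (qj (cat n A B) n n g)) := (hQ' e).trans (by gcongr)
    nlinarith [Real.sqrt_nonneg (qj (cat n A B) n n g)]
  · obtain ⟨e, he1, he2⟩ := trans hA hn hε a1' a2' b1' b2' a1 b1
      (by rwa [norm_sub_rev]) (by rwa [norm_sub_rev]) g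
    refine sq4 (qj_nonneg _ _ _ _) (qj_nonneg _ _ _ _) (he2.trans ?_)
    have h3 : Real.sqrt (qj (cat n A B) n n e) ≤
        Λ * (2 * ε * Real.sqrt (qj (cat n A' B') n n g)) := (hQ e).trans (by gcongr)
    nlinarith [Real.sqrt_nonneg (qj (cat n A' B') n n g)]

end Vale.Agent.P109
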