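import Vale.Agent.P109.Base

open MeasureTheory Finset

namespace Vale.Agent.P109

namespace MixM

theorem enum {W : Type} [DecidableEq W] (G : Finset (W × W)) (n : ℕ) (h : G.card = n) :
    ∃ e : Fin n → W × W, Function.Injective e ∧ univ.image e = G ∧
      ∀ (P : W × W → Prop) [DecidablePred P],
        (univ.filter fun x => P (e x)).card = (G.filter P).card := by
  let E := G.equivFinOfCardEq h
  have hi : Function.Injective fun x => (E.symm x).1 :=
    Subtype.val_injective.comp E.symm.injective
  have him : univ.image (fun x => (E.symm x).1) = G := by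
    ext p
    simp only [mem_image, mem_univ, true_and]
    exact ⟨fun ⟨x, hx⟩ => hx ▸ (E.symm x).2, fun hp => ⟨E ⟨p, hp⟩, by simp⟩⟩
  refine ⟨fun x => (E.symm x).1, hi, him, fun P _ => ?_⟩
  conv_rhs => rw [← him, filter_image, card_image_of_injective _ hi]

theorem fib {F : Type} [Field F] [Fintype F] [DecidableEq F] {N : ℕ} (w : Fin N → F) (hw : w ≠ 0)
    (c : F) : (univ.filter fun a : Fin N → F => ∑ i, a i * w i = c).card * Fintype.card F =
      Fintype.card F ^ N := by
  obtain ⟨i0, hi0⟩ := Function.ne_iff.1 hw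
  have hi0 : w i0 ≠ 0 := hi0
  let φ : (Fin N → F) →+ F :=
    { toFun := fun a => ∑ i, a i * w i
      map_zero' := by simp
      map_add' := fun a b => by simp [add_mul, sum_add_distrib] }
  have hs : ∀ c, c ∈ Set.range φ := fun c => ⟨Pi.single i0 (c / w i0), by
    show ∑ i, (Pi.single i0 (c / w i0) : Fin N → F) i * w i = c
    rw [sum_eq_single i0 (fun i _ hi => by simp [Pi.single_eq_of_ne hi]) (by simp)]
    simp [hi0]⟩
  have h1 := card_eq_sum_card_fiberwise (f := φ) (s := univ) (t := univ) (fun _ _ => mem_univ _)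
  rw [sum_congr rfl fun b _ => AddMonoidHom.card_fiber_eq_of_mem_range φ (hs b) (hs c),
    sum_const, card_univ, card_univ, Fintype.card_fun, Fintype.card_fin, smul_eq_mul] at h1
  rw [h1, mul_comm]
  rfl

/-- abstract mixing bound from degrees and codegrees -/
theorem mix_of {W A : Type} [Fintype W] [DecidableEq W] [DecidableEq A] (R : W → W → Prop)
    [DecidableRel R] (π : W → A) (q η : ℝ) (hq0 : 0 ≤ q) (hq1 : q ≤ 1) (hη : 0 ≤ η)
    (deg : ∀ v, ((univ.filter fun u => R u v).card : ℝ) = q * Fintype.card W)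
    (cod : ∀ v v', π v ≠ π v' →
      ((univ.filter fun u => R u v ∧ R u v').card : ℝ) = q ^ 2 * Fintype.card W)
    (cls : ∀ v, ((univ.filter fun u => π u = π v).card : ℝ) ≤ η ^ 2 * Fintype.card W) :
    Mix (univ.filter fun p : W × W => R p.1 p.2) q η := by
  intro F F'
  set n : ℝ := (Fintype.card W : ℝ) with hn
  have hn0 : 0 ≤ n := by positivity
  let r : W → W → ℝ := fun u v => (if R u v then 1 else 0) - q
  have e1 : ∑ e ∈ univ.filter (fun p : W × W => R p.1 p.2), F e.1 * F' e.2 =
      q * (∑ u, F u) * (∑ v, F' v) + ∑ u, F u * ∑ v, r u v * F' v := by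
    rw [sum_filter, Fintype.sum_prod_type, mul_assoc, sum_mul_sum, mul_sum, ← sum_add_distrib]
    refine sum_congr rfl fun u _ => ?_
    rw [mul_sum, mul_sum, ← sum_add_distrib]
    refine sum_congr rfl fun v _ => ?_
    simp only [r]
    split_ifs <;> ring
  have hK : ∀ v v', ∑ u, r u v * r u v' =
      ((univ.filter fun u => R u v ∧ R u v').card : ℝ) - q ^ 2 * n := by
    intro v v'
    have : ∀ u, r u v * r u v' = (if R u v ∧ R u v' then (1 : ℝ) else 0) -
        q * (if R u v then 1 else 0) - q * (if R u v' then 1 else 0) + q ^ 2 := by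
      intro u
      simp only [r]
      by_cases h1 : R u v <;> by_cases h2 : R u v' <;> simp [h1, h2] <;> ring
    simp only [this, sum_add_distrib, sum_sub_distrib, ← mul_sum, sum_boole, deg, sum_const,
      card_univ, nsmul_eq_mul]
    ring
  have hK2 : ∀ v v', |∑ u, r u v * r u v'| ≤ if π v = π v' then n else 0 := by
    intro v v'
    rw [hK]
    split_ifs with h
    · have h1 : ((univ.filter fun u => R u v ∧ R u v').card : ℝ) ≤ n := by
        rw [hn]; exact_mod_cast card_le_univ _
      have h2 : (0 : ℝ) ≤ (univ.filter fun u => R u v ∧ R u v').card := by positivity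
      have h3 : q ^ 2 * n ≤ n := mul_le_of_le_one_left hn0 (pow_le_one₀ hq0 hq1)
      have h4 : 0 ≤ q ^ 2 * n := by positivity
      rw [abs_le]; constructor <;> linarith
    · rw [cod v v' h]; simp
  have e2 : ∑ u, (∑ v, r u v * F' v) ^ 2 ≤ (η * n) ^ 2 * ∑ v, F' v ^ 2 := by
    have a1 : ∑ u, (∑ v, r u v * F' v) ^ 2 = ∑ v, ∑ v', F' v * F' v' * ∑ u, r u v * r u v' := by
      simp only [sq, sum_mul_sum]
      simp only [mul_sum]
      rw [sum_comm]
      refine sum_congr rfl fun v _ => ?_
      rw [sum_comm]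
      exact sum_congr rfl fun v' _ => sum_congr rfl fun u _ => by ring
    have a2 : ∀ v v', F' v * F' v' * ∑ u, r u v * r u v' ≤
        (F' v ^ 2 * (if π v' = π v then n else 0) + F' v' ^ 2 * (if π v = π v' then n else 0)) / 2 := by
      intro v v'
      have b1 := hK2 v v'
      have b2 : |F' v * F' v'| ≤ (F' v ^ 2 + F' v' ^ 2) / 2 := by
        rw [abs_le]; constructor <;> nlinarith [sq_nonneg (F' v + F' v'), sq_nonneg (F' v - F' v')]
      refine (le_abs_self _).trans ?_
      rw [abs_mul]
      refine (mul_le_mul b2 b1 (abs_nonneg _) (by positivity)).trans (le_of_eq ?_)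
      by_cases h : π v = π v'
      · rw [if_pos h, if_pos h.symm]; ring
      · rw [if_neg h, if_neg (fun h' => h h'.symm)]; ring
    have a3 : ∀ v, ∑ v', F' v ^ 2 * (if π v' = π v then n else 0) ≤ (η * n) ^ 2 * F' v ^ 2 := by
      intro v
      rw [← mul_sum, ← sum_filter, sum_const, nsmul_eq_mul, mul_comm]
      refine mul_le_mul_of_nonneg_right ?_ (sq_nonneg _)
      exact (mul_le_mul_of_nonneg_right (cls v) hn0).trans (le_of_eq (by ring))
    rw [a1]
    refine (sum_le_sum fun v _ => sum_le_sum fun v' _ => a2 v v').trans ?_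
    simp only [← sum_div, sum_add_distrib]
    have a4 := sum_le_sum fun v (_ : v ∈ univ) => a3 v
    rw [← mul_sum] at a4
    rw [sum_comm (f := fun v v' => F' v' ^ 2 * (if π v = π v' then n else 0))]
    linarith
  rw [e1]
  refine add_le_add le_rfl ((Real.sum_mul_le_sqrt_mul_sqrt _ _ _).trans ?_)
  have e3 := Real.sqrt_le_sqrt e2
  rw [Real.sqrt_mul (sq_nonneg _), Real.sqrt_sq (by positivity)] at e3
  refine (mul_le_mul_of_nonneg_left e3 (Real.sqrt_nonneg _)).trans (le_of_eq (by ring))

section
variable {F Z : Type} [Field F] [Fintype F] [DecidableEq F] [Fintype Z] [DecidableEq Z] {N : ℕ}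

/-- the incidence relation -/
def Rl (u v : (Fin N → F) × F × Z) : Prop := u.2.1 + v.2.1 = ∑ i, u.1 i * v.1 i

instance : DecidableRel (Rl (F := F) (Z := Z) (N := N)) := fun _ _ => by unfold Rl; infer_instance

theorem Rl_symm {u v : (Fin N → F) × F × Z} : Rl u v ↔ Rl v u := by
  unfold Rl; rw [add_comm]; simp only [mul_comm]

theorem deg (v : (Fin N → F) × F × Z) :
    (univ.filter fun u => Rl u v).card = Fintype.card F ^ N * Fintype.card Z := by
  rw [card_filter, Fintype.sum_prod_type]
  have : ∀ a : Fin N → F, (∑ y : F × Z, if Rl (a, y) v then 1 else 0) = Fintype.card Z := by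
    intro a
    rw [Fintype.sum_prod_type, sum_comm]
    simp [Rl, ← eq_sub_iff_add_eq]
  simp [this]

theorem cod (v v' : (Fin N → F) × F × Z) (h : v.1 ≠ v'.1) :
    (univ.filter fun u => Rl u v ∧ Rl u v').card * Fintype.card F =
      Fintype.card F ^ N * Fintype.card Z := by
  have h1 := fib (v.1 - v'.1) (sub_ne_zero.2 h) (v.2.1 - v'.2.1)
  rw [← h1, mul_right_comm]
  congr 1
  rw [card_filter, Fintype.sum_prod_type, card_filter, sum_mul]
  refine sum_congr rfl fun a _ => ?_
  rw [Fintype.sum_prod_type, sum_comm]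
  have : ∀ (z : Z) (b : F), (Rl (a, b, z) v ∧ Rl (a, b, z) v') ↔
      (b = ∑ i, a i * v.1 i - v.2.1 ∧ ∑ i, a i * (v.1 - v'.1) i = v.2.1 - v'.2.1) := by
    intro z b
    simp only [Rl, Pi.sub_apply, mul_sub, sum_sub_distrib]
    constructor
    · rintro ⟨h1, h2⟩; exact ⟨by rw [← h1]; ring, by rw [← h1, ← h2]; ring⟩
    · rintro ⟨h1, h2⟩; exact ⟨by rw [h1]; ring, by linear_combination h1 + h2⟩
  simp only [this, ite_and, sum_ite_eq', mem_univ, if_true, sum_const, card_univ, smul_eq_mul]
  ring

theorem cls (v : (Fin N → F) × F × Z) :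
    (univ.filter fun u : (Fin N → F) × F × Z => u.1 = v.1).card =
      Fintype.card F * Fintype.card Z := by
  rw [card_filter, Fintype.sum_prod_type, sum_comm]
  simp

end

theorem card_eqv {W W' : Type} [Fintype W] [Fintype W'] (ψ : W ≃ W') (P : W' → Prop)
    [DecidablePred P] : (univ.filter fun u => P (ψ u)).card = (univ.filter P).card :=
  card_equiv ψ (by simp)

theorem fib1 {W : Type} [Fintype W] [DecidableEq W] (R : W → W → Prop) [DecidableRel R] (y : W) :
    ((univ.filter fun p : W × W => R p.1 p.2).filter fun p => p.1 = y).card =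
      (univ.filter fun v => R y v).card := by
  rw [filter_filter, card_filter, card_filter, Fintype.sum_prod_type, sum_comm]
  simp only [and_comm (a := R _ _), ite_and, sum_ite_eq', mem_univ, if_true]

theorem fib2 {W : Type} [Fintype W] [DecidableEq W] (R : W → W → Prop) [DecidableRel R] (y : W) :
    ((univ.filter fun p : W × W => R p.1 p.2).filter fun p => p.2 = y).card =
      (univ.filter fun u => R u y).card := by
  rw [filter_filter, card_filter, card_filter, Fintype.sum_prod_type]
  simp only [and_comm (a := R _ _), ite_and, sum_ite_eq', mem_univ, if_true]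

theorem two {α β : Type} [Fintype α] [DecidableEq α] [Fintype β] (x y : α) (h : x ≠ y)
    (f : β → β → ℕ) : (∑ φ : α → β, f (φ x) (φ y)) * Fintype.card β ^ 2 =
      Fintype.card β ^ Fintype.card α * ∑ u, ∑ v, f u v := by
  have inv : Function.Involutive fun p : (α → β) × β × β =>
      (Function.update (Function.update p.1 x p.2.1) y p.2.2, p.1 x, p.1 y) := by
    rintro ⟨φ, u, v⟩
    refine Prod.ext (funext fun i => ?_) (Prod.ext ?_ ?_)
    · by_cases h1 : i = y
      · subst h1; simp
      · by_cases h2 : i = x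
        · subst h2; simp [Function.update_of_ne h1]
        · simp [Function.update_of_ne h1, Function.update_of_ne h2]
    · simp [Function.update_of_ne h]
    · simp
  have := Equiv.sum_comp inv.toPerm fun p => f (p.1 x) (p.1 y)
  simp only [Function.Involutive.coe_toPerm, Function.update_of_ne h, Function.update_self,
    Fintype.sum_prod_type, sum_const, card_univ, smul_eq_mul, Fintype.card_fun] at this
  rw [this, ← mul_sum, Fintype.card_prod]
  ring

theorem one {α β : Type} [Fintype α] [DecidableEq α] [Fintype β] (x : α)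
    (f : β → ℕ) : (∑ φ : α → β, f (φ x)) * Fintype.card β =
      Fintype.card β ^ Fintype.card α * ∑ u, f u := by
  have inv : Function.Involutive fun p : (α → β) × β => (Function.update p.1 x p.2, p.1 x) := by
    rintro ⟨φ, u⟩
    simp
  have := Equiv.sum_comp inv.toPerm fun p => f (p.1 x)
  simp only [Function.Involutive.coe_toPerm, Function.update_self,
    Fintype.sum_prod_type, sum_const, card_univ, smul_eq_mul, Fintype.card_fun] at this
  rw [this, ← mul_sum]
  ring

end MixM

theorem mixStmt : MixStmt where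
  mix m t N s m' ht hm hs hm' := by
    classical
    haveI : Fact (Nat.Prime 2) := ⟨Nat.prime_two⟩
    letI : Fintype (GaloisField 2 t) := Fintype.ofFinite _
    have hF : Fintype.card (GaloisField 2 t) = 2 ^ t := by
      rw [← Nat.card_eq_fintype_card, GaloisField.card 2 t (by omega)]
    obtain ⟨z, hz⟩ : ∃ z, m = t * N + t + z := ⟨m - (N + 1) * t, by
      have : (N + 1) * t = t * N + t := by ring
      omega⟩
    have ψ : Fin (2 ^ m) ≃ (Fin N → GaloisField 2 t) × GaloisField 2 t × Fin (2 ^ z) :=
      Fintype.equivOfCardEq (by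
        simp only [Fintype.card_prod, Fintype.card_fun, Fintype.card_fin, hF]
        rw [hz]; ring)
    have hd : ∀ v, (univ.filter fun u => MixM.Rl (ψ u) (ψ v)).card = 2 ^ (t * N + z) := by
      intro v
      rw [MixM.card_eqv ψ (fun u => MixM.Rl u (ψ v)), MixM.deg, hF, Fintype.card_fin]; ring
    have hcard : (univ.filter fun p : Fin (2 ^ m) × Fin (2 ^ m) =>
        MixM.Rl (ψ p.1) (ψ p.2)).card = 2 ^ m' := by
      rw [card_eq_sum_card_fiberwise (f := Prod.snd) (t := univ) (fun _ _ => mem_univ _)]
      simp only [MixM.fib2 (fun u v => MixM.Rl (ψ u) (ψ v)), hd, sum_const, card_univ,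
        Fintype.card_fin, smul_eq_mul]
      rw [← pow_add]; congr 1; omega
    have hmm : 2 ^ (t * N + z) * 2 ^ m = 2 ^ m' := by rw [← pow_add]; congr 1; omega
    obtain ⟨e, h1, h2, h3⟩ := MixM.enum _ _ hcard
    refine ⟨e, h1, fun y => ?_, fun y => ?_, ?_⟩
    · rw [h3 (fun p => p.1 = y), MixM.fib1 (fun u v => MixM.Rl (ψ u) (ψ v))]
      simp only [MixM.Rl_symm (u := ψ y)]
      rw [hd, hmm]
    · rw [h3 (fun p => p.2 = y), MixM.fib2 (fun u v => MixM.Rl (ψ u) (ψ v)), hd, hmm]
    · rw [h2]
      have h2t : (0 : ℝ) < 2 ^ t := by positivity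
      refine MixM.mix_of (fun u v => MixM.Rl (ψ u) (ψ v)) (fun u => (ψ u).1) _ _ (by positivity)
        (by rw [div_le_one h2t]; exact one_le_pow₀ one_le_two) (by positivity)
        (fun v => ?_) (fun v v' h => ?_) (fun v => ?_)
      · rw [hd, Fintype.card_fin, hz]; push_cast; field_simp; ring
      · have := MixM.cod (ψ v) (ψ v') h
        rw [← MixM.card_eqv ψ (fun u => MixM.Rl u (ψ v) ∧ MixM.Rl u (ψ v')), hF,
          Fintype.card_fin] at this
        have h4 := congrArg (Nat.cast : ℕ → ℝ) this
        push_cast at h4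
        rw [Fintype.card_fin]
        refine mul_right_cancel₀ h2t.ne' (h4.trans ?_)
        rw [hz]
        push_cast; field_simp; ring
      · rw [MixM.card_eqv ψ (fun u => u.1 = (ψ v).1), MixM.cls, hF, Fintype.card_fin,
          Fintype.card_fin, hz]
        push_cast
        have h5 : (2 : ℝ) ^ (2 * s) ≤ 2 ^ (t * N) :=
          pow_le_pow_right₀ one_le_two (by rw [mul_comm t]; exact hs)
        rw [div_pow, one_pow, ← pow_mul, mul_comm s 2, one_div, ← div_eq_inv_mul,
          le_div_iff₀ (by positivity), pow_add, pow_add]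
        have h6 : (0 : ℝ) ≤ 2 ^ t * 2 ^ z := by positivity
        nlinarith [mul_le_mul_of_nonneg_left h5 h6]
  prod m := by
    obtain ⟨e, h1, -, h3⟩ := MixM.enum (univ.filter fun _ : Fin (2 ^ m) × Fin (2 ^ m) => True)
      (2 ^ (2 * m)) (by simp [two_mul, pow_add])
    refine ⟨e, h1, fun y => ?_, fun y => ?_⟩
    · rw [h3 (fun p => p.1 = y), MixM.fib1 (fun _ _ => True)]; simp [two_mul, pow_add]
    · rw [h3 (fun p => p.2 = y), MixM.fib2 (fun _ _ => True)]; simp [two_mul, pow_add]
  fn a ha := by
    let φ : ℕ → Fin a → Fin a := fun j =>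
      if h : j < a ^ a then finFunctionFinEquiv.symm ⟨j, h⟩ else id
    have key : ∀ g : (Fin a → Fin a) → ℕ, ∑ j ∈ range (a ^ a), g (φ j) = ∑ ψ, g ψ := by
      intro g
      rw [← Fin.sum_univ_eq_sum_range (fun j => g (φ j)),
        ← Equiv.sum_comp finFunctionFinEquiv.symm g]
      exact sum_congr rfl fun j _ => by simp [φ]
    refine ⟨fun x j => φ j x, fun x y => ?_, fun x y h f => ?_⟩
    · rw [card_filter, key (fun ψ => if ψ x = y then 1 else 0)]
      simpa using MixM.one x (fun u : Fin a => if u = y then 1 else 0)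
    · rw [key (fun ψ => f (ψ x) (ψ y))]
      simpa using MixM.two x y h f

end Vale.Agent.P109
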