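import Vale.Agent.P109.Base

open MeasureTheory Finset

namespace Vale.Agent.P109

namespace Netm

theorem dec {d : ℕ} (x : E d) : x = ∑ i, x i • EuclideanSpace.single i (1 : ℝ) := by
  have := (EuclideanSpace.basisFun (Fin d) ℝ).sum_repr x
  simp only [EuclideanSpace.basisFun_repr, EuclideanSpace.basisFun_apply] at this
  exact this.symm

theorem norm_le {d : ℕ} (x : E d) {δ : ℝ} (h : ∀ i, |x i| ≤ δ) : ‖x‖ ≤ d * δ := by
  rw [dec x]
  refine (norm_sum_le _ _).trans ?_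
  have : ∀ i ∈ (univ : Finset (Fin d)), ‖x i • EuclideanSpace.single i (1 : ℝ)‖ ≤ δ := by
    intro i _
    rw [norm_smul]
    simpa using h i
  refine (sum_le_sum this).trans ?_
  simp

theorem op_le {d : ℕ} (L : Op d) {a : ℝ} (ha : 0 ≤ a)
    (h : ∀ j, ‖L (EuclideanSpace.single j (1 : ℝ))‖ ≤ a) : ‖L‖ ≤ d * a := by
  refine ContinuousLinearMap.opNorm_le_bound _ (by positivity) fun v => ?_
  conv_lhs => rw [dec v]
  rw [map_sum]
  refine (norm_sum_le _ _).trans ?_
  have : ∀ j ∈ (univ : Finset (Fin d)), ‖L (v j • EuclideanSpace.single j (1 : ℝ))‖ ≤ a * ‖v‖ := by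
    intro j _
    rw [map_smul, norm_smul, mul_comm]
    exact mul_le_mul (h j) (PiLp.norm_apply_le v j) (norm_nonneg _) ha
  refine (sum_le_sum this).trans (le_of_eq ?_)
  simp [mul_assoc]

noncomputable def rd (R δ t : ℝ) : Fin (⌊2 * R / δ⌋₊ + 1) :=
  ⟨min ⌊(t + R) / δ⌋₊ ⌊2 * R / δ⌋₊, by omega⟩

theorem rd_close {R δ t t' : ℝ} (hδ : 0 < δ) (ht : |t| ≤ R) (ht' : |t'| ≤ R)
    (h : rd R δ t = rd R δ t') : |t - t'| ≤ δ := by
  have key : ∀ s, |s| ≤ R → ⌊(s + R) / δ⌋₊ ≤ ⌊2 * R / δ⌋₊ := fun s hs =>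
    Nat.floor_le_floor (div_le_div_of_nonneg_right (by linarith [(abs_le.1 hs).2]) hδ.le)
  have h1 := congrArg Fin.val h
  simp only [rd, min_eq_left (key t ht), min_eq_left (key t' ht')] at h1
  have p : 0 ≤ (t + R) / δ := div_nonneg (by linarith [(abs_le.1 ht).1]) hδ.le
  have p' : 0 ≤ (t' + R) / δ := div_nonneg (by linarith [(abs_le.1 ht').1]) hδ.le
  have a1 := Nat.floor_le p
  have a2 := Nat.lt_floor_add_one ((t + R) / δ)
  have a3 := Nat.floor_le p'
  have a4 := Nat.lt_floor_add_one ((t' + R) / δ)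
  rw [h1] at a1 a2
  have b1 : (t + R) / δ - (t' + R) / δ ≤ 1 := by linarith
  have b2 : (t' + R) / δ - (t + R) / δ ≤ 1 := by linarith
  rw [← sub_div, div_le_one hδ] at b1 b2
  rw [abs_le]
  constructor <;> linarith

end Netm

theorem netStmt (d : ℕ) : NetStmt d := by
  intro R hR
  refine ⟨2 * R * (d * d + 1) + 1, by nlinarith [sq_nonneg (d : ℝ)], fun ε hε hε1 => ?_⟩
  set δ : ℝ := ε / (d * d + 1) with hδ
  have hd : (0 : ℝ) < d * d + 1 := by positivity
  have hδ0 : 0 < δ := by positivity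
  let e := Fintype.equivFin ((Fin d ⊕ Fin d × Fin d) → Fin (⌊2 * R / δ⌋₊ + 1))
  refine ⟨_, fun w L => e (Sum.elim (fun i => Netm.rd R δ (w i))
    (fun p => Netm.rd R δ (L (EuclideanSpace.single p.1 (1 : ℝ)) p.2))), ?_, ?_⟩
  · rw [Fintype.card_fun, Fintype.card_fin, Fintype.card_sum, Fintype.card_prod, Fintype.card_fin]
    push_cast
    refine pow_le_pow_left₀ (by positivity) ?_ _
    have h1 : (⌊2 * R / δ⌋₊ : ℝ) ≤ 2 * R / δ := Nat.floor_le (by positivity)
    have h2 : 2 * R / δ = 2 * R * (d * d + 1) / ε := by rw [hδ]; field_simp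
    have h3 : 1 ≤ 1 / ε := by rw [le_div_iff₀ hε]; linarith
    rw [add_div]
    linarith
  · intro w w' L L' hw hw' hL hL' h
    have h1 := e.injective h
    have hδ1 : (d * d + 1) * δ = ε := by rw [hδ]; field_simp
    have hd1 : (d : ℝ) ≤ d * d + 1 := by nlinarith [sq_nonneg ((d : ℝ) - 1)]
    have co : ∀ (x : E d) i, ‖x‖ ≤ R → |x i| ≤ R := fun x i hx =>
      le_trans (PiLp.norm_apply_le x i) hx
    have col : ∀ (L : Op d) j, ‖L‖ ≤ R → ‖L (EuclideanSpace.single j (1 : ℝ))‖ ≤ R := by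
      intro L j hL
      refine (L.le_opNorm _).trans ?_
      simpa using hL
    constructor
    · refine (Netm.norm_le _ (δ := δ) fun i => ?_).trans (by nlinarith)
      exact Netm.rd_close hδ0 (co w i hw) (co w' i hw') (congrFun h1 (Sum.inl i))
    · refine (Netm.op_le _ (a := d * δ) (by positivity) fun j => ?_).trans (by nlinarith)
      refine Netm.norm_le _ fun i => ?_
      exact Netm.rd_close hδ0 (co _ i (col L j hL)) (co _ i (col L' j hL'))
        (congrFun h1 (Sum.inr (j, i)))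

end Vale.Agent.P109
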