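import Vale.Agent.P109.Base

open MeasureTheory Finset

namespace Vale.Agent.P109
namespace Phi

open Bs

variable {d : ℕ} {M : Type} [MeasurableSpace M] {ν : Measure M} {S : M → M} {ch : Ch d M}

theorem meas_A (h : ch.Ok ν S) : Measurable (ch.A S) := by
  have h1 : Measurable fun p : Fin ch.k × E d => fderiv ℝ (ch.F S p.1) p.2 :=
    measurable_from_prod_countable_right fun i => measurable_fderiv ℝ (ch.F S i)
  have h2 : Measurable fun x => fderiv ℝ (ch.F S (ch.lab x)) (ch.c x) :=
    h1.comp (h.mlab.prodMk h.mc)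
  exact Measurable.ite (measurableSet_le h2.norm measurable_const) h2 measurable_const

theorem meas_coc (h : ch.Ok ν S) (t : ℕ) :
    Measurable fun p : M × E d => coc (ch.AX S (ox S p.1)) t p.2 := by
  induction t with
  | zero => exact measurable_snd
  | succ t ih =>
    have h1 : Measurable fun p : M × E d => ch.A S (S^[t] p.1) :=
      (meas_A h).comp ((h.mS.measurable.iterate t).comp measurable_fst)
    have h2 : Continuous fun p : Op d × E d => p.1 p.2 := continuous_fst.clm_apply continuous_snd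
    exact h2.measurable.comp (h1.prodMk ih)

theorem meas_phi (h : ch.Ok ν S) (n : ℕ) : Measurable fun x => ch.phi S x n := by
  have h1 : Measurable fun p : M × E d => Real.exp (-qf (ch.AX S (ox S p.1)) n p.2) :=
    (Finset.measurable_sum _ fun t _ => (meas_coc h t).norm.pow_const 2).neg.exp
  exact measurable_const.sub h1.stronglyMeasurable.integral_prod_right'.measurable.log

theorem coc_le {A : ℕ → Op d} {K : ℝ} (hK : 0 ≤ K) (h : ∀ t, ‖A t‖ ≤ K) (v : E d) (t : ℕ) :
    ‖coc A t v‖ ≤ K ^ t * ‖v‖ := by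
  induction t with
  | zero => simp
  | succ t ih =>
    rw [coc_succ, pow_succ', mul_assoc]
    exact ((A t).le_opNorm _).trans (mul_le_mul (h t) ih (norm_nonneg _) hK)

theorem qf_le {A : ℕ → Op d} {K : ℝ} (hK : 1 ≤ K) (h : ∀ t, ‖A t‖ ≤ K) (n : ℕ) (v : E d) :
    qf A n v ≤ ((2 * K) ^ n) ^ 2 * ‖v‖ ^ 2 := by
  have h1 : nr n (fun t => coc A t v) ≤ n * (K ^ n * ‖v‖) :=
    nr_le_card (by positivity) fun t ht => (coc_le (by linarith) h v t).trans
      (mul_le_mul_of_nonneg_right (pow_le_pow_right₀ hK ht.le) (norm_nonneg _))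
  have h2 : (n : ℝ) ≤ 2 ^ n := by exact_mod_cast Nat.lt_two_pow_self.le
  rw [qf_eq_nr, ← mul_pow, mul_pow 2, mul_assoc]
  exact pow_le_pow_left₀ (nr_nonneg _ _)
    (h1.trans (mul_le_mul_of_nonneg_right h2 (by positivity))) 2

theorem log_le {a x y : ℝ} {k : ℕ} (ha : 0 < a) (hx : 0 < x) (hy : 0 < y) (h : x ≤ a ^ k * y) :
    Real.log x ≤ k * (a - 1) + Real.log y := by
  have h1 := Real.log_le_log hx h
  rw [Real.log_mul (by positivity) hy.ne', Real.log_pow] at h1
  have h2 := mul_le_mul_of_nonneg_left (Real.log_le_sub_one_of_pos ha) (Nat.cast_nonneg k)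
  linarith

omit [MeasurableSpace M] in
theorem defect (hG : GaussStmt d) (hA : LinAStmt d) (x : M) {s m : ℕ} (hs : 1 ≤ s) (hm : 1 ≤ m) :
    ch.phi S x s + ch.phi S (S^[s] x) m - ch.phi S x (s + m) =
      Real.log (gI fun v : E d => ‖v‖ ^ 2) - Real.log (gI (qj (ch.AX S (ox S x)) s m)) := by
  have e := congrArg Real.log (gI_split hG hA (ch.AX S (ox S x)) hs hm)
  rw [Real.log_mul (hG.pos _ (gauge_qf _ hs)).ne' (hG.pos _ (gauge_qf _ hm)).ne',
    Real.log_mul (hG.pos _ (gauge_qf _ (by omega))).ne' (hG.pos _ (hA.gj _ s m hs hm)).ne'] at e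
  simp only [Ch.phi, AX_shift]
  linarith

end Phi

open Bs Phi in
theorem phiStmt (hG : ∀ d, GaussStmt d) (hA : ∀ d, LinAStmt d) (hB : ∀ d, LinBStmt d) :
    PhiStmt := by
  intro d M _ ν S ch h
  have hK := h.oneK
  have hd : (0 : ℝ) ≤ d := Nat.cast_nonneg d
  have hI := (hG d).pos _ (gauge_norm (d := d))
  obtain ⟨C, hC, hs⟩ := (hG d).slab (ch.K + 1) (by linarith)
  have hAX : ∀ x t, ‖ch.AX S (ox S x) t‖ ≤ ch.K := fun x t => norm_A_le ch S (by linarith) _
  have h1 : 0 ≤ d * (2 * ch.K) := by positivity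
  have h2 : 0 ≤ C / gI fun v : E d => ‖v‖ ^ 2 := by positivity
  refine ⟨1 + d * (2 * ch.K) + C / gI fun v : E d => ‖v‖ ^ 2, by linarith, meas_phi h,
    fun x n hn => ⟨?_, ?_⟩, fun x s m hs hm => ?_, fun x n y hy => ?_⟩
  · have g := gauge_qf (ch.AX S (ox S x)) hn
    have := (hG d).mono _ _ 1 g gauge_norm one_pos fun v => by
      simpa using normsq_le_qf (ch.AX S (ox S x)) hn v
    have := log_le one_pos ((hG d).pos _ g) hI this
    rw [Ch.phi]
    linarith
  · have g := gauge_qf (ch.AX S (ox S x)) hn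
    have := (hG d).mono _ _ ((2 * ch.K) ^ n) gauge_norm g (by positivity) (qf_le hK (hAX x) n)
    rw [← pow_mul] at this
    have := log_le (by positivity) hI ((hG d).pos _ g) this
    have hn' : (0 : ℝ) ≤ n := Nat.cast_nonneg n
    have h3 := mul_nonneg h2 hn'
    have h4 := mul_nonneg hd hn'
    rw [Ch.phi]
    push_cast at this
    nlinarith
  · have e := defect (ch := ch) (S := S) (hG d) (hA d) x hs hm
    have g := (hA d).gj (ch.AX S (ox S x)) s m hs hm
    have := (hG d).mono _ _ (ch.K + 1) g gauge_norm (by linarith)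
      ((hA d).lowK _ s m ch.K hs hm (by linarith) (hAX x _))
    have := log_le (by linarith) ((hG d).pos _ g) hI this
    have h3 : 0 ≤ d * ch.K := by positivity
    linarith
  · refine (hB d).all _ n _ (by positivity) fun s m hs' hm hsm g => ?_
    have e := hy s m hs' hm hsm
    rw [defect (hG d) (hA d) x hs' hm] at e
    have gj := (hA d).gj (ch.AX S (ox S x)) s m hs' hm
    have hp := (hG d).pos _ gj
    have h3 := hs _ gj ((hA d).sub _ s m hs' hm)
      ((hA d).lowK _ s m ch.K hs' hm (by linarith) (hAX x _)) g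
    have h4 : (gI fun v : E d => ‖v‖ ^ 2) ≤ Real.exp y * gI (qj (ch.AX S (ox S x)) s m) := by
      rw [← Real.log_div hI.ne' hp.ne', Real.log_le_iff_le_exp (by positivity),
        div_le_iff₀ hp] at e
      exact e
    have h5 : C ≤ (1 + d * (2 * ch.K) + C / gI fun v : E d => ‖v‖ ^ 2) * Real.exp y *
        gI (qj (ch.AX S (ox S x)) s m) := by
      rw [mul_assoc]
      calc C = (C / gI fun v : E d => ‖v‖ ^ 2) * gI fun v : E d => ‖v‖ ^ 2 := by field_simp
        _ ≤ _ := mul_le_mul (by linarith) h4 hI.le (by linarith)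
    refine le_of_mul_le_mul_right (h3.trans ?_) (pow_pos hp 2)
    rw [mul_right_comm, ← mul_pow (_ * Real.exp y)]
    exact mul_le_mul_of_nonneg_right (pow_le_pow_left₀ (by linarith) h5 2) (sq_nonneg _)

end Vale.Agent.P109
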