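import Vale.Agent.P109.Base

open Finset

namespace Vale.Agent.P109
namespace St

theorem fib {I L : Type} [Fintype I] [Fintype L] [DecidableEq L] (ll : I → L) (w : I → ℝ)
    (f : L → ℝ) : ∑ i, w i * f (ll i) = ∑ l, (∑ i ∈ univ.filter (fun i => ll i = l), w i) * f l := by
  rw [← sum_fiberwise univ ll]
  refine sum_congr rfl fun l _ => ?_
  rw [sum_mul]
  exact sum_congr rfl fun i hi => by rw [(mem_filter.1 hi).2]

theorem side {I W L A : Type} [Fintype I] [Fintype W] [DecidableEq W] [Fintype L] [DecidableEq L]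
    [Fintype A] (w : I → ℝ) (uu : I → W) (ll : I → L) (l : A → L) (m : A → ℝ) (κ : W → L → ℝ)
    (hw : ∀ i, 0 ≤ w i) (hw1 : ∑ i, w i = 1) (hm : ∀ a, 0 ≤ m a) (hm1 : ∑ a, m a ≤ 1)
    (hu : ∀ u, (∑ i, w i * if uu i = u then 1 else 0) * Fintype.card W ≤ 2)
    (hκ : ∀ u a, 0 ≤ κ u a) (hκ1 : ∀ a, ∑ u, κ u a ≤ 1) :
    ∃ (Q : W → L → ℝ) (T : Finset L), (∀ u a, 0 ≤ Q u a) ∧ (∀ a, ∑ u, Q u a ≤ 1) ∧
      (∀ i, w i ≠ 0 → 0 < Q (uu i) (ll i)) ∧
      ∑ i, w i * (κ (uu i) (ll i) / Q (uu i) (ll i)) ≤ 1 ∧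
      ∑ i, w i * (if ll i ∈ T then 1 else 0) ≤ 1 / 8 ∧
      ∀ u, (∑ a, (if l a ∈ T then 0 else m a) * Q u (l a)) * Fintype.card W ≤ 16 := by
  classical
  set P : W → L → ℝ := fun u a => ∑ i ∈ univ.filter (fun i => (uu i, ll i) = (u, a)), w i with hP
  set R : L → ℝ := fun a => ∑ u, P u a with hR
  set M : L → ℝ := fun a => ∑ x ∈ univ.filter (fun x => l x = a), m x with hM
  have hP0 : ∀ u a, 0 ≤ P u a := fun u a => sum_nonneg fun i _ => hw i
  have hR0 : ∀ a, 0 ≤ R a := fun a => sum_nonneg fun u _ => hP0 u a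
  have hM0 : ∀ a, 0 ≤ M a := fun a => sum_nonneg fun u _ => hm u
  have hPR : ∀ u a, P u a ≤ R a := fun u a =>
    single_le_sum (f := fun u => P u a) (fun u _ => hP0 u a) (mem_univ u)
  have key : ∀ f : W → L → ℝ, ∑ i, w i * f (uu i) (ll i) = ∑ u, ∑ a, P u a * f u a := by
    intro f
    have := fib (fun i => (uu i, ll i)) w (fun z => f z.1 z.2)
    rw [this, Fintype.sum_prod_type]
  have hR1 : ∑ a, R a = 1 := by
    have := key fun _ _ => 1
    simp only [mul_one] at this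
    rw [← hw1, this, sum_comm]
  have hM1 : ∑ a, M a ≤ 1 := by
    have := fib l m fun _ => 1
    simp only [mul_one] at this
    rw [← this]; exact hm1
  have hRQ : ∀ u a, R a * (P u a / R a) ≤ P u a := fun u a => by
    rcases (hR0 a).eq_or_lt with h | h
    · rw [← h, zero_mul]; exact hP0 u a
    · rw [mul_div_cancel₀ _ h.ne']
  refine ⟨fun u a => P u a / R a, univ.filter fun a => R a < M a / 8,
    fun u a => div_nonneg (hP0 u a) (hR0 a), fun a => ?_, fun i hi => ?_, ?_, ?_, fun u => ?_⟩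
  · rw [← sum_div]; exact div_self_le_one _
  · have h1 : w i ≤ P (uu i) (ll i) :=
      single_le_sum (f := w) (fun j _ => hw j) (mem_filter.2 ⟨mem_univ i, rfl⟩)
    have h2 : 0 < P (uu i) (ll i) := lt_of_lt_of_le ((hw i).lt_of_ne' hi) h1
    exact div_pos h2 (h2.trans_le (hPR _ _))
  · rw [key fun u a => κ u a / (P u a / R a), sum_comm, ← hR1]
    refine sum_le_sum fun a _ => ?_
    calc ∑ u, P u a * (κ u a / (P u a / R a)) ≤ ∑ u, R a * κ u a := by
          refine sum_le_sum fun u _ => ?_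
          rcases (hP0 u a).eq_or_lt with h | h
          · rw [← h, zero_mul]; exact mul_nonneg (hR0 a) (hκ u a)
          · have := h.trans_le (hPR u a)
            exact le_of_eq (by field_simp)
      _ ≤ R a := by rw [← mul_sum]; exact mul_le_of_le_one_right (hR0 a) (hκ1 a)
  · rw [key fun _ a => if a ∈ univ.filter (fun a => R a < M a / 8) then 1 else 0, sum_comm]
    calc ∑ a, ∑ u, P u a * (if a ∈ univ.filter (fun a => R a < M a / 8) then (1 : ℝ) else 0)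
        ≤ ∑ a, M a / 8 := by
          refine sum_le_sum fun a _ => ?_
          rw [← sum_mul]
          split_ifs with h
          · rw [mul_one]; exact (mem_filter.1 h).2.le
          · rw [mul_zero]; exact div_nonneg (hM0 a) (by norm_num)
      _ ≤ 1 / 8 := by rw [← sum_div]; linarith
  · have h1 : ∑ a, (if l a ∈ univ.filter (fun a => R a < M a / 8) then 0 else m a) *
        (P u (l a) / R (l a)) = ∑ a, M a * ((if R a < M a / 8 then 0 else 1) * (P u a / R a)) := by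
      rw [← fib l m fun a => (if R a < M a / 8 then 0 else 1) * (P u a / R a)]
      refine sum_congr rfl fun a _ => ?_
      simp only [mem_filter, mem_univ, true_and]
      split_ifs <;> simp
    have h2 : ∑ a, M a * ((if R a < M a / 8 then 0 else 1) * (P u a / R a)) ≤ 8 * ∑ a, P u a := by
      rw [mul_sum]
      refine sum_le_sum fun a _ => ?_
      split_ifs with h
      · simpa using hP0 u a
      · have h3 : M a ≤ 8 * R a := by linarith [not_lt.1 h]
        have h4 := mul_le_mul_of_nonneg_right h3 (div_nonneg (hP0 u a) (hR0 a))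
        have h5 := hRQ u a
        rw [one_mul]; nlinarith
    have h3 : ∑ i, w i * (if uu i = u then (1 : ℝ) else 0) = ∑ a, P u a := by
      rw [key fun u' _ => if u' = u then 1 else 0, sum_comm]
      simp
    have h4 := hu u
    rw [h3] at h4
    rw [h1]
    have h5 : (0 : ℝ) ≤ Fintype.card W := Nat.cast_nonneg _
    nlinarith [mul_le_mul_of_nonneg_right h2 h5]

theorem cls {A : Type} [Fintype A] {J : ℕ} (c1 c2 : A → Fin J) (Θ : Fin J → Fin J → ℝ)
    (g g' : A → ℝ) : ∑ a, ∑ b, g a * g' b * Θ (c1 a) (c2 b) =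
      ∑ i, ∑ j, Θ i j * ((∑ a ∈ univ.filter (fun a => c1 a = i), g a) *
        ∑ b ∈ univ.filter (fun b => c2 b = j), g' b) := by
  have h1 : ∀ a, ∑ b, g a * g' b * Θ (c1 a) (c2 b) =
      g a * ∑ j, (∑ b ∈ univ.filter (fun b => c2 b = j), g' b) * Θ (c1 a) j := fun a => by
    rw [← fib c2 g' fun j => Θ (c1 a) j, mul_sum]
    exact sum_congr rfl fun b _ => by ring
  simp only [h1]
  rw [fib c1 g fun i => ∑ j, (∑ b ∈ univ.filter (fun b => c2 b = j), g' b) * Θ i j]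
  refine sum_congr rfl fun i _ => ?_
  rw [mul_sum]
  exact sum_congr rfl fun j _ => by ring

theorem half {W A : Type} [Fintype W] [Fintype A] (s : Finset A) (m m1 : A → ℝ) (Q : W → A → ℝ)
    (hW : (0 : ℝ) < Fintype.card W) (h0 : ∀ a, 0 ≤ m1 a) (h1 : ∀ a, m1 a ≤ m a)
    (hm1 : ∑ a, m a ≤ 1) (hQ : ∀ u a, 0 ≤ Q u a) (hQ1 : ∀ a, ∑ u, Q u a ≤ 1)
    (hb : ∀ u, (∑ a, m1 a * Q u a) * Fintype.card W ≤ 16) :
    0 ≤ ∑ u, ∑ a ∈ s, m1 a * Q u a ∧ ∑ u, ∑ a ∈ s, m1 a * Q u a ≤ ∑ a ∈ s, m a ∧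
      Real.sqrt (∑ u, (∑ a ∈ s, m1 a * Q u a) ^ 2) ≤ Real.sqrt (16 / Fintype.card W) := by
  have hF : ∀ u, 0 ≤ ∑ a ∈ s, m1 a * Q u a := fun u =>
    sum_nonneg fun a _ => mul_nonneg (h0 a) (hQ u a)
  have h2 : ∑ u, ∑ a ∈ s, m1 a * Q u a ≤ ∑ a ∈ s, m a := by
    rw [sum_comm]
    refine sum_le_sum fun a _ => ?_
    rw [← mul_sum]
    exact (mul_le_of_le_one_right (h0 a) (hQ1 a)).trans (h1 a)
  have h3 : ∑ a ∈ s, m a ≤ 1 :=
    (sum_le_sum_of_subset_of_nonneg (subset_univ s) fun a _ _ => (h0 a).trans (h1 a)).trans hm1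
  refine ⟨sum_nonneg fun u _ => hF u, h2, Real.sqrt_le_sqrt ?_⟩
  have h4 : ∀ u, ∑ a ∈ s, m1 a * Q u a ≤ 16 / Fintype.card W := fun u => by
    rw [le_div_iff₀ hW]
    refine le_trans (mul_le_mul_of_nonneg_right ?_ hW.le) (hb u)
    exact sum_le_sum_of_subset_of_nonneg (subset_univ s) fun a _ _ => mul_nonneg (h0 a) (hQ u a)
  calc ∑ u, (∑ a ∈ s, m1 a * Q u a) ^ 2
      ≤ ∑ u, 16 / Fintype.card W * ∑ a ∈ s, m1 a * Q u a :=
        sum_le_sum fun u _ => by rw [sq]; exact mul_le_mul_of_nonneg_right (h4 u) (hF u)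
    _ ≤ 16 / Fintype.card W := by
        rw [← mul_sum]
        exact mul_le_of_le_one_right (by positivity) (h2.trans h3)

theorem mixb {W A : Type} [Fintype W] [Fintype A] {J : ℕ} (c1 c2 : A → Fin J)
    (Θ : Fin J → Fin J → ℝ) (m m1 m2 : A → ℝ) (Q1 Q2 : W → A → ℝ) (C B q η : ℝ)
    (G : Finset (W × W)) (hG : Mix G q η) (hq : 0 ≤ q) (hη : 0 ≤ η)
    (hW : (0 : ℝ) < Fintype.card W) (hm1 : ∑ a, m a ≤ 1)
    (hs : ∑ a, ∑ b, m a * m b * Θ (c1 a) (c2 b) ≤ C) (hn : ∀ i j, 0 ≤ Θ i j)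
    (hB : ∀ i j, Θ i j ≤ B)
    (h0 : ∀ a, 0 ≤ m1 a) (h1 : ∀ a, m1 a ≤ m a) (hQ : ∀ u a, 0 ≤ Q1 u a)
    (hQ1 : ∀ a, ∑ u, Q1 u a ≤ 1) (hb : ∀ u, (∑ a, m1 a * Q1 u a) * Fintype.card W ≤ 16)
    (h0' : ∀ a, 0 ≤ m2 a) (h1' : ∀ a, m2 a ≤ m a) (hQ' : ∀ u a, 0 ≤ Q2 u a)
    (hQ1' : ∀ a, ∑ u, Q2 u a ≤ 1) (hb' : ∀ u, (∑ a, m2 a * Q2 u a) * Fintype.card W ≤ 16) :
    ∑ a, ∑ b, m1 a * m2 b * Θ (c1 a) (c2 b) * ∑ e ∈ G, Q1 e.1 a * Q2 e.2 b ≤
      q * C + 16 * η * B * J ^ 2 := by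
  have e1 : ∑ a, ∑ b, m1 a * m2 b * Θ (c1 a) (c2 b) * ∑ e ∈ G, Q1 e.1 a * Q2 e.2 b =
      ∑ e ∈ G, ∑ a, ∑ b, (m1 a * Q1 e.1 a) * (m2 b * Q2 e.2 b) * Θ (c1 a) (c2 b) := by
    rw [sum_comm (s := G)]
    refine sum_congr rfl fun a _ => ?_
    rw [sum_comm (s := G)]
    refine sum_congr rfl fun b _ => ?_
    rw [mul_sum]
    exact sum_congr rfl fun e _ => by ring
  rw [e1]
  simp only [fun e : W × W => cls c1 c2 Θ (fun a => m1 a * Q1 e.1 a) fun b => m2 b * Q2 e.2 b]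
  rw [cls] at hs
  rw [sum_comm (s := G)]
  have e2 : ∀ i, ∑ e ∈ G, ∑ j, Θ i j *
      ((∑ a ∈ univ.filter (fun a => c1 a = i), m1 a * Q1 e.1 a) *
        ∑ b ∈ univ.filter (fun b => c2 b = j), m2 b * Q2 e.2 b) ≤
      ∑ j, (q * (Θ i j * ((∑ a ∈ univ.filter (fun a => c1 a = i), m a) *
        ∑ b ∈ univ.filter (fun b => c2 b = j), m b)) + 16 * η * B) := fun i => by
    rw [sum_comm (s := G)]
    refine sum_le_sum fun j _ => ?_
    rw [← mul_sum]
    obtain ⟨a1, a2, a3⟩ := half (univ.filter fun a => c1 a = i) m m1 Q1 hW h0 h1 hm1 hQ hQ1 hb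
    obtain ⟨b1, b2, b3⟩ := half (univ.filter fun a => c2 a = j) m m2 Q2 hW h0' h1' hm1 hQ' hQ1' hb'
    have h2 := hG (fun u => ∑ a ∈ univ.filter (fun a => c1 a = i), m1 a * Q1 u a)
      fun u => ∑ a ∈ univ.filter (fun a => c2 a = j), m2 a * Q2 u a
    have h3 := mul_le_mul a2 b2 b1 (a1.trans a2)
    have h4 := mul_le_mul a3 b3 (Real.sqrt_nonneg _) (Real.sqrt_nonneg _)
    rw [Real.mul_self_sqrt (by positivity)] at h4
    have h5 := mul_le_mul_of_nonneg_left h4 (mul_nonneg hη hW.le)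
    have h6 : η * Fintype.card W * (16 / Fintype.card W) = 16 * η := by field_simp
    rw [h6, ← mul_assoc] at h5
    have h7 := mul_le_mul_of_nonneg_left h3 hq
    rw [← mul_assoc] at h7
    have h8 := mul_le_mul_of_nonneg_left (h2.trans (add_le_add h7 h5)) (hn i j)
    have h9 := mul_le_mul_of_nonneg_right (hB i j) (by positivity : 0 ≤ 16 * η)
    refine h8.trans ?_
    nlinarith
  refine (sum_le_sum fun i _ => e2 i).trans ?_
  simp only [sum_add_distrib, ← mul_sum, sum_const, card_univ, Fintype.card_fin, nsmul_eq_mul]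
  have := mul_le_mul_of_nonneg_left hs hq
  nlinarith

theorem sp {O A F : Type} [Fintype O] [Fintype A] [Fintype F] (f : (O × A × A) × F → ℝ) :
    ∑ i, f i = ∑ o, ∑ a, ∑ b, ∑ e, f ((o, a, b), e) := by
  simp only [Fintype.sum_prod_type]

theorem lift {O A W : Type} [Fintype O] [Fintype A] [Fintype W] (p : W → W → O → ℝ)
    (k1 k2 : O → A → ℝ) (h1 : ∀ o, ∑ a, k1 o a = 1) (h2 : ∀ o, ∑ a, k2 o a = 1)
    (f : W → W → O → ℝ) :
    ∑ i : (O × A × A) × W × W, p i.2.1 i.2.2 i.1.1 * (k1 i.1.1 i.1.2.1 * k2 i.1.1 i.1.2.2) *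
      f i.2.1 i.2.2 i.1.1 = ∑ u, ∑ v, ∑ o, p u v o * f u v o := by
  rw [sp]
  have h3 : ∀ o, ∑ a, ∑ b, ∑ e : W × W, p e.1 e.2 o * (k1 o a * k2 o b) * f e.1 e.2 o =
      ∑ e : W × W, p e.1 e.2 o * f e.1 e.2 o := fun o => by
    have h4 : ∀ a b, ∑ e : W × W, p e.1 e.2 o * (k1 o a * k2 o b) * f e.1 e.2 o =
        k1 o a * (k2 o b * ∑ e : W × W, p e.1 e.2 o * f e.1 e.2 o) := fun a b => by
      rw [mul_sum, mul_sum]; exact sum_congr rfl fun e _ => by ring
    simp only [h4, ← mul_sum, ← sum_mul, h1, h2, one_mul]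
  simp only [h3]
  rw [sum_comm, Fintype.sum_prod_type]

theorem ker {O A : Type} [Fintype A] [DecidableEq A] [DecidableEq O] (m : A → ℝ) (Gd : Finset O)
    (U : O → Finset A) (π : O → A) (hm : ∀ a, 0 ≤ m a) (hp : ∀ o ∈ Gd, 0 < ∑ a ∈ U o, m a) :
    ∃ k : O → A → ℝ, (∀ o a, 0 ≤ k o a) ∧ (∀ o, ∑ a, k o a = 1) ∧
      ∀ o ∈ Gd, ∀ a, k o a = if a ∈ U o then m a / ∑ a ∈ U o, m a else 0 := by
  refine ⟨fun o a => if o ∈ Gd then (if a ∈ U o then m a / ∑ a ∈ U o, m a else 0) else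
    if a = π o then 1 else 0, fun o a => ?_, fun o => ?_, fun o ho a => if_pos ho⟩
  · dsimp only
    split_ifs
    · exact div_nonneg (hm a) (sum_nonneg fun a _ => hm a)
    all_goals norm_num
  · by_cases ho : o ∈ Gd
    · simp only [ho, if_true]
      rw [sum_ite_mem, univ_inter, ← sum_div, div_self (hp o ho).ne']
    · simp [ho]

theorem term {p r k1 k2 Q1 Q2 L : ℝ} (hp : 0 < p) (hr : 0 < r) (hk1 : 0 < k1) (hk2 : 0 < k2)
    (hQ1 : 0 < Q1) (hQ2 : 0 < Q2) (hL : 0 < L) :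
    -Real.log (p / r) ≤ (-Real.log k1 + -Real.log k2) + Real.log L +
      (Q1 * Q2 / L * (r / p) + k1 / Q1 + k2 / Q2 - 3) := by
  have h1 := Real.log_le_sub_one_of_pos (by positivity : 0 < Q1 * Q2 / L * (r / p))
  have h2 := Real.log_le_sub_one_of_pos (div_pos hk1 hQ1)
  have h3 := Real.log_le_sub_one_of_pos (div_pos hk2 hQ2)
  rw [Real.log_mul (by positivity) (by positivity), Real.log_div (by positivity) hL.ne',
    Real.log_mul hQ1.ne' hQ2.ne', Real.log_div hr.ne' hp.ne'] at h1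
  rw [Real.log_div hk1.ne' hQ1.ne'] at h2
  rw [Real.log_div hk2.ne' hQ2.ne'] at h3
  rw [Real.log_div hp.ne' hr.ne']
  linarith

end St

open St in
theorem stepStmt : StepStmt := by
  intro W A A' _ _ _ _ _ _ J m m2 Gd U V c1 c2 Θ cs C B h q η lam G p κ hF hm hm1 hm2 hG hh hq hη
    hl hl1 hlam hp hp1 hpG hpu hpv hpo hκ hκ1 hκp
  classical
  obtain ⟨k1, hk1, hk1s, hk1e⟩ := ker m Gd U Prod.fst hm hF.posU
  obtain ⟨k2, hk2, hk2s, hk2e⟩ := ker m Gd V Prod.snd hm hF.posV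
  have hW : (0 : ℝ) < Fintype.card W := by
    rcases isEmpty_or_nonempty W with h0 | h0
    · simp at hp1
    · exact_mod_cast Fintype.card_pos
  have hlift := lift p k1 k2 hk1s hk2s
  set w : ((A × A) × A × A) × W × W → ℝ := fun i =>
    p i.2.1 i.2.2 i.1.1 * (k1 i.1.1 i.1.2.1 * k2 i.1.1 i.1.2.2) with hw
  replace hlift : ∀ f : W → W → A × A → ℝ, ∑ i, w i * f i.2.1 i.2.2 i.1.1 =
      ∑ u, ∑ v, ∑ o, p u v o * f u v o := hlift
  have hw0 : ∀ i, 0 ≤ w i := fun i => mul_nonneg (hp _ _ _) (mul_nonneg (hk1 _ _) (hk2 _ _))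
  have hw1 : ∑ i, w i = 1 := by
    have := hlift fun _ _ _ => 1
    simp only [mul_one] at this
    rw [this, hp1]
  obtain ⟨Q1, T1, a1, a2, a3, a4, a5, a6⟩ := side w (fun i => i.2.1)
    (fun i => (cs i.1.1.1, c1 i.1.2.1)) (fun a => (cs a, c1 a)) m (fun u a => κ u a.1) hw0 hw1 hm
    hm1 (fun u => by
      rw [hlift fun u' _ _ => if u' = u then 1 else 0]
      simpa using hpu u) (fun u a => hκ u a.1) fun a => hκ1 a.1
  obtain ⟨Q2, T2, b1, b2, b3, b4, b5, b6⟩ := side w (fun i => i.2.2)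
    (fun i => (cs i.1.1.2, c2 i.1.2.2)) (fun a => (cs a, c2 a)) m (fun u a => κ u a.1) hw0 hw1 hm
    hm1 (fun u => by
      rw [hlift fun _ u' _ => if u' = u then 1 else 0]
      simpa using hpv u) (fun u a => hκ u a.1) fun a => hκ1 a.1
  set r : A × A → ℝ := fun o => ∑ u, ∑ v, p u v o with hr
  have hr0 : ∀ o, 0 ≤ r o := fun o => sum_nonneg fun u _ => sum_nonneg fun v _ => hp u v o
  have hpr : ∀ u v o, p u v o ≤ r o := fun u v o =>
    (single_le_sum (f := fun v => p u v o) (fun v _ => hp u v o) (mem_univ v)).trans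
      (single_le_sum (f := fun u => ∑ v, p u v o) (fun u _ => sum_nonneg fun v _ => hp u v o)
        (mem_univ u))
  have hr1 : ∑ o, r o = 1 := by
    rw [← hp1, sum_comm]
    exact sum_congr rfl fun u _ => sum_comm
  set Ev : (A × A) × A × A → Prop := fun z =>
    z.1 ∈ Gd ∧ (cs z.1.1, c1 z.2.1) ∉ T1 ∧ (cs z.1.2, c2 z.2.2) ∉ T2 with hEv
  have hmix := mixb c1 c2 Θ m (fun a => if (cs a, c1 a) ∈ T1 then 0 else m a)
    (fun a => if (cs a, c2 a) ∈ T2 then 0 else m a) (fun u a => Q1 u (cs a, c1 a))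
    (fun u a => Q2 u (cs a, c2 a)) C B q η G hG hq hη hW hm1 hF.sum hF.nn hF.bd
    (fun a => by split_ifs; exacts [le_rfl, hm a]) (fun a => by split_ifs; exacts [hm a, le_rfl])
    (fun u a => a1 _ _) (fun a => a2 _) a6
    (fun a => by split_ifs; exacts [le_rfl, hm a]) (fun a => by split_ifs; exacts [hm a, le_rfl])
    (fun u a => b1 _ _) (fun a => b2 _) b6
  -- the gain term
  have hX : ∑ o, ∑ a, ∑ b, (if Ev (o, a, b) then r o * (k1 o a * k2 o b) else 0) *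
      ∑ e ∈ G, Q1 e.1 (cs o.1, c1 a) * Q2 e.2 (cs o.2, c2 b) ≤ lam := by
    refine le_trans ?_ ((mul_le_mul_of_nonneg_left hmix hh).trans hlam)
    rw [sum_comm, mul_sum]
    refine sum_le_sum fun a _ => ?_
    rw [sum_comm, mul_sum]
    refine sum_le_sum fun b _ => ?_
    set N := ∑ e ∈ G, Q1 e.1 (cs a, c1 a) * Q2 e.2 (cs b, c2 b) with hN
    have hN0 : 0 ≤ N := sum_nonneg fun e _ => mul_nonneg (a1 _ _) (b1 _ _)
    set μ := (if (cs a, c1 a) ∈ T1 then 0 else m a) * (if (cs b, c2 b) ∈ T2 then 0 else m b)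
      with hμ
    have hμ0 : 0 ≤ μ := mul_nonneg (by split_ifs; exacts [le_rfl, hm a])
      (by split_ifs; exacts [le_rfl, hm b])
    have h1 : ∀ o, (if Ev (o, a, b) then r o * (k1 o a * k2 o b) else 0) *
        ∑ e ∈ G, Q1 e.1 (cs o.1, c1 a) * Q2 e.2 (cs o.2, c2 b) ≤
        h * μ * N * if o ∈ Gd.filter (fun o => a ∈ U o ∧ b ∈ V o) then
          m2 o / ((∑ a' ∈ U o, m a') * ∑ b' ∈ V o, m b') else 0 := fun o => by
      have h2 : 0 ≤ h * μ * N * if o ∈ Gd.filter (fun o => a ∈ U o ∧ b ∈ V o) then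
          m2 o / ((∑ a' ∈ U o, m a') * ∑ b' ∈ V o, m b') else 0 := by
        refine mul_nonneg (by positivity) ?_
        split_ifs
        · exact div_nonneg (hm2 o)
            (mul_nonneg (sum_nonneg fun a _ => hm a) (sum_nonneg fun a _ => hm a))
        · exact le_rfl
      by_cases he : Ev (o, a, b)
      swap
      · rw [if_neg he, zero_mul]; exact h2
      obtain ⟨ho, ht1, ht2⟩ := id he
      rw [if_pos he, hk1e o ho, hk2e o ho]
      by_cases ha : a ∈ U o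
      swap
      · rw [if_neg ha, zero_mul, mul_zero, zero_mul]; exact h2
      by_cases hb : b ∈ V o
      swap
      · rw [if_neg hb, mul_zero, mul_zero, zero_mul]; exact h2
      have e1 := hF.csU o ho a ha
      have e2 := hF.csV o ho b hb
      simp only at ht1 ht2
      rw [← e1] at ht1
      rw [← e2] at ht2
      rw [if_pos ha, if_pos hb, if_pos (mem_filter.2 ⟨ho, ha, hb⟩), ← e1, ← e2, ← hN, hμ,
        if_neg ht1, if_neg ht2]
      have h3 := hF.posU o ho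
      have h4 := hF.posV o ho
      have h5 : 0 ≤ m a / (∑ a' ∈ U o, m a') * (m b / ∑ b' ∈ V o, m b') * N :=
        mul_nonneg (mul_nonneg (div_nonneg (hm a) h3.le) (div_nonneg (hm b) h4.le)) hN0
      have h6 := mul_le_mul_of_nonneg_right (hpo o) h5
      refine le_trans (le_of_eq (by rw [hr]; ring)) (h6.trans (le_of_eq ?_))
      field_simp
    refine (sum_le_sum fun o _ => h1 o).trans ?_
    rw [← mul_sum, sum_ite_mem, univ_inter]
    have h7 := mul_le_mul_of_nonneg_left (hF.dom a b) (by positivity : 0 ≤ h * μ * N)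
    exact h7.trans (le_of_eq (by ring))
  have hT0 : ∑ i, w i * (Q1 i.2.1 (cs i.1.1.1, c1 i.1.2.1) * Q2 i.2.2 (cs i.1.1.2, c2 i.1.2.2) /
      (if Ev i.1 then lam else 1) * (r i.1.1 / p i.2.1 i.2.2 i.1.1)) ≤ 2 := by
    have h1 : ∀ o a b, ∑ e : W × W, w ((o, a, b), e) *
        (Q1 e.1 (cs o.1, c1 a) * Q2 e.2 (cs o.2, c2 b) / (if Ev (o, a, b) then lam else 1) *
          (r o / p e.1 e.2 o)) ≤ r o * (k1 o a * k2 o b) +
        (if Ev (o, a, b) then r o * (k1 o a * k2 o b) else 0) *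
          (∑ e ∈ G, Q1 e.1 (cs o.1, c1 a) * Q2 e.2 (cs o.2, c2 b)) / lam := fun o a b => by
      have h2 : 0 ≤ r o * (k1 o a * k2 o b) := mul_nonneg (hr0 o) (mul_nonneg (hk1 _ _) (hk2 _ _))
      have h3 : ∀ (e : W × W) (L : ℝ), 0 < L → w ((o, a, b), e) *
          (Q1 e.1 (cs o.1, c1 a) * Q2 e.2 (cs o.2, c2 b) / L * (r o / p e.1 e.2 o)) ≤
          r o * (k1 o a * k2 o b) / L *
            if e ∈ G then Q1 e.1 (cs o.1, c1 a) * Q2 e.2 (cs o.2, c2 b) else 0 := fun e L hL => by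
        by_cases h4 : p e.1 e.2 o = 0
        · simp only [hw, h4, zero_mul]
          refine mul_nonneg (div_nonneg h2 hL.le) ?_
          split_ifs
          · exact mul_nonneg (a1 _ _) (b1 _ _)
          · exact le_rfl
        · rw [if_pos (hpG _ _ _ h4)]
          simp only [hw]
          exact le_of_eq (by field_simp)
      by_cases he : Ev (o, a, b)
      · simp only [if_pos he]
        refine (sum_le_sum fun e _ => h3 e lam hl).trans ?_
        rw [← mul_sum, sum_ite_mem, univ_inter]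
        exact le_trans (le_of_eq (by ring)) (le_add_of_nonneg_left h2)
      · simp only [if_neg he]
        refine (sum_le_sum fun e _ => h3 e 1 one_pos).trans ?_
        rw [← mul_sum, sum_ite_mem, univ_inter, zero_mul, zero_div, add_zero, div_one]
        refine mul_le_of_le_one_right h2 ?_
        refine (sum_le_sum_of_subset_of_nonneg (subset_univ G)
          fun e _ _ => mul_nonneg (a1 _ _) (b1 _ _)).trans ?_
        rw [Fintype.sum_prod_type]
        dsimp only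
        rw [← sum_mul_sum]
        exact mul_le_one₀ (a2 _) (sum_nonneg fun _ _ => b1 _ _) (b2 _)
    rw [sp]
    refine (sum_le_sum fun o _ => sum_le_sum fun a _ => sum_le_sum fun b _ => h1 o a b).trans ?_
    simp only [sum_add_distrib, ← sum_div]
    have h2 := (div_le_one hl).2 hX
    have h3 : ∑ o, ∑ a, ∑ b, r o * (k1 o a * k2 o b) = 1 := by
      simp only [← mul_sum, hk1s, hk2s, mul_one, hr1]
    linarith
  have hterm : ∀ i : ((A × A) × A × A) × W × W,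
      w i * -Real.log (p i.2.1 i.2.2 i.1.1 / r i.1.1) ≤
      w i * (-Real.log (κ i.2.1 (cs i.1.1.1)) + -Real.log (κ i.2.2 (cs i.1.1.2))) +
      (w i * (if i.1.1 ∈ Gd then 1 else 0) -
        w i * (if (cs i.1.1.1, c1 i.1.2.1) ∈ T1 then 1 else 0) -
        w i * (if (cs i.1.1.2, c2 i.1.2.2) ∈ T2 then 1 else 0)) * Real.log lam +
      (w i * (Q1 i.2.1 (cs i.1.1.1, c1 i.1.2.1) * Q2 i.2.2 (cs i.1.1.2, c2 i.1.2.2) /
        (if Ev i.1 then lam else 1) * (r i.1.1 / p i.2.1 i.2.2 i.1.1)) +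
        w i * (κ i.2.1 (cs i.1.1.1) / Q1 i.2.1 (cs i.1.1.1, c1 i.1.2.1)) +
        w i * (κ i.2.2 (cs i.1.1.2) / Q2 i.2.2 (cs i.1.1.2, c2 i.1.2.2)) - 3 * w i) := fun i => by
    by_cases h0 : w i = 0
    · simp [h0]
    have h1 : p i.2.1 i.2.2 i.1.1 ≠ 0 := left_ne_zero_of_mul h0
    have h2 := (hp _ _ _).lt_of_ne' h1
    have h3 := term h2 (h2.trans_le (hpr _ _ _)) (hκp _ _ _ h1).1 (hκp _ _ _ h1).2 (a3 i h0)
      (b3 i h0) (L := if Ev i.1 then lam else 1) (by split_ifs; exacts [hl, one_pos])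
    have h4 : Real.log (if Ev i.1 then lam else 1) ≤ ((if i.1.1 ∈ Gd then 1 else 0) -
        (if (cs i.1.1.1, c1 i.1.2.1) ∈ T1 then 1 else 0) -
        (if (cs i.1.1.2, c2 i.1.2.2) ∈ T2 then 1 else 0)) * Real.log lam := by
      have h5 := Real.log_nonpos hl.le hl1
      by_cases he : Ev i.1
      · obtain ⟨ho, ht1, ht2⟩ := id he
        rw [if_pos he, if_pos ho, if_neg ht1, if_neg ht2]; linarith
      · rw [if_neg he, Real.log_one]
        refine mul_nonneg_of_nonpos_of_nonpos ?_ h5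
        simp only [hEv] at he
        split_ifs <;> first | (exfalso; tauto) | norm_num
    have h5 := mul_le_mul_of_nonneg_left (h3.trans (add_le_add_left (add_le_add_right h4 _) _))
      (hw0 i)
    exact h5.trans (le_of_eq (by ring))
  have hsum := sum_le_sum fun i (_ : i ∈ univ) => hterm i
  simp only [sum_add_distrib, sum_sub_distrib, ← sum_mul] at hsum
  rw [hlift fun u v o => -Real.log (p u v o / r o),
    hlift fun u v o => -Real.log (κ u (cs o.1)) + -Real.log (κ v (cs o.2)),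
    hlift fun _ _ o => if o ∈ Gd then 1 else 0, ← mul_sum, hw1] at hsum
  have h1 : ∑ u, ∑ v, ∑ o, p u v o * (if o ∈ Gd then 1 else 0) =
      ∑ o ∈ Gd, ∑ u, ∑ v, p u v o := by
    simp only [mul_ite, mul_one, mul_zero, sum_ite_mem, univ_inter]
    rw [sum_comm (s := Gd)]
    exact sum_congr rfl fun u _ => sum_comm
  rw [h1] at hsum
  have h5 := Real.log_nonpos hl.le hl1
  have h6 := mul_le_mul_of_nonpos_right (by linarith : ∑ o ∈ Gd, ∑ u, ∑ v, p u v o - 1 / 4 ≤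
    ∑ o ∈ Gd, ∑ u, ∑ v, p u v o -
      ∑ i, w i * (if (cs i.1.1.1, c1 i.1.2.1) ∈ T1 then 1 else 0) -
      ∑ i, w i * (if (cs i.1.1.2, c2 i.1.2.2) ∈ T2 then 1 else 0)) h5
  linarith

end Vale.Agent.P109
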