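import Vale.Agent.P109.Base

open MeasureTheory Finset
open scoped ENNReal

namespace Vale.Agent.P109

namespace SysAm

variable (c : Code)

/-- the fibre over a word -/
def fib (n : ℕ) (y : Fin (2 ^ c.m n)) : Finset (Fin (2 ^ c.m (n + 1)) × ℕ) :=
  (univ ×ˢ range (c.R n)).filter fun xj => c.sub n xj.1 xj.2 = y

/-- alphabet sizes -/
def k : ℕ → ℕ
  | 0 => 2 ^ c.m 0
  | n + 1 => (fib c n ⟨0, by positivity⟩).card

variable {c}

theorem fib_card (h : c.Ok) (n : ℕ) (y : Fin (2 ^ c.m n)) : (fib c n y).card = k c (n + 1) :=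
  Nat.eq_of_mul_eq_mul_right (by positivity : 0 < 2 ^ c.m n) ((h.reg n y).trans (h.reg n _).symm)

theorem h_pos (h : c.Ok) (n : ℕ) : 0 < c.h n := by
  induction n with
  | zero => exact one_pos
  | succ n ih => exact Nat.mul_pos ih (by have := h.two n; omega)

theorem prod_k (h : c.Ok) (n : ℕ) : ∏ i ∈ range (n + 1), k c i = 2 ^ c.m n * c.h n := by
  induction n with
  | zero => simp [k, Code.h]
  | succ n ih =>
    rw [prod_range_succ, ih]
    have : k c (n + 1) * 2 ^ c.m n = 2 ^ c.m (n + 1) * c.R n := h.reg n ⟨0, by positivity⟩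
    show _ = _ * (c.h n * c.R n)
    calc _ = (k c (n + 1) * 2 ^ c.m n) * c.h n := by ring
      _ = _ := by rw [this]; ring

theorem k_pos (h : c.Ok) (n : ℕ) : 0 < k c n := by
  have h1 : 0 < ∏ i ∈ range (n + 1), k c i := by
    rw [prod_k h]; exact Nat.mul_pos (by positivity) (h_pos h n)
  rw [prod_range_succ] at h1
  exact Nat.pos_of_mul_pos_left h1

/-- enumeration of a fibre -/
noncomputable def en (h : c.Ok) (n : ℕ) (y : Fin (2 ^ c.m n)) (e : Fin (k c (n + 1))) :
    Fin (2 ^ c.m (n + 1)) × ℕ := ((fib c n y).equivFinOfCardEq (fib_card h n y)).symm e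

theorem en_mem (h : c.Ok) (n : ℕ) (y : Fin (2 ^ c.m n)) (e : Fin (k c (n + 1))) :
    (en h n y e).2 < c.R n ∧ c.sub n (en h n y e).1 (en h n y e).2 = y := by
  have := (((fib c n y).equivFinOfCardEq (fib_card h n y)).symm e).2
  simp only [fib, mem_filter, mem_product, mem_univ, true_and, mem_range] at this
  exact this

theorem en_inj (h : c.Ok) (n : ℕ) (y : Fin (2 ^ c.m n)) : Function.Injective (en h n y) :=
  Subtype.val_injective.comp (Equiv.injective _)

theorem en_surj (h : c.Ok) (n : ℕ) (x : Fin (2 ^ c.m (n + 1))) (j : ℕ) (hj : j < c.R n) :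
    ∃ e, en h n (c.sub n x j) e = (x, j) := by
  refine ⟨(fib c n (c.sub n x j)).equivFinOfCardEq (fib_card h n _)
    ⟨(x, j), by simp [fib, hj]⟩, ?_⟩
  simp [en]

/-- word and position at level `n` -/
noncomputable def st (h : c.Ok) (x : ∀ i, Fin (k c i)) : ∀ n, Fin (2 ^ c.m n) × ℕ
  | 0 => (x 0, 0)
  | n + 1 => ((en h n (st h x n).1 (x (n + 1))).1,
      (en h n (st h x n).1 (x (n + 1))).2 * c.h n + (st h x n).2)

theorem st_lt (h : c.Ok) (x : ∀ i, Fin (k c i)) (n : ℕ) : (st h x n).2 < c.h n := by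
  induction n with
  | zero => exact one_pos
  | succ n ih =>
    have := (en_mem h n (st h x n).1 (x (n + 1))).1
    show _ * c.h n + _ < c.h n * c.R n
    nlinarith

theorem st_div (h : c.Ok) (x : ∀ i, Fin (k c i)) (n : ℕ) :
    (st h x (n + 1)).2 / c.h n = (en h n (st h x n).1 (x (n + 1))).2 ∧
      (st h x (n + 1)).2 % c.h n = (st h x n).2 := by
  have h1 := st_lt h x n
  have h0 := h_pos h n
  constructor
  · show (_ * c.h n + _) / c.h n = _
    rw [add_comm, Nat.add_mul_div_right _ _ h0, Nat.div_eq_of_lt h1, zero_add]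
  · show (_ * c.h n + _) % c.h n = _
    rw [add_comm, Nat.add_mul_mod_self_right, Nat.mod_eq_of_lt h1]

theorem cyl (h : c.Ok) (n : ℕ) (y : Fin (2 ^ c.m n)) (a : ℕ) (ha : a < c.h n) :
    ∃ e : ∀ i, Fin (k c i), ∀ x, st h x n = (y, a) ↔ ∀ i, i < n + 1 → x i = e i := by
  induction n generalizing a with
  | zero =>
    have : a = 0 := by have : a < 1 := ha; omega
    subst this
    refine ⟨Function.update (fun i => ⟨0, k_pos h i⟩) 0 y, fun x => ⟨fun hx i hi => ?_, fun hx => ?_⟩⟩
    · have : i = 0 := by omega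
      subst this
      exact (congrArg Prod.fst hx).trans (Function.update_self (β := fun i => Fin (k c i)) 0 y _).symm
    · exact Prod.ext ((hx 0 one_pos).trans
        (Function.update_self (β := fun i => Fin (k c i)) 0 y _)) rfl
  | succ n ih =>
    have h0 := h_pos h n
    have hj : a / c.h n < c.R n := Nat.div_lt_of_lt_mul ha
    obtain ⟨e0, he0⟩ := en_surj h n y _ hj
    obtain ⟨e, he⟩ := ih (c.sub n y (a / c.h n)) (a % c.h n) (Nat.mod_lt _ h0)
    refine ⟨Function.update e (n + 1) e0, fun x => ⟨fun hx => ?_, fun hx => ?_⟩⟩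
    · have d := st_div h x n
      have m := (en_mem h n (st h x n).1 (x (n + 1))).2
      have h1 : (en h n (st h x n).1 (x (n + 1))).1 = y := congrArg Prod.fst hx
      rw [hx] at d
      rw [h1, ← d.1] at m
      have h2 : st h x n = (c.sub n y (a / c.h n), a % c.h n) := Prod.ext m.symm d.2.symm
      have h3 : x (n + 1) = e0 := by
        refine en_inj h n (c.sub n y (a / c.h n)) ?_
        rw [he0, m]
        exact Prod.ext h1 d.1.symm
      intro i hi
      by_cases hi' : i = n + 1
      · subst hi'; rw [Function.update_self]; exact h3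
      · rw [Function.update_of_ne hi']; exact (he x).1 h2 i (by omega)
    · have h2 := (he x).2 fun i hi => by
        rw [hx i (by omega), Function.update_of_ne (by omega)]
      have h3 := hx (n + 1) (by omega)
      rw [Function.update_self] at h3
      show ((en h n (st h x n).1 (x (n + 1))).1,
        (en h n (st h x n).1 (x (n + 1))).2 * c.h n + (st h x n).2) = _
      rw [h2, h3, he0]
      exact Prod.ext rfl (Nat.div_add_mod' _ _)

theorem meas (h : c.Ok) (n : ℕ) : Measurable fun x => st h x n := by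
  induction n with
  | zero => exact (measurable_pi_apply 0).prodMk measurable_const
  | succ n ih =>
    have h1 := (measurable_of_countable (fun z : (Fin (2 ^ c.m n) × ℕ) × Fin (k c (n + 1)) =>
      ((en h n z.1.1 z.2).1, (en h n z.1.1 z.2).2 * c.h n + z.1.2))).comp
      (ih.prodMk (measurable_pi_apply (X := fun i => Fin (k c i)) (n + 1)))
    simp only [st]
    exact h1

/-- uniform measure -/
noncomputable def un (a : ℕ) : Measure (Fin a) := (a : ℝ≥0∞)⁻¹ • Measure.count

theorem un_prob {a : ℕ} (ha : 0 < a) : IsProbabilityMeasure (un a) := ⟨by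
  simp only [un, Measure.smul_apply, Measure.count_univ, ENat.card_eq_coe_fintype_card,
    Fintype.card_fin, ENat.toENNReal_coe, smul_eq_mul]
  exact ENNReal.inv_mul_cancel (by exact_mod_cast ha.ne') (ENNReal.natCast_ne_top a)⟩

end SysAm

theorem sysAStmt : SysAStmt := by
  intro c h
  have hp : ∀ i, IsProbabilityMeasure (SysAm.un (SysAm.k c i)) := fun i =>
    SysAm.un_prob (SysAm.k_pos h i)
  refine ⟨∀ i, Fin (SysAm.k c i), inferInstance, Measure.infinitePi fun i => SysAm.un (SysAm.k c i),
    inferInstance, ⟨⟨fun n x => (SysAm.st h x n).1, fun n x => (SysAm.st h x n).2,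
      fun n => (SysAm.meas h n).fst, fun n => (SysAm.meas h n).snd, fun n x => SysAm.st_lt h x n,
      fun n y a ha => ?_, fun n x => ?_, fun n x => (SysAm.st_div h x n).2.symm⟩⟩⟩
  · obtain ⟨e, he⟩ := SysAm.cyl h n y a ha
    have : {x : ∀ i, Fin (SysAm.k c i) | (SysAm.st h x n).1 = y ∧ (SysAm.st h x n).2 = a} =
        Set.pi (range (n + 1) : Finset ℕ) (fun i => {e i}) := by
      ext x
      simp only [Set.mem_setOf_eq, Set.mem_pi, mem_coe, mem_range, Set.mem_singleton_iff]
      rw [← he x, Prod.ext_iff]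
    rw [this, Measure.infinitePi_pi _ (fun i _ => measurableSet_singleton _), ← SysAm.prod_k h n]
    simp only [SysAm.un, Measure.smul_apply, Measure.count_singleton, smul_eq_mul, mul_one]
    rw [Nat.cast_prod, ENNReal.prod_inv_distrib]
    intro i _ j _ _
    exact Or.inr (ENNReal.natCast_ne_top _)
  · rw [(SysAm.st_div h x n).1]
    exact (SysAm.en_mem h n _ _).2.symm

end Vale.Agent.P109
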