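import Vale.Agent.P109.Base

/-! P109, module SysB: the tower system as an invertible standard Borel system. -/

open MeasureTheory Finset Filter
open scoped ENNReal Topology

namespace Vale.Agent.P109
namespace SysB

variable (c : Code)

abbrev Z (n : ℕ) := Fin (2 ^ c.m n) × ℕ

def dn (n : ℕ) (z : Z c (n + 1)) : Z c n := (c.sub n z.1 (z.2 / c.h n), z.2 % c.h n)

def U (y : ∀ n, Z c n) : ∀ n, Z c n := fun n => dn c n (y (n + 1))

def sc (y : ∀ n, Z c n) : ∀ n, Z c n := fun n => ((y n).1, (y n).2 + 1)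

def pr (y : ∀ n, Z c n) : ∀ n, Z c n := fun n => ((y n).1, (y n).2 - 1)

def Mid (a n : ℕ) (y : ∀ n, Z c n) : Prop := a ≤ (y n).2 ∧ (y n).2 + a < c.h n

def Gd : Set (∀ n, Z c n) := {y | U c y = y ∧ ∀ a, ∃ n, Mid c a n y}

variable {c}

lemma two_pow_le_h (hc : c.Ok) : ∀ n, 2 ^ n ≤ c.h n
  | 0 => le_rfl
  | n + 1 => by
      rw [pow_succ]
      exact Nat.mul_le_mul (two_pow_le_h hc n) (hc.two n)

lemma h_pos (hc : c.Ok) (n : ℕ) : 0 < c.h n := lt_of_lt_of_le (by positivity) (two_pow_le_h hc n)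

lemma snd_eq {y : ∀ n, Z c n} (hy : U c y = y) (n : ℕ) : (y n).2 = (y (n + 1)).2 % c.h n :=
  (congrArg (fun s => (s n).2) hy).symm

lemma fst_eq {y : ∀ n, Z c n} (hy : U c y = y) (n : ℕ) :
    (y n).1 = c.sub n (y (n + 1)).1 ((y (n + 1)).2 / c.h n) :=
  (congrArg (fun s => (s n).1) hy).symm

lemma lt_h (hc : c.Ok) {y : ∀ n, Z c n} (hy : U c y = y) (n : ℕ) : (y n).2 < c.h n := by
  rw [snd_eq hy n]; exact Nat.mod_lt _ (h_pos hc n)

lemma low_succ {y : ∀ n, Z c n} (hy : U c y = y) {a n : ℕ} (h : a ≤ (y n).2) :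
    a ≤ (y (n + 1)).2 := h.trans (by rw [snd_eq hy n]; exact Nat.mod_le _ _)

lemma high_succ (hc : c.Ok) {y : ∀ n, Z c n} (hy : U c y = y) {a n : ℕ}
    (h : (y n).2 + a < c.h n) : (y (n + 1)).2 + a < c.h (n + 1) := by
  have h1 := lt_h hc hy (n + 1)
  have h2 := Nat.div_add_mod (y (n + 1)).2 (c.h n)
  have h3 : (y (n + 1)).2 / c.h n < c.R n := Nat.div_lt_of_lt_mul h1
  have h4 : c.h n * ((y (n + 1)).2 / c.h n + 1) ≤ c.h n * c.R n := Nat.mul_le_mul_left _ h3
  rw [snd_eq hy n] at h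
  change _ < c.h n * c.R n
  rw [Nat.mul_succ] at h4
  omega

lemma low_mono {y : ∀ n, Z c n} (hy : U c y = y) {a n k : ℕ} (hk : n ≤ k) (h : a ≤ (y n).2) :
    a ≤ (y k).2 := by
  induction k, hk using Nat.le_induction with
  | base => exact h
  | succ k _ ih => exact low_succ hy ih

lemma high_mono (hc : c.Ok) {y : ∀ n, Z c n} (hy : U c y = y) {a n k : ℕ} (hk : n ≤ k)
    (h : (y n).2 + a < c.h n) : (y k).2 + a < c.h k := by
  induction k, hk using Nat.le_induction with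
  | base => exact h
  | succ k _ ih => exact high_succ hc hy ih

lemma U_sc {y : ∀ n, Z c n} (hy : U c y = y) {n : ℕ} (h : (y n).2 + 1 < c.h n) :
    U c (sc c y) n = sc c y n := by
  have h0 : 0 < c.h n := by omega
  have h2 := Nat.div_add_mod (y (n + 1)).2 (c.h n)
  have h3 := (Nat.div_mod_unique (a := (y (n + 1)).2 + 1) (d := (y (n + 1)).2 / c.h n)
    (c := (y n).2 + 1) h0).2 ⟨by rw [snd_eq hy n]; omega, h⟩
  simp only [U, sc, dn]
  rw [h3.1, h3.2, ← fst_eq hy n]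

lemma U_pr (hc : c.Ok) {y : ∀ n, Z c n} (hy : U c y = y) {n : ℕ} (h : 1 ≤ (y n).2) :
    U c (pr c y) n = pr c y n := by
  have h0 : 0 < c.h n := h_pos hc n
  have h1 := lt_h hc hy n
  have h2 := Nat.div_add_mod (y (n + 1)).2 (c.h n)
  have h4 := snd_eq hy n
  have h3 := (Nat.div_mod_unique (a := (y (n + 1)).2 - 1) (d := (y (n + 1)).2 / c.h n)
    (c := (y n).2 - 1) h0).2 ⟨by omega, by omega⟩
  simp only [U, pr, dn]
  rw [h3.1, h3.2, ← fst_eq hy n]

lemma iter_high {s : ∀ n, Z c n} {N : ℕ} (hs : ∀ n, N ≤ n → U c s n = s n) :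
    ∀ k n, N ≤ n → (U c)^[k] s n = s n
  | 0, _, _ => rfl
  | k + 1, n, hn => by
      rw [Function.iterate_succ_apply']
      change dn c n ((U c)^[k] s (n + 1)) = _
      rw [iter_high hs k (n + 1) (by omega)]
      exact hs n hn

lemma iter_stab {s : ∀ n, Z c n} {N : ℕ} (hs : ∀ n, N ≤ n → U c s n = s n) :
    ∀ k n, N ≤ n + k → U c ((U c)^[k] s) n = (U c)^[k] s n
  | 0, n, hn => hs n hn
  | k + 1, n, hn => by
      rw [Function.iterate_succ_apply']
      change dn c n (U c ((U c)^[k] s) (n + 1)) = dn c n ((U c)^[k] s (n + 1))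
      rw [iter_stab hs k (n + 1) (by omega)]

lemma fix_ext {y z : ∀ n, Z c n} (hy : U c y = y) (hz : U c z = z) :
    ∀ N, (∀ n, N ≤ n → y n = z n) → y = z
  | 0, h => funext fun n => h n (Nat.zero_le n)
  | N + 1, h => fix_ext hy hz N fun n hn => by
      rcases hn.eq_or_lt with rfl | hn
      · rw [← hy, ← hz]
        change dn c N (y (N + 1)) = dn c N (z (N + 1))
        rw [h _ le_rfl]
      · exact h n hn

open Classical in
noncomputable def lev (y : Gd c) : ℕ := Nat.find (y.2.2 1)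

lemma lev_spec (y : Gd c) : Mid c 1 (lev y) y.1 := by
  classical exact Nat.find_spec (y.2.2 1)

lemma sc_high (hc : c.Ok) (y : Gd c) (n : ℕ) (hn : lev y ≤ n) :
    U c (sc c y.1) n = sc c y.1 n := U_sc y.2.1 (high_mono hc y.2.1 hn (lev_spec y).2)

lemma pr_high (hc : c.Ok) (y : Gd c) (n : ℕ) (hn : lev y ≤ n) :
    U c (pr c y.1) n = pr c y.1 n := U_pr hc y.2.1 (low_mono y.2.1 hn (lev_spec y).1)

lemma mid_high (hc : c.Ok) (y : Gd c) (a N : ℕ) : ∃ n, N ≤ n ∧ Mid c a n y.1 := by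
  obtain ⟨n, h1, h2⟩ := y.2.2 a
  exact ⟨max N n, le_max_left _ _, low_mono y.2.1 (le_max_right _ _) h1,
    high_mono hc y.2.1 (le_max_right _ _) h2⟩

noncomputable def fw (hc : c.Ok) (y : Gd c) : Gd c :=
  ⟨(U c)^[lev y] (sc c y.1), funext fun n => iter_stab (sc_high hc y) _ n (by omega), fun a => by
    obtain ⟨n, hn, h1, h2⟩ := mid_high hc y (a + 1) (lev y)
    refine ⟨n, ?_⟩
    unfold Mid
    rw [iter_high (sc_high hc y) _ n hn]
    simp only [sc]
    omega⟩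

noncomputable def bw (hc : c.Ok) (y : Gd c) : Gd c :=
  ⟨(U c)^[lev y] (pr c y.1), funext fun n => iter_stab (pr_high hc y) _ n (by omega), fun a => by
    obtain ⟨n, hn, h1, h2⟩ := mid_high hc y (a + 1) (lev y)
    refine ⟨n, ?_⟩
    unfold Mid
    rw [iter_high (pr_high hc y) _ n hn]
    simp only [pr]
    omega⟩

lemma fw_apply (hc : c.Ok) (y : Gd c) {n : ℕ} (h : (y.1 n).2 + 1 < c.h n) :
    (fw hc y).1 n = sc c y.1 n :=
  iter_high (N := n) (fun _ hk => U_sc y.2.1 (high_mono hc y.2.1 hk h)) _ n le_rfl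

lemma bw_apply (hc : c.Ok) (y : Gd c) {n : ℕ} (h : 1 ≤ (y.1 n).2) :
    (bw hc y).1 n = pr c y.1 n :=
  iter_high (N := n) (fun _ hk => U_pr hc y.2.1 (low_mono y.2.1 hk h)) _ n le_rfl

lemma bw_fw (hc : c.Ok) (y : Gd c) : bw hc (fw hc y) = y := by
  refine Subtype.ext (fix_ext (bw hc _).2.1 y.2.1 (lev y) fun n hn => ?_)
  have h1 := fw_apply hc y (high_mono hc y.2.1 hn (lev_spec y).2)
  rw [bw_apply hc _ (by rw [h1]; simp [sc])]
  simp only [pr, h1, sc, Nat.add_sub_cancel]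

lemma fw_bw (hc : c.Ok) (y : Gd c) : fw hc (bw hc y) = y := by
  refine Subtype.ext (fix_ext (fw hc _).2.1 y.2.1 (lev y) fun n hn => ?_)
  have h0 := low_mono y.2.1 hn (lev_spec y).1
  have h1 := bw_apply hc y h0
  have h2 := lt_h hc y.2.1 n
  rw [fw_apply hc _ (by rw [h1]; simp only [pr]; omega)]
  simp only [pr, h1, sc, Nat.sub_add_cancel h0]

lemma meas_coord {f : (∀ n, Z c n) → (∀ n, Z c n)} (g : ∀ n, ℕ) (F : ∀ n, Z c (g n) → Z c n)
    (hf : ∀ y n, f y n = F n (y (g n))) : Measurable f :=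
  measurable_pi_lambda _ fun n => by
    have : (fun y => f y n) = F n ∘ fun y : ∀ n, Z c n => y (g n) := funext fun y => hf y n
    rw [this]
    exact (measurable_of_countable _).comp (measurable_pi_apply _)

lemma meas_U : Measurable (U c) := meas_coord (fun n => n + 1) (dn c) fun _ _ => rfl

lemma meas_sc : Measurable (sc c) :=
  meas_coord (fun n => n) (fun _ z => (z.1, z.2 + 1)) fun _ _ => rfl

lemma meas_pr : Measurable (pr c) :=
  meas_coord (fun n => n) (fun _ z => (z.1, z.2 - 1)) fun _ _ => rfl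

lemma meas_lev (n : ℕ) (B : Set (Z c n)) : MeasurableSet {y : ∀ n, Z c n | y n ∈ B} :=
  measurable_pi_apply n (MeasurableSet.of_discrete (s := B))

lemma meas_mid (a n : ℕ) : MeasurableSet {y : ∀ n, Z c n | Mid c a n y} :=
  meas_lev n {z | a ≤ z.2 ∧ z.2 + a < c.h n}

lemma meas_Gd : MeasurableSet (Gd c) := by
  have h1 : Gd c = (⋂ n, {y : ∀ n, Z c n | U c y n = y n}) ∩
      ⋂ a, ⋃ n, {y : ∀ n, Z c n | Mid c a n y} := by
    ext y
    simp only [Gd, Set.mem_setOf_eq, Set.mem_inter_iff, Set.mem_iInter, Set.mem_iUnion, funext_iff]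
  rw [h1]
  refine (MeasurableSet.iInter fun n => ?_).inter
    (MeasurableSet.iInter fun a => MeasurableSet.iUnion fun n => meas_mid a n)
  exact measurableSet_eq_fun ((measurable_pi_apply n).comp meas_U) (measurable_pi_apply n)

lemma meas_it {s : (∀ n, Z c n) → (∀ n, Z c n)} (hs : Measurable s) :
    Measurable fun y : Gd c => (U c)^[lev y] (s y.1) := by
  classical
  exact Measurable.find (f := fun k (y : Gd c) => (U c)^[k] (s y.1))
    (p := fun n (y : Gd c) => Mid c 1 n y.1)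
    (fun k => (meas_U.iterate k).comp (hs.comp measurable_subtype_coe))
    (fun n => measurable_subtype_coe (meas_mid 1 n)) (fun y => y.2.2 1)

noncomputable def TT (hc : c.Ok) : Gd c ≃ᵐ Gd c where
  toFun := fw hc
  invFun := bw hc
  left_inv := bw_fw hc
  right_inv := fw_bw hc
  measurable_toFun := (meas_it meas_sc).subtype_mk
  measurable_invFun := (meas_it meas_pr).subtype_mk

/-- the measure of finitely many floors -/
lemma floor_le {X : Type} [MeasurableSpace X] {μ : Measure X} (t : PreTw c μ) (n : ℕ)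
    (F : Finset ℕ) : μ {x | t.p n x ∈ F} ≤ (F.card : ℝ≥0∞) * (c.h n : ℝ≥0∞)⁻¹ := by
  have h1 : {x | t.p n x ∈ F} ⊆
      ⋃ z ∈ (univ ×ˢ F : Finset (Z c n)), {x | t.w n x = z.1 ∧ t.p n x = z.2} := by
    intro x hx
    simp only [Set.mem_iUnion]
    exact ⟨(t.w n x, t.p n x), mem_product.2 ⟨mem_univ _, hx⟩, rfl, rfl⟩
  refine (measure_mono h1).trans ((measure_biUnion_finset_le _ _).trans ?_)
  have h2 : ∀ z ∈ (univ ×ˢ F : Finset (Z c n)), μ {x | t.w n x = z.1 ∧ t.p n x = z.2} ≤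
      ((2 ^ c.m n * c.h n : ℕ) : ℝ≥0∞)⁻¹ := by
    intro z _
    by_cases hz : z.2 < c.h n
    · exact (t.law n z.1 z.2 hz).le
    · have : {x | t.w n x = z.1 ∧ t.p n x = z.2} = ∅ :=
        Set.eq_empty_of_forall_notMem fun x hx => hz (hx.2 ▸ t.lt n x)
      rw [this, measure_empty]; exact zero_le
  refine (sum_le_card_nsmul _ _ _ h2).trans (le_of_eq ?_)
  have h3 : ((2 ^ c.m n : ℕ) : ℝ≥0∞) ≠ 0 := by positivity
  have h4 : ((2 ^ c.m n : ℕ) : ℝ≥0∞) ≠ ⊤ := ENNReal.natCast_ne_top _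
  rw [card_product, card_univ, Fintype.card_fin, nsmul_eq_mul, Nat.cast_mul, Nat.cast_mul,
    ENNReal.mul_inv (Or.inl h3) (Or.inl h4), mul_comm _ (F.card : ℝ≥0∞), mul_assoc,
    ← mul_assoc _ _ (c.h n : ℝ≥0∞)⁻¹, ENNReal.mul_inv_cancel h3 h4, one_mul]

lemma tend_inv (hc : c.Ok) : Tendsto (fun n => (c.h n : ℝ≥0∞)⁻¹) atTop (𝓝 0) :=
  ENNReal.tendsto_inv_nat_nhds_zero.comp
    (tendsto_atTop_mono (fun n => (Nat.lt_two_pow_self).le.trans (two_pow_le_h hc n)) tendsto_id)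

def Lv (c : Code) : Set (Set (Gd c)) := {A | ∃ n, ∃ B : Set (Z c n), A = {y | y.1 n ∈ B}}

lemma lv_up {n k : ℕ} (hk : n ≤ k) (B : Set (Z c n)) :
    ∃ B' : Set (Z c k), {y : Gd c | y.1 n ∈ B} = {y : Gd c | y.1 k ∈ B'} := by
  induction k, hk using Nat.le_induction with
  | base => exact ⟨B, rfl⟩
  | succ k _ ih =>
      obtain ⟨B', h⟩ := ih
      refine ⟨dn c k ⁻¹' B', h.trans (Set.ext fun y => ?_)⟩
      have : dn c k (y.1 (k + 1)) = y.1 k := congrFun y.2.1 k
      simp only [Set.mem_setOf_eq, Set.mem_preimage, this]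

lemma lv_ring : IsSetRing (Lv c) where
  empty_mem := ⟨0, ∅, rfl⟩
  union_mem := by
    rintro _ _ ⟨n, B, rfl⟩ ⟨k, B', rfl⟩
    obtain ⟨B1, h1⟩ := lv_up (le_max_left n k) B
    obtain ⟨B2, h2⟩ := lv_up (le_max_right n k) B'
    exact ⟨max n k, B1 ∪ B2, by rw [h1, h2]; rfl⟩
  sdiff_mem := by
    rintro _ _ ⟨n, B, rfl⟩ ⟨k, B', rfl⟩
    obtain ⟨B1, h1⟩ := lv_up (le_max_left n k) B
    obtain ⟨B2, h2⟩ := lv_up (le_max_right n k) B'
    exact ⟨max n k, B1 \ B2, by rw [h1, h2]; rfl⟩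

lemma lv_meas (n : ℕ) (B : Set (Z c n)) : MeasurableSet {y : Gd c | y.1 n ∈ B} :=
  measurable_subtype_coe (meas_lev n B)

lemma lv_gen : (inferInstance : MeasurableSpace (Gd c)) = MeasurableSpace.generateFrom (Lv c) := by
  refine le_antisymm ?_ (MeasurableSpace.generateFrom_le ?_)
  · have : @Measurable _ _ (MeasurableSpace.generateFrom (Lv c)) _
        (Subtype.val : Gd c → ∀ n, Z c n) :=
      @measurable_pi_lambda _ _ _ (MeasurableSpace.generateFrom (Lv c)) _ _ fun n B _ =>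
        MeasurableSpace.measurableSet_generateFrom
          (show {y : Gd c | y.1 n ∈ B} ∈ Lv c from ⟨n, B, rfl⟩)
    exact this.comap_le
  · rintro _ ⟨n, B, rfl⟩
    exact lv_meas n B

section
variable (hc : c.Ok) {μ : Measure (Gd c)} (t : PreTw c μ)
  (hw : ∀ n y, t.w n y = (y.1 n).1) (hp : ∀ n y, t.p n y = (y.1 n).2)
include hw hp

lemma atom_le (n : ℕ) (z : Z c n) (hz : 1 ≤ z.2) :
    μ {y | y.1 n = z} ≤ μ {y | (fw hc y).1 n = z} := by
  by_cases h : z.2 < c.h n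
  · have e1 : {y : Gd c | y.1 n = z} = {y | t.w n y = z.1 ∧ t.p n y = z.2} := by
      ext y; simp only [Set.mem_setOf_eq, hw, hp, Prod.ext_iff]
    rw [e1, t.law n z.1 z.2 h, ← t.law n z.1 (z.2 - 1) (by omega)]
    refine measure_mono fun y hy => ?_
    obtain ⟨h1, h2⟩ := hy
    rw [hw] at h1
    rw [hp] at h2
    change (fw hc y).1 n = z
    rw [fw_apply hc y (by omega)]
    simp only [sc, h1, h2, Nat.sub_add_cancel hz]
  · have : {y : Gd c | y.1 n = z} = ∅ :=
      Set.eq_empty_of_forall_notMem fun y hy => h (by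
        have h1 := lt_h hc y.2.1 n
        rwa [show y.1 n = z from hy] at h1)
    rw [this, measure_empty]; exact zero_le

lemma level_le (n : ℕ) (B : Set (Z c n)) :
    μ {y | y.1 n ∈ B} ≤ μ {y | (fw hc y).1 n ∈ B} + (c.h n : ℝ≥0∞)⁻¹ := by
  have m1 : Measurable fun y : Gd c => y.1 n := (measurable_pi_apply n).comp measurable_subtype_coe
  have m2 : Measurable fun y : Gd c => (fw hc y).1 n := m1.comp (TT hc).measurable
  have h1 : μ ((fun y : Gd c => y.1 n) ⁻¹' (B ∩ {z | 1 ≤ z.2})) ≤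
      μ ((fun y : Gd c => (fw hc y).1 n) ⁻¹' (B ∩ {z | 1 ≤ z.2})) := by
    rw [← tsum_measure_preimage_singleton (Set.to_countable _)
        fun z _ => m1 (measurableSet_singleton z),
      ← tsum_measure_preimage_singleton (Set.to_countable _)
        fun z _ => m2 (measurableSet_singleton z)]
    exact ENNReal.tsum_le_tsum fun z => atom_le hc t hw hp n z.1 z.2.2
  have h2 := floor_le t n {0}
  rw [card_singleton, Nat.cast_one, one_mul] at h2
  have h3 : {y : Gd c | y.1 n ∈ B} ⊆ (fun y : Gd c => y.1 n) ⁻¹' (B ∩ {z | 1 ≤ z.2}) ∪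
      {y | t.p n y ∈ ({0} : Finset ℕ)} := by
    intro y hy
    by_cases h : 1 ≤ (y.1 n).2
    · exact Or.inl ⟨hy, h⟩
    · refine Or.inr ?_
      simp only [Set.mem_setOf_eq, hp, mem_singleton]
      omega
  exact (measure_mono h3).trans ((measure_union_le _ _).trans
    (add_le_add (h1.trans (measure_mono fun y hy => hy.1)) h2))

lemma level_le' (n : ℕ) (B : Set (Z c n)) :
    μ {y | y.1 n ∈ B} ≤ μ (fw hc ⁻¹' {y | y.1 n ∈ B}) := by
  have h1 : Tendsto (fun k => μ (fw hc ⁻¹' {y | y.1 n ∈ B}) + (c.h k : ℝ≥0∞)⁻¹) atTop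
      (𝓝 (μ (fw hc ⁻¹' {y | y.1 n ∈ B}) + 0)) := tendsto_const_nhds.add (tend_inv hc)
  rw [add_zero] at h1
  refine ge_of_tendsto h1 (eventually_atTop.2 ⟨n, fun k hk => ?_⟩)
  obtain ⟨B', h⟩ := lv_up hk B
  rw [h]
  exact level_le hc t hw hp k B'

lemma mp [IsProbabilityMeasure μ] : MeasurePreserving (TT hc) μ μ := by
  have hm : Measurable (fw hc) := (TT hc).measurable
  refine ⟨hm, ?_⟩
  have : IsProbabilityMeasure (μ.map (TT hc)) := Measure.isProbabilityMeasure_map hm.aemeasurable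
  refine ext_of_generate_finite (Lv c) lv_gen lv_ring.isSetSemiring.isPiSystem ?_ (by simp)
  rintro _ ⟨n, B, rfl⟩
  rw [Measure.map_apply (TT hc).measurable (lv_meas n B)]
  refine le_antisymm ?_ (level_le' hc t hw hp n B)
  have h1 : μ {y : Gd c | y.1 n ∈ B}ᶜ ≤ μ (fw hc ⁻¹' {y | y.1 n ∈ B})ᶜ :=
    level_le' hc t hw hp n Bᶜ
  rw [prob_compl_eq_one_sub (lv_meas n B), prob_compl_eq_one_sub (hm (lv_meas n B))] at h1
  exact (ENNReal.sub_le_sub_iff_left prob_le_one ENNReal.one_ne_top).1 h1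

lemma gen [IsProbabilityMeasure μ] : t.Gen := by
  intro A hA ε hε
  obtain ⟨_, ⟨n, B, rfl⟩, h⟩ := exists_measure_symmDiff_lt_of_generateFrom_isSetRing (μ := μ)
    lv_ring ⟨{Set.univ}, Set.countable_singleton _, by
      rintro _ rfl; exact ⟨0, Set.univ, rfl⟩, by simp⟩ lv_gen hA (ENNReal.ofReal_pos.2 hε)
  refine ⟨n, fun k hk => ?_⟩
  obtain ⟨B', h'⟩ := lv_up hk B
  refine ⟨B', ?_⟩
  have e : {x | (t.w k x, t.p k x) ∈ B'} = {y : Gd c | y.1 k ∈ B'} := by
    ext y; simp only [Set.mem_setOf_eq, hw, hp]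
  rw [e, ← h', symmDiff_comm]
  exact h.le

end

lemma ae_good (hc : c.Ok) {X : Type} [MeasurableSpace X] {μ : Measure X} (t : PreTw c μ) :
    ∀ᵐ x ∂μ, (fun n => (t.w n x, t.p n x)) ∈ Gd c := by
  have h : ∀ a, ∀ᵐ x ∂μ, ∃ n, a ≤ t.p n x ∧ t.p n x + a < c.h n := by
    intro a
    rw [ae_iff]
    have h1 : Tendsto (fun n => ((a + (a + 1) : ℕ) : ℝ≥0∞) * (c.h n : ℝ≥0∞)⁻¹) atTop
        (𝓝 (((a + (a + 1) : ℕ) : ℝ≥0∞) * 0)) :=
      ENNReal.Tendsto.const_mul (tend_inv hc) (Or.inr (ENNReal.natCast_ne_top _))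
    rw [mul_zero] at h1
    refine le_antisymm (ge_of_tendsto' h1 fun n => ?_) zero_le
    refine le_trans (measure_mono fun x hx => ?_)
      ((floor_le t n (range a ∪ Icc (c.h n - a) (c.h n))).trans ?_)
    · have h2 : ¬ (a ≤ t.p n x ∧ t.p n x + a < c.h n) := fun h => hx ⟨n, h⟩
      have h3 := t.lt n x
      simp only [Set.mem_setOf_eq, mem_union, mem_range, mem_Icc]
      omega
    · gcongr
      refine (card_union_le _ _).trans ?_
      rw [card_range, Nat.card_Icc]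
      omega
  filter_upwards [ae_all_iff.2 h] with x hx
  exact ⟨funext fun n => Prod.ext (t.wsub n x).symm (t.pmod n x).symm, hx⟩

end SysB

open SysB in
theorem sysBStmt : SysBStmt := by
  intro c hc X _ μ hμ t
  let π : X → ∀ n, Z c n := fun x n => (t.w n x, t.p n x)
  have mπ : Measurable π := measurable_pi_lambda _ fun n => (t.mw n).prodMk (t.mp n)
  have hG : μ.map π (Gd c)ᶜ = 0 := by
    rw [Measure.map_apply mπ meas_Gd.compl]
    exact ae_good hc t
  let μ' : Measure (Gd c) := (μ.map π).comap Subtype.val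
  have key : ∀ A : Set (∀ n, Z c n), MeasurableSet A → μ' (Subtype.val ⁻¹' A) = μ (π ⁻¹' A) := by
    intro A hA
    rw [(MeasurableEmbedding.subtype_coe meas_Gd).comap_apply, Subtype.image_preimage_coe,
      ← Measure.map_apply mπ hA, Set.inter_comm]
    exact measure_inter_conull hG
  have hprob : IsProbabilityMeasure μ' := ⟨by
    have := key Set.univ MeasurableSet.univ
    simpa using this⟩
  have m1 : ∀ n, Measurable fun y : Gd c => y.1 n :=
    fun n => (measurable_pi_apply n).comp measurable_subtype_coe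
  let t0 : PreTw c μ' :=
    { w := fun n y => (y.1 n).1
      p := fun n y => (y.1 n).2
      mw := fun n => (m1 n).fst
      mp := fun n => (m1 n).snd
      lt := fun n y => lt_h hc y.2.1 n
      law := fun n y a ha =>
        (key _ (meas_lev n {z | z.1 = y ∧ z.2 = a})).trans (t.law n y a ha)
      wsub := fun n y => fst_eq y.2.1 n
      pmod := fun n y => snd_eq y.2.1 n }
  refine ⟨Gd c, inferInstance, meas_Gd.standardBorel, μ', TT hc,
    { t0 with step := fun n => ae_of_all _ fun y hy => ?_ }, hprob,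
    mp hc t0 (fun _ _ => rfl) (fun _ _ => rfl), gen t0 (fun _ _ => rfl) (fun _ _ => rfl)⟩
  have h := fw_apply hc y hy
  have h1 : ((fw hc y).1 n).1 = (y.1 n).1 := by rw [h]; rfl
  have h2 : ((fw hc y).1 n).2 = (y.1 n).2 + 1 := by rw [h]; rfl
  exact ⟨h1, h2⟩

end Vale.Agent.P109
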