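import Vale.Agent.P109.Base

/-! Modules Tower and Pull: basic facts on tower systems. -/

open MeasureTheory Finset
open scoped ENNReal

namespace Vale.Agent.P109

namespace Twr

variable {c : Code} {M : Type} [MeasurableSpace M] {ν : Measure M} {S : M → M}

theorem h_pos (hc : c.Ok) (n : ℕ) : 0 < c.h n := by
  induction n with
  | zero => exact Nat.one_pos
  | succ n ih => exact Nat.mul_pos ih (by have := hc.two n; omega)

theorem mL (t : Tw c ν S) (n a : ℕ) : MeasurableSet {x | t.p n x = a} :=
  t.mp n (measurableSet_singleton a)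

theorem mW (t : Tw c ν S) (n : ℕ) (y : Fin (2 ^ c.m n)) : MeasurableSet {x | t.w n x = y} :=
  t.mw n (measurableSet_singleton y)

theorem lev (t : Tw c ν S) {n a : ℕ} (ha : a < c.h n) :
    ν {x | t.p n x = a} = (c.h n : ℝ≥0∞)⁻¹ := by
  have e : {x | t.p n x = a} = ⋃ y, {x | t.w n x = y ∧ t.p n x = a} := by ext x; simp
  rw [e, measure_iUnion (f := fun y => {x | t.w n x = y ∧ t.p n x = a})
    (fun y y' hy => Set.disjoint_left.2 fun x h h' => hy (h.1.symm.trans h'.1))
    fun y => (mW t n y).inter (mL t n a), tsum_fintype]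
  simp only [t.law n _ a ha, sum_const, card_univ, Fintype.card_fin, nsmul_eq_mul]
  rw [Nat.cast_mul, ENNReal.mul_inv (by simp) (by simp), ← mul_assoc,
    ENNReal.mul_inv_cancel (by simp) (by simp), one_mul]

theorem run (t : Tw c ν S) (hS : MeasurePreserving S ν ν) (n : ℕ) :
    ∀ᵐ x ∂ν, t.p n x = 0 → ∀ a < c.h n, t.w n (S^[a] x) = t.w n x ∧ t.p n (S^[a] x) = a := by
  have h : ∀ᵐ x ∂ν, ∀ a : ℕ, t.p n (S^[a] x) + 1 < c.h n →
      t.w n (S (S^[a] x)) = t.w n (S^[a] x) ∧ t.p n (S (S^[a] x)) = t.p n (S^[a] x) + 1 :=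
    ae_all_iff.2 fun a => (hS.iterate a).quasiMeasurePreserving.ae (t.step n)
  filter_upwards [h] with x hx h0 a
  induction a with
  | zero => exact fun _ => ⟨rfl, h0⟩
  | succ a ih =>
    intro ha
    obtain ⟨h1, h2⟩ := ih (by omega)
    obtain ⟨h3, h4⟩ := hx a (by omega)
    rw [Function.iterate_succ_apply']
    exact ⟨h3.trans h1, by rw [h4, h2]⟩

theorem ae_pre [IsProbabilityMeasure ν] {f : M → M} (hf : MeasurePreserving f ν ν) {A B : Set M}
    (hA : MeasurableSet A) (hB : MeasurableSet B) (h : ν A = ν B) (hs : A ≤ᵐ[ν] f ⁻¹' B) :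
    A =ᵐ[ν] f ⁻¹' B :=
  ae_eq_of_ae_subset_of_measure_ge hs (by rw [hf.measure_preimage hB.nullMeasurableSet, h])
    hA.nullMeasurableSet (measure_ne_top _ _)

theorem map [IsProbabilityMeasure ν] (t : Tw c ν S) (hS : MeasurePreserving S ν ν) {n a : ℕ}
    (ha : a < c.h n) :
    (ν.restrict {x | t.p n x = 0}).map S^[a] = ν.restrict {x | t.p n x = a} := by
  rw [Measure.restrict_congr_set (ae_pre (hS.iterate a) (mL t n 0) (mL t n a)
    (by rw [lev t ha, lev t (by omega)]) ?_)]
  · exact ((hS.iterate a).restrict_preimage (mL t n a)).map_eq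
  · filter_upwards [run t hS n] with x hx h0
    exact (hx h0 a ha).2

theorem wrap [IsProbabilityMeasure ν] (t : Tw c ν S) (hS : MeasurePreserving S ν ν) (n : ℕ) :
    ∀ᵐ x ∂ν, t.p n (S x) = (t.p n x + 1) % c.h n := by
  have h : ∀ᵐ x ∂ν, ∀ b : ℕ, b + 1 < c.h n → t.p n (S x) = b + 1 → t.p n x = b := by
    refine ae_all_iff.2 fun b => ?_
    by_cases hb : b + 1 < c.h n
    · have := ae_pre hS (mL t n b) (mL t n (b + 1)) (by rw [lev t hb, lev t (by omega)]) (by
        filter_upwards [t.step n] with x hx h0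
        have h0 : t.p n x = b := h0
        exact (hx (by omega)).2.trans (by rw [h0]))
      filter_upwards [this] with x hx _ h1
      exact (iff_of_eq hx).2 h1
    · exact Filter.Eventually.of_forall fun x h => absurd h hb
  filter_upwards [h, t.step n] with x h1 h2
  have l1 := t.lt n x
  have l2 := t.lt n (S x)
  by_cases c1 : t.p n x + 1 < c.h n
  · rw [(h2 c1).2, Nat.mod_eq_of_lt c1]
  · rw [show t.p n x + 1 = c.h n by omega, Nat.mod_self]
    by_contra c2
    obtain ⟨b, hb⟩ := Nat.exists_eq_succ_of_ne_zero c2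
    have := h1 b (by omega) hb
    omega

end Twr

open Twr in
theorem towerStmt : TowerStmt := by
  intro c M _ ν S t hc hν hS
  have hp := h_pos hc
  refine ⟨fun n => ⟨?_⟩, fun n => ?_, fun n a ha => map t hS ha, run t hS, wrap t hS,
    fun n B hB => ?_, fun n hn => ?_, fun n hn => ?_, fun n u => ?_, fun n x => ?_⟩
  · rw [PreTw.P, Measure.smul_apply, Measure.restrict_apply MeasurableSet.univ, Set.univ_inter,
      lev t (hp n), smul_eq_mul, ENNReal.mul_inv_cancel (by simpa using (hp n).ne') (by simp)]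
  · refine Measure.le_iff'.2 fun s => ?_
    rw [PreTw.P, Measure.smul_apply, Measure.smul_apply, smul_eq_mul, smul_eq_mul]
    exact mul_le_mul_right (Measure.le_iff'.1 Measure.restrict_le_self s) _
  · have e : ∀ a ∈ range (c.h n), t.P n (S^[a] ⁻¹' B) =
        (c.h n : ℝ≥0∞) * ν.restrict B (t.p n ⁻¹' {a}) := fun a ha => by
      rw [PreTw.P, Measure.smul_apply, smul_eq_mul,
        ← Measure.map_apply (hS.iterate a).measurable hB, map t hS (mem_range.1 ha),
        Measure.restrict_apply hB, Measure.restrict_apply (t.mp n (measurableSet_singleton a)),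
        Set.inter_comm]
      rfl
    rw [sum_congr rfl e, ← mul_sum,
      sum_measure_preimage_singleton _ fun a _ => t.mp n (measurableSet_singleton a)]
    have : t.p n ⁻¹' (range (c.h n) : Finset ℕ) = Set.univ :=
      Set.eq_univ_of_forall fun x => by simpa using t.lt n x
    rw [this, Measure.restrict_apply MeasurableSet.univ, Set.univ_inter]
  · have h2 : c.h (n + 1) = c.h n * 2 := by rw [Code.h, hn]
    have := hp n
    have e : {x | t.p n x = 0} = {x | t.p (n + 1) x = 0} ∪ {x | t.p (n + 1) x = c.h n} := by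
      ext x
      have l := t.lt (n + 1) x
      simp only [Set.mem_ofPred_eq, Set.mem_union, t.pmod n x]
      constructor
      · intro h
        obtain ⟨k, hk⟩ := Nat.dvd_of_mod_eq_zero h
        rw [hk, h2, Nat.mul_lt_mul_left this] at l
        rw [hk]
        interval_cases k <;> simp
      · rintro (h | h) <;> simp [h]
    rw [PreTw.P, PreTw.P, Measure.map_smul, map t hS (by omega), ← smul_add, e,
      Measure.restrict_union (Set.disjoint_left.2 fun x h h' => by
        have h : t.p (n + 1) x = 0 := h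
        have h' : t.p (n + 1) x = c.h n := h'
        omega) (mL t _ _), smul_smul, h2, Nat.cast_mul, mul_comm]
    rfl
  · have h2 : c.h (n + 1) = c.h n * 2 := by rw [Code.h, hn]
    have := hp n
    refine Measure.ae_smul_measure ((ae_restrict_iff' (mL t _ _)).2 ?_) _
    filter_upwards [run t hS (n + 1)] with x hx h0
    have h0 : t.p (n + 1) x = 0 := h0
    obtain ⟨h3, h4⟩ := hx h0 (c.h n) (by omega)
    rw [t.wsub n x, t.wsub n (S^[c.h n] x), h0, h3, h4, Nat.zero_div, Nat.div_self this]
  · rw [Measure.real, PreTw.P, Measure.smul_apply, Measure.restrict_apply (mW t n u), smul_eq_mul]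
    have := t.law n u 0 (hp n)
    rw [show {x | t.w n x = u} ∩ {x | t.p n x = 0} = {x | t.w n x = u ∧ t.p n x = 0} from rfl, this]
    have h1 : (0 : ℝ) < c.h n := by exact_mod_cast hp n
    rw [ENNReal.toReal_mul, ENNReal.toReal_inv, ENNReal.toReal_natCast, ENNReal.toReal_natCast]
    push_cast
    exact le_of_eq (by field_simp)
  · induction n with
    | zero => rfl
    | succ n ih => rw [ih, Code.spell, ← t.wsub, ← t.pmod]

theorem pullStmt : PullStmt := by
  intro c X M _ _ μ ν T S G t _ hS hG hμ hGS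
  have e : MeasurePreserving (hG.mk G) ν μ :=
    ⟨hG.measurable_mk, (Measure.map_congr hG.ae_eq_mk.symm).trans hμ⟩
  refine ⟨{ w := fun n x => t.w n (hG.mk G x)
            p := fun n x => t.p n (hG.mk G x)
            mw := fun n => (t.mw n).comp hG.measurable_mk
            mp := fun n => (t.mp n).comp hG.measurable_mk
            lt := fun n x => t.lt n _
            law := fun n y a ha => ?_
            wsub := fun n x => t.wsub n _
            pmod := fun n x => t.pmod n _
            step := fun n => ?_ }⟩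
  · exact (e.measure_preimage ((Twr.mW t n y).inter (Twr.mL t n a)).nullMeasurableSet).trans
      (t.law n y a ha)
  · filter_upwards [e.quasiMeasurePreserving.ae (t.step n), hGS, hG.ae_eq_mk,
      hS.quasiMeasurePreserving.ae hG.ae_eq_mk] with y a1 a2 a3 a4
    rw [← a4, a2, a3]
    exact a1

end Vale.Agent.P109
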