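import Vale.Agent.P109.Tube0

open MeasureTheory Finset
open scoped ENNReal NNReal

namespace Vale.Agent.P109
namespace Tb
open Bs

variable {d : ℕ} {f : ℕ → E d → E d} {c : ℕ → E d} {A C : ℕ → Op d} {n : ℕ} {K r Γ : ℝ}

/-- the solution starting at zero -/
noncomputable def G0 (A : ℕ → Op d) (g : ℕ → E d) : ℕ → E d
  | 0 => 0
  | t + 1 => A t (G0 A g t) + g t

theorem G0_sub (g g' : ℕ → E d) : ∀ t, G0 A (fun t => g t - g' t) t = G0 A g t - G0 A g' t
  | 0 => by simp [G0]
  | t + 1 => by simp only [G0, G0_sub g g' t, map_sub]; abel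

/-- the solution with vanishing projection -/
noncomputable def Gp (A C : ℕ → Op d) (n : ℕ) (g : ℕ → E d) : ℕ → E d :=
  fun t => G0 A g t - coc A t (pj C n (G0 A g))

theorem sol_G0 (g : ℕ → E d) : Sol A n g (G0 A g) := fun _ _ => rfl

theorem sol_Gp (g : ℕ → E d) : Sol A n g (Gp A C n g) :=
  Sol.congr (Sol.sub (sol_G0 g) (sol_coc A n _)) (fun _ _ => rfl) fun _ _ => sub_zero _

theorem pj_Gp (hP : Pj A n C) (hn : 1 ≤ n) (g : ℕ → E d) : pj C n (Gp A C n g) = 0 := by
  unfold Gp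
  rw [pj_sub, Pj.coc hP hn, sub_self]

theorem nr_Gp (hP : Pj A n C) (hA : Green A n Γ) (g : ℕ → E d) :
    nr n (Gp A C n g) ≤ Γ * nr n g := res_le hP hA (sol_G0 g)

theorem Gp_sub (g g' : ℕ → E d) (t : ℕ) :
    Gp A C n g t - Gp A C n g' t = Gp A C n (fun t => g t - g' t) t := by
  have : G0 A (fun t => g t - g' t) = fun t => G0 A g t - G0 A g' t := funext (G0_sub g g')
  simp only [Gp, this, pj_sub, map_sub]; abel

/-- extension by zero -/
noncomputable def ext (n : ℕ) (z : PiLp 2 fun _ : Fin n => E d) : ℕ → E d :=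
  fun t => if h : t < n then z ⟨t, h⟩ else 0

theorem emb_ext (z : PiLp 2 fun _ : Fin n => E d) : emb n (ext n z) = z := by
  ext i; simp [emb, ext]

theorem nr_ext (z : PiLp 2 fun _ : Fin n => E d) : nr n (ext n z) = ‖z‖ := by
  rw [nr_eq_norm, emb_ext]

theorem ext_emb (y : ℕ → E d) {t : ℕ} (ht : t < n) : ext n (emb n y) t = y t := by
  simp [emb, ext, ht]

theorem ext_sub (z z' : PiLp 2 fun _ : Fin n => E d) (t : ℕ) :
    ext n z t - ext n z' t = ext n (z - z') t := by
  unfold ext; split_ifs <;> simp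

/-- the nonlinear error -/
noncomputable def er (f : ℕ → E d → E d) (c : ℕ → E d) (A : ℕ → Op d) (W : ℕ → E d) : ℕ → E d :=
  fun t => f t (c t + W t) - f t (c t) - A t (W t)

theorem er_sub (hK : 0 ≤ K) (hr : 0 < r) (hB : Blk f c A n K r) {W W' : ℕ → E d}
    (hW : nr n W < r) (hW' : nr n W' < r) :
    nr n (fun t => er f c A W t - er f c A W' t) ≤ K * r * nr n fun t => W t - W' t := by
  refine nr_le_mul (by positivity) fun t ht => ?_
  have h1 := mv hB hK ht (mem_ball_of hW ht) (mem_ball_of hW' ht)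
  rw [add_sub_add_left_eq_sub] at h1
  refine le_trans (le_of_eq (congrArg _ ?_)) h1
  simp only [er, map_sub]; abel

theorem er_le (hK : 0 ≤ K) (hr : 0 < r) (hB : Blk f c A n K r) {W : ℕ → E d}
    (hW : nr n W < r) : nr n (er f c A W) ≤ K * r * nr n W := by
  have := er_sub hK hr hB hW (W' := fun _ => 0) (by rw [nr_zero]; exact hr)
  simp only [er, add_zero, sub_self, map_zero, sub_zero] at this
  exact this

theorem fixed (hP : Pj A n C) (hΓ : 1 ≤ Γ) (hK : 0 ≤ K) (hr : 0 < r) (h : K * r * Γ ≤ 1 / 12)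
    (hB : Blk f c A n K r) (hA : Green A n Γ) {y : ℕ → E d} (hy : nr n y ≤ r / 2) :
    ∃ W : ℕ → E d, nr n W < r ∧ ∀ t < n, W t = y t + Gp A C n (er f c A W) t := by
  set F : (PiLp 2 fun _ : Fin n => E d) → PiLp 2 fun _ : Fin n => E d :=
    fun z => emb n (Gp A C n (er f c A fun t => y t + ext n z t)) with hF
  have hW : ∀ z ∈ Metric.closedBall (0 : PiLp 2 fun _ : Fin n => E d) (r / 4),
      nr n (fun t => y t + ext n z t) < r := fun z hz => by
    have h1 := nr_add n y (ext n z)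
    rw [nr_ext] at h1
    have h2 := mem_closedBall_zero_iff.1 hz
    linarith
  have hΓ0 : 0 ≤ Γ := by linarith
  have hmap : Set.MapsTo F (Metric.closedBall 0 (r / 4)) (Metric.closedBall 0 (r / 4)) := by
    intro z hz
    rw [mem_closedBall_zero_iff, hF, ← nr_eq_norm]
    refine (nr_Gp hP hA _).trans
      ((mul_le_mul_of_nonneg_left (er_le hK hr hB (hW z hz)) hΓ0).trans ?_)
    have h1 := hW z hz
    have h2 := nr_nonneg n fun t => y t + ext n z t
    rw [← mul_assoc, mul_comm Γ]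
    calc _ ≤ 1 / 12 * r := mul_le_mul h h1.le h2 (by norm_num)
      _ ≤ r / 4 := by linarith
  have hlip : ∀ z ∈ Metric.closedBall (0 : PiLp 2 fun _ : Fin n => E d) (r / 4),
      ∀ z' ∈ Metric.closedBall (0 : PiLp 2 fun _ : Fin n => E d) (r / 4),
      dist (F z) (F z') ≤ (1 / 2 : ℝ≥0) * dist z z' := fun z hz z' hz' => by
    have e1 : F z - F z' = emb n fun t => Gp A C n (er f c A fun t => y t + ext n z t) t -
        Gp A C n (er f c A fun t => y t + ext n z' t) t := rfl
    rw [dist_eq_norm, dist_eq_norm, e1, ← nr_eq_norm]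
    simp only [Gp_sub]
    refine (nr_Gp hP hA _).trans
      ((mul_le_mul_of_nonneg_left (er_sub hK hr hB (hW z hz) (hW z' hz')) hΓ0).trans ?_)
    simp only [add_sub_add_left_eq_sub, ext_sub]
    rw [← mul_assoc, mul_comm Γ, show nr n (fun t => ext n (z - z') t) = ‖z - z'‖ from nr_ext _]
    refine mul_le_mul_of_nonneg_right ?_ (norm_nonneg _)
    push_cast; linarith
  have hcon : ContractingWith (1 / 2 : ℝ≥0) (hmap.restrict F _ _) :=
    ⟨by norm_num, LipschitzWith.of_dist_le_mul fun z z' => hlip z z.2 z' z'.2⟩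
  obtain ⟨z, hz, hfix, -⟩ := ContractingWith.exists_fixedPoint'
    Metric.isClosed_closedBall.isComplete hmap hcon
    (Metric.mem_closedBall_self (by positivity)) (edist_ne_top _ _)
  refine ⟨fun t => y t + ext n z t, hW z hz, fun t ht => ?_⟩
  have h1 : ext n (F z) t = ext n z t := by rw [hfix]
  rw [hF, ext_emb _ ht] at h1
  simp only [h1]

theorem onto (hP : Pj A n C) (hn : 1 ≤ n) (hΓ : 1 ≤ Γ) (hK : 0 ≤ K) (hr : 0 < r)
    (h : K * r * Γ ≤ 1 / 12) (hB : Blk f c A n K r) (hA : Green A n Γ) {y0 : ℕ → E d}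
    (hy0 : Sol A n (fun t => f t (c t) - c (t + 1)) y0) (hn0 : nr n y0 ≤ r / 4) :
    {u | qf A n (u - pj C n y0) ≤ (r / 4) ^ 2} ⊆ Hm f c C n '' tube f c n r := by
  intro u hu
  have h1 : nr n (fun t => coc A t (u - pj C n y0)) ≤ r / 4 := by
    refine abs_le_of_sq_le_sq' ?_ (by positivity) |>.2
    rw [← qf_eq_nr]; exact hu
  have h2 : nr n (fun t => y0 t + coc A t (u - pj C n y0)) ≤ r / 2 :=
    (nr_add _ _ _).trans (by linarith)
  obtain ⟨W, hW, hfix⟩ := fixed hP hΓ hK hr h hB hA h2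
  have hS := Sol.add (Sol.add hy0 (sol_coc A n (u - pj C n y0))) (sol_Gp (C := C) (er f c A W))
  have horb : ∀ t, t < n → orb f t (c 0 + W 0) = c t + W t := by
    intro t
    induction t with
    | zero => intro _; rfl
    | succ t ih =>
      intro ht
      have e1 := hS t ht
      simp only at e1
      rw [← hfix (t + 1) ht, ← hfix t (by omega)] at e1
      rw [orb, ih (by omega), e1, er]
      abel
  have hc : ∀ t < n, orb f t (c 0 + W 0) - c t = W t := fun t ht => by
    rw [horb t ht, add_sub_cancel_left]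
  refine ⟨c 0 + W 0, (nr_congr hc).trans_lt hW, ?_⟩
  rw [Hm, pj_congr hc, pj_congr hfix, pj_add, pj_add, pj_Gp hP hn, Pj.coc hP hn]
  abel

end Tb

theorem tubeLStmt {d : ℕ} (hG : GaussStmt d) (hA : LinAStmt d) (hC : LinCStmt d)
    (hU : TubeUStmt d) : TubeLStmt d := by
  obtain ⟨c1, hc1, hlow⟩ := hG.low
  refine ⟨c1 / (2 * 4 ^ d), by positivity, ?_⟩
  rintro f c A n K r Γ hn hΓ hK hr h hB hGr ⟨y0, hy0, hn0⟩
  obtain ⟨C, hP⟩ := hA.proj A n hn
  have hs := Tb.small hn hΓ hK hr h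
  have hm := (hU.opn f c A n K r hB).measurableSet
  have e1 := addHaar_image_le_lintegral_abs_det_fderiv (volume : Measure (E d)) hm
    fun v hv => (Tb.hasF_H (C := C) hB hv).hasFDerivWithinAt
  have e2 := Tb.onto hP hn hΓ hK hr hs hB hGr hy0 hn0
  have e3 := hlow _ (pj C n y0) (r / 4) (Bs.gauge_qf A hn) (by positivity)
  have e4 : ∫⁻ v in tube f c n r, ENNReal.ofReal |(Tb.Bm f C n v).det| ≤
      ENNReal.ofReal 2 * volume (tube f c n r) := by
    rw [← setLIntegral_const]
    exact setLIntegral_mono' hm fun v hv =>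
      ENNReal.ofReal_le_ofReal (Tb.det_bounds hG hC hP hn hΓ hK hr h hB hGr hv).2
  have e5 := e3.trans ((measure_mono e2).trans (e1.trans e4))
  have e6 : c1 * (r / 4) ^ d * gI (qf A n) = 2 * (c1 / (2 * 4 ^ d) * r ^ d * gI (qf A n)) := by
    rw [div_pow]; field_simp
  rw [e6, ENNReal.ofReal_mul (by norm_num)] at e5
  exact (ENNReal.mul_le_mul_iff_right (by simp) ENNReal.ofReal_ne_top).1 e5

end Vale.Agent.P109
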