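import Vale.Agent.P109.Tube0

open MeasureTheory Finset
open scoped ENNReal

namespace Vale.Agent.P109
namespace Tb
open Bs

variable {d : ℕ} {f : ℕ → E d → E d} {c : ℕ → E d} {A C : ℕ → Op d} {n : ℕ} {K r Γ : ℝ}

theorem jump (hΓ : 1 ≤ Γ) (hK : 0 ≤ K) (hr : 0 < r) (h : K * r * Γ ≤ 1) (hB : Blk f c A n K r)
    (hA : Green A n Γ) {v : E d} (hv : v ∈ tube f c n r) :
    ∃ y, Sol A n (fun t => f t (c t) - c (t + 1)) y ∧ nr n y ≤ 2 * r := by
  obtain ⟨z, hz, hn⟩ := hA fun t => f t (orb f t v) - f t (c t) - A t (orb f t v - c t)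
  have h1 : nr n (fun t => f t (orb f t v) - f t (c t) - A t (orb f t v - c t)) ≤
      K * r * nr n fun t => orb f t v - c t :=
    nr_le_mul (by positivity) fun t ht => mv hB hK ht (orb_mem hv ht) (Metric.mem_ball_self hr)
  have h2 : nr n (fun t => orb f t v - c t) < r := hv
  have h3 : nr n z ≤ nr n fun t => orb f t v - c t := by
    refine hn.trans ((mul_le_mul_of_nonneg_left h1 (by linarith)).trans ?_)
    rw [← mul_assoc, mul_comm Γ]
    exact mul_le_of_le_one_left (nr_nonneg _ _) h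
  refine ⟨fun t => (orb f t v - c t) - z t, fun t ht => ?_, (nr_sub _ _ _).trans (by linarith)⟩
  have := hz t ht
  simp only [this, orb, map_sub]
  abel

theorem inj (hP : Pj A n C) (hn : 1 ≤ n) (hΓ : 1 ≤ Γ) (hK : 0 ≤ K) (hr : 0 < r)
    (h : K * r * Γ ≤ 1 / 2) (hB : Blk f c A n K r) (hA : Green A n Γ) :
    Set.InjOn (Hm f c C n) (tube f c n r) := by
  intro v hv v' hv' he
  have h1 : pj C n (fun t => orb f t v - orb f t v') = 0 := by
    have h2 := pj_sub (C := C) (n := n) (fun t => orb f t v - c t) fun t => orb f t v' - c t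
    simp only [sub_sub_sub_cancel_right] at h2
    rw [h2]; exact sub_eq_zero.2 he
  have h2 := key (ε := K * r) (y := fun t => orb f t v - orb f t v')
    (e := fun t => f t (orb f t v) - f t (orb f t v') - A t (orb f t v - orb f t v')) hP hA
    (by positivity) (by linarith) h (fun t _ => by simp only [orb]; abel)
    fun t ht => mv hB hK ht (orb_mem hv ht) (orb_mem hv' ht)
  rw [h1, qf_zero, mul_zero] at h2
  have h3 : nr n (fun t => orb f t v - orb f t v') = 0 :=
    pow_eq_zero_iff two_ne_zero |>.1 (le_antisymm h2 (sq_nonneg _))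
  have h4 := norm_le_nr (n := n) (t := 0) (fun t => orb f t v - orb f t v') hn
  rw [h3] at h4
  exact sub_eq_zero.1 (norm_le_zero_iff.1 h4)

theorem up (hG : GaussStmt d) (hL : LinAStmt d) (hC : LinCStmt d) (hn : 1 ≤ n)
    (hΓ : 1 ≤ Γ) (hK : 0 ≤ K) (hr : 0 < r) (h : 12 * (d + 1) * n * (K * r) * Γ ≤ 1)
    (hB : Blk f c A n K r) (hA : Green A n Γ) :
    volume (tube f c n r) ≤ ENNReal.ofReal (3 * 2 ^ (d + 1) * r ^ d * gI (qf A n)) := by
  obtain ⟨C, hP⟩ := hL.proj A n hn
  have hs := small hn hΓ hK hr h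
  have hm := (opn hB).measurableSet
  have e1 := lintegral_abs_det_fderiv_le_addHaar_image (volume : Measure (E d)) hm
    (fun v hv => (hasF_H (C := C) hB hv).hasFDerivWithinAt)
    (inj hP hn hΓ hK hr (by linarith) hB hA)
  have e2 : Hm f c C n '' tube f c n r ⊆ {u | qf A n (u - 0) ≤ r ^ 2} := by
    rintro _ ⟨v, hv, rfl⟩
    have h2 : nr n (fun t => orb f t v - c t) < r := hv
    simp only [Set.mem_ofPred_eq, sub_zero]
    exact (qf_pj_le hP _).trans (pow_le_pow_left₀ (nr_nonneg _ _) h2.le 2)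
  have e3 := hG.up _ 0 r (gauge_qf A hn) hr
  have e4 : volume (tube f c n r) ≤ ENNReal.ofReal (2 ^ (d + 1)) *
      ∫⁻ v in tube f c n r, ENNReal.ofReal |(Bm f C n v).det| := by
    rw [← lintegral_const_mul' _ _ ENNReal.ofReal_ne_top, ← setLIntegral_one]
    refine setLIntegral_mono' hm fun v hv => ?_
    rw [← ENNReal.ofReal_mul (by positivity), ← ENNReal.ofReal_one]
    exact ENNReal.ofReal_le_ofReal (det_bounds hG hC hP hn hΓ hK hr h hB hA hv).1
  refine e4.trans ((mul_le_mul_right (e1.trans ((measure_mono e2).trans e3)) _).trans ?_)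
  rw [← ENNReal.ofReal_mul (by positivity)]
  exact le_of_eq (congrArg _ (by ring))

end Tb

theorem tubeUStmt {d : ℕ} (hG : GaussStmt d) (hA : LinAStmt d) (hC : LinCStmt d) :
    TubeUStmt d :=
  ⟨fun _ _ _ _ _ _ hB => Tb.opn hB,
    fun _ _ _ _ _ _ _ hΓ hK hr h hB hGr _ hv => Tb.jump hΓ hK hr h hB hGr hv,
    fun _ _ _ _ _ _ _ hn hΓ hK hr h hB hGr => Tb.up hG hA hC hn hΓ hK hr h hB hGr⟩

end Vale.Agent.P109
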