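import Vale.Agent.P109.Fin
import Vale.Agent.P109.Budget
import Vale.Agent.P109.ChTr
import Vale.Agent.P109.ChVol2
import Vale.Agent.P109.Chart
import Vale.Agent.P109.Code
import Vale.Agent.P109.Ent
import Vale.Agent.P109.Erg
import Vale.Agent.P109.Fano
import Vale.Agent.P109.Gauss
import Vale.Agent.P109.GeoF
import Vale.Agent.P109.GeoL
import Vale.Agent.P109.GeoS
import Vale.Agent.P109.GeoT
import Vale.Agent.P109.Grid
import Vale.Agent.P109.Iso
import Vale.Agent.P109.Lift
import Vale.Agent.P109.LinA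
import Vale.Agent.P109.LinB
import Vale.Agent.P109.LinC
import Vale.Agent.P109.LinD
import Vale.Agent.P109.Mix
import Vale.Agent.P109.Net
import Vale.Agent.P109.Phi
import Vale.Agent.P109.Step
import Vale.Agent.P109.SysA
import Vale.Agent.P109.SysB
import Vale.Agent.P109.Tower
import Vale.Agent.P109.TubeL
import Vale.Agent.P109.TubeU

open MeasureTheory
open scoped ENNReal

namespace Vale.Agent.P109

theorem all :
    ∃ (X : Type) (_ : MeasurableSpace X) (μ : Measure X) (T : X ≃ᵐ X),
      StandardBorelSpace X ∧ IsProbabilityMeasure μ ∧ IsoUnit μ ∧ Ergodic T μ ∧ ksEnt μ T < ⊤ ∧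
        ¬ SmoothFactor μ T := by
  have hB : ∀ d, LinBStmt d := fun d => linBStmt (linAStmt d)
  have hC : ∀ d, LinCStmt d := fun d => linCStmt (gaussStmt d) (linAStmt d) (hB d)
  have hD : ∀ d, LinDStmt d := fun d => linDStmt (linAStmt d)
  have hU : ∀ d, TubeUStmt d := fun d => tubeUStmt (gaussStmt d) (linAStmt d) (hC d)
  have hL : ∀ d, TubeLStmt d := fun d => tubeLStmt (gaussStmt d) (linAStmt d) (hC d) (hU d)
  exact final_of (codeStmt mixStmt) sysAStmt sysBStmt towerStmt ergStmt entStmt isoStmt pullStmt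
    (chartStmt chTrStmt chVolStmt2)
    (mainStmt gridStmt approxStmt (geoTStmt hU hL gaussStmt) (geoLStmt gaussStmt linAStmt hB hC)
      (geoSStmt gaussStmt linAStmt hB) (geoFStmt gaussStmt linAStmt hD netStmt)
      (liftStmt stepStmt) budgetStmt (phiStmt gaussStmt linAStmt hB) towerStmt fanoStmt)

end Vale.Agent.P109
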