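import Vale.Agent.P109.Spec

open MeasureTheory Finset
open scoped ENNReal

namespace Vale.Agent.P109
namespace Bs

variable {d : ℕ}

/-- restriction of a sequence to the first `n` times, as a vector of a Hilbert space -/
noncomputable def emb (n : ℕ) (y : ℕ → E d) : PiLp 2 (fun _ : Fin n => E d) :=
  WithLp.toLp 2 fun i : Fin n => y i

theorem nr_eq_norm (n : ℕ) (y : ℕ → E d) : nr n y = ‖emb n y‖ := by
  rw [PiLp.norm_eq_of_L2, nr, Finset.sum_range fun t => ‖y t‖ ^ 2]; rfl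

theorem nr_nonneg (n : ℕ) (y : ℕ → E d) : 0 ≤ nr n y := Real.sqrt_nonneg _

theorem nr_sq (n : ℕ) (y : ℕ → E d) : nr n y ^ 2 = ∑ t ∈ range n, ‖y t‖ ^ 2 :=
  Real.sq_sqrt (sum_nonneg fun _ _ => sq_nonneg _)

theorem nr_congr {n : ℕ} {y z : ℕ → E d} (h : ∀ t < n, y t = z t) : nr n y = nr n z := by
  unfold nr; congr 1; exact sum_congr rfl fun t ht => by rw [h t (mem_range.1 ht)]

theorem nr_add (n : ℕ) (y z : ℕ → E d) : nr n (fun t => y t + z t) ≤ nr n y + nr n z := by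
  simp only [nr_eq_norm]
  have : emb n (fun t => y t + z t) = emb n y + emb n z := rfl
  rw [this]; exact norm_add_le _ _

theorem nr_neg (n : ℕ) (y : ℕ → E d) : nr n (fun t => -y t) = nr n y := by
  simp [nr]

theorem nr_sub (n : ℕ) (y z : ℕ → E d) : nr n (fun t => y t - z t) ≤ nr n y + nr n z := by
  have := nr_add n y (fun t => -z t)
  rw [nr_neg] at this; simpa [sub_eq_add_neg] using this

theorem nr_sub_comm (n : ℕ) (y z : ℕ → E d) :
    nr n (fun t => y t - z t) = nr n (fun t => z t - y t) := by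
  simp [nr, norm_sub_rev]

theorem nr_tri (n : ℕ) (x y z : ℕ → E d) :
    nr n (fun t => x t - z t) ≤ nr n (fun t => x t - y t) + nr n (fun t => y t - z t) := by
  have := nr_add n (fun t => x t - y t) (fun t => y t - z t)
  simpa using this

theorem nr_zero (n : ℕ) : nr n (fun _ => (0 : E d)) = 0 := by simp [nr]

theorem norm_le_nr {n t : ℕ} (y : ℕ → E d) (ht : t < n) : ‖y t‖ ≤ nr n y :=
  Real.le_sqrt_of_sq_le
    (single_le_sum (f := fun t => ‖y t‖ ^ 2) (fun _ _ => sq_nonneg _) (mem_range.2 ht))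

theorem nr_le_mul {n : ℕ} {y z : ℕ → E d} {a : ℝ} (ha : 0 ≤ a)
    (h : ∀ t < n, ‖y t‖ ≤ a * ‖z t‖) : nr n y ≤ a * nr n z := by
  refine abs_le_of_sq_le_sq' ?_ (mul_nonneg ha (nr_nonneg _ _)) |>.2
  rw [mul_pow, nr_sq, nr_sq, mul_sum]
  refine sum_le_sum fun t ht => ?_
  rw [← mul_pow]
  exact pow_le_pow_left₀ (norm_nonneg _) (h t (mem_range.1 ht)) 2

theorem nr_le_card {n : ℕ} {y : ℕ → E d} {a : ℝ} (ha : 0 ≤ a) (h : ∀ t < n, ‖y t‖ ≤ a) :
    nr n y ≤ n * a := by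
  refine abs_le_of_sq_le_sq' ?_ (by positivity) |>.2
  rw [nr_sq]
  calc ∑ t ∈ range n, ‖y t‖ ^ 2 ≤ ∑ _t ∈ range n, a ^ 2 :=
        sum_le_sum fun t ht => pow_le_pow_left₀ (norm_nonneg _) (h t (mem_range.1 ht)) 2
    _ = n * a ^ 2 := by simp
    _ ≤ (n * a) ^ 2 := by
        rw [mul_pow]
        refine mul_le_mul_of_nonneg_right ?_ (sq_nonneg _)
        rcases Nat.eq_zero_or_pos n with h0 | h0
        · simp [h0]
        · have : (1 : ℝ) ≤ n := by exact_mod_cast h0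
          nlinarith

theorem nr_split_sq (s m : ℕ) (y : ℕ → E d) :
    nr (s + m) y ^ 2 = nr s y ^ 2 + nr m (sh s y) ^ 2 := by
  simp only [nr_sq, sum_range_add, sh]

theorem nr_split_le (s m : ℕ) (y : ℕ → E d) : nr (s + m) y ≤ nr s y + nr m (sh s y) := by
  refine abs_le_of_sq_le_sq' ?_ (add_nonneg (nr_nonneg _ _) (nr_nonneg _ _)) |>.2
  rw [nr_split_sq]; nlinarith [nr_nonneg s y, nr_nonneg m (sh s y)]

theorem nr_left_le (s m : ℕ) (y : ℕ → E d) : nr s y ≤ nr (s + m) y := by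
  refine abs_le_of_sq_le_sq' ?_ (nr_nonneg _ _) |>.2
  rw [nr_split_sq]; nlinarith [sq_nonneg (nr m (sh s y))]

theorem nr_right_le (s m : ℕ) (y : ℕ → E d) : nr m (sh s y) ≤ nr (s + m) y := by
  refine abs_le_of_sq_le_sq' ?_ (nr_nonneg _ _) |>.2
  rw [nr_split_sq]; nlinarith [sq_nonneg (nr s y)]

theorem nr_jp {s n : ℕ} (hs : 1 ≤ s) (hn : s ≤ n) (g : E d) : nr n (jp s g) = ‖g‖ := by
  unfold nr
  rw [sum_eq_single_of_mem (s - 1) (mem_range.2 (by omega))]
  · rw [jp, if_pos (by omega), Real.sqrt_sq (norm_nonneg _)]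
  · intro t _ ht
    rw [jp, if_neg (by omega)]; simp

@[simp] theorem coc_zero (A : ℕ → Op d) (v : E d) : coc A 0 v = v := rfl

theorem coc_succ (A : ℕ → Op d) (t : ℕ) (v : E d) : coc A (t + 1) v = A t (coc A t v) := rfl

theorem coc_congr {A B : ℕ → Op d} : ∀ {n : ℕ}, (∀ t < n, A t = B t) → coc A n = coc B n
  | 0, _ => rfl
  | n + 1, h => by
      simp only [coc]
      rw [h n (by omega), coc_congr fun t ht => h t (by omega)]

theorem coc_add (A : ℕ → Op d) (s : ℕ) (v : E d) :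
    ∀ t, coc A (s + t) v = coc (sh s A) t (coc A s v)
  | 0 => rfl
  | t + 1 => by rw [← add_assoc, coc_succ, coc_succ, coc_add A s v t]; rfl

theorem qf_congr {A B : ℕ → Op d} {n : ℕ} (h : ∀ t, t + 1 < n → A t = B t) : qf A n = qf B n := by
  funext v
  refine sum_congr rfl fun t ht => ?_
  rw [coc_congr (A := A) (B := B) fun s hs => h s (by have := mem_range.1 ht; omega)]

theorem qf_eq_nr (A : ℕ → Op d) (n : ℕ) (v : E d) :
    qf A n v = nr n (fun t => coc A t v) ^ 2 := by rw [nr_sq]; rfl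

theorem qf_nonneg (A : ℕ → Op d) (n : ℕ) (v : E d) : 0 ≤ qf A n v :=
  sum_nonneg fun _ _ => sq_nonneg _

theorem sq_le_qf (A : ℕ → Op d) {n t : ℕ} (ht : t < n) (v : E d) : ‖coc A t v‖ ^ 2 ≤ qf A n v :=
  single_le_sum (f := fun t => ‖coc A t v‖ ^ 2) (fun _ _ => sq_nonneg _) (mem_range.2 ht)

theorem normsq_le_qf (A : ℕ → Op d) {n : ℕ} (hn : 1 ≤ n) (v : E d) : ‖v‖ ^ 2 ≤ qf A n v :=
  sq_le_qf A (t := 0) hn v

theorem qf_add (A : ℕ → Op d) (s m : ℕ) (v : E d) :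
    qf A (s + m) v = qf A s v + qf (sh s A) m (coc A s v) := by
  simp only [qf, sum_range_add, coc_add]

theorem qf_neg (A : ℕ → Op d) (n : ℕ) (v : E d) : qf A n (-v) = qf A n v := by simp [qf]

theorem continuous_qf (A : ℕ → Op d) (n : ℕ) : Continuous (qf A n) := by
  unfold qf; fun_prop

theorem qf_smul (A : ℕ → Op d) (n : ℕ) (t : ℝ) (v : E d) : qf A n (t • v) = t ^ 2 * qf A n v := by
  simp [qf, mul_sum, norm_smul, mul_pow]

theorem gauge_qf (A : ℕ → Op d) {n : ℕ} (hn : 1 ≤ n) : Gauge (qf A n) :=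
  ⟨(continuous_qf A n).measurable, qf_smul A n, 1, one_pos, fun v => by
    simpa using normsq_le_qf A hn v⟩

theorem gauge_norm : Gauge fun v : E d => ‖v‖ ^ 2 :=
  ⟨by fun_prop, fun t v => by simp [norm_smul, mul_pow], 1, one_pos, fun v => by simp⟩

theorem sol_coc (A : ℕ → Op d) (n : ℕ) (v : E d) : Sol A n (fun _ => 0) fun t => coc A t v :=
  fun t _ => by simp [coc_succ]

theorem Sol.add {A : ℕ → Op d} {n : ℕ} {g y g' y' : ℕ → E d} (h : Sol A n g y)
    (h' : Sol A n g' y') : Sol A n (fun t => g t + g' t) fun t => y t + y' t :=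
  fun t ht => by simp only [h t ht, h' t ht, map_add]; abel

theorem Sol.sub {A : ℕ → Op d} {n : ℕ} {g y g' y' : ℕ → E d} (h : Sol A n g y)
    (h' : Sol A n g' y') : Sol A n (fun t => g t - g' t) fun t => y t - y' t :=
  fun t ht => by simp only [h t ht, h' t ht, map_sub]; abel

theorem Sol.congr {A B : ℕ → Op d} {n : ℕ} {g g' y : ℕ → E d} (h : Sol A n g y)
    (hA : ∀ t, t + 1 < n → A t = B t) (hg : ∀ t, t + 1 < n → g t = g' t) : Sol B n g' y :=
  fun t ht => by rw [h t ht, hA t ht, hg t ht]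

/-- a solution without jumps is a cocycle orbit -/
theorem Sol.eq_coc {A : ℕ → Op d} {n : ℕ} {g y : ℕ → E d} (h : Sol A n g y)
    (hg : ∀ t, t + 1 < n → g t = 0) : ∀ t < n, y t = coc A t (y 0)
  | 0, _ => rfl
  | t + 1, ht => by rw [h t ht, hg t ht, add_zero, coc_succ, Sol.eq_coc h hg t (by omega)]

theorem Green.congr {A B : ℕ → Op d} {n : ℕ} {Γ : ℝ} (h : Green A n Γ)
    (hA : ∀ t, t + 1 < n → A t = B t) : Green B n Γ := fun g =>
  let ⟨y, hy, hn⟩ := h g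
  ⟨y, Sol.congr hy hA fun _ _ => rfl, hn⟩

theorem Green.mono {A : ℕ → Op d} {n : ℕ} {Γ Γ' : ℝ} (h : Green A n Γ) (hΓ : Γ ≤ Γ') :
    Green A n Γ' := fun g =>
  let ⟨y, hy, hn⟩ := h g
  ⟨y, hy, hn.trans (mul_le_mul_of_nonneg_right hΓ (nr_nonneg _ _))⟩

theorem cat_lt {α : Type} {n t : ℕ} (A B : ℕ → α) (h : t < n) : cat n A B t = A t := if_pos h

theorem cat_add {α : Type} (n t : ℕ) (A B : ℕ → α) : cat n A B (n + t) = B t := by
  simp [cat]

theorem sh_cat {α : Type} (n : ℕ) (A B : ℕ → α) : sh n (cat n A B) = B :=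
  funext fun t => cat_add n t A B

theorem qf_cat (n : ℕ) (A B : ℕ → Op d) : qf (cat n A B) n = qf A n :=
  qf_congr fun _ ht => cat_lt A B (by omega)

theorem coc_cat (n : ℕ) (A B : ℕ → Op d) : coc (cat n A B) n = coc A n :=
  coc_congr fun _ ht => cat_lt A B ht

theorem qj_cat (n : ℕ) (A B : ℕ → Op d) (g : E d) :
    qj (cat n A B) n n g = ⨅ v, (qf A n v + qf B n (coc A n v + g)) := by
  rw [qj, qf_cat, sh_cat, coc_cat]

theorem qj_nonneg (A : ℕ → Op d) (s m : ℕ) (g : E d) : 0 ≤ qj A s m g :=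
  Real.iInf_nonneg fun _ => add_nonneg (qf_nonneg _ _ _) (qf_nonneg _ _ _)

theorem qj_le (A : ℕ → Op d) (s m : ℕ) (g v : E d) :
    qj A s m g ≤ qf A s v + qf (sh s A) m (coc A s v + g) :=
  ciInf_le ⟨0, by rintro _ ⟨v, rfl⟩; exact add_nonneg (qf_nonneg _ _ _) (qf_nonneg _ _ _)⟩ v

/-- the splitting identity for Gaussian integrals -/
theorem gI_split (hG : GaussStmt d) (hA : LinAStmt d) (A : ℕ → Op d) {s m : ℕ} (hs : 1 ≤ s)
    (hm : 1 ≤ m) : gI (qf A s) * gI (qf (sh s A) m) = gI (qf A (s + m)) * gI (qj A s m) := by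
  obtain ⟨mm, h⟩ := hA.pyth A s m hs hm
  exact hG.split _ _ _ _ (coc A s) mm (gauge_qf A hs) (gauge_qf _ hm) (gauge_qf A (by omega))
    (hA.gj A s m hs hm) h

theorem Pj.coc {A C : ℕ → Op d} {n : ℕ} (h : Pj A n C) (hn : 1 ≤ n) (v : E d) :
    pj C n (fun t => coc A t v) = v := by
  have h1 := h (fun t => P109.coc A t v) v
  simp only [sub_self, norm_zero, ne_eq, OfNat.ofNat_ne_zero, not_false_eq_true, zero_pow,
    sum_const_zero] at h1
  have h2 := normsq_le_qf A hn (pj C n (fun t => P109.coc A t v) - v)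
  have h3 : 0 ≤ ∑ t ∈ range n,
      ‖P109.coc A t v - P109.coc A t (pj C n fun t => P109.coc A t v)‖ ^ 2 :=
    sum_nonneg fun _ _ => sq_nonneg _
  have h4 : ‖pj C n (fun t => P109.coc A t v) - v‖ ^ 2 ≤ 0 := by linarith
  have h5 : ‖pj C n (fun t => P109.coc A t v) - v‖ = 0 :=
    pow_eq_zero_iff (two_ne_zero) |>.1 (le_antisymm h4 (sq_nonneg _))
  exact sub_eq_zero.1 (norm_eq_zero.1 h5)

section
variable {M : Type} (ch : Ch d M) (S : M → M)

theorem int_mono {r r' : ℝ} (h : r ≤ r') : ch.Int S r' ⊆ ch.Int S r := fun _ hx w hw =>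
  let ⟨a, b, c, e, f, g⟩ := hx w (Metric.ball_subset_ball h hw)
  ⟨a, b, c, e, f, fun w' hw' => g w' (Metric.ball_subset_ball h hw')⟩

theorem norm_A_le (hK : 0 ≤ ch.K) (x : M) : ‖ch.A S x‖ ≤ ch.K := by
  unfold Ch.A; split_ifs with h
  · exact h
  · simpa using hK

theorem A_eq {x : M} {r : ℝ} (hr : 0 < r) (hx : x ∈ ch.Int S r) :
    ch.A S x = fderiv ℝ (ch.F S (ch.lab x)) (ch.c x) :=
  if_pos (hx _ (Metric.mem_ball_self hr)).2.2.2.2.1

theorem ox_shift (x : M) (s : ℕ) : ox S (S^[s] x) = sh s (ox S x) := by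
  funext t; simp only [ox, sh]; rw [add_comm, Function.iterate_add_apply]

theorem AX_shift (x : M) (s : ℕ) : ch.AX S (ox S (S^[s] x)) = sh s (ch.AX S (ox S x)) := by
  rw [ox_shift]; rfl

theorem AX_cat (n : ℕ) (ξ η : ℕ → M) : ch.AX S (cat n ξ η) = cat n (ch.AX S ξ) (ch.AX S η) := by
  funext t; simp only [Ch.AX, cat]; split_ifs <;> rfl

theorem TM_mono (ξ : ℕ → M) (n : ℕ) {r r' : ℝ} (h : r ≤ r') : ch.TM S ξ n r ⊆ ch.TM S ξ n r' :=
  fun _ hz => ⟨hz.1, hz.2.trans_le h⟩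

theorem TM_self (x : M) (n : ℕ) {r : ℝ} (hr : 0 < r) : x ∈ ch.TM S (ox S x) n r :=
  ⟨fun _ _ => ⟨rfl, rfl⟩, by simpa [ox, nr_zero] using hr⟩

theorem TM_symm {x y : M} {n : ℕ} {r : ℝ} (h : x ∈ ch.TM S (ox S y) n r) :
    y ∈ ch.TM S (ox S x) n r :=
  ⟨fun t ht => ⟨(h.1 t ht).1.symm, (h.1 t ht).2.symm⟩, by
    have := h.2; rw [nr_sub_comm] at this; exact this⟩

theorem TM_trans {x y : M} {ξ : ℕ → M} {n : ℕ} {r r' : ℝ} (h : x ∈ ch.TM S (ox S y) n r)
    (h' : y ∈ ch.TM S ξ n r') : x ∈ ch.TM S ξ n (r + r') :=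
  ⟨fun t ht => ⟨(h.1 t ht).1.trans (h'.1 t ht).1, (h.1 t ht).2.trans (h'.1 t ht).2⟩,
    (nr_tri n _ (fun t => ch.c (S^[t] y)) _).trans_lt (add_lt_add h.2 h'.2)⟩

theorem TM_cat {z : M} {ξ η : ℕ → M} {n : ℕ} {r r' : ℝ} (h : z ∈ ch.TM S ξ n r)
    (h' : S^[n] z ∈ ch.TM S η n r') : z ∈ ch.TM S (cat n ξ η) (n + n) (r + r') := by
  refine ⟨fun t ht => ?_, (nr_split_le n n _).trans_lt (add_lt_add ?_ ?_)⟩
  · by_cases h1 : t < n
    · rw [cat_lt _ _ h1]; exact h.1 t h1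
    · obtain ⟨s, rfl⟩ : ∃ s, t = n + s := ⟨t - n, by omega⟩
      rw [cat_add, add_comm n s, Function.iterate_add_apply]; exact h'.1 s (by omega)
  · rw [nr_congr fun t ht => by rw [cat_lt _ _ ht]]; exact h.2
  · refine lt_of_eq_of_lt (nr_congr fun t _ => ?_) h'.2
    simp only [sh]; rw [cat_add, add_comm n t, Function.iterate_add_apply]

theorem TM_of_cat {z : M} {ξ η : ℕ → M} {n : ℕ} {r : ℝ}
    (h : z ∈ ch.TM S (cat n ξ η) (n + n) r) : z ∈ ch.TM S ξ n r ∧ S^[n] z ∈ ch.TM S η n r := by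
  refine ⟨⟨fun t ht => ?_, lt_of_le_of_lt ?_ h.2⟩, fun t ht => ?_, lt_of_le_of_lt ?_ h.2⟩
  · have := h.1 t (by omega); rwa [cat_lt _ _ ht] at this
  · refine le_trans (le_of_eq (nr_congr fun t ht => ?_)) (nr_left_le n n _)
    rw [cat_lt _ _ ht]
  · have := h.1 (n + t) (by omega)
    rwa [cat_add, add_comm n t, Function.iterate_add_apply] at this
  · refine le_trans (le_of_eq (nr_congr fun t _ => ?_)) (nr_right_le n n _)
    simp only [sh]; rw [cat_add, add_comm n t, Function.iterate_add_apply]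

theorem PO_ox {x : M} {n : ℕ} {r : ℝ} (h : ∀ t < n, S^[t] x ∈ ch.Int S r) :
    ch.PO S (ox S x) n r :=
  ⟨h, fun t _ => by simp only [ox]; rw [Function.iterate_succ_apply']⟩

theorem PO_cat {x y : M} {n : ℕ} {r : ℝ} (hx : ∀ t < n, S^[t] x ∈ ch.Int S r)
    (hy : ∀ t < n, S^[t] y ∈ ch.Int S r) (hl : ch.lab (S^[n] x) = ch.lab y) :
    ch.PO S (cat n (ox S x) (ox S y)) (n + n) r := by
  refine ⟨fun t ht => ?_, fun t ht => ?_⟩
  · by_cases h1 : t < n
    · rw [cat_lt _ _ h1]; exact hx t h1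
    · obtain ⟨s, rfl⟩ : ∃ s, t = n + s := ⟨t - n, by omega⟩
      rw [cat_add]; exact hy s (by omega)
  · rcases lt_trichotomy (t + 1) n with h1 | h1 | h1
    · rw [cat_lt _ _ h1, cat_lt _ _ (by omega : t < n)]
      simp only [ox]; rw [Function.iterate_succ_apply']
    · subst h1
      rw [cat_lt _ _ (Nat.lt_succ_self t)]
      have := cat_add (t + 1) 0 (ox S x) (ox S y)
      rw [add_zero] at this; rw [this]
      simp only [ox, Function.iterate_zero, id]; rw [← hl, Function.iterate_succ_apply']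
    · obtain ⟨s, rfl⟩ : ∃ s, t = n + s := ⟨t - n, by omega⟩
      rw [add_assoc, cat_add, cat_add]; simp only [ox]; rw [Function.iterate_succ_apply']

/-- the jumps of a concatenation of two true orbits -/
theorem jumps_cat (x y : M) {n : ℕ} (hn : 1 ≤ n) (t : ℕ) :
    ch.c (S (cat n (ox S x) (ox S y) t)) - ch.c (cat n (ox S x) (ox S y) (t + 1)) =
      jp n (ch.c (S^[n] x) - ch.c y) t := by
  rcases lt_trichotomy (t + 1) n with h1 | h1 | h1
  · rw [cat_lt _ _ h1, cat_lt _ _ (by omega : t < n), jp, if_neg (by omega)]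
    simp only [ox]; rw [Function.iterate_succ_apply', sub_self]
  · subst h1
    rw [cat_lt _ _ (Nat.lt_succ_self t), jp, if_pos rfl]
    have := cat_add (t + 1) 0 (ox S x) (ox S y)
    rw [add_zero] at this; rw [this]
    simp only [ox, Function.iterate_zero, id]; rw [Function.iterate_succ_apply']
  · obtain ⟨s, rfl⟩ : ∃ s, t = n + s := ⟨t - n, by omega⟩
    rw [add_assoc, cat_add, cat_add, jp, if_neg (by omega)]
    simp only [ox]; rw [Function.iterate_succ_apply', sub_self]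

theorem jumps_ox (x : M) (t : ℕ) : ch.c (S (ox S x t)) - ch.c (ox S x (t + 1)) = 0 := by
  simp only [ox]; rw [Function.iterate_succ_apply', sub_self]

end

end Bs
end Vale.Agent.P109
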