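import Vale.Agent.P109.Base

open MeasureTheory Finset
open scoped ENNReal

namespace Vale.Agent.P109
namespace CV

variable {d : ℕ}

theorem shell {V B : Set (E d)} (hc : IsCompact V) (hv : Convex ℝ V) {o : E d} (ho : o ∈ V)
    {l : ℝ} (h0 : 0 ≤ l) (h1 : l ≤ 1) (hB : B ⊆ V)
    (hn : ∀ u ∈ V, (1 - l) • (u - o) + o ∉ B) :
    volume B ≤ ENNReal.ofReal (d * l * volume.real V) := by
  set H := AffineMap.homothety o (1 - l) '' V with hH
  have hHV : H ⊆ V := by
    rintro _ ⟨u, hu, rfl⟩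
    have := hv hu ho (show 0 ≤ 1 - l by linarith) h0 (by ring)
    rw [AffineMap.homothety_apply, vsub_eq_sub, vadd_eq_add]
    have e : (1 - l) • (u - o) + o = (1 - l) • u + l • o := by module
    rwa [e]
  have hHc : IsCompact H := hc.image (AffineMap.homothety_continuous o (1 - l))
  have hsub : B ⊆ V \ H := by
    intro w hw
    refine ⟨hB hw, ?_⟩
    rintro ⟨u, hu, rfl⟩
    exact hn u hu hw
  refine (measure_mono hsub).trans ?_
  rw [measure_sdiff hHV hHc.measurableSet.nullMeasurableSet hHc.measure_lt_top.ne, hH,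
    Measure.addHaar_image_homothety, finrank_euclideanSpace_fin,
    abs_of_nonneg (pow_nonneg (by linarith) _), ← ENNReal.ofReal_toReal hc.measure_lt_top.ne,
    ← ENNReal.ofReal_mul (pow_nonneg (by linarith) _),
    ← ENNReal.ofReal_sub _ (mul_nonneg (pow_nonneg (by linarith) _) ENNReal.toReal_nonneg)]
  refine ENNReal.ofReal_le_ofReal ?_
  have h2 : 1 + (d : ℝ) * (-l) ≤ (1 + -l) ^ d := one_add_mul_le_pow (by linarith) d
  have h3 : (volume V).toReal = volume.real V := rfl
  have h4 : 0 ≤ volume.real V := measureReal_nonneg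
  rw [← sub_eq_add_neg] at h2
  rw [h3]
  nlinarith

theorem triv {V B : Set (E d)} (hc : IsCompact V) (hB : B ⊆ V) {x : ℝ} (hx : volume.real V ≤ x) :
    volume B ≤ ENNReal.ofReal x := by
  refine (measure_mono hB).trans ?_
  rw [← ENNReal.ofReal_toReal hc.measure_lt_top.ne]
  exact ENNReal.ofReal_le_ofReal hx

theorem ann (z : E d) (ρ : ℝ) (hρ : 0 < ρ) : ∃ C : ℝ, 0 ≤ C ∧ ∀ s : ℝ, 0 < s → s ≤ ρ →
    volume {w | ρ - s ≤ dist w z ∧ dist w z ≤ ρ + s} ≤ ENNReal.ofReal (C * s) := by
  set v : ℝ := volume.real (Metric.closedBall z (2 * ρ)) with hv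
  have hv0 : 0 ≤ v := measureReal_nonneg
  have hd : (0 : ℝ) ≤ d := Nat.cast_nonneg d
  refine ⟨(d + 1) * (3 / ρ) * v, by positivity, fun s hs hsρ => ?_⟩
  have e : (d + 1) * (3 / ρ) * v * s = (d + 1) * (3 * s / ρ) * v := by ring
  have hl0 : 0 < 3 * s / ρ := by positivity
  rw [e]
  by_cases h : 1 ≤ 3 * s / ρ
  · refine triv (isCompact_closedBall z (2 * ρ)) (fun w hw => ?_) ?_
    · rw [Metric.mem_closedBall]; linarith [hw.2]
    · rw [← hv]
      have : 1 ≤ ((d : ℝ) + 1) * (3 * s / ρ) := by nlinarith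
      nlinarith
  · have h1 := shell (isCompact_closedBall z (ρ + s)) (convex_closedBall z (ρ + s))
      (B := {w | ρ - s ≤ dist w z ∧ dist w z ≤ ρ + s})
      (Metric.mem_closedBall_self (by linarith)) hl0.le (not_le.1 h).le (fun w hw => hw.2) (by
        intro u hu hw
        have h2 := hw.1
        rw [dist_eq_norm, add_sub_cancel_right, norm_smul, Real.norm_eq_abs,
          abs_of_nonneg (by linarith), ← dist_eq_norm] at h2
        have h3 : dist u z ≤ ρ + s := hu
        have h4 := mul_le_mul_of_nonneg_left h3 (show 0 ≤ 1 - 3 * s / ρ by linarith)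
        have h5 : 3 * s / ρ * ρ = 3 * s := by field_simp
        nlinarith [mul_pos hl0 hs])
    refine h1.trans (ENNReal.ofReal_le_ofReal ?_)
    have h6 : volume.real (Metric.closedBall z (ρ + s)) ≤ v :=
      measureReal_mono (Metric.closedBall_subset_closedBall (by linarith))
        measure_closedBall_lt_top.ne
    have h7 := mul_le_mul_of_nonneg_left h6 (show 0 ≤ (d : ℝ) * (3 * s / ρ) by positivity)
    nlinarith [mul_nonneg hl0.le hv0]

theorem bdy (V : Set (E d)) (z : E d) (ρ : ℝ) (hv : Convex ℝ V) (hcl : IsClosed V)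
    (hne : (interior V).Nonempty) : ∃ C : ℝ, 0 ≤ C ∧ ∀ s : ℝ, 0 < s →
      volume {w | w ∈ V ∧ dist w z ≤ ρ ∧ ¬ Metric.ball w s ⊆ V} ≤ ENNReal.ofReal (C * s) := by
  obtain ⟨o, ho⟩ := hne
  obtain ⟨η, hη, hb⟩ := Metric.mem_nhds_iff.1 (mem_interior_iff_mem_nhds.1 ho)
  set V' := V ∩ Metric.closedBall o (|ρ| + dist z o) with hV'
  have hc : IsCompact V' := (isCompact_closedBall o _).inter_left hcl
  have hv' : Convex ℝ V' := hv.inter (convex_closedBall _ _)
  have ho' : o ∈ V' := ⟨interior_subset ho, Metric.mem_closedBall_self (by positivity)⟩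
  set v : ℝ := volume.real V' with hvd
  have hv0 : 0 ≤ v := measureReal_nonneg
  have hd : (0 : ℝ) ≤ d := Nat.cast_nonneg d
  refine ⟨(d + 1) * (1 / η) * v, by positivity, fun s hs => ?_⟩
  have e : (d + 1) * (1 / η) * v * s = (d + 1) * (s / η) * v := by ring
  have hl0 : 0 < s / η := by positivity
  have hsub : {w | w ∈ V ∧ dist w z ≤ ρ ∧ ¬ Metric.ball w s ⊆ V} ⊆ V' := fun w hw =>
    ⟨hw.1, by
      rw [Metric.mem_closedBall]
      linarith [dist_triangle w z o, hw.2.1, le_abs_self ρ]⟩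
  rw [e]
  by_cases h : 1 ≤ s / η
  · refine triv hc hsub ?_
    have : 1 ≤ ((d : ℝ) + 1) * (s / η) := by nlinarith
    nlinarith
  · have h1 := shell hc hv' ho' hl0.le (not_le.1 h).le hsub (by
      intro u hu hw
      refine hw.2.2 fun x hx => ?_
      have h2 : o + (s / η)⁻¹ • (x - ((1 - s / η) • (u - o) + o)) ∈ V := by
        refine hb ?_
        rw [mem_ball_iff_norm] at hx ⊢
        rw [add_sub_cancel_left, norm_smul, Real.norm_eq_abs, abs_of_pos (inv_pos.2 hl0),
          inv_mul_lt_iff₀ hl0, div_mul_cancel₀ _ hη.ne']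
        exact hx
      have h3 := hv hu.1 h2 (show 0 ≤ 1 - s / η by linarith) hl0.le (by ring)
      have e2 : (1 - s / η) • u + (s / η) • (o + (s / η)⁻¹ • (x - ((1 - s / η) • (u - o) + o))) =
          x := by
        rw [smul_add, smul_smul, mul_inv_cancel₀ hl0.ne', one_smul]
        module
      rwa [e2] at h3)
    refine h1.trans (ENNReal.ofReal_le_ofReal ?_)
    nlinarith [mul_nonneg hl0.le hv0]

end CV

theorem chVolStmt (d : ℕ) : ChVolStmt d where
  ann := CV.ann
  bdy := CV.bdy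

end Vale.Agent.P109
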