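import Mathlib

open MeasureTheory
open scoped ENNReal Manifold ContDiff

namespace Vale.Agent.P109

/-- Shannon entropy of the partition of `X` into the `n`-names `(P x, P (T x), …, P (T^(n-1) x))`. -/
noncomputable def nameEnt {X : Type} [MeasurableSpace X] (μ : Measure X) (T : X → X) {k : ℕ}
    (P : X → Fin k) (n : ℕ) : ℝ :=
  ∑ a : Fin n → Fin k, Real.negMulLog (μ.real {x | ∀ i : Fin n, P (T^[i] x) = a i})

/-- Kolmogorov-Sinai entropy: the supremum over finite measurable partitions of the entropy rate. -/
noncomputable def ksEnt {X : Type} [MeasurableSpace X] (μ : Measure X) (T : X → X) : ℝ≥0∞ :=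
  ⨆ (k : ℕ) (P : X → Fin k) (_ : Measurable P),
    Filter.limsup (fun n : ℕ => ENNReal.ofReal (nameEnt μ T P n / n)) Filter.atTop

/-- `(X, μ)` is isomorphic modulo null sets to `[0,1]` with Lebesgue measure. -/
def IsoUnit {X : Type} [MeasurableSpace X] (μ : Measure X) : Prop :=
  ∃ (f : X → unitInterval) (g : unitInterval → X),
    MeasurePreserving f μ volume ∧ MeasurePreserving g volume μ ∧
      (∀ᵐ x ∂μ, g (f x) = x) ∧ (∀ᵐ y ∂(volume : Measure unitInterval), f (g y) = y)

/-- In every chart, `ν` is Lebesgue measure times a strictly positive density that is smooth up to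
the boundary. -/
def SmoothPos {d : ℕ} {H : Type} [TopologicalSpace H]
    (I : ModelWithCorners ℝ (EuclideanSpace ℝ (Fin d)) H) {M : Type} [TopologicalSpace M]
    [ChartedSpace H M] [MeasurableSpace M] (ν : Measure M) : Prop :=
  ∀ x : M, ∃ f : EuclideanSpace ℝ (Fin d) → ℝ,
    ContDiffOn ℝ ∞ f (extChartAt I x).target ∧ (∀ w ∈ (extChartAt I x).target, 0 < f w) ∧
      (ν.restrict (extChartAt I x).source).map (extChartAt I x) =
        (volume.restrict (extChartAt I x).target).withDensity fun w => ENNReal.ofReal (f w)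

/-- `(X, μ, T)` is a measurable factor of a smooth diffeomorphism `S` of a compact smooth manifold
(with or without boundary) preserving a probability measure with smooth positive density. -/
def SmoothFactor {X : Type} [MeasurableSpace X] (μ : Measure X) (T : X → X) : Prop :=
  ∃ (d : ℕ) (H : Type) (_ : TopologicalSpace H)
    (I : ModelWithCorners ℝ (EuclideanSpace ℝ (Fin d)) H)
    (M : Type) (_ : TopologicalSpace M) (_ : ChartedSpace H M) (_ : IsManifold I ∞ M)
    (_ : CompactSpace M) (_ : T2Space M) (_ : MeasurableSpace M) (_ : BorelSpace M)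
    (ν : Measure M) (_ : IsProbabilityMeasure ν) (S : Diffeomorph I I M M ∞) (G : M → X),
    SmoothPos I ν ∧ MeasurePreserving S ν ν ∧ AEMeasurable G ν ∧ ν.map G = μ ∧
      ∀ᵐ y ∂ν, G (S y) = T (G y)

end Vale.Agent.P109
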