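import Vale.Agent.P109.Main

open MeasureTheory
open scoped ENNReal

namespace Vale.Agent.P109

theorem final_of (hCode : CodeStmt) (hA : SysAStmt) (hB : SysBStmt) (hTw : TowerStmt)
    (hErg : ErgStmt) (hEnt : EntStmt) (hIso : IsoStmt) (hPull : PullStmt) (hChart : ChartStmt)
    (hMain : MainStmt) :
    ∃ (X : Type) (_ : MeasurableSpace X) (μ : Measure X) (T : X ≃ᵐ X),
      StandardBorelSpace X ∧ IsProbabilityMeasure μ ∧ IsoUnit μ ∧ Ergodic T μ ∧ ksEnt μ T < ⊤ ∧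
        ¬ SmoothFactor μ T := by
  obtain ⟨c, hc⟩ := hCode
  obtain ⟨X0, _, μ0, hμ0, ⟨t0⟩⟩ := hA c hc
  obtain ⟨X, mX, hX, μ, T, t, hμ, hT, hgen⟩ := hB c hc X0 μ0 hμ0 t0
  have hf := hTw c X μ T t hc hμ hT
  obtain ⟨herg, hna⟩ := hErg c X μ T t hc hμ hT hf hgen
  refine ⟨X, mX, μ, T, hX, hμ, hIso X μ, herg, hEnt c X μ T t hc hμ hT hf hgen, ?_⟩
  rintro ⟨d, H, _, I, M, _, _, _, _, _, _, _, ν, _, S, G, h1, h2, h3, h4, h5⟩
  obtain ⟨ch, hch⟩ := hChart d H I M ν S S.contMDiff h1 h2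
  obtain ⟨t'⟩ := hPull c X M μ ν T S G t T.measurable h2 h3 h4 h5
  exact hMain c d M ν S ch hc hch t'

end Vale.Agent.P109
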