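import Vale.Agent.P109.Base

/-! Module LinA: projections and the quotient form. -/

open Finset
open scoped InnerProductSpace

namespace Vale.Agent.P109

namespace LinAm

open Bs ContinuousLinearMap

variable {d : ℕ}

theorem proj (A : ℕ → Op d) (n : ℕ) (hn : 1 ≤ n) : ∃ C, Pj A n C := by
  let Q : Op d := ∑ t ∈ range n, (adjoint (coc A t)).comp (coc A t)
  have hQ : ∀ v w, ⟪Q v, w⟫_ℝ = ∑ t ∈ range n, ⟪coc A t v, coc A t w⟫_ℝ := fun v w => by
    simp only [Q, ContinuousLinearMap.sum_apply, sum_inner, comp_apply, adjoint_inner_left]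
  have inj : Function.Injective Q.toLinearMap := (injective_iff_map_eq_zero _).2 fun v hv => by
    have h1 := hQ v v
    have h2 := normsq_le_qf A hn v
    rw [show Q v = 0 from hv, inner_zero_left] at h1
    simp only [real_inner_self_eq_norm_sq] at h1
    rw [qf, ← h1] at h2
    exact norm_eq_zero.1 (pow_eq_zero_iff two_ne_zero |>.1 (le_antisymm h2 (sq_nonneg _)))
  let e := (LinearEquiv.ofInjectiveEndo Q.toLinearMap inj).toContinuousLinearEquiv
  refine ⟨fun t => (e.symm : Op d).comp (adjoint (coc A t)), fun y v => ?_⟩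
  set p := pj (fun t => (e.symm : Op d).comp (adjoint (coc A t))) n y with hp
  have h1 : Q p = ∑ t ∈ range n, adjoint (coc A t) (y t) := by
    rw [hp, pj]
    simp only [comp_apply, ← map_sum]
    exact e.apply_symm_apply _
  have h2 : ∑ t ∈ range n, ⟪coc A t (p - v), y t - coc A t p⟫_ℝ = 0 := by
    have := hQ p (p - v)
    rw [h1, sum_inner] at this
    simp only [adjoint_inner_left] at this
    simp only [real_inner_comm _ (coc A _ (p - v))]
    simp only [inner_sub_left, sum_sub_distrib]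
    rw [this, sub_self]
  have h3 : ∀ t, ‖y t - coc A t v‖ ^ 2 = ‖coc A t (p - v)‖ ^ 2 +
      2 * ⟪coc A t (p - v), y t - coc A t p⟫_ℝ + ‖y t - coc A t p‖ ^ 2 := fun t => by
    rw [← norm_add_sq_real, map_sub]; congr 2; abel
  simp only [h3, sum_add_distrib, ← mul_sum, h2, qf, mul_zero, add_zero]

/-- the trajectory with initial value `v` and one jump `g` -/
noncomputable def tr (A : ℕ → Op d) (s : ℕ) (v g : E d) (t : ℕ) : E d :=
  if t < s then coc A t v else coc (sh s A) (t - s) (coc A s v + g)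

theorem tr_sq (A : ℕ → Op d) (s m : ℕ) (v g : E d) : ∑ t ∈ range (s + m), ‖tr A s v g t‖ ^ 2 =
    qf A s v + qf (sh s A) m (coc A s v + g) := by
  rw [sum_range_add, qf, qf]
  congr 1
  · exact sum_congr rfl fun t ht => by rw [tr, if_pos (mem_range.1 ht)]
  · exact sum_congr rfl fun t _ => by rw [tr, if_neg (by omega), Nat.add_sub_cancel_left]

theorem tr_eq (A : ℕ → Op d) (s : ℕ) (v g : E d) (t : ℕ) :
    tr A s v g t = coc A t v + tr A s 0 g t := by
  unfold tr
  split_ifs with h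
  · simp
  · obtain ⟨k, rfl⟩ := Nat.exists_eq_add_of_le (not_lt.1 h)
    simp [coc_add]

theorem tr_sol (A : ℕ → Op d) (s n : ℕ) (v g : E d) : Sol A n (jp s g) (tr A s v g) := by
  intro t _
  unfold tr jp
  rcases lt_trichotomy (t + 1) s with h | h | h
  · rw [if_pos h, if_pos (by omega), if_neg h.ne, add_zero, coc_succ]
  · subst h
    simp [coc_succ]
  · obtain ⟨k, rfl⟩ := Nat.exists_eq_add_of_le (Nat.lt_succ_iff.1 h)
    rw [if_neg (by omega), if_neg (by omega), if_neg (by omega), add_zero, add_assoc,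
      Nat.add_sub_cancel_left, Nat.add_sub_cancel_left, coc_succ]
    rfl

theorem sol_uniq {A : ℕ → Op d} {n : ℕ} {g y z : ℕ → E d} (hy : Sol A n g y) (hz : Sol A n g z)
    (h0 : y 0 = z 0) : ∀ t < n, y t = z t
  | 0, _ => h0
  | t + 1, ht => by rw [hy t ht, hz t ht, sol_uniq hy hz h0 t (by omega)]

noncomputable def trL (A : ℕ → Op d) (s t : ℕ) : Op d := if t < s then 0 else coc (sh s A) (t - s)

theorem tr_zero (A : ℕ → Op d) (s : ℕ) (g : E d) (t : ℕ) : tr A s 0 g t = trL A s t g := by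
  unfold tr trL; split_ifs <;> simp

theorem pyth (A : ℕ → Op d) (s m : ℕ) (hs : 1 ≤ s) : ∃ mm : Op d, ∀ g,
    qj A s m g = qf A s (mm g) + qf (sh s A) m (coc A s (mm g) + g) ∧ ∀ v,
    qf A s v + qf (sh s A) m (coc A s v + g) = qf A (s + m) (v - mm g) + qj A s m g := by
  obtain ⟨C, hC⟩ := proj A (s + m) (by omega)
  refine ⟨-∑ t ∈ range (s + m), (C t).comp (trL A s t), fun g => ?_⟩
  set p := (-∑ t ∈ range (s + m), (C t).comp (trL A s t) : Op d) g with hp
  have e : pj C (s + m) (fun t => -tr A s 0 g t) = p := by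
    simp [hp, pj, tr_zero, ContinuousLinearMap.sum_apply]
  have h : ∀ v, qf A s v + qf (sh s A) m (coc A s v + g) = qf A (s + m) (v - p) +
      ∑ t ∈ range (s + m), ‖-tr A s 0 g t - coc A t p‖ ^ 2 := fun v => by
    have := hC (fun t => -tr A s 0 g t) v
    rw [e, ← qf_neg, neg_sub] at this
    rw [← this, ← tr_sq]
    exact sum_congr rfl fun t _ => by rw [tr_eq, ← norm_neg]; congr 2; abel
  have hp0 := h p
  rw [sub_self, show qf A (s + m) 0 = 0 by simp [qf], zero_add] at hp0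
  have hq : qj A s m g = qf A s p + qf (sh s A) m (coc A s p + g) :=
    le_antisymm (qj_le A s m g p) (le_ciInf fun v => by
      rw [h v, hp0]; exact le_add_of_nonneg_left (qf_nonneg _ _ _))
  exact ⟨hq, fun v => by rw [h v, hq, hp0]⟩

theorem ex (A : ℕ → Op d) (s m : ℕ) (hs : 1 ≤ s) (g : E d) :
    ∃ y, Sol A (s + m) (jp s g) y ∧ nr (s + m) y ^ 2 = qj A s m g := by
  obtain ⟨mm, h⟩ := pyth A s m hs
  exact ⟨_, tr_sol A s _ (mm g) g, by rw [nr_sq, tr_sq, (h g).1]⟩

theorem le (A : ℕ → Op d) (s m : ℕ) (hs : 1 ≤ s) (g : E d) (y : ℕ → E d)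
    (hy : Sol A (s + m) (jp s g) y) : qj A s m g ≤ nr (s + m) y ^ 2 := by
  rw [nr_congr (sol_uniq hy (tr_sol A s _ (y 0) g) (by rw [tr, if_pos (by omega)]; rfl)), nr_sq,
    tr_sq]
  exact qj_le A s m g _

theorem tri (A : ℕ → Op d) (s m : ℕ) (hs : 1 ≤ s) (g g' : E d) :
    √(qj A s m (g + g')) ≤ √(qj A s m g) + √(qj A s m g') := by
  obtain ⟨y, hy, e⟩ := ex A s m hs g
  obtain ⟨y', hy', e'⟩ := ex A s m hs g'
  have := le A s m hs (g + g') _ (Sol.congr (Sol.add hy hy') (fun _ _ => rfl) fun t _ => by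
    unfold jp; split_ifs <;> simp)
  rw [← e, ← e', Real.sqrt_sq (nr_nonneg _ _), Real.sqrt_sq (nr_nonneg _ _)]
  exact (Real.sqrt_le_iff.2 ⟨nr_nonneg _ _, this⟩).trans (nr_add _ _ _)

theorem lowK (A : ℕ → Op d) (s m : ℕ) (K : ℝ) (hs : 1 ≤ s) (hm : 1 ≤ m) (hK : 0 ≤ K)
    (hA : ‖A (s - 1)‖ ≤ K) (g : E d) : ‖g‖ ^ 2 ≤ (K + 1) ^ 2 * qj A s m g := by
  obtain ⟨y, hy, e⟩ := ex A s m hs g
  have h1 := hy (s - 1) (by omega)
  rw [jp, if_pos (by omega)] at h1
  have h2 : ‖g‖ ≤ (K + 1) * nr (s + m) y := by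
    rw [show g = y (s - 1 + 1) - A (s - 1) (y (s - 1)) by rw [h1]; abel]
    have a1 := norm_le_nr (n := s + m) (t := s - 1 + 1) y (by omega)
    have a2 := norm_le_nr (n := s + m) (t := s - 1) y (by omega)
    have a3 := ((A (s - 1)).le_opNorm (y (s - 1))).trans (mul_le_mul hA a2 (norm_nonneg _) hK)
    linarith [norm_sub_le (y (s - 1 + 1)) (A (s - 1) (y (s - 1)))]
  rw [← e, ← mul_pow]
  exact pow_le_pow_left₀ (norm_nonneg _) h2 2

theorem gj (A : ℕ → Op d) (s m : ℕ) (hs : 1 ≤ s) (hm : 1 ≤ m) : Gauge (qj A s m) := by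
  obtain ⟨mm, h⟩ := pyth A s m hs
  refine ⟨?_, fun t g => ?_, ((‖A (s - 1)‖ + 1) ^ 2)⁻¹, by positivity, fun g => ?_⟩
  · rw [funext fun g => (h g).1]
    exact (((continuous_qf A s).comp mm.continuous).add
      ((continuous_qf _ m).comp (by fun_prop))).measurable
  · rw [(h _).1, (h g).1, map_smul, map_smul, ← smul_add, qf_smul, qf_smul, mul_add]
  · rw [inv_mul_le_iff₀ (by positivity)]
    exact lowK A s m _ hs hm (norm_nonneg _) le_rfl g

end LinAm

open LinAm in
theorem linAStmt (d : ℕ) : LinAStmt d where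
  proj := proj
  gj := gj
  pyth A s m hs _ := let ⟨mm, h⟩ := pyth A s m hs; ⟨mm, fun v g => (h g).2 v⟩
  tri A s m hs _ := tri A s m hs
  sub A s m hs hm g g' := by
    have h1 := tri A s m hs g ((-1 : ℝ) • g')
    rw [(gj A s m hs hm).hom, neg_one_smul, ← sub_eq_add_neg, neg_one_sq, one_mul] at h1
    have h2 := pow_le_pow_left₀ (Real.sqrt_nonneg _) h1 2
    have h3 := Real.sq_sqrt (Bs.qj_nonneg A s m g)
    have h4 := Real.sq_sqrt (Bs.qj_nonneg A s m g')
    rw [Real.sq_sqrt (Bs.qj_nonneg A s m _)] at h2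
    nlinarith [sq_nonneg (√(qj A s m g) - √(qj A s m g'))]
  lowK := lowK
  ex A s m hs _ := ex A s m hs
  le A s m hs _ := le A s m hs

end Vale.Agent.P109
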