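import Vale.Agent.P109.Base

open MeasureTheory Finset
open scoped ENNReal

namespace Vale.Agent.P109
namespace Mn

theorem ce_nonneg {M Z Y : Type} [MeasurableSpace M] [Fintype Z] {P : Measure M} {z : M → Z}
    {y : M → Y} {b : ℝ} (h : CE P z y b) : 0 ≤ b := by
  obtain ⟨κ, h0, h1, _, h3⟩ := h
  refine le_trans (integral_nonneg fun x => ?_) h3
  have : κ (z x) (y x) ≤ 1 :=
    (single_le_sum (f := fun a => κ a (y x)) (fun a _ => h0 a _) (mem_univ _)).trans (h1 _)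
  simpa using Real.log_nonpos (h0 _ _) this

theorem ce_mono {M Z Y : Type} [MeasurableSpace M] [Fintype Z] {P : Measure M} {z : M → Z}
    {y : M → Y} {b b' : ℝ} (h : CE P z y b) (hb : b ≤ b') : CE P z y b' :=
  let ⟨κ, h0, h1, h2, h3⟩ := h
  ⟨κ, h0, h1, h2, h3.trans hb⟩

theorem six_le (j : ℕ) (hj : 5 ≤ j) : 6 * j ≤ 2 ^ j := by
  induction j, hj using Nat.le_induction with
  | base => norm_num
  | succ j hj ih => rw [pow_succ]; omega

theorem num1 {D l k : ℕ} (hD : D ≤ l) (h5 : 5 ≤ l) (hk : 4 * l ≤ k) :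
    D * (l * 2 ^ k) ≤ 2 ^ 2 ^ (k - 3 * l) := by
  obtain ⟨j, rfl⟩ : ∃ j, k = j + 3 * l := ⟨k - 3 * l, by omega⟩
  rw [Nat.add_sub_cancel]
  have h1 : l ≤ 2 ^ j := (Nat.lt_two_pow_self.le).trans (Nat.pow_le_pow_right two_pos (by omega))
  calc D * (l * 2 ^ (j + 3 * l)) ≤ 2 ^ j * (2 ^ j * 2 ^ (4 * j)) :=
        Nat.mul_le_mul (hD.trans h1)
          (Nat.mul_le_mul h1 (Nat.pow_le_pow_right two_pos (by omega)))
    _ = 2 ^ (6 * j) := by rw [← pow_add, ← pow_add]; congr 1; ring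
    _ ≤ _ := Nat.pow_le_pow_right two_pos (six_le j (by omega))

theorem num2 {C l k σ : ℕ} (hl : 36 * C + 8 ≤ l) (hσ : 1 ≤ σ) (hk : 4 * l ≤ k) :
    4 + 36 * C * 2 ^ (k - l) + σ * 2 ^ (k - 3 * l) ≤ σ * 2 ^ (k - 3) := by
  have h1 : k - 3 = (k - l) + (l - 3) := by omega
  have h2 : 36 * C + 5 ≤ 2 ^ (l - 3) := le_trans (by omega) (Nat.lt_two_pow_self (n := l - 3)).le
  have h3 : 2 ^ (k - 3 * l) ≤ 2 ^ (k - l) := Nat.pow_le_pow_right two_pos (by omega)
  have h4 : 1 ≤ 2 ^ (k - l) := Nat.one_le_two_pow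
  rw [h1, pow_add]
  set y := 2 ^ (k - l)
  have h5 : y ≤ σ * y := Nat.le_mul_of_pos_left _ hσ
  calc 4 + 36 * C * y + σ * 2 ^ (k - 3 * l) ≤ 4 * (σ * y) + 36 * C * (σ * y) + σ * y := by
        gcongr; omega
    _ = σ * (y * (36 * C + 5)) := by ring
    _ ≤ _ := by gcongr

theorem num3 {K K' D n Y : ℝ} (hK : 1 ≤ K) (hK' : 1 ≤ K') (hD2 : 201 * K + K' ≤ D) (hD3 : 32 ≤ D)
    (hn : 1 ≤ n) (hDY : D * n ≤ Y) :
    (n + n) * ((n + n) * (K * (201 * (1 / Y ^ 8)) + K' * (1 / Y ^ 8) * Y ^ 5)) ≤ 1 / 8 := by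
  have hY1 : 1 ≤ Y := by nlinarith
  have hY0 : 0 < Y := by linarith
  have h8 : K * (201 * (1 / Y ^ 8)) + K' * (1 / Y ^ 8) * Y ^ 5 ≤ D / Y ^ 3 := by
    have h9 : 1 / Y ^ 8 ≤ 1 / Y ^ 3 :=
      one_div_le_one_div_of_le (by positivity) (pow_le_pow_right₀ hY1 (by norm_num))
    have h11 : K' * (1 / Y ^ 8) * Y ^ 5 = K' * (1 / Y ^ 3) := by field_simp
    rw [h11]
    calc _ ≤ K * (201 * (1 / Y ^ 3)) + K' * (1 / Y ^ 3) := by gcongr
      _ = (201 * K + K') / Y ^ 3 := by ring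
      _ ≤ _ := by gcongr
  calc _ ≤ (n + n) * ((n + n) * (D / Y ^ 3)) := by gcongr
    _ = 4 * (D * n * n) / Y ^ 3 := by ring
    _ ≤ 1 / 8 := by
        rw [div_le_div_iff₀ (by positivity) (by norm_num)]
        have h12 : 32 * n ≤ Y := by nlinarith
        have h13 : Y ^ 2 ≤ Y ^ 3 := pow_le_pow_right₀ hY1 (by norm_num)
        have h14 : D * n * (32 * n) ≤ Y * Y := mul_le_mul hDY h12 (by positivity) hY0.le
        nlinarith

theorem pre_le {M : Type} [MeasurableSpace M] {ν : Measure M} {S : M → M}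
    (hS : MeasurePreserving S ν ν) (t : ℕ) (B : Set M) : ν (S^[t] ⁻¹' B) ≤ ν B := by
  calc ν (S^[t] ⁻¹' B) ≤ ν (S^[t] ⁻¹' toMeasurable ν B) :=
        measure_mono (Set.preimage_mono (subset_toMeasurable ν B))
    _ = ν B := by
        rw [(hS.iterate t).measure_preimage (measurableSet_toMeasurable ν B).nullMeasurableSet,
          measure_toMeasurable]

theorem margin {d : ℕ} {M : Type} [MeasurableSpace M] {ν : Measure M} {S : M → M} {ch : Ch d M}
    {gr : Gr M} (hch : ch.Ok ν S) (hgr : gr.Ok ch ν S) (P : Measure M) (h : ℕ)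
    (hP : P ≤ (h : ℝ≥0∞) • ν) (i : ℕ) {r : ℝ} (hr : 0 < r) :
    P.real {x | ∃ t < h, S^[t] x ∉ ch.Int S (201 * r) ∨ S^[t] x ∉ gr.Mg ch S i r} ≤
      h * (h * (ch.K * (201 * r) + gr.K * r * 2 ^ i)) := by
  have hK := hch.oneK
  have hK' := hgr.oneK
  have h1 : ν {x | ∃ t < h, S^[t] x ∉ ch.Int S (201 * r) ∨ S^[t] x ∉ gr.Mg ch S i r} ≤
      ENNReal.ofReal (h * (ch.K * (201 * r) + gr.K * r * 2 ^ i)) := by
    calc _ ≤ ν (⋃ t ∈ range h, S^[t] ⁻¹' ((ch.Int S (201 * r))ᶜ ∪ (gr.Mg ch S i r)ᶜ)) := by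
          refine measure_mono fun x ⟨t, ht, hx⟩ => ?_
          simp only [Set.mem_iUnion]
          exact ⟨t, mem_range.2 ht, hx⟩
      _ ≤ ∑ t ∈ range h, ν (S^[t] ⁻¹' ((ch.Int S (201 * r))ᶜ ∪ (gr.Mg ch S i r)ᶜ)) :=
          measure_biUnion_finset_le _ _
      _ ≤ ∑ _t ∈ range h, ENNReal.ofReal (ch.K * (201 * r) + gr.K * r * 2 ^ i) := by
          refine sum_le_sum fun t _ => (pre_le hch.mS t _).trans ((measure_union_le _ _).trans ?_)
          rw [ENNReal.ofReal_add (by positivity) (by positivity)]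
          exact add_le_add (hch.int _ (by positivity)) (hgr.mar i r hr)
      _ = _ := by
          rw [sum_const, card_range, nsmul_eq_mul, ENNReal.ofReal_mul (by positivity),
            ENNReal.ofReal_natCast]
  refine ENNReal.toReal_le_of_le_ofReal (by positivity) ?_
  refine (hP _).trans ?_
  rw [Measure.smul_apply, smul_eq_mul, ENNReal.ofReal_mul (by positivity), ENNReal.ofReal_natCast]
  gcongr

theorem hd_half {M : Type} (gr : Gr M) (S : M → M) (i : ℕ) {n n' : ℕ} (hn : n' = n + n) {x x' : M}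
    (h : gr.hd S i n' x = gr.hd S i n' x') :
    gr.hd S i n x = gr.hd S i n x' ∧ gr.hd S i n (S^[n] x) = gr.hd S i n (S^[n] x') := by
  refine ⟨funext fun t => congrFun h ⟨t, by omega⟩, funext fun t => ?_⟩
  have := congrFun h ⟨t + n, by omega⟩
  simpa only [Gr.hd, Function.iterate_add_apply] using this

theorem meas_hd {d : ℕ} {M : Type} [MeasurableSpace M] {ν : Measure M} {S : M → M} {ch : Ch d M}
    {gr : Gr M} (hch : ch.Ok ν S) (hgr : gr.Ok ch ν S) (i n : ℕ) : Measurable (gr.hd S i n) :=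
  measurable_pi_lambda _ fun t => (hgr.meas i).comp (hch.mS.measurable.iterate t)

/-- one constrained step -/
theorem gain_step (hLift : LiftStmt) {c : Code} {d : ℕ} {M : Type} [MeasurableSpace M]
    {ν : Measure M} {S : M → M} {ch : Ch d M} {gr : Gr M} (hch : ch.Ok ν S) (hgr : gr.Ok ch ν S)
    {t : Tw c ν S} (hf : TwFacts t) {C D : ℕ} (hC : 1 ≤ C) (hGeo : Geo ch gr ν S C) {κ : ℝ}
    (hGr : ∀ (x : M) (n : ℕ) (y : ℝ), (∀ s m, 1 ≤ s → 1 ≤ m → s + m = n →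
        ch.phi S x s + ch.phi S (S^[s] x) m - ch.phi S x (s + m) ≤ y) →
        Green (ch.AX S (ox S x)) n (n * (κ * Real.exp y)))
    (hD1 : 2 * κ ≤ D) (hD2 : 201 * ch.K + gr.K ≤ D) (hD3 : 32 ≤ D) (hD4 : 2 * (C + 1) ≤ D)
    {l σ k N : ℕ} (hDl : D ≤ l) (hCl : 36 * C + 8 ≤ l) (hσ : 2 ≤ σ) (hk : 4 * l ≤ k)
    (hN : c.h N = l * 2 ^ k) (hR : c.R N = 2)
    (hinj : Function.Injective fun x => (c.sub N x 0, c.sub N x 1))
    (hmix : Mix (univ.image fun x => (c.sub N x 0, c.sub N x 1))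
      (1 / 2 ^ (σ * 2 ^ (k - 3 * l))) (1 / 2 ^ (σ * 2 ^ (k - 3)))) {b : ℝ}
    (hb : CE (t.P N) (t.w N) (gr.hd S (5 * 2 ^ (k - l)) (c.h N)) b) :
    CE (t.P (N + 1)) (t.w (N + 1)) (gr.hd S (5 * 2 ^ (k + 1 - l)) (c.h (N + 1)))
      (2 * b + (5 / 8 - (t.P (N + 1)).real {x | ∃ s m, 1 ≤ s ∧ 1 ≤ m ∧
        s + m = l * 2 ^ k + l * 2 ^ k ∧
        (2 : ℝ) ^ (k - l) < ch.phi S x s + ch.phi S (S^[s] x) m - ch.phi S x (s + m)}) *
        -((σ * 2 ^ (k - 3 * l - 1) : ℕ) * Real.log 2) + 1) := by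
  have := hch.prob
  have := hf.prob N
  have := hf.prob (N + 1)
  have hK := hch.oneK
  have hK' := hgr.oneK
  set n := c.h N with hn
  have hn1 : 1 ≤ n := by rw [hN]; exact Nat.mul_pos (by omega) (by positivity)
  have hN1 : c.h (N + 1) = n + n := by rw [Code.h, hR]; omega
  set y := 2 ^ (k - l) with hy
  have hy1 : 2 ^ (k + 1 - l) = 2 * y := by
    rw [hy, show k + 1 - l = (k - l) + 1 by omega, pow_succ, mul_comm]
  have hnum : D * n ≤ 2 ^ 2 ^ (k - 3 * l) := by rw [hN]; exact num1 hDl (by omega) hk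
  have hnumY : D * n ≤ 2 ^ y :=
    hnum.trans (Nat.pow_le_pow_right two_pos (Nat.pow_le_pow_right two_pos (by omega)))
  set Y : ℝ := 2 ^ y with hY
  have hDY : (D : ℝ) * n ≤ Y := by rw [hY]; exact_mod_cast hnumY
  have hn1' : (1 : ℝ) ≤ n := by exact_mod_cast hn1
  have hD3' : (32 : ℝ) ≤ D := by exact_mod_cast hD3
  have hD4' : 2 * ((C : ℝ) + 1) ≤ D := by exact_mod_cast hD4
  have hC' : (1 : ℝ) ≤ C := by exact_mod_cast hC
  have hY1 : 1 ≤ Y := by nlinarith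
  have hY0 : 0 < Y := by linarith
  have hCn : (C : ℝ) * n ≤ Y := by nlinarith
  have hCY : (C : ℝ) ≤ Y := by nlinarith
  have hr : 0 < 1 / Y ^ 8 := by positivity
  have h10 : (2 : ℝ) ^ (5 * (2 * y)) = Y ^ 10 := by rw [hY, ← pow_mul]; congr 1; ring
  have h5 : (2 : ℝ) ^ (5 * y) = Y ^ 5 := by rw [hY, ← pow_mul]; congr 1; ring
  have hYY : Y ≤ Y ^ 2 := by nlinarith
  obtain ⟨J, Gd, U, V, c1, c2, Θ, cs, hJ, hcs, hGd, hFin⟩ := hGeo n (Y ^ 3) (1 / Y ^ 8) (5 * y)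
    (5 * (2 * y)) hn1 (one_le_pow₀ hY1) hr (by omega)
    (by
      have : (C : ℝ) * n * (1 / Y ^ 8) * (Y ^ 3) ^ 2 = C * n / Y ^ 2 := by field_simp
      rw [this, div_le_one (by positivity)]; linarith)
    (by
      have : 1 / Y ^ 8 * Y ^ 10 = Y ^ 2 := by field_simp
      rw [h10, this]; linarith)
  rw [hy1]
  set β := (t.P (N + 1)).real {x | ∃ s m, 1 ≤ s ∧ 1 ≤ m ∧ s + m = l * 2 ^ k + l * 2 ^ k ∧
        (2 : ℝ) ^ (k - l) < ch.phi S x s + ch.phi S (S^[s] x) m - ch.phi S x (s + m)} with hβ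
  set t2 := σ * 2 ^ (k - 3 * l - 1) with ht2
  have ht : σ * 2 ^ (k - 3 * l) = t2 + t2 := by
    rw [ht2, show k - 3 * l = (k - 3 * l - 1) + 1 by omega, pow_succ]; simp only [Nat.add_sub_cancel]
    ring
  have key := hLift.gain M ν S^[n] (t.P N) (t.P (N + 1)) _ _ (t.w N) (t.w (N + 1))
    (fun x => (c.sub N x 0, c.sub N x 1)) n _ _ (c.h (N + 1)) _ (gr.hd S (5 * y) n)
    (gr.hd S (5 * (2 * y)) n) (gr.hd S (5 * (2 * y)) (c.h (N + 1))) b J Gd U V c1 c2 Θ cs C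
    ((C * Y ^ 3 / (1 / Y ^ 8)) ^ C) (1 / 2 ^ (σ * 2 ^ (k - 3 * l))) (1 / 2 ^ (σ * 2 ^ (k - 3)))
    (1 / 2 ^ t2) (β + 1 / 8) (c.h (N + 1)) (hch.mS.measurable.iterate n) (t.mw N) (t.mw (N + 1))
    (meas_hd hch hgr _ _) (meas_hd hch hgr _ _) (hf.half N hR) hinj (hf.pair N hR) hcs
    (fun x x' h => hd_half gr S _ hN1 h) (hf.unif N) (hf.dom (N + 1)) hFin hmix (by positivity)
    (by positivity) (by positivity)
    (by rw [div_le_one (by positivity)]; exact one_le_pow₀ one_le_two) ?_ ?_ hb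
  · refine ce_mono key (le_of_eq ?_)
    rw [one_div ((2 : ℝ) ^ t2), Real.log_inv, Real.log_pow]; ring
  · have hB : (C * Y ^ 3 / (1 / Y ^ 8)) ^ C ≤ Y ^ (12 * C) := by
      rw [pow_mul]
      refine pow_le_pow_left₀ (by positivity) ?_ C
      have : (C : ℝ) * Y ^ 3 / (1 / Y ^ 8) = C * Y ^ 11 := by field_simp
      rw [this, pow_succ' Y 11]; gcongr
    have h1 : 16 * (1 / 2 ^ (σ * 2 ^ (k - 3))) * (C * Y ^ 3 / (1 / Y ^ 8)) ^ C * (J : ℝ) ^ 2 ≤
        1 / 2 ^ (σ * 2 ^ (k - 3 * l)) := by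
      calc _ ≤ 16 * (1 / 2 ^ (σ * 2 ^ (k - 3))) * Y ^ (12 * C) * (Y ^ (12 * C)) ^ 2 := by
            gcongr; exact hJ.trans hB
        _ = 2 ^ (4 + 36 * C * y) / 2 ^ (σ * 2 ^ (k - 3)) := by
            rw [hY, ← pow_mul, ← pow_mul, pow_add, mul_assoc, ← pow_add,
              show y * (12 * C) + y * (12 * C) * 2 = 36 * C * y by ring]
            ring
        _ ≤ _ := by
            rw [div_le_div_iff₀ (by positivity) (by positivity), one_mul, ← pow_add]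
            exact pow_le_pow_right₀ one_le_two (num2 hCl (by omega) hk)
    have h2 : ((n + n : ℕ) : ℝ) * (C + 1) ≤ 2 ^ t2 := by
      have h3 : D * n ≤ 2 ^ t2 := by
        refine hnum.trans (Nat.pow_le_pow_right two_pos ?_)
        rw [ht2, show k - 3 * l = (k - 3 * l - 1) + 1 by omega, pow_succ]
        simp only [Nat.add_sub_cancel]
        rw [mul_comm σ]; exact Nat.mul_le_mul_left _ hσ
      have h4 : (D : ℝ) * n ≤ 2 ^ t2 := by exact_mod_cast h3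
      push_cast; nlinarith
    rw [hN1]
    calc _ ≤ ((n + n : ℕ) : ℝ) * (1 / 2 ^ (σ * 2 ^ (k - 3 * l)) * C +
          1 / 2 ^ (σ * 2 ^ (k - 3 * l))) := by gcongr
      _ = ((n + n : ℕ) : ℝ) * (C + 1) / 2 ^ t2 * (1 / 2 ^ t2) := by
          rw [ht, pow_add]; field_simp
      _ ≤ 1 * (1 / 2 ^ t2) := by
          gcongr; rw [div_le_one (by positivity)]; exact h2
      _ = _ := one_mul _
  · have hm := margin hch hgr (t.P (N + 1)) (c.h (N + 1)) (hf.dom (N + 1)) (5 * y) hr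
    refine le_trans (measureReal_mono ?_ (measure_ne_top _ _)) ((measureReal_union_le _ _).trans
      (add_le_add (le_of_eq hβ.symm) (hm.trans ?_)))
    · intro x hx
      by_contra hno
      simp only [Set.mem_union, Set.mem_ofPred_eq, not_or, not_exists, not_and, not_lt,
        not_not] at hno
      refine hx (hGd x ⟨?_, fun s hs => hno.2 s (by omega)⟩)
      refine Bs.Green.mono (hGr x (n + n) ((2 : ℝ) ^ (k - l))
        fun s m h1 h2 h3 => hno.1 s m h1 h2 (by rw [h3, hN])) ?_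
      have he : Real.exp ((2 : ℝ) ^ (k - l)) ≤ Y ^ 2 := by
        have h6 : ((2 : ℝ) ^ (k - l)) = (y : ℝ) * 1 := by rw [hy]; push_cast; ring
        rw [h6, Real.exp_nat_mul, hY, ← pow_mul, mul_comm y 2, pow_mul]
        refine pow_le_pow_left₀ (Real.exp_pos 1).le ?_ y
        have := Real.exp_one_lt_d9; norm_num; linarith
      have h7 : ((n + n : ℕ) : ℝ) * κ ≤ Y := by push_cast; nlinarith
      calc ((n + n : ℕ) : ℝ) * (κ * Real.exp (2 ^ (k - l))) =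
            ((n + n : ℕ) : ℝ) * κ * Real.exp (2 ^ (k - l)) := by ring
        _ ≤ Y * Y ^ 2 := mul_le_mul h7 he (Real.exp_pos _).le hY0.le
        _ = Y ^ 3 := by ring
    · rw [hN1, h5]
      push_cast
      exact num3 hK hK' hD2 hD3' hn1' hDY

theorem geo_sum (a b : ℕ) : ∑ j ∈ Ico a b, (1 : ℝ) / 2 ^ (j + 1) ≤ 1 := by
  have h : ∀ b, ∑ j ∈ range b, (1 : ℝ) / 2 ^ (j + 1) = 1 - 1 / 2 ^ b := by
    intro b
    induction b with
    | zero => simp
    | succ b ih => rw [sum_range_succ, ih]; field_simp; ring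
  calc _ ≤ ∑ j ∈ range b, (1 : ℝ) / 2 ^ (j + 1) :=
        sum_le_sum_of_subset_of_nonneg (fun j hj => mem_range.2 (mem_Ico.1 hj).2)
          fun _ _ _ => by positivity
    _ ≤ 1 := by rw [h]; have : (0 : ℝ) < 1 / 2 ^ b := by positivity
                linarith

end Mn

open Mn in
theorem mainStmt (hGrid : GridStmt) (hApp : ApproxStmt) (hGT : GeoTStmt) (hGL : GeoLStmt)
    (hGS : GeoSStmt) (hGF : GeoFStmt) (hLift : LiftStmt) (hBud : BudgetStmt) (hPhi : PhiStmt)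
    (hTw : TowerStmt) (hFano : FanoStmt) : MainStmt := by
  intro c d M _ ν S ch hc hch t
  have := hch.prob
  obtain ⟨gr, hgr⟩ := hGrid d M ν S ch hch
  obtain ⟨C0, h0⟩ := hGT d M ν S ch hch
  obtain ⟨C1, hC1, h1⟩ := hGL d M ν S ch C0 hch h0
  obtain ⟨C2, hC2, h2⟩ := hGS d M ν S ch C0 hch h0
  obtain ⟨C, hC, hGeo⟩ := hGF d M ν S ch gr C0 C1 C2 hch hgr h0 hC1 h1 hC2 h2
  obtain ⟨κ, hκ, hp1, hp2, hp3, hp4⟩ := hPhi d M ν S ch hch
  obtain ⟨L0, hL0⟩ := hBud κ (by linarith)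
  have hf := hTw c M ν S t hc this hch.mS
  obtain ⟨i0, hi0⟩ := hApp d M ν S ch gr hch hgr _ (t.w 0) (t.mw 0) (1 / 64) (by norm_num)
  obtain ⟨D0, hD0⟩ := exists_nat_ge (2 * κ + (201 * ch.K + gr.K))
  have hK := hch.oneK
  have hK' := hgr.oneK
  obtain ⟨n0, hl, hσ, hdist, hph⟩ := hc.phase (L0 + D0 + 64 + i0 + 36 * C + 2 * (C + 1))
  set l := c.h n0 with hldef
  set σ := c.m n0 with hσdef
  have hh : ∀ k ≤ 4 * l + 2 ^ (3 * l), c.h (n0 + k) = l * 2 ^ k := by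
    intro k hk
    induction k with
    | zero => simp [hldef]
    | succ k ih => rw [← add_assoc, Code.h, ih (by omega), (hph k (by omega)).1, pow_succ, mul_assoc]
  have hbud := hL0 l (by omega) M S (fun k => t.P (n0 + k)) (ch.phi S) hch.mS.measurable
    (fun k => hf.prob _) (fun k hk => by
      have := hf.half (n0 + k) (hph k hk).1
      rwa [hh k hk.le] at this) hp1 hp2 hp3
  set β : ℕ → ℝ := fun k => (t.P (n0 + (k + 1))).real {x | ∃ s m, 1 ≤ s ∧ 1 ≤ m ∧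
    s + m = l * 2 ^ k + l * 2 ^ k ∧
    (2 : ℝ) ^ (k - l) < ch.phi S x s + ch.phi S (S^[s] x) m - ch.phi S x (s + m)} with hβ
  set b0 : ℝ := Real.log 2 + σ * Real.log 2 / 16 with hb0
  have hA : ∀ k ≤ 4 * l, CE (t.P (n0 + k)) (t.w (n0 + k))
      (gr.hd S (5 * 2 ^ (4 * l - l)) (c.h (n0 + k))) (2 ^ k * b0) := by
    intro k hk
    induction k with
    | zero =>
      obtain ⟨u, hu⟩ := hi0 (5 * 2 ^ (4 * l - l))
        (by have := Nat.lt_two_pow_self (n := 4 * l - l); omega)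
      have := hFano c M ν S t n0 _ (gr.D _) u this hch.mS.measurable (hgr.meas _) hf hdist hu
      exact ce_mono this (le_of_eq (by rw [pow_zero, one_mul]))
    | succ k ih =>
      have hk' : k < 4 * l + 2 ^ (3 * l) := lt_of_lt_of_le (by omega) (Nat.le_add_right _ _)
      have := hf.prob (n0 + k)
      have := hf.prob (n0 + k + 1)
      have h := hLift.triv M S^[c.h (n0 + k)] (t.P (n0 + k)) (t.P (n0 + k + 1)) _ _ (t.w (n0 + k))
        (t.w (n0 + k + 1)) (fun x => (c.sub (n0 + k) x 0, c.sub (n0 + k) x 1)) _ _ _ _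
        (gr.hd S (5 * 2 ^ (4 * l - l)) (c.h (n0 + k)))
        (gr.hd S (5 * 2 ^ (4 * l - l)) (c.h (n0 + k + 1))) _ (hch.mS.measurable.iterate _)
        (t.mw _) (t.mw _) (meas_hd hch hgr _ _) (meas_hd hch hgr _ _)
        (hf.half _ (hph k hk').1) (hph k hk').2.1 (hf.pair _ (hph k hk').1)
        (fun x x' h => hd_half gr S _ (by rw [Code.h, (hph k hk').1]; omega) h) (ih (by omega))
      exact ce_mono h (le_of_eq (by ring))
  have hB : ∀ k, 4 * l ≤ k → k ≤ 4 * l + 2 ^ (3 * l) → CE (t.P (n0 + k)) (t.w (n0 + k))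
      (gr.hd S (5 * 2 ^ (k - l)) (c.h (n0 + k)))
      (2 ^ k * (b0 + ∑ j ∈ Ico (4 * l) k,
        ((5 / 8 - β j) * -(σ * Real.log 2 / (4 * 2 ^ (3 * l))) + 1 / 2 ^ (j + 1)))) := by
    intro k hk1 hk2
    induction k, hk1 using Nat.le_induction with
    | base => simpa using hA (4 * l) le_rfl
    | succ k hk1 ih =>
      have hk' : k < 4 * l + 2 ^ (3 * l) := by omega
      have h := gain_step hLift hch hgr hf (D := D0 + 32 + 2 * (C + 1)) hC hGeo hp4
        (by push_cast; have : (0 : ℝ) ≤ C := by positivity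
            linarith)
        (by push_cast; have : (0 : ℝ) ≤ C := by positivity
            linarith)
        (by omega) (by omega) (l := l) (σ := σ) (by omega) (by omega) (by omega) hk1
        (hh k hk'.le) (hph k hk').1 (hph k hk').2.1 ((hph k hk').2.2 hk1) (ih (by omega))
      refine ce_mono h (le_of_eq ?_)
      rw [sum_Ico_succ_top hk1]
      have e1 : (2 : ℝ) ^ (k + 1) = 2 ^ (k - 3 * l - 1) * (4 * 2 ^ (3 * l)) := by
        rw [show k + 1 = (k - 3 * l - 1) + (2 + 3 * l) by omega, pow_add, pow_add]; norm_num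
      have e2 : ((σ * 2 ^ (k - 3 * l - 1) : ℕ) : ℝ) * Real.log 2 =
          2 ^ (k + 1) * (σ * Real.log 2 / (4 * 2 ^ (3 * l))) := by
        rw [e1]; push_cast; field_simp
      rw [e2]
      have e3 : (2 : ℝ) ^ (k + 1) * (1 / 2 ^ (k + 1)) = 1 := by field_simp
      change _ + (5 / 8 - β k) * _ + 1 = _
      generalize ∑ j ∈ Ico (4 * l) k,
        ((5 / 8 - β j) * -(σ * Real.log 2 / (4 * 2 ^ (3 * l))) + 1 / 2 ^ (j + 1)) = Z
      generalize σ * Real.log 2 / (4 * 2 ^ (3 * l)) = X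
      linear_combination -e3
  have hfin := ce_nonneg (hB _ (Nat.le_add_right _ _) le_rfl)
  have hfin' := nonneg_of_mul_nonneg_right hfin (by positivity) |>.trans_eq rfl
  rw [sum_add_distrib, ← sum_mul, sum_sub_distrib, sum_const, Nat.card_Ico,
    Nat.add_sub_cancel_left, nsmul_eq_mul] at hfin'
  have hg := geo_sum (4 * l) (4 * l + 2 ^ (3 * l))
  have hlog : (1 / 2 : ℝ) < Real.log 2 := by have := Real.log_two_gt_d9; linarith
  have hσ' : (64 : ℝ) ≤ σ := by exact_mod_cast (by omega : 64 ≤ σ)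
  set N : ℝ := 2 ^ (3 * l) with hNdef
  have hN0 : 0 < N := by positivity
  have hs : N / 2 ≤ ((2 ^ (3 * l) : ℕ) : ℝ) * (5 / 8) -
      ∑ j ∈ Ico (4 * l) (4 * l + 2 ^ (3 * l)), β j := by
    push_cast; linarith
  have hx : σ * Real.log 2 / 8 = N / 2 * (σ * Real.log 2 / (4 * N)) := by field_simp; ring
  have hy : N / 2 * (σ * Real.log 2 / (4 * N)) ≤ (((2 ^ (3 * l) : ℕ) : ℝ) * (5 / 8) -
      ∑ j ∈ Ico (4 * l) (4 * l + 2 ^ (3 * l)), β j) * (σ * Real.log 2 / (4 * N)) := by gcongr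
  nlinarith

end Vale.Agent.P109
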