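import Vale.Agent.P109.Defs

open MeasureTheory Finset
open scoped ENNReal Manifold ContDiff

namespace Vale.Agent.P109

abbrev E (d : ℕ) := EuclideanSpace ℝ (Fin d)
abbrev Op (d : ℕ) := E d →L[ℝ] E d

/-! ## Gaussian integrals -/

noncomputable def gI {d : ℕ} (N : E d → ℝ) : ℝ := ∫ v, Real.exp (-N v)

structure Gauge {d : ℕ} (N : E d → ℝ) : Prop where
  meas : Measurable N
  hom : ∀ (t : ℝ) (v : E d), N (t • v) = t ^ 2 * N v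
  low : ∃ c : ℝ, 0 < c ∧ ∀ v, c * ‖v‖ ^ 2 ≤ N v

structure GaussStmt (d : ℕ) : Prop where
  pos : ∀ N : E d → ℝ, Gauge N → 0 < gI N
  mono : ∀ (N N' : E d → ℝ) (a : ℝ), Gauge N → Gauge N' → 0 < a → (∀ v, N' v ≤ a ^ 2 * N v) →
    gI N ≤ a ^ d * gI N'
  lin : ∀ (N : E d → ℝ) (B : Op d), Gauge N → Gauge (fun v => N (B v)) →
    gI (fun v => N (B v)) * |B.det| = gI N
  up : ∀ (N : E d → ℝ) (v0 : E d) (r : ℝ), Gauge N → 0 < r →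
    volume {v | N (v - v0) ≤ r ^ 2} ≤ ENNReal.ofReal (3 * r ^ d * gI N)
  low : ∃ c : ℝ, 0 < c ∧ ∀ (N : E d → ℝ) (v0 : E d) (r : ℝ), Gauge N → 0 < r →
    ENNReal.ofReal (c * r ^ d * gI N) ≤ volume {v | N (v - v0) ≤ r ^ 2}
  slab : ∀ K : ℝ, 1 ≤ K → ∃ C : ℝ, 1 ≤ C ∧ ∀ q : E d → ℝ, Gauge q →
    (∀ g g', q (g - g') ≤ 2 * q g + 2 * q g') → (∀ g, ‖g‖ ^ 2 ≤ K ^ 2 * q g) →
    ∀ g, q g * gI q ^ 2 ≤ C ^ 2 * ‖g‖ ^ 2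
  split : ∀ (N1 N2 N12 q : E d → ℝ) (P : Op d) (m : E d → E d), Gauge N1 → Gauge N2 →
    Gauge N12 → Gauge q → (∀ v g, N1 v + N2 (P v + g) = N12 (v - m g) + q g) →
    gI N1 * gI N2 = gI N12 * gI q

/-! ## Linear cocycles -/

noncomputable def coc {d : ℕ} (A : ℕ → Op d) : ℕ → Op d
  | 0 => ContinuousLinearMap.id ℝ (E d)
  | t + 1 => (A t).comp (coc A t)

def sh {α : Type} (s : ℕ) (A : ℕ → α) : ℕ → α := fun t => A (s + t)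

def cat {α : Type} (n : ℕ) (A B : ℕ → α) : ℕ → α := fun t => if t < n then A t else B (t - n)

noncomputable def nr {d : ℕ} (n : ℕ) (y : ℕ → E d) : ℝ := Real.sqrt (∑ t ∈ range n, ‖y t‖ ^ 2)

noncomputable def qf {d : ℕ} (A : ℕ → Op d) (n : ℕ) (v : E d) : ℝ :=
  ∑ t ∈ range n, ‖coc A t v‖ ^ 2

def Sol {d : ℕ} (A : ℕ → Op d) (n : ℕ) (g y : ℕ → E d) : Prop :=
  ∀ t, t + 1 < n → y (t + 1) = A t (y t) + g t

def Green {d : ℕ} (A : ℕ → Op d) (n : ℕ) (Γ : ℝ) : Prop :=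
  ∀ g, ∃ y, Sol A n g y ∧ nr n y ≤ Γ * nr n g

noncomputable def qj {d : ℕ} (A : ℕ → Op d) (s m : ℕ) (g : E d) : ℝ :=
  ⨅ v, (qf A s v + qf (sh s A) m (coc A s v + g))

noncomputable def pj {d : ℕ} (C : ℕ → Op d) (n : ℕ) (y : ℕ → E d) : E d :=
  ∑ s ∈ range n, C s (y s)

def Pj {d : ℕ} (A : ℕ → Op d) (n : ℕ) (C : ℕ → Op d) : Prop :=
  ∀ (y : ℕ → E d) (v : E d), ∑ t ∈ range n, ‖y t - coc A t v‖ ^ 2 =
    qf A n (pj C n y - v) + ∑ t ∈ range n, ‖y t - coc A t (pj C n y)‖ ^ 2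

/-- a single jump `g` between times `s - 1` and `s` -/
noncomputable def jp {d : ℕ} (s : ℕ) (g : E d) : ℕ → E d := fun t => if t + 1 = s then g else 0

structure LinAStmt (d : ℕ) : Prop where
  proj : ∀ (A : ℕ → Op d) (n : ℕ), 1 ≤ n → ∃ C, Pj A n C
  gj : ∀ (A : ℕ → Op d) (s m : ℕ), 1 ≤ s → 1 ≤ m → Gauge (qj A s m)
  pyth : ∀ (A : ℕ → Op d) (s m : ℕ), 1 ≤ s → 1 ≤ m → ∃ mm : E d → E d, ∀ v g,
    qf A s v + qf (sh s A) m (coc A s v + g) = qf A (s + m) (v - mm g) + qj A s m g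
  tri : ∀ (A : ℕ → Op d) (s m : ℕ), 1 ≤ s → 1 ≤ m → ∀ g g',
    Real.sqrt (qj A s m (g + g')) ≤ Real.sqrt (qj A s m g) + Real.sqrt (qj A s m g')
  sub : ∀ (A : ℕ → Op d) (s m : ℕ), 1 ≤ s → 1 ≤ m → ∀ g g',
    qj A s m (g - g') ≤ 2 * qj A s m g + 2 * qj A s m g'
  lowK : ∀ (A : ℕ → Op d) (s m : ℕ) (K : ℝ), 1 ≤ s → 1 ≤ m → 0 ≤ K → ‖A (s - 1)‖ ≤ K → ∀ g,
    ‖g‖ ^ 2 ≤ (K + 1) ^ 2 * qj A s m g
  ex : ∀ (A : ℕ → Op d) (s m : ℕ), 1 ≤ s → 1 ≤ m → ∀ g,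
    ∃ y, Sol A (s + m) (jp s g) y ∧ nr (s + m) y ^ 2 = qj A s m g
  le : ∀ (A : ℕ → Op d) (s m : ℕ), 1 ≤ s → 1 ≤ m → ∀ g y,
    Sol A (s + m) (jp s g) y → qj A s m g ≤ nr (s + m) y ^ 2

structure LinBStmt (d : ℕ) : Prop where
  all : ∀ (A : ℕ → Op d) (n : ℕ) (Λ : ℝ), 0 ≤ Λ →
    (∀ s m, 1 ≤ s → 1 ≤ m → s + m = n → ∀ g, qj A s m g ≤ Λ ^ 2 * ‖g‖ ^ 2) → Green A n (n * Λ)
  left : ∀ (A : ℕ → Op d) (s m : ℕ) (Γ : ℝ), Green A (s + m) Γ → Green A s Γ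
  right : ∀ (A : ℕ → Op d) (s m : ℕ) (Γ : ℝ), Green A (s + m) Γ → Green (sh s A) m Γ
  pert : ∀ (A A' : ℕ → Op d) (n : ℕ) (Γ ε : ℝ), 1 ≤ Γ → 0 ≤ ε → ε * Γ ≤ 1 / 2 → Green A n Γ →
    (∀ t < n, ‖A' t - A t‖ ≤ ε) → Green A' n (3 * Γ)
  conc : ∀ (A B : ℕ → Op d) (n : ℕ) (Γ Λ K : ℝ), 1 ≤ n → 1 ≤ Γ → 1 ≤ Λ → 1 ≤ K →
    (∀ t, ‖A t‖ ≤ K) → Green A n Γ → Green B n Γ →
    (∀ g, qj (cat n A B) n n g ≤ Λ ^ 2 * ‖g‖ ^ 2) → Green (cat n A B) (n + n) ((K + 4) * Γ * Λ)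
  one : ∀ (A : ℕ → Op d) (s m : ℕ) (Γ : ℝ), 1 ≤ s → 1 ≤ m → 0 ≤ Γ → Green A (s + m) Γ → ∀ g,
    qj A s m g ≤ Γ ^ 2 * ‖g‖ ^ 2

structure LinCStmt (d : ℕ) : Prop where
  hyb : ∀ (A A' : ℕ → Op d) (n : ℕ) (Γ ε : ℝ), 1 ≤ n → 1 ≤ Γ → 0 ≤ ε →
    12 * (d + 1) * n * ε * Γ ≤ 1 → Green A n Γ → (∀ t < n, ‖A' t - A t‖ ≤ ε) →
    gI (qf A' n) ≤ 2 * gI (qf A n) ∧ gI (qf A n) ≤ 2 * gI (qf A' n)

structure LinDStmt (d : ℕ) : Prop where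
  par : ∀ (A : ℕ → Op d) (n : ℕ), 1 ≤ n →
    ∃ L : Op d, (∀ a, qf A n (L a) = ‖a‖ ^ 2) ∧ Function.Surjective L
  cls : ∀ (A B A' B' : ℕ → Op d) (LA LB LA' LB' : Op d) (n : ℕ) (Λ ε : ℝ), 1 ≤ n → 1 ≤ Λ →
    0 ≤ ε → 4 * ε * Λ ≤ 1 →
    (∀ a, qf A n (LA a) = ‖a‖ ^ 2) → Function.Surjective LA →
    (∀ a, qf B n (LB a) = ‖a‖ ^ 2) → Function.Surjective LB →
    (∀ a, qf A' n (LA' a) = ‖a‖ ^ 2) → Function.Surjective LA' →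
    (∀ a, qf B' n (LB' a) = ‖a‖ ^ 2) → Function.Surjective LB' →
    ‖(coc A n).comp LA - (coc A' n).comp LA'‖ ≤ ε → ‖LB - LB'‖ ≤ ε →
    (∀ g, qj (cat n A B) n n g ≤ Λ ^ 2 * ‖g‖ ^ 2) →
    ∀ g, qj (cat n A' B') n n g ≤ 4 * qj (cat n A B) n n g ∧
      qj (cat n A B) n n g ≤ 4 * qj (cat n A' B') n n g

/-! ## Nonlinear tubes -/

def orb {d : ℕ} (f : ℕ → E d → E d) : ℕ → E d → E d
  | 0, v => v
  | t + 1, v => f t (orb f t v)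

structure Blk {d : ℕ} (f : ℕ → E d → E d) (c : ℕ → E d) (A : ℕ → Op d) (n : ℕ) (K r : ℝ) :
    Prop where
  diff : ∀ t < n, ∀ w ∈ Metric.ball (c t) r, DifferentiableAt ℝ (f t) w
  lip : ∀ t < n, ∀ w ∈ Metric.ball (c t) r, ∀ w' ∈ Metric.ball (c t) r,
    ‖fderiv ℝ (f t) w - fderiv ℝ (f t) w'‖ ≤ K * ‖w - w'‖
  der : ∀ t < n, fderiv ℝ (f t) (c t) = A t

def tube {d : ℕ} (f : ℕ → E d → E d) (c : ℕ → E d) (n : ℕ) (r : ℝ) : Set (E d) :=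
  {v | nr n (fun t => orb f t v - c t) < r}

structure TubeUStmt (d : ℕ) : Prop where
  opn : ∀ (f : ℕ → E d → E d) (c : ℕ → E d) (A : ℕ → Op d) (n : ℕ) (K r : ℝ),
    Blk f c A n K r → IsOpen (tube f c n r)
  jump : ∀ (f : ℕ → E d → E d) (c : ℕ → E d) (A : ℕ → Op d) (n : ℕ) (K r Γ : ℝ), 1 ≤ Γ →
    0 ≤ K → 0 < r → K * r * Γ ≤ 1 → Blk f c A n K r → Green A n Γ → ∀ v ∈ tube f c n r,
    ∃ y, Sol A n (fun t => f t (c t) - c (t + 1)) y ∧ nr n y ≤ 2 * r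
  up : ∀ (f : ℕ → E d → E d) (c : ℕ → E d) (A : ℕ → Op d) (n : ℕ) (K r Γ : ℝ), 1 ≤ n → 1 ≤ Γ →
    0 ≤ K → 0 < r → 12 * (d + 1) * n * (K * r) * Γ ≤ 1 → Blk f c A n K r → Green A n Γ →
    volume (tube f c n r) ≤ ENNReal.ofReal (3 * 2 ^ (d + 1) * r ^ d * gI (qf A n))

def TubeLStmt (d : ℕ) : Prop :=
  ∃ c0 : ℝ, 0 < c0 ∧ ∀ (f : ℕ → E d → E d) (c : ℕ → E d) (A : ℕ → Op d) (n : ℕ) (K r Γ : ℝ),
    1 ≤ n → 1 ≤ Γ → 0 ≤ K → 0 < r → 12 * (d + 1) * n * (K * r) * Γ ≤ 1 → Blk f c A n K r →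
    Green A n Γ → (∃ y, Sol A n (fun t => f t (c t) - c (t + 1)) y ∧ nr n y ≤ r / 4) →
    ENNReal.ofReal (c0 * r ^ d * gI (qf A n)) ≤ volume (tube f c n r)

/-! ## Charts -/

structure Ch (d : ℕ) (M : Type) where
  k : ℕ
  lab : M → Fin k
  c : M → E d
  ps : Fin k → E d → M
  K : ℝ

section
variable {d : ℕ} {M : Type} (ch : Ch d M) (S : M → M)

def Ch.F (i : Fin ch.k) (w : E d) : E d := ch.c (S (ch.ps i w))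

def Ch.Int (r : ℝ) : Set M :=
  {x | ∀ w ∈ Metric.ball (ch.c x) r, ch.lab (ch.ps (ch.lab x) w) = ch.lab x ∧
    ch.c (ch.ps (ch.lab x) w) = w ∧ ch.lab (S (ch.ps (ch.lab x) w)) = ch.lab (S x) ∧
    DifferentiableAt ℝ (ch.F S (ch.lab x)) w ∧ ‖fderiv ℝ (ch.F S (ch.lab x)) w‖ ≤ ch.K ∧
    ∀ w' ∈ Metric.ball (ch.c x) r,
      ‖fderiv ℝ (ch.F S (ch.lab x)) w - fderiv ℝ (ch.F S (ch.lab x)) w'‖ ≤ ch.K * ‖w - w'‖}

noncomputable def Ch.A (x : M) : Op d :=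
  if ‖fderiv ℝ (ch.F S (ch.lab x)) (ch.c x)‖ ≤ ch.K then fderiv ℝ (ch.F S (ch.lab x)) (ch.c x)
  else 0

def ox (x : M) : ℕ → M := fun t => S^[t] x

noncomputable def Ch.AX (ξ : ℕ → M) : ℕ → Op d := fun t => ch.A S (ξ t)

/-- tube in `M` around a pseudo-orbit -/
def Ch.TM (ξ : ℕ → M) (n : ℕ) (r : ℝ) : Set M :=
  {z | (∀ t < n, ch.lab (S^[t] z) = ch.lab (ξ t) ∧ ch.lab (S (S^[t] z)) = ch.lab (S (ξ t))) ∧
    nr n (fun t => ch.c (S^[t] z) - ch.c (ξ t)) < r}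

def Ch.PO (ξ : ℕ → M) (n : ℕ) (r : ℝ) : Prop :=
  (∀ t < n, ξ t ∈ ch.Int S r) ∧ ∀ t, t + 1 < n → ch.lab (S (ξ t)) = ch.lab (ξ (t + 1))

/-- half good points -/
def Ch.HG (n : ℕ) (Γ r : ℝ) (x : M) : Prop :=
  Green (ch.AX S (ox S x)) n (3 * Γ) ∧ ∀ t < n, S^[t] x ∈ ch.Int S (200 * r)

noncomputable def Ch.phi (x : M) (n : ℕ) : ℝ :=
  Real.log (gI fun v : E d => ‖v‖ ^ 2) - Real.log (gI (qf (ch.AX S (ox S x)) n))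

end

structure Ch.Ok {d : ℕ} {M : Type} [MeasurableSpace M] (ch : Ch d M) (ν : Measure M)
    (S : M → M) : Prop where
  prob : IsProbabilityMeasure ν
  mS : MeasurePreserving S ν ν
  oneK : 1 ≤ ch.K
  mlab : Measurable ch.lab
  mc : Measurable ch.c
  mps : ∀ i, Measurable (ch.ps i)
  ps_c : ∀ x, ch.ps (ch.lab x) (ch.c x) = x
  cbd : ∀ x, ‖ch.c x‖ ≤ ch.K
  int : ∀ r : ℝ, 0 < r → ν (ch.Int S r)ᶜ ≤ ENNReal.ofReal (ch.K * r)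
  up : ∀ (i : Fin ch.k) (B : Set (E d)), MeasurableSet B →
    ν {x | ch.lab x = i ∧ ch.c x ∈ B} ≤ ENNReal.ofReal ch.K * volume B
  low : ∀ (i : Fin ch.k) (B : Set (E d)), MeasurableSet B →
    (∀ w ∈ B, ch.lab (ch.ps i w) = i ∧ ch.c (ch.ps i w) = w) →
    volume B ≤ ENNReal.ofReal ch.K * ν {x | ch.lab x = i ∧ ch.c x ∈ B}

def ChTrStmt : Prop :=
  ∀ (d : ℕ) (H : Type) [TopologicalSpace H] (I : ModelWithCorners ℝ (E d) H) (M : Type)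
    [TopologicalSpace M] [ChartedSpace H M] [IsManifold I ∞ M] [T2Space M] (Φ : M → M),
    ContMDiff I I ∞ Φ → ∀ (a b : M) (Ka Kb : Set (E d)), IsCompact Ka → IsCompact Kb →
    Ka ⊆ (extChartAt I a).target → Kb ⊆ (extChartAt I b).target →
    ∃ r0 K : ℝ, 0 < r0 ∧ 0 ≤ K ∧ ∀ w0 ∈ Ka,
      Φ ((extChartAt I a).symm w0) ∈ (extChartAt I b).source →
      extChartAt I b (Φ ((extChartAt I a).symm w0)) ∈ Kb → ∀ r ≤ r0,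
      Metric.ball w0 r ⊆ Set.range I → ∀ w ∈ Metric.ball w0 r,
        w ∈ (extChartAt I a).target ∧ Φ ((extChartAt I a).symm w) ∈ (extChartAt I b).source ∧
        DifferentiableAt ℝ (fun u => extChartAt I b (Φ ((extChartAt I a).symm u))) w ∧
        ‖fderiv ℝ (fun u => extChartAt I b (Φ ((extChartAt I a).symm u))) w‖ ≤ K ∧
        ∀ w' ∈ Metric.ball w0 r,
          ‖fderiv ℝ (fun u => extChartAt I b (Φ ((extChartAt I a).symm u))) w -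
            fderiv ℝ (fun u => extChartAt I b (Φ ((extChartAt I a).symm u))) w'‖ ≤ K * ‖w - w'‖

structure ChVolStmt (d : ℕ) : Prop where
  ann : ∀ (z : E d) (ρ : ℝ), 0 < ρ → ∃ C : ℝ, 0 ≤ C ∧ ∀ s : ℝ, 0 < s → s ≤ ρ →
    volume {w | ρ - s ≤ dist w z ∧ dist w z ≤ ρ + s} ≤ ENNReal.ofReal (C * s)
  bdy : ∀ (V : Set (E d)) (z : E d) (ρ : ℝ), Convex ℝ V → IsClosed V → (interior V).Nonempty →
    ∃ C : ℝ, 0 ≤ C ∧ ∀ s : ℝ, 0 < s →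
      volume {w | w ∈ V ∧ dist w z ≤ ρ ∧ ¬ Metric.ball w s ⊆ V} ≤ ENNReal.ofReal (C * s)

def ChartStmt : Prop :=
  ∀ (d : ℕ) (H : Type) [TopologicalSpace H] (I : ModelWithCorners ℝ (E d) H) (M : Type)
    [TopologicalSpace M] [ChartedSpace H M] [IsManifold I ∞ M] [CompactSpace M] [T2Space M]
    [MeasurableSpace M] [BorelSpace M] (ν : Measure M) [IsProbabilityMeasure ν] (S : M → M),
    ContMDiff I I ∞ S → SmoothPos I ν → MeasurePreserving S ν ν → ∃ ch : Ch d M, ch.Ok ν S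

/-! ## Grids -/

structure Gr (M : Type) where
  nD : ℕ → ℕ
  D : ∀ i, M → Fin (nD i)
  K : ℝ

def Gr.Mg {d : ℕ} {M : Type} (gr : Gr M) (ch : Ch d M) (S : M → M) (i : ℕ) (r : ℝ) : Set M :=
  {x | ∀ y, ch.lab y = ch.lab x → ch.lab (S y) = ch.lab (S x) → ‖ch.c y - ch.c x‖ < r →
    gr.D i y = gr.D i x}

def Gr.hd {M : Type} (gr : Gr M) (S : M → M) (i n : ℕ) (x : M) : Fin n → Fin (gr.nD i) :=
  fun t => gr.D i (S^[t] x)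

structure Gr.Ok {d : ℕ} {M : Type} [MeasurableSpace M] (gr : Gr M) (ch : Ch d M)
    (ν : Measure M) (S : M → M) : Prop where
  oneK : 1 ≤ gr.K
  meas : ∀ i, Measurable (gr.D i)
  nest : ∀ i i' x y, i ≤ i' → gr.D i' x = gr.D i' y → gr.D i x = gr.D i y
  fine : ∀ i x y, gr.D i x = gr.D i y → ch.lab x = ch.lab y ∧ ch.lab (S x) = ch.lab (S y) ∧
    ‖ch.c x - ch.c y‖ * 2 ^ i ≤ gr.K
  mar : ∀ (i : ℕ) (r : ℝ), 0 < r → ν (gr.Mg ch S i r)ᶜ ≤ ENNReal.ofReal (gr.K * r * 2 ^ i)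

def GridStmt : Prop :=
  ∀ (d : ℕ) (M : Type) [MeasurableSpace M] (ν : Measure M) (S : M → M) (ch : Ch d M),
    ch.Ok ν S → ∃ gr : Gr M, gr.Ok ch ν S

def ApproxStmt : Prop :=
  ∀ (d : ℕ) (M : Type) [MeasurableSpace M] (ν : Measure M) (S : M → M) (ch : Ch d M) (gr : Gr M),
    ch.Ok ν S → gr.Ok ch ν S → ∀ (k : ℕ) (s : M → Fin k), Measurable s → ∀ ε : ℝ, 0 < ε →
    ∃ i0, ∀ i, i0 ≤ i → ∃ u : Fin (gr.nD i) → Fin k, ν {x | u (gr.D i x) ≠ s x} ≤ ENNReal.ofReal ε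

def NetStmt (d : ℕ) : Prop :=
  ∀ R : ℝ, 1 ≤ R → ∃ C : ℝ, 1 ≤ C ∧ ∀ ε : ℝ, 0 < ε → ε ≤ 1 →
    ∃ (J : ℕ) (cl : E d → Op d → Fin J), (J : ℝ) ≤ (C / ε) ^ (d + d * d) ∧
      ∀ w w' L L', ‖w‖ ≤ R → ‖w'‖ ≤ R → ‖L‖ ≤ R → ‖L'‖ ≤ R → cl w L = cl w' L' →
        ‖w - w'‖ ≤ ε ∧ ‖L - L'‖ ≤ ε

/-! ## Geometry on `M` -/

structure GeoT {d : ℕ} {M : Type} [MeasurableSpace M] (ch : Ch d M) (ν : Measure M) (S : M → M)
    (C : ℝ) : Prop where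
  oneC : 1 ≤ C
  KC : ch.K ≤ C
  meas : ∀ ξ n r, MeasurableSet (ch.TM S ξ n r)
  near : ∀ (ξ : ℕ → M) (n : ℕ) (r ρ : ℝ), r ≤ ρ → (∀ t < n, ξ t ∈ ch.Int S ρ) →
    ∀ z ∈ ch.TM S ξ n r, ∀ t < n,
      ‖ch.A S (S^[t] z) - ch.A S (ξ t)‖ ≤ ch.K * r ∧ S^[t] z ∈ ch.Int S (ρ - r)
  up : ∀ (ξ : ℕ → M) (n : ℕ) (r Γ : ℝ), 1 ≤ n → 1 ≤ Γ → 0 < r → C * n * r * Γ ≤ 1 →
    ch.PO S ξ n r → Green (ch.AX S ξ) n Γ →
    ν.real (ch.TM S ξ n r) ≤ C * r ^ d * gI (qf (ch.AX S ξ) n)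
  jump : ∀ (ξ : ℕ → M) (n : ℕ) (r Γ : ℝ), 1 ≤ n → 1 ≤ Γ → 0 < r → C * n * r * Γ ≤ 1 →
    ch.PO S ξ n r → Green (ch.AX S ξ) n Γ → (ch.TM S ξ n r).Nonempty →
    ∃ y, Sol (ch.AX S ξ) n (fun t => ch.c (S (ξ t)) - ch.c (ξ (t + 1))) y ∧ nr n y ≤ 2 * r
  low : ∀ (ξ : ℕ → M) (n : ℕ) (r Γ : ℝ), 1 ≤ n → 1 ≤ Γ → 0 < r → C * n * r * Γ ≤ 1 →
    ch.PO S ξ n r → Green (ch.AX S ξ) n Γ →
    (∃ y, Sol (ch.AX S ξ) n (fun t => ch.c (S (ξ t)) - ch.c (ξ (t + 1))) y ∧ nr n y ≤ r / 4) →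
    r ^ d * gI (qf (ch.AX S ξ) n) ≤ C * ν.real (ch.TM S ξ n r)

def GeoTStmt : Prop :=
  ∀ (d : ℕ) (M : Type) [MeasurableSpace M] (ν : Measure M) (S : M → M) (ch : Ch d M),
    ch.Ok ν S → ∃ C, GeoT ch ν S C

/-- consequences of being close to the two halves of one good orbit -/
def GeoL {d : ℕ} {M : Type} [MeasurableSpace M] (ch : Ch d M) (ν : Measure M) (S : M → M)
    (C : ℝ) : Prop :=
  ∀ (n : ℕ) (Γ r : ℝ) (x x' y' : M), 1 ≤ n → 1 ≤ Γ → 0 < r → C * n * r * Γ ^ 2 ≤ 1 →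
    Green (ch.AX S (ox S x)) (n + n) Γ → (∀ t < n + n, S^[t] x ∈ ch.Int S (201 * r)) →
    x' ∈ ch.TM S (ox S x) n r → y' ∈ ch.TM S (ox S (S^[n] x)) n r →
    ch.HG S n Γ r x' ∧ ch.HG S n Γ r y' ∧ ch.lab (S^[n] x') = ch.lab y' ∧
    (∀ g, qj (cat n (ch.AX S (ox S x')) (ch.AX S (ox S y'))) n n g ≤ (3 * Γ) ^ 2 * ‖g‖ ^ 2) ∧
    qj (cat n (ch.AX S (ox S x')) (ch.AX S (ox S y'))) n n (ch.c (S^[n] x') - ch.c y') ≤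
      (4 * r) ^ 2 ∧
    ν.real (ch.TM S (ox S x') n (2 * r) ∩ S^[n] ⁻¹' ch.TM S (ox S y') n (2 * r)) *
        gI (qj (cat n (ch.AX S (ox S x')) (ch.AX S (ox S y'))) n n) * r ^ d ≤
      C * ν.real (ch.TM S (ox S x) n (r / 2)) * ν.real (ch.TM S (ox S (S^[n] x)) n (r / 2)) ∧
    0 < ν.real (ch.TM S (ox S x) n (r / 2)) ∧ 0 < ν.real (ch.TM S (ox S (S^[n] x)) n (r / 2))

def GeoLStmt : Prop :=
  ∀ (d : ℕ) (M : Type) [MeasurableSpace M] (ν : Measure M) (S : M → M) (ch : Ch d M) (C0 : ℝ),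
    ch.Ok ν S → GeoT ch ν S C0 → ∃ C, 1 ≤ C ∧ GeoL ch ν S C

structure GeoS {d : ℕ} {M : Type} [MeasurableSpace M] (ch : Ch d M) (ν : Measure M) (S : M → M)
    (C : ℝ) : Prop where
  pair : ∀ (n : ℕ) (Γ r : ℝ) (x y : M), 1 ≤ n → 1 ≤ Γ → 0 < r → C * n * r * Γ ^ 2 ≤ 1 →
    ch.HG S n Γ r x → ch.HG S n Γ r y → ch.lab (S^[n] x) = ch.lab y →
    (∀ g, qj (cat n (ch.AX S (ox S x)) (ch.AX S (ox S y))) n n g ≤ (6 * Γ) ^ 2 * ‖g‖ ^ 2) →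
    qj (cat n (ch.AX S (ox S x)) (ch.AX S (ox S y))) n n (ch.c (S^[n] x) - ch.c y) ≤
      (20 * r) ^ 2 →
    r ^ d * gI (qf (ch.AX S (ox S x)) n) * gI (qf (ch.AX S (ox S y)) n) ≤
      C * gI (qj (cat n (ch.AX S (ox S x)) (ch.AX S (ox S y))) n n) *
        ν.real (ch.TM S (ox S x) n (80 * r) ∩ S^[n] ⁻¹' ch.TM S (ox S y) n (80 * r))
  ovl : ∀ (n : ℕ) (Γ r : ℝ) (ι : Type) (F : Finset ι) (x : ι → M) (B : ι → Set M) (z : M),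
    1 ≤ n → 1 ≤ Γ → 0 < r → C * n * r * Γ ^ 2 ≤ 1 → (∀ a ∈ F, ch.HG S n Γ r (x a)) →
    (∀ a ∈ F, MeasurableSet (B a)) → (F : Set ι).PairwiseDisjoint B →
    (∀ a ∈ F, B a ⊆ ch.TM S (ox S (x a)) n r) → (∀ a ∈ F, z ∈ ch.TM S (ox S (x a)) n (80 * r)) →
    ∑ a ∈ F, ν.real (B a) / (r ^ d * gI (qf (ch.AX S (ox S (x a))) n)) ≤ C

def GeoSStmt : Prop :=
  ∀ (d : ℕ) (M : Type) [MeasurableSpace M] (ν : Measure M) (S : M → M) (ch : Ch d M) (C0 : ℝ),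
    ch.Ok ν S → GeoT ch ν S C0 → ∃ C, 1 ≤ C ∧ GeoS ch ν S C

/-- the finite structure at one scale -/
structure FinOk {A A' : Type} [Fintype A] [DecidableEq A] {J : ℕ} (m : A → ℝ) (m2 : A × A → ℝ)
    (Gd : Finset (A × A)) (U V : A × A → Finset A) (c1 c2 : A → Fin J) (Θ : Fin J → Fin J → ℝ)
    (cs : A → A') (C B : ℝ) : Prop where
  posU : ∀ o ∈ Gd, 0 < ∑ a ∈ U o, m a
  posV : ∀ o ∈ Gd, 0 < ∑ b ∈ V o, m b
  csU : ∀ o ∈ Gd, ∀ a ∈ U o, cs a = cs o.1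
  csV : ∀ o ∈ Gd, ∀ b ∈ V o, cs b = cs o.2
  dom : ∀ a b, ∑ o ∈ Gd.filter (fun o => a ∈ U o ∧ b ∈ V o),
    m2 o / ((∑ a' ∈ U o, m a') * ∑ b' ∈ V o, m b') ≤ Θ (c1 a) (c2 b)
  sum : ∑ a, ∑ b, m a * m b * Θ (c1 a) (c2 b) ≤ C
  nn : ∀ i j, 0 ≤ Θ i j
  bd : ∀ i j, Θ i j ≤ B

def Good {d : ℕ} {M : Type} (ch : Ch d M) (gr : Gr M) (S : M → M) (n : ℕ) (Γ r : ℝ) (i : ℕ)
    (x : M) : Prop :=
  Green (ch.AX S (ox S x)) (n + n) Γ ∧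
    ∀ t < n + n, S^[t] x ∈ ch.Int S (201 * r) ∧ S^[t] x ∈ gr.Mg ch S i r

def Geo {d : ℕ} {M : Type} [MeasurableSpace M] (ch : Ch d M) (gr : Gr M) (ν : Measure M)
    (S : M → M) (C : ℕ) : Prop :=
  ∀ (n : ℕ) (Γ r : ℝ) (i i' : ℕ), 1 ≤ n → 1 ≤ Γ → 0 < r → i ≤ i' → C * n * r * Γ ^ 2 ≤ 1 →
    (C * n : ℝ) ≤ r * 2 ^ i' →
    ∃ (J : ℕ) (Gd : Finset ((Fin n → Fin (gr.nD i')) × (Fin n → Fin (gr.nD i'))))
      (U V : (Fin n → Fin (gr.nD i')) × (Fin n → Fin (gr.nD i')) →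
        Finset (Fin n → Fin (gr.nD i')))
      (c1 c2 : (Fin n → Fin (gr.nD i')) → Fin J) (Θ : Fin J → Fin J → ℝ)
      (cs : (Fin n → Fin (gr.nD i')) → (Fin n → Fin (gr.nD i))),
      (J : ℝ) ≤ (C * Γ / r) ^ C ∧ (∀ x, cs (gr.hd S i' n x) = gr.hd S i n x) ∧
      (∀ x, Good ch gr S n Γ r i x → (gr.hd S i' n x, gr.hd S i' n (S^[n] x)) ∈ Gd) ∧
      FinOk (fun a => ν.real {x | gr.hd S i' n x = a})
        (fun o => ν.real {x | gr.hd S i' n x = o.1 ∧ gr.hd S i' n (S^[n] x) = o.2})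
        Gd U V c1 c2 Θ cs C ((C * Γ / r) ^ C)

def GeoFStmt : Prop :=
  ∀ (d : ℕ) (M : Type) [MeasurableSpace M] (ν : Measure M) (S : M → M) (ch : Ch d M) (gr : Gr M)
    (C0 C1 C2 : ℝ), ch.Ok ν S → gr.Ok ch ν S → GeoT ch ν S C0 → 1 ≤ C1 → GeoL ch ν S C1 →
    1 ≤ C2 → GeoS ch ν S C2 → ∃ C : ℕ, 1 ≤ C ∧ Geo ch gr ν S C

/-! ## Entropy steps -/

def Mix {W : Type} [Fintype W] (G : Finset (W × W)) (q η : ℝ) : Prop :=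
  ∀ F F' : W → ℝ, ∑ e ∈ G, F e.1 * F' e.2 ≤ q * (∑ u, F u) * (∑ v, F' v) +
    η * Fintype.card W * Real.sqrt (∑ u, F u ^ 2) * Real.sqrt (∑ v, F' v ^ 2)

def StepStmt : Prop :=
  ∀ (W A A' : Type) [Fintype W] [DecidableEq W] [Fintype A] [DecidableEq A] [Fintype A']
    [DecidableEq A'] (J : ℕ) (m : A → ℝ) (m2 : A × A → ℝ) (Gd : Finset (A × A))
    (U V : A × A → Finset A) (c1 c2 : A → Fin J) (Θ : Fin J → Fin J → ℝ) (cs : A → A')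
    (C B h q η lam : ℝ) (G : Finset (W × W)) (p : W → W → A × A → ℝ) (κ : W → A' → ℝ),
    FinOk m m2 Gd U V c1 c2 Θ cs C B → (∀ a, 0 ≤ m a) → ∑ a, m a ≤ 1 → (∀ o, 0 ≤ m2 o) →
    Mix G q η → 0 ≤ h → 0 ≤ q → 0 ≤ η → 0 < lam → lam ≤ 1 →
    h * (q * C + 16 * η * B * J ^ 2) ≤ lam →
    (∀ u v o, 0 ≤ p u v o) → ∑ u, ∑ v, ∑ o, p u v o = 1 → (∀ u v o, p u v o ≠ 0 → (u, v) ∈ G) →
    (∀ u, (∑ v, ∑ o, p u v o) * Fintype.card W ≤ 2) →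
    (∀ v, (∑ u, ∑ o, p u v o) * Fintype.card W ≤ 2) →
    (∀ o, ∑ u, ∑ v, p u v o ≤ h * m2 o) →
    (∀ u a, 0 ≤ κ u a) → (∀ a, ∑ u, κ u a ≤ 1) →
    (∀ u v o, p u v o ≠ 0 → 0 < κ u (cs o.1) ∧ 0 < κ v (cs o.2)) →
    ∑ u, ∑ v, ∑ o, p u v o * -Real.log (p u v o / ∑ u', ∑ v', p u' v' o) ≤
      ∑ u, ∑ v, ∑ o, p u v o * (-Real.log (κ u (cs o.1)) + -Real.log (κ v (cs o.2))) +
        (∑ o ∈ Gd, ∑ u, ∑ v, p u v o - 1 / 4) * Real.log lam + 1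

/-- cross entropy bound `b` for `z` given `y` under `P` -/
def CE {M Z Y : Type} [MeasurableSpace M] [Fintype Z] (P : Measure M) (z : M → Z) (y : M → Y)
    (b : ℝ) : Prop :=
  ∃ κ : Z → Y → ℝ, (∀ a c, 0 ≤ κ a c) ∧ (∀ c, ∑ a, κ a c ≤ 1) ∧ (∀ᵐ x ∂P, 0 < κ (z x) (y x)) ∧
    ∫ x, -Real.log (κ (z x) (y x)) ∂P ≤ b

structure LiftStmt : Prop where
  triv : ∀ (M : Type) [MeasurableSpace M] (Sn : M → M) (P P' : Measure M)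
    [IsProbabilityMeasure P] [IsProbabilityMeasure P'] (a a' : ℕ) (w : M → Fin a)
    (w' : M → Fin a') (e : Fin a' → Fin a × Fin a) (n g n' g' : ℕ) (γ : M → Fin n → Fin g)
    (y' : M → Fin n' → Fin g') (b : ℝ), Measurable Sn → Measurable w → Measurable w' →
    Measurable γ → Measurable y' → P' + P'.map Sn = (2 : ℝ≥0∞) • P → Function.Injective e →
    (∀ᵐ x ∂P', (w x, w (Sn x)) = e (w' x)) →
    (∀ x x', y' x = y' x' → γ x = γ x' ∧ γ (Sn x) = γ (Sn x')) → CE P w γ b → CE P' w' y' (2 * b)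
  gain : ∀ (M : Type) [MeasurableSpace M] (ν : Measure M) [IsProbabilityMeasure ν] (Sn : M → M)
    (P P' : Measure M) [IsProbabilityMeasure P] [IsProbabilityMeasure P'] (a a' : ℕ)
    (w : M → Fin a) (w' : M → Fin a') (e : Fin a' → Fin a × Fin a) (n g g1 n' g' : ℕ)
    (γ : M → Fin n → Fin g) (α : M → Fin n → Fin g1) (y' : M → Fin n' → Fin g') (b : ℝ)
    (J : ℕ) (Gd : Finset ((Fin n → Fin g1) × (Fin n → Fin g1)))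
    (U V : (Fin n → Fin g1) × (Fin n → Fin g1) → Finset (Fin n → Fin g1))
    (c1 c2 : (Fin n → Fin g1) → Fin J) (Θ : Fin J → Fin J → ℝ)
    (cs : (Fin n → Fin g1) → (Fin n → Fin g)) (C B q η lam β : ℝ) (h : ℕ),
    Measurable Sn → Measurable w → Measurable w' → Measurable α → Measurable y' →
    P' + P'.map Sn = (2 : ℝ≥0∞) • P → Function.Injective e →
    (∀ᵐ x ∂P', (w x, w (Sn x)) = e (w' x)) → (∀ x, cs (α x) = γ x) →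
    (∀ x x', y' x = y' x' → α x = α x' ∧ α (Sn x) = α (Sn x')) →
    (∀ u, P.real {x | w x = u} * a ≤ 1) → P' ≤ (h : ℝ≥0∞) • ν →
    FinOk (fun c => ν.real {x | α x = c}) (fun o => ν.real {x | α x = o.1 ∧ α (Sn x) = o.2})
      Gd U V c1 c2 Θ cs C B →
    Mix (univ.image e) q η → 0 ≤ q → 0 ≤ η → 0 < lam → lam ≤ 1 →
    h * (q * C + 16 * η * B * J ^ 2) ≤ lam → P'.real {x | (α x, α (Sn x)) ∉ Gd} ≤ β →
    CE P w γ b → CE P' w' y' (2 * b + (3 / 4 - β) * Real.log lam + 1)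

def BudgetStmt : Prop :=
  ∀ κ : ℝ, 0 ≤ κ → ∃ L0 : ℕ, ∀ l, L0 ≤ l → ∀ (M : Type) [MeasurableSpace M] (S : M → M)
    (P : ℕ → Measure M) (φ : M → ℕ → ℝ), Measurable S → (∀ k, IsProbabilityMeasure (P k)) →
    (∀ k < 4 * l + 2 ^ (3 * l), P (k + 1) + (P (k + 1)).map S^[l * 2 ^ k] = (2 : ℝ≥0∞) • P k) →
    (∀ n, Measurable fun x => φ x n) → (∀ x n, 1 ≤ n → 0 ≤ φ x n ∧ φ x n ≤ κ * n) →
    (∀ x s m, 1 ≤ s → 1 ≤ m → φ x (s + m) ≤ φ x s + φ (S^[s] x) m + κ) →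
    ∑ k ∈ Ico (4 * l) (4 * l + 2 ^ (3 * l)),
      (P (k + 1)).real {x | ∃ s m, 1 ≤ s ∧ 1 ≤ m ∧ s + m = l * 2 ^ k + l * 2 ^ k ∧
        (2 : ℝ) ^ (k - l) < φ x s + φ (S^[s] x) m - φ x (s + m)} ≤ 2 ^ (3 * l) / 8

def PhiStmt : Prop :=
  ∀ (d : ℕ) (M : Type) [MeasurableSpace M] (ν : Measure M) (S : M → M) (ch : Ch d M),
    ch.Ok ν S → ∃ κ : ℝ, 1 ≤ κ ∧ (∀ n, Measurable fun x => ch.phi S x n) ∧
      (∀ x n, 1 ≤ n → 0 ≤ ch.phi S x n ∧ ch.phi S x n ≤ κ * n) ∧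
      (∀ x s m, 1 ≤ s → 1 ≤ m →
        ch.phi S x (s + m) ≤ ch.phi S x s + ch.phi S (S^[s] x) m + κ) ∧
      ∀ (x : M) (n : ℕ) (y : ℝ), (∀ s m, 1 ≤ s → 1 ≤ m → s + m = n →
        ch.phi S x s + ch.phi S (S^[s] x) m - ch.phi S x (s + m) ≤ y) →
        Green (ch.AX S (ox S x)) n (n * (κ * Real.exp y))

/-! ## Codes and towers -/

structure MixStmt : Prop where
  mix : ∀ m t N s m' : ℕ, 1 ≤ t → (N + 1) * t ≤ m → 2 * s ≤ N * t → m' + t = 2 * m →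
    ∃ e : Fin (2 ^ m') → Fin (2 ^ m) × Fin (2 ^ m), Function.Injective e ∧
      (∀ y, (univ.filter fun x => (e x).1 = y).card * 2 ^ m = 2 ^ m') ∧
      (∀ y, (univ.filter fun x => (e x).2 = y).card * 2 ^ m = 2 ^ m') ∧
      Mix (univ.image e) (1 / 2 ^ t) (1 / 2 ^ s)
  prod : ∀ m : ℕ, ∃ e : Fin (2 ^ (2 * m)) → Fin (2 ^ m) × Fin (2 ^ m), Function.Injective e ∧
      (∀ y, (univ.filter fun x => (e x).1 = y).card * 2 ^ m = 2 ^ (2 * m)) ∧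
      (∀ y, (univ.filter fun x => (e x).2 = y).card * 2 ^ m = 2 ^ (2 * m))
  fn : ∀ a : ℕ, 1 ≤ a → ∃ s : Fin a → ℕ → Fin a,
      (∀ x y, ((range (a ^ a)).filter fun j => s x j = y).card * a = a ^ a) ∧
      ∀ x y, x ≠ y → ∀ f : Fin a → Fin a → ℕ,
        (∑ j ∈ range (a ^ a), f (s x j) (s y j)) * a ^ 2 = a ^ a * ∑ u, ∑ v, f u v

structure Code where
  m : ℕ → ℕ
  R : ℕ → ℕ
  sub : ∀ n, Fin (2 ^ m (n + 1)) → ℕ → Fin (2 ^ m n)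

def Code.h (c : Code) : ℕ → ℕ
  | 0 => 1
  | n + 1 => c.h n * c.R n

def Code.spell (c : Code) : ∀ n, Fin (2 ^ c.m n) → ℕ → Fin (2 ^ c.m 0)
  | 0, x, _ => x
  | n + 1, x, p => c.spell n (c.sub n x (p / c.h n)) (p % c.h n)

def Code.Dist (c : Code) (n : ℕ) : Prop :=
  ∀ x y : Fin (2 ^ c.m n), x ≠ y →
    c.h n ≤ 2 * ((range (c.h n)).filter fun p => c.spell n x p ≠ c.spell n y p).card

def Code.Phase (c : Code) (n : ℕ) : Prop :=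
  c.Dist n ∧ ∀ k < 4 * c.h n + 2 ^ (3 * c.h n), c.R (n + k) = 2 ∧
    Function.Injective (fun x => (c.sub (n + k) x 0, c.sub (n + k) x 1)) ∧
    (4 * c.h n ≤ k → Mix (univ.image fun x => (c.sub (n + k) x 0, c.sub (n + k) x 1))
      (1 / 2 ^ (c.m n * 2 ^ (k - 3 * c.h n))) (1 / 2 ^ (c.m n * 2 ^ (k - 3))))

structure Code.Ok (c : Code) : Prop where
  two : ∀ n, 2 ≤ c.R n
  le : ∀ n, c.m (n + 1) ≤ c.R n * c.m n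
  reg : ∀ n y, ((univ ×ˢ range (c.R n)).filter fun xj => c.sub n xj.1 xj.2 = y).card * 2 ^ c.m n =
    2 ^ c.m (n + 1) * c.R n
  freq : ∀ n0, ∃ n, n0 ≤ n ∧ ∀ x y,
    ((range (c.R n)).filter fun j => c.sub n x j = y).card * 2 ^ c.m n = c.R n
  phase : ∀ L, ∃ n, L ≤ c.h n ∧ L ≤ c.m n ∧ c.Phase n

def CodeStmt : Prop := ∃ c : Code, c.Ok

structure PreTw (c : Code) {M : Type} [MeasurableSpace M] (ν : Measure M) where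
  w : ∀ n, M → Fin (2 ^ c.m n)
  p : ℕ → M → ℕ
  mw : ∀ n, Measurable (w n)
  mp : ∀ n, Measurable (p n)
  lt : ∀ n x, p n x < c.h n
  law : ∀ n y a, a < c.h n →
    ν {x | w n x = y ∧ p n x = a} = ((2 ^ c.m n * c.h n : ℕ) : ℝ≥0∞)⁻¹
  wsub : ∀ n x, w n x = c.sub n (w (n + 1) x) (p (n + 1) x / c.h n)
  pmod : ∀ n x, p n x = p (n + 1) x % c.h n

structure Tw (c : Code) {M : Type} [MeasurableSpace M] (ν : Measure M) (S : M → M)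
    extends PreTw c ν where
  step : ∀ n, ∀ᵐ x ∂ν, p n x + 1 < c.h n → w n (S x) = w n x ∧ p n (S x) = p n x + 1

def PreTw.Gen {c : Code} {M : Type} [MeasurableSpace M] {ν : Measure M} (t : PreTw c ν) : Prop :=
  ∀ A : Set M, MeasurableSet A → ∀ ε : ℝ, 0 < ε → ∃ n0, ∀ n, n0 ≤ n →
    ∃ B : Set (Fin (2 ^ c.m n) × ℕ),
      ν (symmDiff A {x | (t.w n x, t.p n x) ∈ B}) ≤ ENNReal.ofReal ε

noncomputable def PreTw.P {c : Code} {M : Type} [MeasurableSpace M] {ν : Measure M}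
    (t : PreTw c ν) (n : ℕ) : Measure M :=
  (c.h n : ℝ≥0∞) • ν.restrict {x | t.p n x = 0}

def SysAStmt : Prop :=
  ∀ c : Code, c.Ok → ∃ (X : Type) (_ : MeasurableSpace X) (μ : Measure X),
    IsProbabilityMeasure μ ∧ Nonempty (PreTw c μ)

def SysBStmt : Prop :=
  ∀ c : Code, c.Ok → ∀ (X : Type) [MeasurableSpace X] (μ : Measure X), IsProbabilityMeasure μ →
    PreTw c μ → ∃ (Y : Type) (_ : MeasurableSpace Y) (_ : StandardBorelSpace Y)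
      (μ' : Measure Y) (T : Y ≃ᵐ Y) (t : Tw c μ' T),
      IsProbabilityMeasure μ' ∧ MeasurePreserving T μ' μ' ∧ t.Gen

structure TwFacts {c : Code} {M : Type} [MeasurableSpace M] {ν : Measure M} {S : M → M}
    (t : Tw c ν S) : Prop where
  prob : ∀ n, IsProbabilityMeasure (t.P n)
  dom : ∀ n, t.P n ≤ (c.h n : ℝ≥0∞) • ν
  map : ∀ n a, a < c.h n →
    (ν.restrict {x | t.p n x = 0}).map S^[a] = ν.restrict {x | t.p n x = a}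
  run : ∀ n, ∀ᵐ x ∂ν, t.p n x = 0 → ∀ a < c.h n, t.w n (S^[a] x) = t.w n x ∧ t.p n (S^[a] x) = a
  wrap : ∀ n, ∀ᵐ x ∂ν, t.p n (S x) = (t.p n x + 1) % c.h n
  avg : ∀ n (B : Set M), MeasurableSet B →
    ∑ a ∈ range (c.h n), t.P n (S^[a] ⁻¹' B) = (c.h n : ℝ≥0∞) * ν B
  half : ∀ n, c.R n = 2 → t.P (n + 1) + (t.P (n + 1)).map S^[c.h n] = (2 : ℝ≥0∞) • t.P n
  pair : ∀ n, c.R n = 2 → ∀ᵐ x ∂t.P (n + 1), (t.w n x, t.w n (S^[c.h n] x)) =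
    (c.sub n (t.w (n + 1) x) 0, c.sub n (t.w (n + 1) x) 1)
  unif : ∀ n u, (t.P n).real {x | t.w n x = u} * (2 ^ c.m n : ℕ) ≤ 1
  spell : ∀ n x, t.w 0 x = c.spell n (t.w n x) (t.p n x)

def TowerStmt : Prop :=
  ∀ (c : Code) (M : Type) [MeasurableSpace M] (ν : Measure M) (S : M → M) (t : Tw c ν S),
    c.Ok → IsProbabilityMeasure ν → MeasurePreserving S ν ν → TwFacts t

def ErgStmt : Prop :=
  ∀ (c : Code) (M : Type) [MeasurableSpace M] (ν : Measure M) (S : M → M) (t : Tw c ν S),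
    c.Ok → IsProbabilityMeasure ν → MeasurePreserving S ν ν → TwFacts t → t.Gen →
    Ergodic S ν ∧ NullSingletonClass ν

def EntStmt : Prop :=
  ∀ (c : Code) (M : Type) [MeasurableSpace M] (ν : Measure M) (S : M → M) (t : Tw c ν S),
    c.Ok → IsProbabilityMeasure ν → MeasurePreserving S ν ν → TwFacts t → t.Gen →
    ksEnt ν S < ⊤

def FanoStmt : Prop :=
  ∀ (c : Code) (M : Type) [MeasurableSpace M] (ν : Measure M) (S : M → M) (t : Tw c ν S)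
    (n g : ℕ) (D : M → Fin g) (u : Fin g → Fin (2 ^ c.m 0)), IsProbabilityMeasure ν →
    Measurable S → Measurable D → TwFacts t → c.Dist n →
    ν {x | u (D x) ≠ t.w 0 x} ≤ ENNReal.ofReal (1 / 64) →
    CE (t.P n) (t.w n) (fun x (a : Fin (c.h n)) => D (S^[a] x))
      (Real.log 2 + c.m n * Real.log 2 / 16)

def IsoStmt : Prop :=
  ∀ (X : Type) [MeasurableSpace X] [StandardBorelSpace X] (μ : Measure X)
    [IsProbabilityMeasure μ] [NullSingletonClass μ], IsoUnit μ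

def PullStmt : Prop :=
  ∀ (c : Code) (X M : Type) [MeasurableSpace X] [MeasurableSpace M] (μ : Measure X)
    (ν : Measure M) (T : X → X) (S : M → M) (G : M → X), Tw c μ T → Measurable T →
    MeasurePreserving S ν ν → AEMeasurable G ν → ν.map G = μ → (∀ᵐ y ∂ν, G (S y) = T (G y)) →
    Nonempty (Tw c ν S)

def MainStmt : Prop :=
  ∀ (c : Code) (d : ℕ) (M : Type) [MeasurableSpace M] (ν : Measure M) (S : M → M) (ch : Ch d M),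
    c.Ok → ch.Ok ν S → Tw c ν S → False

end Vale.Agent.P109
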