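import Vale.Agent.P109.Base

open MeasureTheory Finset
open scoped ENNReal

namespace Vale.Agent.P109
namespace Tb
open Bs

variable {d : ℕ} {f : ℕ → E d → E d} {c : ℕ → E d} {A C : ℕ → Op d} {n : ℕ} {K r Γ : ℝ}

theorem der_close (hB : Blk f c A n K r) (hK : 0 ≤ K) {t : ℕ} (ht : t < n) {w : E d}
    (hw : w ∈ Metric.ball (c t) r) : ‖fderiv ℝ (f t) w - A t‖ ≤ K * r := by
  have hr : 0 < r := Metric.pos_of_mem_ball hw
  have h1 := hB.lip t ht w hw (c t) (Metric.mem_ball_self hr)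
  rw [hB.der t ht] at h1
  refine h1.trans (mul_le_mul_of_nonneg_left ?_ hK)
  rw [← dist_eq_norm]; exact (Metric.mem_ball.1 hw).le

theorem mv (hB : Blk f c A n K r) (hK : 0 ≤ K) {t : ℕ} (ht : t < n) {z z' : E d}
    (hz : z ∈ Metric.ball (c t) r) (hz' : z' ∈ Metric.ball (c t) r) :
    ‖f t z - f t z' - A t (z - z')‖ ≤ K * r * ‖z - z'‖ :=
  Convex.norm_image_sub_le_of_norm_fderiv_le' (hB.diff t ht)
    (fun _ hw => der_close hB hK ht hw) (convex_ball _ _) hz' hz

theorem mem_ball_of {W : ℕ → E d} (h : nr n W < r) {t : ℕ} (ht : t < n) :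
    c t + W t ∈ Metric.ball (c t) r := by
  rw [Metric.mem_ball, dist_eq_norm, add_sub_cancel_left]
  exact (norm_le_nr W ht).trans_lt h

theorem orb_mem {v : E d} (hv : v ∈ tube f c n r) {t : ℕ} (ht : t < n) :
    orb f t v ∈ Metric.ball (c t) r := by
  have := mem_ball_of (c := c) (W := fun t => orb f t v - c t) hv ht
  simpa using this

/-- derivative cocycle along the orbit of `v` -/
noncomputable def dA (f : ℕ → E d → E d) (v : E d) : ℕ → Op d :=
  fun t => fderiv ℝ (f t) (orb f t v)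

theorem hasF_orb (hB : Blk f c A n K r) {v : E d} (hv : v ∈ tube f c n r) :
    ∀ t, t ≤ n → HasFDerivAt (orb f t) (coc (dA f v) t) v
  | 0, _ => hasFDerivAt_id v
  | t + 1, ht => by
      have h1 := hasF_orb hB hv t (by omega)
      have h2 := (hB.diff t (by omega) _ (orb_mem hv (by omega : t < n))).hasFDerivAt
      exact h2.comp v h1

theorem opn (hB : Blk f c A n K r) : IsOpen (tube f c n r) := by
  refine isOpen_iff_mem_nhds.2 fun v hv => ?_
  have hc : ContinuousAt (fun v => nr n fun t => orb f t v - c t) v := by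
    unfold nr
    refine ContinuousAt.sqrt (tendsto_finsetSum _ fun t ht => ?_)
    have h1 := (hasF_orb hB hv t (mem_range.1 ht).le).continuousAt
    exact ((h1.sub continuousAt_const).norm).pow 2
  exact hc.eventually_lt continuousAt_const hv

theorem pj_congr {y z : ℕ → E d} (h : ∀ t < n, y t = z t) : pj C n y = pj C n z :=
  sum_congr rfl fun t ht => by rw [h t (mem_range.1 ht)]

theorem pj_add (y z : ℕ → E d) : pj C n (fun t => y t + z t) = pj C n y + pj C n z := by
  simp [pj, sum_add_distrib]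

theorem pj_sub (y z : ℕ → E d) : pj C n (fun t => y t - z t) = pj C n y - pj C n z := by
  simp [pj, sum_sub_distrib]

theorem qf_zero : qf A n 0 = 0 := by simp [qf]

theorem qf_pj_add (hP : Pj A n C) (y : ℕ → E d) :
    nr n y ^ 2 = qf A n (pj C n y) + nr n (fun t => y t - coc A t (pj C n y)) ^ 2 := by
  have := hP y 0
  simp only [map_zero, sub_zero] at this
  rw [nr_sq, nr_sq, this]

theorem qf_pj_le (hP : Pj A n C) (y : ℕ → E d) : qf A n (pj C n y) ≤ nr n y ^ 2 := by
  rw [qf_pj_add hP y]; exact le_add_of_nonneg_right (sq_nonneg _)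

/-- the residual of a solution is controlled by its jumps -/
theorem res_le (hP : Pj A n C) (hG : Green A n Γ) {e y : ℕ → E d} (hy : Sol A n e y) :
    nr n (fun t => y t - coc A t (pj C n y)) ≤ Γ * nr n e := by
  obtain ⟨z, hz, hn⟩ := hG e
  refine le_trans ?_ hn
  have h1 := Sol.eq_coc (Sol.sub hy hz) fun t _ => sub_self _
  have h2 := hP y (y 0 - z 0)
  have h3 : ∑ t ∈ range n, ‖y t - coc A t (y 0 - z 0)‖ ^ 2 = nr n z ^ 2 := by
    rw [nr_sq]
    refine sum_congr rfl fun t ht => ?_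
    have := h1 t (mem_range.1 ht)
    rw [← this, sub_sub_cancel]
  refine abs_le_of_sq_le_sq' ?_ (nr_nonneg _ _) |>.2
  rw [← h3, h2, nr_sq]
  exact le_add_of_nonneg_left (qf_nonneg _ _ _)

theorem key (hP : Pj A n C) (hG : Green A n Γ) {ε : ℝ} (hε : 0 ≤ ε) (hΓ : 0 ≤ Γ)
    (h : ε * Γ ≤ 1 / 2) {e y : ℕ → E d} (hy : Sol A n e y) (he : ∀ t < n, ‖e t‖ ≤ ε * ‖y t‖) :
    nr n y ^ 2 ≤ 2 ^ 2 * qf A n (pj C n y) := by
  have h1 := res_le hP hG hy
  have h2 := nr_le_mul hε he
  have h3 := qf_pj_add hP y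
  have h4 : nr n (fun t => y t - coc A t (pj C n y)) ≤ 1 / 2 * nr n y := by
    refine h1.trans ((mul_le_mul_of_nonneg_left h2 hΓ).trans ?_)
    rw [← mul_assoc, mul_comm Γ ε]
    exact mul_le_mul_of_nonneg_right h (nr_nonneg _ _)
  have h5 := pow_le_pow_left₀ (nr_nonneg _ _) h4 2
  nlinarith [sq_nonneg (nr n y)]

/-- the projected orbit map -/
noncomputable def Hm (f : ℕ → E d → E d) (c : ℕ → E d) (C : ℕ → Op d) (n : ℕ) (v : E d) : E d :=
  pj C n fun t => orb f t v - c t

noncomputable def Bm (f : ℕ → E d → E d) (C : ℕ → Op d) (n : ℕ) (v : E d) : Op d :=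
  ∑ s ∈ range n, (C s).comp (coc (dA f v) s)

theorem Bm_apply (v w : E d) : Bm f C n v w = pj C n fun t => coc (dA f v) t w := by
  simp [Bm, pj]

theorem hasF_H (hB : Blk f c A n K r) {v : E d} (hv : v ∈ tube f c n r) :
    HasFDerivAt (Hm f c C n) (Bm f C n v) v := by
  have : HasFDerivAt (fun v => ∑ s ∈ range n, C s (orb f s v - c s))
      (∑ s ∈ range n, (C s).comp (coc (dA f v) s)) v :=
    HasFDerivAt.fun_sum fun s hs =>
      (C s).hasFDerivAt.comp v ((hasF_orb hB hv s (mem_range.1 hs).le).sub_const (c s))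
  exact this

theorem small {K r Γ : ℝ} (hn : 1 ≤ n) (hΓ : 1 ≤ Γ) (hK : 0 ≤ K) (hr : 0 < r)
    (h : 12 * (d + 1) * n * (K * r) * Γ ≤ 1) : K * r * Γ ≤ 1 / 12 := by
  have h0 : 0 ≤ K * r * Γ := by positivity
  have h1 : (1 : ℝ) ≤ n := by exact_mod_cast hn
  have h2 : (1 : ℝ) ≤ (d + 1) * n := one_le_mul_of_one_le_of_one_le (by simp) h1
  have h3 : 12 * (d + 1) * n * (K * r) * Γ = 12 * (((d + 1) * n) * (K * r * Γ)) := by ring
  nlinarith

theorem det_bounds (hG : GaussStmt d) (hC : LinCStmt d) (hP : Pj A n C) (hn : 1 ≤ n)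
    (hΓ : 1 ≤ Γ) (hK : 0 ≤ K) (hr : 0 < r) (h : 12 * (d + 1) * n * (K * r) * Γ ≤ 1)
    (hB : Blk f c A n K r) (hA : Green A n Γ) {v : E d} (hv : v ∈ tube f c n r) :
    1 ≤ 2 ^ (d + 1) * |(Bm f C n v).det| ∧ |(Bm f C n v).det| ≤ 2 := by
  have hcl : ∀ t < n, ‖dA f v t - A t‖ ≤ K * r := fun t ht => der_close hB hK ht (orb_mem hv ht)
  have hs := small hn hΓ hK hr h
  have lo : ∀ w, qf (dA f v) n w ≤ 2 ^ 2 * qf A n (Bm f C n v w) := fun w => by
    rw [Bm_apply, qf_eq_nr]
    refine key (ε := K * r) (e := fun t => (dA f v t - A t) (coc (dA f v) t w)) hP hA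
      (by positivity) (by linarith) (by linarith) (fun t _ => ?_) fun t ht => ?_
    · simp [coc_succ]
    · exact ((dA f v t - A t).le_opNorm _).trans
        (mul_le_mul_of_nonneg_right (hcl t ht) (norm_nonneg _))
  have up : ∀ w, qf A n (Bm f C n v w) ≤ 1 ^ 2 * qf (dA f v) n w := fun w => by
    rw [Bm_apply, one_pow, one_mul, qf_eq_nr (dA f v)]
    exact qf_pj_le hP _
  have gB : Gauge fun w => qf A n (Bm f C n v w) :=
    ⟨((continuous_qf A n).comp (Bm f C n v).continuous).measurable,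
      fun t w => by simp only [map_smul, qf_smul],
      1 / 4, by norm_num, fun w => by
        have := normsq_le_qf (dA f v) hn w
        have := lo w
        linarith⟩
  have gA := gauge_qf A hn
  have gA' := gauge_qf (dA f v) hn
  have e1 := hG.lin _ (Bm f C n v) gA gB
  have e2 := hG.mono _ _ 2 gB gA' two_pos lo
  have e3 := hG.mono _ _ 1 gA' gB one_pos up
  obtain ⟨e4, e5⟩ := hC.hyb A (dA f v) n Γ (K * r) hn hΓ (by positivity) h hA hcl
  have p1 := hG.pos _ gA
  have p2 := hG.pos _ gB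
  have hd := abs_nonneg (Bm f C n v).det
  rw [one_pow, one_mul] at e3
  constructor
  · refine le_of_mul_le_mul_left ?_ p1
    have h2 : (0 : ℝ) ≤ 2 ^ d := by positivity
    calc gI (qf A n) * 1 = gI (fun w => qf A n (Bm f C n v w)) * |(Bm f C n v).det| := by
          rw [mul_one, e1]
      _ ≤ (2 ^ d * (2 * gI (qf A n))) * |(Bm f C n v).det| :=
          mul_le_mul_of_nonneg_right (e2.trans (mul_le_mul_of_nonneg_left e4 h2)) hd
      _ = _ := by ring
  · refine le_of_mul_le_mul_left ?_ p2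
    rw [e1]; linarith

end Tb
end Vale.Agent.P109
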